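import Vale.Agent.P065.H859.TI

/-!
# P065: greedy labels (helper859), following helper725

Along a chain of windows the label is refined greedily; the resulting classes are exactly optimal,
and the labels have small entropy.
-/

set_option autoImplicit false

namespace Vale.Agent.P065.H859

open Finset Vale.Agent.P065.Ent

/-- every label has a version with values in `Ω` -/
theorem exists_canon {Ω κ : Type*} (Y : Ω → κ) : ∃ Y' : Ω → Ω, Det Y Y' ∧ Det Y' Y := by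
  classical
  rcases isEmpty_or_nonempty Ω with h | h
  · exact ⟨id, fun ω => (h.false ω).elim, fun ω => (h.false ω).elim⟩
  · refine ⟨fun ω => Function.invFun Y (Y ω), ?_, ?_⟩
    · intro ω ω' h'
      show Function.invFun Y (Y ω) = Function.invFun Y (Y ω')
      rw [h']
    · intro ω ω' h'
      have h1 : Y (Function.invFun Y (Y ω)) = Y ω := Function.invFun_eq ⟨ω, rfl⟩
      have h2 : Y (Function.invFun Y (Y ω')) = Y ω' := Function.invFun_eq ⟨ω', rfl⟩
      rw [← h1, ← h2]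
      exact congrArg Y h'

/-- the functional of the greedy choice -/
noncomputable def Phi {p w : ℕ} (U : UFlags p w) {ι : Type*} (Wn : Fin p × Fin w → ι) (γ δ : ℝ)
    (L L' : Fin p × Fin w → Fin p × Fin w) : ℝ :=
  U.Ls (fun ω => (Wn ω, L' ω)) + γ * Hc U.μ L' (fun ω => (Wn ω, L ω)) +
    δ * Hc U.μ L' (fun ω => (ω.1, L ω))

theorem greedy_step {p w : ℕ} (U : UFlags p w) {ι : Type*} (Wn : Fin p × Fin w → ι) (γ δ : ℝ)
    (L : Fin p × Fin w → Fin p × Fin w) :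
    ∃ L' : Fin p × Fin w → Fin p × Fin w, Det L' L ∧
      Det (fun ω => (Wn ω, L ω, U.ln ω)) L' ∧
      ∀ L'' : Fin p × Fin w → Fin p × Fin w, Det L'' L →
        Det (fun ω => (Wn ω, L ω, U.ln ω)) L'' → Phi U Wn γ δ L L' ≤ Phi U Wn γ δ L L'' := by
  classical
  set s : Finset (Fin p × Fin w → Fin p × Fin w) :=
    {L' | Det L' L ∧ Det (fun ω => (Wn ω, L ω, U.ln ω)) L'} with hs
  have hne : s.Nonempty := by
    refine ⟨L, ?_⟩
    rw [hs, mem_filter]
    refine ⟨mem_univ _, Det.refl L, ?_⟩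
    intro ω ω' h
    exact (Prod.mk.inj (Prod.mk.inj h).2).1
  obtain ⟨L', h1, h2⟩ := exists_min_image s (Phi U Wn γ δ L) hne
  have h3 := (mem_filter.1 h1).2
  exact ⟨L', h3.1, h3.2, fun L'' g1 g2 => h2 L'' (mem_filter.2 ⟨mem_univ _, g1, g2⟩)⟩

/-- the averaged optimality of the classes of `(Wn, L)` -/
def Opt {p w : ℕ} (U : UFlags p w) {ι ζ : Type*} (Wn : Fin p × Fin w → ι) (γ δ : ℝ)
    (L : Fin p × Fin w → ζ) : Prop :=
  ∀ {κ : Type} (g : Fin p × Fin w → κ), Det (fun ω => (Wn ω, L ω, U.ln ω)) g →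
    U.Ls (fun ω => (Wn ω, L ω)) ≤ U.Ls (fun ω => ((Wn ω, L ω), g ω)) +
      γ * Hc U.μ g (fun ω => (Wn ω, L ω)) + δ * Hc U.μ g (fun ω => (ω.1, L ω))

theorem chain_aux {Ω : Type*} [Fintype Ω] {μ : Ω → ℝ} {α β γ κ ν : Type*} {L : Ω → α} {L' : Ω → β}
    {L'' : Ω → γ} {g : Ω → κ} (h1 : Det L' L) (c1 : Det (fun ω => (L' ω, g ω)) L'')
    (c3 : Det L'' L') (c4 : Det L'' g) (V : Ω → ν) :
    Hc μ L'' (fun ω => (V ω, L ω)) =
      Hc μ L' (fun ω => (V ω, L ω)) + Hc μ g (fun ω => (V ω, L' ω)) := by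
  have e1 : Hc μ L'' (fun ω => (V ω, L ω)) =
      Hc μ (fun ω => (g ω, L' ω)) (fun ω => (V ω, L ω)) :=
    Hc_congr (c4.pair c3) ((((det_snd _ _).pair (det_fst _ _))).trans c1) (Det.refl _)
      (Det.refl _)
  rw [e1, Hc_pair]
  congr 1
  refine Hc_congr (Det.refl _) (Det.refl _) ?_ ?_
  · exact ((det_snd _ _).trans (det_fst V L)).pair (det_fst _ _)
  · exact (det_snd _ _).pair ((det_fst _ _).pair ((det_snd V L').trans h1))

theorem opt_of_min {p w : ℕ} (U : UFlags p w) {ι : Type*} {Wn : Fin p × Fin w → ι} {γ δ : ℝ}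
    {L L' : Fin p × Fin w → Fin p × Fin w} (h1 : Det L' L)
    (h2 : Det (fun ω => (Wn ω, L ω, U.ln ω)) L')
    (h3 : ∀ L'' : Fin p × Fin w → Fin p × Fin w, Det L'' L →
        Det (fun ω => (Wn ω, L ω, U.ln ω)) L'' → Phi U Wn γ δ L L' ≤ Phi U Wn γ δ L L'') :
    Opt U Wn γ δ L' := by
  intro κ g hg
  obtain ⟨L'', c1, c2⟩ := exists_canon (fun ω => (L' ω, g ω))
  have c3 : Det L'' L' := c2.trans (det_fst _ _)
  have c4 : Det L'' g := c2.trans (det_snd _ _)
  have hT := h3 L'' (c3.trans h1) (by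
    refine Det.trans ?_ c1
    refine h2.pair ?_
    refine Det.trans ?_ hg
    intro ω ω' h
    have e := h2 ω ω' h
    have e1 := Prod.mk.inj h
    have e2 := Prod.mk.inj e1.2
    exact Prod.ext e1.1 (Prod.ext e e2.2))
  unfold Phi at hT
  have k1 : U.Ls (fun ω => (Wn ω, L'' ω)) = U.Ls (fun ω => ((Wn ω, L' ω), g ω)) := by
    apply U.Ls_congr
    · exact ((det_fst _ _).pair ((det_snd _ _).trans c3)).pair ((det_snd _ _).trans c4)
    · exact ((det_fst _ _).trans (det_fst _ _)).pair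
        ((((det_fst _ _).trans (det_snd Wn L')).pair (det_snd _ _)).trans c1)
  rw [k1, chain_aux h1 c1 c3 c4 Wn, chain_aux h1 c1 c3 c4 Prod.fst] at hT
  linarith

/-- the same, class by class -/
theorem Opt.cls {p w : ℕ} {U : UFlags p w} {ι ζ : Type*} {Wn : Fin p × Fin w → ι} {γ δ : ℝ}
    {L : Fin p × Fin w → ζ} (hX : Det (Prod.fst : Fin p × Fin w → Fin p) Wn)
    (h : Opt U Wn γ δ L) (ω₀ : Fin p × Fin w) (κ : Type) (g : Fin p × Fin w → κ)
    (hg : ∀ ω ω', Wn ω = Wn ω₀ → L ω = L ω₀ → Wn ω' = Wn ω₀ → L ω' = L ω₀ →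
      U.ln ω = U.ln ω' → g ω = g ω') :
    Real.log (U.sz (fun ω => (Wn ω, L ω)) ω₀) ≤
      Ex (cnd U.μ (fun ω => (Wn ω, L ω)) (Wn ω₀, L ω₀))
        (fun ω => Real.log (U.sz (fun ω => ((Wn ω, L ω), g ω)) ω)) +
      γ * H (cnd U.μ (fun ω => (Wn ω, L ω)) (Wn ω₀, L ω₀)) g +
      δ * Hc (cnd U.μ (fun ω => (Wn ω, L ω)) (Wn ω₀, L ω₀)) g Prod.fst := by
  classical
  set Y : Fin p × Fin w → ι × ζ := fun ω => (Wn ω, L ω) with hY
  set y := Y ω₀ with hy
  have hμ0 : 0 < U.μ ω₀ := by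
    rw [U.unif]
    have h1 := U.pos
    have h2 : (0 : ℝ) < p := by exact_mod_cast h1.1
    have h3 : (0 : ℝ) < w := by exact_mod_cast h1.2
    positivity
  have hPy : 0 < Pr U.μ Y y := Pr_pos U.prob Y hμ0
  have hPy' : Pr U.μ Y y ≠ 0 := hPy.ne'
  have hprob := cnd_isProb U.prob hPy
  let g' : Fin p × Fin w → Option κ := fun ω => if Y ω = y then some (g ω) else none
  have hg'1 : ∀ ω, Y ω = y → g' ω = some (g ω) := fun ω h => if_pos h
  have hg'2 : ∀ ω, Y ω ≠ y → g' ω = none := fun ω h => if_neg h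
  have hdet : Det (fun ω => (Wn ω, L ω, U.ln ω)) g' := by
    intro ω ω' e
    have e1 := Prod.mk.inj e
    have e2 := Prod.mk.inj e1.2
    have eY : Y ω = Y ω' := Prod.ext e1.1 e2.1
    by_cases hω : Y ω = y
    · have hω' : Y ω' = y := eY ▸ hω
      rw [hg'1 _ hω, hg'1 _ hω']
      have f1 := Prod.mk.inj hω
      have f2 := Prod.mk.inj hω'
      rw [hg ω ω' f1.1 f1.2 f2.1 f2.2 e2.2]
    · have hω' : Y ω' ≠ y := fun h => hω (eY ▸ h)
      rw [hg'2 _ hω, hg'2 _ hω']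
  have hopt := h g' hdet
  -- the sizes
  have s1 : ∀ ω, Y ω ≠ y → U.sz (fun ω => (Y ω, g' ω)) ω = U.sz Y ω := by
    intro ω hω
    unfold Flags.sz
    congr 2
    ext e
    rw [U.mem_cls, U.mem_cls]
    constructor
    · rintro ⟨ω', e1, e2⟩
      exact ⟨ω', (Prod.mk.inj e1).1, e2⟩
    · rintro ⟨ω', e1, e2⟩
      refine ⟨ω', ?_, e2⟩
      show (Y ω', g' ω') = (Y ω, g' ω)
      rw [hg'2 ω hω, hg'2 ω' (by rw [e1]; exact hω), e1]
  have s2 : ∀ ω, Y ω = y → U.sz (fun ω => (Y ω, g' ω)) ω = U.sz (fun ω => (Y ω, g ω)) ω := by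
    intro ω hω
    unfold Flags.sz
    congr 2
    ext e
    rw [U.mem_cls, U.mem_cls]
    constructor
    · rintro ⟨ω', e1, e2⟩
      have e3 := Prod.mk.inj e1
      refine ⟨ω', ?_, e2⟩
      have hω' : Y ω' = y := e3.1.trans hω
      have e4 : g' ω' = g' ω := e3.2
      rw [hg'1 ω hω, hg'1 ω' hω'] at e4
      show (Y ω', g ω') = (Y ω, g ω)
      rw [e3.1, Option.some.inj e4]
    · rintro ⟨ω', e1, e2⟩
      have e3 := Prod.mk.inj e1
      refine ⟨ω', ?_, e2⟩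
      have hω' : Y ω' = y := e3.1.trans hω
      show (Y ω', g' ω') = (Y ω, g' ω)
      rw [hg'1 ω hω, hg'1 ω' hω', e3.1, e3.2]
  have s3 : U.Ls (fun ω => (Y ω, g' ω)) - U.Ls Y = Pr U.μ Y y *
      (Ex (cnd U.μ Y y) (fun ω => Real.log (U.sz (fun ω => (Y ω, g ω)) ω)) -
        Real.log (U.sz Y ω₀)) := by
    have e1 : Ex (cnd U.μ Y y) (fun ω => Real.log (U.sz (fun ω => (Y ω, g ω)) ω)) -
        Real.log (U.sz Y ω₀) = ∑ ω, cnd U.μ Y y ω *
          (Real.log (U.sz (fun ω => (Y ω, g ω)) ω) - Real.log (U.sz Y ω)) := by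
      have e2 : Real.log (U.sz Y ω₀) = ∑ ω, cnd U.μ Y y ω * Real.log (U.sz Y ω) := by
        have e3 : ∀ ω, cnd U.μ Y y ω * Real.log (U.sz Y ω) =
            cnd U.μ Y y ω * Real.log (U.sz Y ω₀) := by
          intro ω
          rcases (hprob.nonneg ω).eq_or_lt with h0 | h0
          · rw [← h0, zero_mul, zero_mul]
          · have : Y ω = y := cnd_pos h0
            unfold Flags.sz
            rw [this]
        rw [sum_congr rfl fun ω _ => e3 ω, ← sum_mul, hprob.sum, one_mul]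
      rw [e2]
      unfold Ex
      rw [← sum_sub_distrib]
      exact sum_congr rfl fun ω _ => by ring
    rw [e1, sum_cnd U.μ Y y _ hPy']
    unfold Flags.Ls Ex
    rw [← sum_sub_distrib]
    refine sum_congr rfl fun ω _ => ?_
    beta_reduce
    by_cases hω : Y ω = y
    · rw [if_pos hω, s2 ω hω]
      ring
    · rw [if_neg hω, s1 ω hω]
      ring
  -- the entropies
  have hsome : ∀ {α : Type _} (V : Fin p × Fin w → α),
      Hc (cnd U.μ Y y) g' V = Hc (cnd U.μ Y y) g V := by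
    intro α V
    rw [Hc_eq_sum hprob, Hc_eq_sum hprob]
    refine sum_congr rfl fun ω _ => ?_
    rcases (hprob.nonneg ω).eq_or_lt with h0 | h0
    · rw [← h0, zero_mul, zero_mul]
    · have hω : Y ω = y := cnd_pos h0
      congr 4
      unfold Pr
      refine sum_congr rfl fun ω' _ => ?_
      beta_reduce
      by_cases hω' : Y ω' = y
      · rw [hg'1 ω hω, hg'1 ω' hω']
        by_cases hgg : (g ω', V ω') = (g ω, V ω)
        · have := Prod.mk.inj hgg
          rw [if_pos hgg, if_pos (by rw [this.1, this.2])]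
        · rw [if_neg hgg, if_neg (by
            intro hh
            apply hgg
            have := Prod.mk.inj hh
            exact Prod.ext (Option.some.inj this.1) this.2)]
      · have h0' : cnd U.μ Y y ω' = 0 := by
          unfold cnd
          rw [if_neg hω']
        rw [h0']
        simp
  have hzero : ∀ y' ≠ y, ∀ {α : Type _} (V : Fin p × Fin w → α), 0 < Pr U.μ Y y' →
      Hc (cnd U.μ Y y') g' V = 0 := by
    intro y' hy' α V hpos
    have hpr := cnd_isProb U.prob hpos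
    have h1 : Hc (cnd U.μ Y y') g' V = Hc (cnd U.μ Y y') (fun _ => (none : Option κ)) V := by
      rw [Hc_eq_sum hpr, Hc_eq_sum hpr]
      refine sum_congr rfl fun ω _ => ?_
      rcases (hpr.nonneg ω).eq_or_lt with h0 | h0
      · rw [← h0, zero_mul, zero_mul]
      · have hω : Y ω = y' := cnd_pos h0
        congr 4
        unfold Pr
        refine sum_congr rfl fun ω' _ => ?_
        beta_reduce
        by_cases hω' : Y ω' = y'
        · rw [hg'2 ω (by rw [hω]; exact hy'), hg'2 ω' (by rw [hω']; exact hy')]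
        · have h0' : cnd U.μ Y y' ω' = 0 := by
            unfold cnd
            rw [if_neg hω']
          rw [h0']
          simp
    rw [h1]
    exact Hc_eq_zero (det_const V _)
  have t1 : Hc U.μ g' Y = Pr U.μ Y y * H (cnd U.μ Y y) g := by
    have hc := Hc_fiber' U.prob g' (fun _ => ()) Y
    have hc' : Hc U.μ g' (fun ω => ((), Y ω)) = Hc U.μ g' Y :=
      Hc_congr (Det.refl _) (Det.refl _) (det_snd _ _) ((det_const _ _).pair (Det.refl _))
    rw [← hc', hc, sum_eq_single y]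
    · rw [hsome, Hc_const hprob]
    · intro y' _ hne
      rcases (Pr_nonneg U.prob Y y').eq_or_lt with h0 | h0
      · rw [← h0, zero_mul]
      · rw [hzero y' hne _ h0, mul_zero]
    · intro hh
      exact absurd (mem_image_of_mem Y (mem_univ ω₀)) hh
  have t2 : Hc U.μ g' (fun ω => (ω.1, L ω)) =
      Pr U.μ Y y * Hc (cnd U.μ Y y) g Prod.fst := by
    have hc := Hc_fiber' U.prob g' (Prod.fst : Fin p × Fin w → Fin p) Y
    have hc' : Hc U.μ g' (fun ω => (ω.1, Y ω)) = Hc U.μ g' (fun ω => (ω.1, L ω)) := by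
      refine Hc_congr (Det.refl _) (Det.refl _) ?_ ?_
      · exact (det_fst Prod.fst Y).pair ((det_snd Prod.fst Y).trans (det_snd Wn L))
      · exact (det_fst Prod.fst L).pair (((det_fst Prod.fst L).trans hX).pair
          (det_snd Prod.fst L))
    rw [← hc', hc, sum_eq_single y]
    · rw [hsome]
    · intro y' _ hne
      rcases (Pr_nonneg U.prob Y y').eq_or_lt with h0 | h0
      · rw [← h0, zero_mul]
      · rw [hzero y' hne _ h0, mul_zero]
    · intro hh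
      exact absurd (mem_image_of_mem Y (mem_univ ω₀)) hh
  rw [t1, t2] at hopt
  have hfin : Pr U.μ Y y * Real.log (U.sz Y ω₀) ≤ Pr U.μ Y y *
      (Ex (cnd U.μ Y y) (fun ω => Real.log (U.sz (fun ω => (Y ω, g ω)) ω)) +
        γ * H (cnd U.μ Y y) g + δ * Hc (cnd U.μ Y y) g Prod.fst) := by
    have : U.Ls Y ≤ U.Ls (fun ω => (Y ω, g' ω)) + γ * (Pr U.μ Y y * H (cnd U.μ Y y) g) +
      δ * (Pr U.μ Y y * Hc (cnd U.μ Y y) g Prod.fst) := hopt
    nlinarith [s3]
  exact le_of_mul_le_mul_left hfin hPy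

/-- **greedy labels** -/
theorem greedy (hb : 1 < beta) {β' θ : ℝ} (hβ : beta < β') : ∃ C : ℝ, 0 ≤ C ∧
    ∀ {p w : ℕ} (U : UFlags p w) {ι : Type*} (W : ℕ → Fin p × Fin w → ι)
      (J : ℕ → ι → Set ℝ), (∀ s i, (J s i).OrdConnected) →
      (∀ s i j, i ≠ j → Disjoint (J s i) (J s j)) → (∀ s ω, U.tm ω ∈ J s (W s ω)) →
      (∀ s, Det (W (s + 1)) (W s)) →
      (∀ s, Det (Prod.fst : Fin p × Fin w → Fin p) (W s)) →
      ∃ Λ : ℕ → Fin p × Fin w → Fin p × Fin w, (∀ ω ω', Λ 0 ω = Λ 0 ω') ∧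
        (∀ s, Det (Λ (s + 1)) (Λ s)) ∧
        (∀ s, Det (fun ω => (W (s + 1) ω, Λ s ω, U.ln ω)) (Λ (s + 1))) ∧
        (∀ s, Opt U (W (s + 1)) (beta⁻¹ + θ) (1 - beta⁻¹) (Λ (s + 1))) ∧
        ∀ T : ℕ, β' * θ * ∑ s ∈ range T, Hc U.μ (Λ (s + 1)) (fun ω => (W (s + 1) ω, Λ s ω)) ≤
          H U.μ (W 0) + β' * (U.Ls (W 0) - Real.log w) - Real.log p + C * (T + 1) := by
  obtain ⟨C, hC, hT⟩ := TI hβ
  refine ⟨C, hC, ?_⟩
  intro p w U ι W J hJ hd htm hW hX
  obtain ⟨hp, hw⟩ := U.pos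
  have hβ0 : 0 < beta := by linarith
  set γ := beta⁻¹ + θ with hγ
  set δ := 1 - beta⁻¹ with hδ
  choose nx n1 n2 n3 using fun (s : ℕ) (L : Fin p × Fin w → Fin p × Fin w) =>
    greedy_step U (W (s + 1)) γ δ L
  let Λ : ℕ → Fin p × Fin w → Fin p × Fin w := fun s =>
    Nat.rec (fun _ => (⟨0, hp⟩, ⟨0, hw⟩)) (fun s L => nx s L) s
  have hΛ : ∀ s, Λ (s + 1) = nx s (Λ s) := fun s => rfl
  have g0 : ∀ ω ω', Λ 0 ω = Λ 0 ω' := fun _ _ => rfl
  have g1 : ∀ s, Det (Λ (s + 1)) (Λ s) := fun s => by rw [hΛ]; exact n1 s _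
  have g2 : ∀ s, Det (fun ω => (W (s + 1) ω, Λ s ω, U.ln ω)) (Λ (s + 1)) := fun s => by
    rw [hΛ]; exact n2 s _
  have g3 : ∀ s, ∀ L'' : Fin p × Fin w → Fin p × Fin w, Det L'' (Λ s) →
        Det (fun ω => (W (s + 1) ω, Λ s ω, U.ln ω)) L'' →
        Phi U (W (s + 1)) γ δ (Λ s) (Λ (s + 1)) ≤ Phi U (W (s + 1)) γ δ (Λ s) L'' := fun s => by
    rw [hΛ]; exact n3 s _
  refine ⟨Λ, g0, g1, g2, fun s => opt_of_min U (g1 s) (g2 s) (g3 s), ?_⟩
  intro T
  set Hs : ℕ → ℝ := fun s => Hc U.μ (Λ (s + 1)) (fun ω => (W (s + 1) ω, Λ s ω)) with hHs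
  set hs : ℕ → ℝ := fun s => Hc U.μ (Λ (s + 1)) (fun ω => (ω.1, Λ s ω)) with hhs
  have htriv : ∀ s, U.Ls (fun ω => (W (s + 1) ω, Λ (s + 1) ω)) ≤
      U.Ls (fun ω => (W (s + 1) ω, Λ s ω)) - (γ * Hs s + δ * hs s) + 0 := by
    intro s
    have h1 := g3 s (Λ s) (Det.refl _) (by
      intro ω ω' h
      exact (Prod.mk.inj (Prod.mk.inj h).2).1)
    unfold Phi at h1
    have h2 : Hc U.μ (Λ s) (fun ω => (W (s + 1) ω, Λ s ω)) = 0 := Hc_eq_zero (det_snd _ _)
    have h3 : Hc U.μ (Λ s) (fun ω => (ω.1, Λ s ω)) = 0 := Hc_eq_zero (det_snd _ _)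
    rw [h2, h3] at h1
    simp only [hHs, hhs]
    linarith
  have h1 := hT U T W Λ J hJ hd htm hW g1 (hX T) (fun s => Hs s - (γ * Hs s + δ * hs s))
    (fun s => γ * Hs s + δ * hs s) (fun _ => 0) (fun s _ => htriv s)
    (fun s _ => by simp only [hHs]; linarith)
  -- `H (Λ T | X) = ∑ hs`
  have h2 : ∀ T, Hc U.μ (Λ T) (Prod.fst : Fin p × Fin w → Fin p) = ∑ s ∈ range T, hs s := by
    intro T
    induction T with
    | zero =>
      rw [sum_range_zero]
      exact Hc_eq_zero fun ω ω' _ => g0 ω ω'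
    | succ T ih =>
      rw [sum_range_succ, ← ih]
      have e1 : Hc U.μ (Λ (T + 1)) (Prod.fst : Fin p × Fin w → Fin p) =
          Hc U.μ (fun ω => (Λ (T + 1) ω, Λ T ω)) (Prod.fst : Fin p × Fin w → Fin p) :=
        Hc_congr ((Det.refl _).pair (g1 T)) (det_fst _ _) (Det.refl _) (Det.refl _)
      rw [e1, Hc_pair]
      congr 1
      exact Hc_congr (Det.refl _) (Det.refl _) (det_swap _ _) (det_swap _ _)
  have h3 : ∀ s, hs s ≤ Hs s := by
    intro s
    simp only [hHs, hhs]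
    refine Hc_anti U.prob _ ?_
    exact ((det_fst Prod.fst (Λ s)).trans (hX (s + 1))).pair (det_snd Prod.fst (Λ s))
  have h4 : H U.μ (fun ω => (W 0 ω, Λ 0 ω)) = H U.μ (W 0) :=
    H_congr (det_fst _ _) ((Det.refl _).pair fun ω ω' _ => g0 ω ω')
  have h5 : U.Ls (fun ω => (W 0 ω, Λ 0 ω)) = U.Ls (W 0) :=
    U.Ls_congr (det_fst _ _) ((Det.refl _).pair fun ω ω' _ => g0 ω ω')
  rw [h4, h5, h2] at h1
  simp only [sum_const_zero, mul_zero, add_zero] at h1
  have h6 : ∑ s ∈ range T, (Hs s - (γ * Hs s + δ * hs s)) =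
      ∑ s ∈ range T, Hs s - ∑ s ∈ range T, (γ * Hs s + δ * hs s) := sum_sub_distrib ..
  have h7 : ∑ s ∈ range T, (γ * Hs s + δ * hs s) =
      γ * ∑ s ∈ range T, Hs s + δ * ∑ s ∈ range T, hs s := by
    rw [sum_add_distrib, mul_sum, mul_sum]
  rw [h6, h7] at h1
  have h8 : ∑ s ∈ range T, hs s ≤ ∑ s ∈ range T, Hs s := sum_le_sum fun s _ => h3 s
  set A := ∑ s ∈ range T, Hs s with hA
  set D := ∑ s ∈ range T, hs s with hD
  have h9 : β' * θ * A ≤ β' * (γ * A + δ * D) - A - (β' - 1) * D := by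
    have e1 : β' * (γ * A + δ * D) - A - (β' - 1) * D - β' * θ * A =
        (β' * beta⁻¹ - 1) * (A - D) := by
      rw [hγ, hδ]
      ring
    have e2 : 0 ≤ β' * beta⁻¹ - 1 := by
      have : 1 ≤ β' * beta⁻¹ := by
        rw [← div_eq_mul_inv, one_le_div hβ0]
        exact hβ.le
      linarith
    have e3 := mul_nonneg e2 (sub_nonneg.2 h8)
    linarith
  linarith

end Vale.Agent.P065.H859
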