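import Vale.Agent.P065.H268.TimeGeo
import Vale.Agent.P065.H725.Fine

/-!
# P065: one typical window in normalised coordinates (helper859)

`Loc` collects everything which the selection (`H859/SelMain`) and the content lemma
(`H725/Fine`) give for one window of `g` levels; the rest of the proof shows that it does not
exist for suitable constants.
-/

set_option autoImplicit false

namespace Vale.Agent.P065.H859

open Finset Vale.Agent.P065.UB Vale.Agent.P065.UB.RankAux Vale.Agent.P065.Ent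
  Vale.Agent.P065.H987 Vale.Agent.P065.H725

/-- **the data of one window**.
`ν` is a law on a finite set of flags (not conditioned on `Z`), `ln` the line, `P` the centres
`P.x` of the bottom pieces and the pieces `P.W j` of `n` blocks (`P.W n` = the bottom piece),
`(lo, hi)` the time interval of the bottom piece, `lam` the label. -/
structure Loc (B₀ : ℕ) (c₁ c₂ ρ γ ε₂ ε₃ b A : ℝ) (K₁ n g : ℕ) where
  Ω : Type
  [fin : Fintype Ω]
  ν : Ω → ℝ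
  prob : IsProb ν
  pos : ∀ ω, 0 < ν ω
  ln : Ω → Pt
  /-- different lines have different slopes -/
  xinj : ∀ ω ω', (ln ω).1 = (ln ω').1 → ln ω = ln ω'
  P : H268.Pcs Ω
  lo : Ω → ℝ
  hi : Ω → ℝ
  x_eq : ∀ ω, P.x ω = (lo ω + hi ω) / 2
  lo_lt : ∀ ω, lo ω < hi ω
  lo_nonneg : ∀ ω, 0 ≤ lo ω
  hi_le : ∀ ω, hi ω ≤ 1
  lo_congr : ∀ ω ω', P.W n ω = P.W n ω' → lo ω = lo ω'
  hi_congr : ∀ ω ω', P.W n ω = P.W n ω' → hi ω = hi ω'
  disj : ∀ ω ω', P.W n ω < P.W n ω' → hi ω < lo ω'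
  top : ∀ ω ω', P.W 0 ω = P.W 0 ω'
  bot : ∀ j, n ≤ j → ∀ ω, P.W j ω = P.W n ω
  child : ∀ j ω, ∃ S : Finset ℕ, #S ≤ B₀ ^ (2 * K₁) ∧
    ∀ ω', P.W j ω' = P.W j ω → P.W (j + 1) ω' ∈ S
  n_pos : 1 ≤ n
  K_le : K₁ * n ≤ g
  g_lt : g < K₁ * (n + 1)
  /-- the label -/
  Lab : Type
  lam : Ω → Lab
  hlam : Hc ν lam (P.W n) ≤ ε₃ * g
  /-- the typical flags -/
  Z : Ω → Prop
  Z_congr : ∀ ω ω', P.W n ω = P.W n ω' → ln ω = ln ω' → Z ω → Z ω'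
  hZ : c₁ / 4 ≤ PE ν Z
  /-- the surprise of the bottom piece along the line -/
  sur : ∀ ω, Z ω → c₂ * g ≤ -Real.log (Pr ν (fun ω => (P.W n ω, ln ω)) (P.W n ω, ln ω) /
    Pr ν ln (ln ω))
  /-- along the line, most blocks are split -/
  bad : ∀ ω, Z ω → ∃ S : Finset ℕ, (#S : ℝ) ≤ ε₂ * n ∧ ∀ j < n, j ∉ S →
    Pr ν (fun ω => (P.W (j + 1) ω, ln ω)) (P.W (j + 1) ω, ln ω) ≤
      ρ * Pr ν (fun ω => (P.W j ω, ln ω)) (P.W j ω, ln ω)
  /-- the rich classes -/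
  rich : Ω → Prop
  rich_congr : ∀ ω ω', P.W n ω = P.W n ω' → lam ω = lam ω' → rich ω → rich ω'
  hrich : PE ν (fun ω => ¬ rich ω) ≤ b
  /-- the content lemma for the rich classes: `S` is any set of lines, `Gd` any set of lines,
  `xr r` (`r < m`) are reference times and `τ` a unit such that the intervals `|x - xr r| ≤ τ`
  cover the interval of the bottom piece -/
  content : ∀ ω₀, rich ω₀ → ∀ S : Pt → Prop,
    0 < ms (cnd ν (fun ω => (P.W n ω, lam ω)) (P.W n ω₀, lam ω₀)) (fun ω => S (ln ω)) →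
    ∀ (m : ℕ) (τ : ℝ), 0 < τ → ∀ xr : Fin m → ℝ,
    (∀ x, lo ω₀ ≤ x → x ≤ hi ω₀ → ∃ r, |xr r - x| ≤ τ) →
    ∀ (θs : ℝ) (θh : Fin m → ℝ) (k₀ k₁ : ℤ),
    (∀ ω ω', (P.W n ω, lam ω) = (P.W n ω₀, lam ω₀) → (P.W n ω', lam ω') = (P.W n ω₀, lam ω₀) →
      |(ln ω').1 - (ln ω).1| ≤ 2 ^ (-k₀) / 3) →
    (∀ ω ω', (P.W n ω, lam ω) = (P.W n ω₀, lam ω₀) → (P.W n ω', lam ω') = (P.W n ω₀, lam ω₀) →
      (ln ω').1 ≠ (ln ω).1 → (2 : ℝ) ^ (-k₁) / 6 < |(ln ω').1 - (ln ω).1|) →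
    ∀ Gd : Pt → Prop,
    0 < ms (cE (cnd ν (fun ω => (P.W n ω, lam ω)) (P.W n ω₀, lam ω₀)) (fun ω => S (ln ω)))
      (fun ω => Gd (ln ω)) →
    ∀ η : ℝ, 0 < η → η ≤ 1 / 2 →
    16 * Real.log (1 / η) ≤
      A * ms (cnd ν (fun ω => (P.W n ω, lam ω)) (P.W n ω₀, lam ω₀)) (fun ω => S (ln ω)) * η →
    (1 - γ) * Real.log (1 / η) ≤ 2 * Real.log (1 /
        ms (cnd ν (fun ω => (P.W n ω, lam ω)) (P.W n ω₀, lam ω₀)) (fun ω => S (ln ω))) +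
      Real.log m + 15 +
      4 * (Real.log (1 / ms (cE (cnd ν (fun ω => (P.W n ω, lam ω)) (P.W n ω₀, lam ω₀))
          (fun ω => S (ln ω))) (fun ω => Gd (ln ω))) +
        (∑ r : Fin m, contentG (sq4 θs (θh r) k₀ (xr r) τ)
          (fun _ k _ v c => |v.1 - c.1| ≤ 2 ^ (-k) / 12)
          (cE (cnd ν (fun ω => (P.W n ω, lam ω)) (P.W n ω₀, lam ω₀))
          (fun ω => S (ln ω))) ln Gd (Finset.Icc k₀ k₁) η) /
        ms (cE (cnd ν (fun ω => (P.W n ω, lam ω)) (P.W n ω₀, lam ω₀))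
          (fun ω => S (ln ω))) (fun ω => Gd (ln ω)))
  /-- the general content lemma: arbitrary nested cells, arbitrary reflexive relation `near` -/
  contG : ∀ ω₀, rich ω₀ → ∀ S : Pt → Prop,
    0 < ms (cnd ν (fun ω => (P.W n ω, lam ω)) (P.W n ω₀, lam ω₀)) (fun ω => S (ln ω)) →
    ∀ (α κ : Type) [Fintype α] [Nonempty α] (cel : α → ℤ → Pt → κ)
      (near : α → ℤ → κ → Pt → Pt → Prop), (∀ a k z v, near a k z v v) → ∀ I : Finset ℤ,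
    (∀ a, ∀ k ∈ I, ∀ k' ∈ I, k ≤ k' → ∀ u v, cel a k' u = cel a k' v → cel a k u = cel a k v) →
    ∀ Gd : Pt → Prop,
    0 < ms (cE (cnd ν (fun ω => (P.W n ω, lam ω)) (P.W n ω₀, lam ω₀)) (fun ω => S (ln ω)))
      (fun ω => Gd (ln ω)) →
    (∀ ω ω', (P.W n ω, lam ω) = (P.W n ω₀, lam ω₀) → (P.W n ω', lam ω') = (P.W n ω₀, lam ω₀) →
      S (ln ω) → S (ln ω') → Gd (ln ω) → Gd (ln ω') → (ln ω').1 ≠ (ln ω).1 →
      Cr (lo ω₀) (hi ω₀) (ln ω') (ln ω) → ∃ a, ∃ k ∈ I, cel a k (ln ω') = cel a k (ln ω) ∧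
        ∀ c, ¬ (near a k (cel a k (ln ω)) (ln ω) c ∧ near a k (cel a k (ln ω)) (ln ω') c)) →
    ∀ η : ℝ, 0 < η → η ≤ 1 / 2 →
    16 * Real.log (1 / η) ≤
      A * ms (cnd ν (fun ω => (P.W n ω, lam ω)) (P.W n ω₀, lam ω₀)) (fun ω => S (ln ω)) * η →
    (1 - γ) * Real.log (1 / η) ≤ 2 * Real.log (1 /
        ms (cnd ν (fun ω => (P.W n ω, lam ω)) (P.W n ω₀, lam ω₀)) (fun ω => S (ln ω))) +
      Real.log (4 * Fintype.card α) + 12 +
      4 * (Real.log (1 / ms (cE (cnd ν (fun ω => (P.W n ω, lam ω)) (P.W n ω₀, lam ω₀))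
          (fun ω => S (ln ω))) (fun ω => Gd (ln ω))) +
        contentG cel near (cE (cnd ν (fun ω => (P.W n ω, lam ω)) (P.W n ω₀, lam ω₀))
          (fun ω => S (ln ω))) ln Gd I η /
        ms (cE (cnd ν (fun ω => (P.W n ω, lam ω)) (P.W n ω₀, lam ω₀))
          (fun ω => S (ln ω))) (fun ω => Gd (ln ω)))
  /-- the crossing lemma for the rich classes and any set `S` of lines: the pairs of lines of `S`
  which change their order in `(lo, hi)` are not rare -/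
  cross : ∀ ω₀, rich ω₀ → ∀ S : Pt → Prop,
    0 < ms (cnd ν (fun ω => (P.W n ω, lam ω)) (P.W n ω₀, lam ω₀)) (fun ω => S (ln ω)) →
    ∀ R : ℝ, 1 ≤ R →
    16 * R ≤ A * ms (cnd ν (fun ω => (P.W n ω, lam ω)) (P.W n ω₀, lam ω₀)) (fun ω => S (ln ω)) →
    ∑ ω, cnd ν (fun ω => (P.W n ω, lam ω)) (P.W n ω₀, lam ω₀) ω *
      (ms (cnd ν (fun ω => (P.W n ω, lam ω)) (P.W n ω₀, lam ω₀))
        (fun ω' => S (ln ω') ∧ Cr (lo ω₀) (hi ω₀) (ln ω') (ln ω) ∧ S (ln ω))) ≤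
      ms (cnd ν (fun ω => (P.W n ω, lam ω)) (P.W n ω₀, lam ω₀)) (fun ω => S (ln ω)) ^ 2 /
        (2 * R) →
    (1 - γ) * Real.log (R / 2) ≤ 2 * Real.log (1 /
        ms (cnd ν (fun ω => (P.W n ω, lam ω)) (P.W n ω₀, lam ω₀)) (fun ω => S (ln ω))) + 12

attribute [instance] Loc.fin

end Vale.Agent.P065.H859
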