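import Vale.Agent.P065.H859.NGLoc
import Vale.Agent.P065.H60.FrItv

/-!
# P065: the frame of `Loc` (helper859)

`L.fr hq` is the frame (dyadic centres) of the window `L`. The time inputs of the bookkeeping theorem
in the language of the frame.
-/

set_option autoImplicit false

namespace Vale.Agent.P065.H859

open Finset Vale.Agent.P065.UB Vale.Agent.P065.UB.RankAux Vale.Agent.P065.Ent
  Vale.Agent.P065.H725 Vale.Agent.P065.H154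

namespace Loc

variable {B₀ : ℕ} {c₁ c₂ ρ γ ε₂ ε₃ b A : ℝ} {K₁ n g : ℕ} (L : Loc B₀ c₁ c₂ ρ γ ε₂ ε₃ b A K₁ n g)
  {q : ℕ} (hq : 2 ≤ q)

/-- **the frame of the window** -/
noncomputable def fr : Fr L.Ω := Fr.ofItv L.itv q hq

@[simp] theorem fr_n : (L.fr hq).n = n := rfl

theorem fr_W : (L.fr hq).P.W = L.P.W := Fr.ofItv_W_eq L.itv hq L.bot

theorem fr_lo_lt (ω : L.Ω) : L.lo ω < (L.fr hq).P.x ω := Fr.ofItv_lo_lt L.itv hq ω

theorem fr_lt_hi (ω : L.Ω) : (L.fr hq).P.x ω < L.hi ω := Fr.ofItv_lt_hi L.itv hq ω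

/-- every point of the bottom interval is close to the centre -/
theorem fr_near (ω : L.Ω) {y : ℝ} (h0 : L.lo ω ≤ y) (h1 : y ≤ L.hi ω) :
    |(L.fr hq).P.x ω - y| ≤ 2 ^ (q + 1) / 2 ^ (L.fr hq).T' ω := Fr.ofItv_near L.itv hq ω h0 h1

/-- the centre determines the bottom piece -/
theorem fr_xW_iff (ω ω' : L.Ω) :
    (L.fr hq).P.x ω = (L.fr hq).P.x ω' ↔ L.P.W n ω = L.P.W n ω' :=
  Fr.ofItv_xW_iff L.itv hq ω ω'

/-- one piece at level `0` (book's `hW0`) -/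
theorem fr_top (u : ℝ) (s : ℕ) (ω ω' : L.Ω) :
    ((L.fr hq).Q u s).W 0 ω = ((L.fr hq).Q u s).W 0 ω' := by
  rw [Fr.Q_W, L.fr_W]
  exact L.top ω ω'

/-- number of children (book's `hB`) -/
theorem fr_card_lbl (u : ℝ) (s j : ℕ) (ω : L.Ω) :
    (H353.lbl ((L.fr hq).Q u s) j ω).card ≤ B₀ ^ (2 * K₁) := by
  have h : H353.lbl ((L.fr hq).Q u s) j ω = H353.lbl L.P j ω := by
    ext a
    rw [H353.mem_lbl, H353.mem_lbl, Fr.Q_W, L.fr_W]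
  rw [h]
  exact L.card_lbl j ω

/-- `D_T` determines the bottom piece for the last levels -/
theorem fr_W_of_D {u : ℝ} {T : ℕ} (hT : (L.fr hq).P.T ≤ T) {ω ω' : L.Ω}
    (h : (L.fr hq).D u T ω = (L.fr hq).D u T ω') : L.P.W n ω = L.P.W n ω' := by
  rw [← L.fr_xW_iff hq]
  apply (L.fr hq).x_eq_of_le h
  have h1 := (L.fr hq).T'_le ω
  have h2 := (L.fr hq).Tm_le
  omega

/-- the centres of the frame -/
noncomputable def frc : L.Ctr where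
  x := (L.fr hq).P.x
  lo_lt := L.fr_lo_lt hq
  lt_hi := L.fr_lt_hi hq
  congr ω ω' h := (L.fr_xW_iff hq ω ω').2 h

theorem frc_D (u : ℝ) (t : ℕ) (ω : L.Ω) : (L.frc hq).D u t ω = (L.fr hq).D u t ω := rfl

theorem frc_sep {u : ℝ} {T : ℕ} (hT : (L.fr hq).P.T ≤ T) : (L.frc hq).Sep u T :=
  fun _ _ h => L.fr_W_of_D hq hT h

/-- number of bottom pieces -/
theorem fr_card {C : ℕ} (hB : 1 ≤ B₀) (hC : (B₀ : ℝ) ≤ 2 ^ C) :
    #(univ.image ((L.fr hq).P.W n)) ≤ 2 ^ (2 * C * g) := by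
  rw [L.fr_W]
  refine (L.card_leaves hB).trans ?_
  have h1 : B₀ ≤ 2 ^ C := by exact_mod_cast hC
  calc B₀ ^ (2 * g) ≤ (2 ^ C) ^ (2 * g) := Nat.pow_le_pow_left h1 _
    _ = 2 ^ (2 * C * g) := by rw [← pow_mul]; congr 1; ring

variable {B : ℕ} {s : ℝ}

/-- the surprise of the bottom piece along the line, on the support of `μ` -/
theorem mu_sur {ω : L.Ω} (hω : 0 < L.mu B s ω) :
    c₂ * g ≤ -Real.log (Pr L.ν (fun ω => ((L.fr hq).P.W n ω, L.ln ω))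
      ((L.fr hq).P.W n ω, L.ln ω) / Pr L.ν L.ln (L.ln ω)) := by
  rw [L.fr_W]
  exact L.sur ω (Zg_of_mu hω).1

/-- most blocks are split along the line, on the support of `μ` -/
theorem mu_bad {ω : L.Ω} (hω : 0 < L.mu B s ω) : ∃ S : Finset ℕ, (#S : ℝ) ≤ ε₂ * n ∧
    ∀ j < n, j ∉ S → Pr L.ν (fun ω => ((L.fr hq).P.W (j + 1) ω, L.ln ω))
      ((L.fr hq).P.W (j + 1) ω, L.ln ω) ≤
        ρ * Pr L.ν (fun ω => ((L.fr hq).P.W j ω, L.ln ω)) ((L.fr hq).P.W j ω, L.ln ω) := by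
  rw [L.fr_W]
  exact L.bad ω (Zg_of_mu hω).1

/-- the surprise of the label, on the support of `μ` -/
theorem mu_lsur {ω : L.Ω} (hω : 0 < L.mu B s ω) :
    -Real.log (Pr L.ν (fun ω => (L.lam ω, (L.fr hq).P.W n ω)) (L.lam ω, (L.fr hq).P.W n ω) /
      Pr L.ν ((L.fr hq).P.W n) ((L.fr hq).P.W n ω)) ≤ s * g := by
  rw [L.fr_W]
  exact (Zg_of_mu hω).2.2.2

/-- the mass of the class, on the support of `μ` -/
theorem mu_PrV {ω : L.Ω} (hω : 0 < L.mu B s ω) :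
    (1 / 2 : ℝ) ^ B ≤ Pr L.ν (fun ω => ((L.fr hq).P.W n ω, L.lam ω))
      ((L.fr hq).P.W n ω, L.lam ω) := by
  rw [L.fr_W]
  exact (Zg_of_mu hω).2.2.1

/-- **lemma NG in the frame**: for every time shift `u` and every `T`, the `μ`-mass of the flags with
a step of relative mass at most `s ^ 2 / 22` along their line before the level `T` -/
theorem ng_fr {γ : ℝ} (hγ0 : 0 ≤ γ) (hγ1 : γ < 1) : ∃ Lq m₀ : ℕ, 1 ≤ Lq ∧
    ∀ {B₀ : ℕ} {c₁ c₂ ρ ε₂ ε₃ b A : ℝ} {K₁ n g : ℕ} (L : Loc B₀ c₁ c₂ ρ γ ε₂ ε₃ b A K₁ n g)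
      {q : ℕ} (hq : 2 ≤ q) (_ : 1 ≤ B₀) {C : ℕ} (_ : (B₀ : ℝ) ≤ 2 ^ C) {B m : ℕ} (_ : m₀ ≤ m)
      (_ : B ≤ m) (_ : (2 : ℝ) ^ (3 * m) ≤ 6 * A) (u : ℝ) (T : ℕ) {s : ℝ} (_ : 0 ≤ s) (s' : ℝ),
      PE (L.mu B s') (fun ω => ∃ t < T,
        Pr L.ν (fun ω => ((L.fr hq).D u (t + 1) ω, L.ln ω)) ((L.fr hq).D u (t + 1) ω, L.ln ω) ≤
          s ^ 2 / 22 *
            Pr L.ν (fun ω => ((L.fr hq).D u t ω, L.ln ω)) ((L.fr hq).D u t ω, L.ln ω)) ≤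
      ngB γ Lq C B m g s / PE L.ν (L.Zg B s') := by
  obtain ⟨Lq, m₀, hLq, h⟩ := ng_mu hγ0 hγ1
  refine ⟨Lq, m₀, hLq, ?_⟩
  intro B₀ c₁ c₂ ρ ε₂ ε₃ b A K₁ n g L q hq hB₀ C hC B m hm hBm hA u T s hs s'
  rcases (Pr_nonneg L.prob (L.Zg B s') True).eq_or_lt with h0 | h0
  · rw [PE_mu]
    have h1 : PE L.ν (L.Zg B s') = 0 := h0.symm
    rw [h1, div_zero, div_zero]
  have hT := L.frc_sep hq (u := u) (T := max T (L.fr hq).P.T) (le_max_right _ _)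
  refine le_trans ?_ (h L hB₀ hC hm hBm hA (L.frc hq) hT hs s')
  rw [← ms_eq_PE, ← ms_eq_PE]
  apply ms_mono (mu_prob h0)
  rintro ω - ⟨t, ht, h1⟩
  exact ⟨t, ht.trans_le (le_max_left _ _), h1⟩

end Loc

end Vale.Agent.P065.H859
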