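import Vale.Agent.P065.H859.ESize
import Vale.Agent.P065.H587.Ent2

/-!
# P065: the entropic bound for windows (helper859)

For a law on flags, any label `Z` of the flags and any family of disjoint time windows `W'`:
`H (W' | Z) ≤ β' (E log size (Z) - E log size (Z, W')) + C`.
-/

set_option autoImplicit false

namespace Vale.Agent.P065.H859

open Finset Vale.Agent.P065.UB Vale.Agent.P065.UB.RankAux Vale.Agent.P065.Ent

theorem ne_empty : ne ∅ = 0 := by
  have h : RealE ∅ ∅ 0 := by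
    refine ⟨⟨fun p hp => absurd hp (notMem_empty p), fun m a ha => absurd ha (notMem_empty a)⟩, ?_⟩
    intro e he
    exact absurd he (notMem_empty e)
  have := ne_le h
  rw [card_empty] at this
  omega

/-- the sum of the powers of the relative sizes of disjoint windows -/
theorem sum_rpow_le {β' : ℝ} (hβ : beta < β') : ∃ C : ℝ, 1 ≤ C ∧
    ∀ (E : Finset (ℝ × Pt)), IsRealE E → ∀ {ι : Type*} (A : Finset ι) (J : ι → Set ℝ),
      (∀ i ∈ A, (J i).OrdConnected) → (∀ i ∈ A, ∀ j ∈ A, i ≠ j → Disjoint (J i) (J j)) →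
      ∑ a ∈ A, ((ne (evIn E (J a)) : ℝ) / ne E) ^ β' ≤ C := by
  classical
  set ε : ℝ := (β' - beta) / 2 with hε
  have hε0 : 0 < ε := by rw [hε]; linarith
  have hb := beta_nonneg
  have hβ'0 : 0 < β' := by linarith
  obtain ⟨C, hC, hF⟩ := exists_Fs_le hε0
  set r : ℝ := 2 ^ (-ε) with hr
  have hr0 : 0 < r := by positivity
  have hr1 : r < 1 := by
    rw [hr]
    exact Real.rpow_lt_one_of_one_lt_of_neg (by norm_num) (by linarith)
  have h1r : 0 < 1 - r := by linarith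
  set C' : ℝ := C * 2 ^ (beta + ε) * (1 - r)⁻¹ with hC'
  have hC'1 : 1 ≤ C' := by
    have h2 : (1 : ℝ) ≤ 2 ^ (beta + ε) := Real.one_le_rpow (by norm_num) (by positivity)
    have h3 : 1 ≤ (1 - r)⁻¹ := by
      rw [one_le_inv₀ h1r]
      linarith
    calc (1 : ℝ) = 1 * 1 * 1 := by norm_num
      _ ≤ C * 2 ^ (beta + ε) * (1 - r)⁻¹ := by gcongr
  refine ⟨C', hC'1, ?_⟩
  intro E hE ι A J hJ hd
  set n := ne E with hn
  -- only the windows of positive size matter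
  set A' : Finset ι := {a ∈ A | 1 ≤ ne (evIn E (J a))} with hA'
  have hle : ∀ a, ne (evIn E (J a)) ≤ n := fun a => ne_mono (evIn_subset _ _) hE
  have hsum : ∑ a ∈ A, ((ne (evIn E (J a)) : ℝ) / n) ^ β' =
      ∑ a ∈ A', ((ne (evIn E (J a)) : ℝ) / n) ^ β' := by
    rw [hA', sum_filter]
    refine sum_congr rfl fun a _ => ?_
    split_ifs with h
    · rfl
    · have : ne (evIn E (J a)) = 0 := by omega
      rw [this, Nat.cast_zero, zero_div, Real.zero_rpow hβ'0.ne']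
  rw [hsum]
  -- dyadic classes
  let jj : ι → ℕ := fun a => Nat.log 2 (n / ne (evIn E (J a)))
  have hjj : ∀ a ∈ A', ne (evIn E (J a)) * 2 ^ jj a ≤ n ∧
      n < 2 ^ (jj a + 1) * ne (evIn E (J a)) := by
    intro a ha
    have h1 := (mem_filter.1 ha).2
    have hpos : 0 < n / ne (evIn E (J a)) := Nat.div_pos (hle a) h1
    constructor
    · have h2 : 2 ^ jj a ≤ n / ne (evIn E (J a)) := Nat.pow_log_le_self 2 hpos.ne'
      calc ne (evIn E (J a)) * 2 ^ jj a ≤ ne (evIn E (J a)) * (n / ne (evIn E (J a))) :=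
            Nat.mul_le_mul_left _ h2
        _ ≤ n := Nat.mul_div_le _ _
    · have h2 : n / ne (evIn E (J a)) < 2 ^ (jj a + 1) :=
        Nat.lt_pow_succ_log_self (by norm_num) _
      exact (Nat.div_lt_iff_lt_mul h1).1 h2
  have hterm : ∀ a ∈ A', ((ne (evIn E (J a)) : ℝ) / n) ^ β' ≤ ((2 : ℝ) ^ jj a) ^ (-β') := by
    intro a ha
    have h1 := (mem_filter.1 ha).2
    have h2 := (hjj a ha).1
    have hn0 : 0 < n := lt_of_lt_of_le h1 (hle a)
    have hn0' : (0 : ℝ) < n := by exact_mod_cast hn0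
    have h3 : (ne (evIn E (J a)) : ℝ) * 2 ^ jj a ≤ n := by exact_mod_cast h2
    rw [Real.rpow_neg (by positivity), ← Real.inv_rpow (by positivity)]
    apply Real.rpow_le_rpow (by positivity) _ hβ'0.le
    rw [div_le_iff₀ hn0', inv_mul_eq_div, le_div_iff₀ (by positivity)]
    exact h3
  have hcount : ∀ j, (#{a ∈ A' | jj a = j} : ℝ) ≤ C * 2 ^ ((beta + ε) * ((j : ℝ) + 1)) := by
    intro j
    set w := n / 2 ^ (j + 1) + 1 with hw
    have hw1 : 1 ≤ w := Nat.le_add_left 1 _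
    have hnw : n ≤ 2 ^ (j + 1) * w := by
      have h1 : n < 2 ^ (j + 1) * (n / 2 ^ (j + 1) + 1) :=
        Nat.lt_mul_div_succ n (by positivity)
      exact h1.le
    have h1 : #{a ∈ A' | jj a = j} ≤ F n w := by
      have h2 := card_windows_le hE (A := {a ∈ A' | jj a = j}) (I := J) (w := w)
        (fun i hi => hJ i (mem_filter.1 (mem_filter.1 hi).1).1)
        (fun i hi k hk => hd i (mem_filter.1 (mem_filter.1 hi).1).1 k
          (mem_filter.1 (mem_filter.1 hk).1).1) (by omega)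
        (by
          intro i hi
          obtain ⟨h3, h4⟩ := mem_filter.1 hi
          have h5 := (hjj i h3).2
          rw [h4] at h5
          have h6 : n / 2 ^ (j + 1) < ne (evIn E (J i)) := by
            rw [Nat.div_lt_iff_lt_mul (by positivity)]
            rw [mul_comm]
            exact h5
          omega)
      exact h2
    have h2 : F n w ≤ Fs (2 ^ (j + 1)) := F_le_Fs hw1 hnw
    have h3 := hF (j + 1)
    calc (#{a ∈ A' | jj a = j} : ℝ) ≤ Fs (2 ^ (j + 1)) := by exact_mod_cast h1.trans h2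
      _ ≤ C * 2 ^ ((beta + ε) * ((j + 1 : ℕ) : ℝ)) := h3
      _ = C * 2 ^ ((beta + ε) * ((j : ℝ) + 1)) := by push_cast; rfl
  obtain ⟨M, hM⟩ : ∃ M, ∀ a ∈ A', jj a ∈ range M := by
    refine ⟨(A'.sup jj) + 1, fun a ha => ?_⟩
    rw [mem_range]
    exact Nat.lt_succ_of_le (le_sup (f := jj) ha)
  calc ∑ a ∈ A', ((ne (evIn E (J a)) : ℝ) / n) ^ β'
      ≤ ∑ a ∈ A', ((2 : ℝ) ^ jj a) ^ (-β') := sum_le_sum hterm
    _ = ∑ j ∈ range M, ∑ a ∈ A' with jj a = j, ((2 : ℝ) ^ jj a) ^ (-β') :=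
        (sum_fiberwise_of_maps_to hM _).symm
    _ = ∑ j ∈ range M, (#{a ∈ A' | jj a = j} : ℝ) * ((2 : ℝ) ^ j) ^ (-β') := by
        refine sum_congr rfl fun j _ => ?_
        rw [sum_congr rfl fun a ha => by rw [(mem_filter.1 ha).2], sum_const, nsmul_eq_mul]
    _ ≤ ∑ j ∈ range M, C * 2 ^ (beta + ε) * r ^ j := by
        refine sum_le_sum fun j _ => ?_
        have h1 : ((2 : ℝ) ^ j) ^ (-β') = 2 ^ (-β' * j) := by
          rw [← Real.rpow_natCast 2 j, ← Real.rpow_mul (by norm_num)]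
          ring_nf
        have h2 : (2 : ℝ) ^ ((beta + ε) * ((j : ℝ) + 1)) * 2 ^ (-β' * j) =
            2 ^ (beta + ε) * r ^ j := by
          rw [hr, ← Real.rpow_natCast (2 ^ (-ε)) j, ← Real.rpow_mul (by norm_num),
            ← Real.rpow_add (by norm_num), ← Real.rpow_add (by norm_num)]
          congr 1
          rw [hε]
          ring
        rw [h1]
        calc (#{a ∈ A' | jj a = j} : ℝ) * 2 ^ (-β' * (j : ℝ))
            ≤ C * 2 ^ ((beta + ε) * ((j : ℝ) + 1)) * 2 ^ (-β' * (j : ℝ)) :=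
              mul_le_mul_of_nonneg_right (hcount j) (by positivity)
          _ = C * 2 ^ (beta + ε) * r ^ j := by rw [mul_assoc, h2, mul_assoc]
    _ = C * 2 ^ (beta + ε) * ∑ j ∈ range M, r ^ j := by rw [mul_sum]
    _ ≤ C * 2 ^ (beta + ε) * (1 - r)⁻¹ := by
        apply mul_le_mul_of_nonneg_left _ (by positivity)
        have hs := summable_geometric_of_lt_one hr0.le hr1
        rw [← tsum_geometric_of_lt_one hr0.le hr1]
        exact hs.sum_le_tsum _ (fun _ _ => by positivity)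
    _ = C' := rfl

/-- a system of flags: a law on events of one level -/
structure Flags (Ω : Type*) [Fintype Ω] where
  /-- the law -/
  μ : Ω → ℝ
  prob : IsProb μ
  /-- the time of the flag -/
  tm : Ω → ℝ
  /-- the line (point) of the flag -/
  ln : Ω → Pt
  real : ∃ (P : Finset Pt) (k : ℕ), Good P ∧ ∀ ω, EvE P k (tm ω) (ln ω)

namespace Flags

variable {Ω : Type*} [Fintype Ω] (S : Flags Ω)

open Classical in
/-- the events of the flags with label `z` -/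
noncomputable def cls {ζ : Type*} (Z : Ω → ζ) (z : ζ) : Finset (ℝ × Pt) :=
  (univ.filter fun ω => Z ω = z).image fun ω => (S.tm ω, S.ln ω)

/-- the size of the class of `ω` -/
noncomputable def sz {ζ : Type*} (Z : Ω → ζ) (ω : Ω) : ℝ := ne (S.cls Z (Z ω))

theorem mem_cls {ζ : Type*} {Z : Ω → ζ} {z : ζ} {e : ℝ × Pt} :
    e ∈ S.cls Z z ↔ ∃ ω, Z ω = z ∧ (S.tm ω, S.ln ω) = e := by
  classical
  unfold cls
  rw [mem_image]
  constructor
  · rintro ⟨ω, h1, h2⟩; exact ⟨ω, (mem_filter.1 h1).2, h2⟩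
  · rintro ⟨ω, h1, h2⟩; exact ⟨ω, mem_filter.2 ⟨mem_univ _, h1⟩, h2⟩

theorem isRealE_cls {ζ : Type*} (Z : Ω → ζ) (z : ζ) : IsRealE (S.cls Z z) := by
  obtain ⟨P, k, hP, h⟩ := S.real
  refine ⟨P, k, hP, ?_⟩
  intro e he
  obtain ⟨ω, -, rfl⟩ := S.mem_cls.1 he
  exact h ω

theorem two_le_sz {ζ : Type*} (Z : Ω → ζ) (ω : Ω) : 2 ≤ S.sz Z ω := by
  have h := two_le_ne (S.isRealE_cls Z (Z ω)) ⟨(S.tm ω, S.ln ω), S.mem_cls.2 ⟨ω, rfl, rfl⟩⟩
  unfold sz
  exact_mod_cast h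

theorem sz_pos {ζ : Type*} (Z : Ω → ζ) (ω : Ω) : 0 < S.sz Z ω := by
  have := S.two_le_sz Z ω
  linarith

/-- a finer label has a smaller size -/
theorem sz_anti {ζ ζ' : Type*} {Z : Ω → ζ} {Z' : Ω → ζ'} (h : Det Z Z') (ω : Ω) :
    S.sz Z ω ≤ S.sz Z' ω := by
  unfold sz
  have : ne (S.cls Z (Z ω)) ≤ ne (S.cls Z' (Z' ω)) := by
    apply ne_mono _ (S.isRealE_cls _ _)
    intro e he
    obtain ⟨ω', h1, h2⟩ := S.mem_cls.1 he
    exact S.mem_cls.2 ⟨ω', h _ _ h1, h2⟩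
  exact_mod_cast this

theorem sz_congr {ζ ζ' : Type*} {Z : Ω → ζ} {Z' : Ω → ζ'} (h : Det Z Z') (h' : Det Z' Z)
    (ω : Ω) : S.sz Z ω = S.sz Z' ω := le_antisymm (S.sz_anti h ω) (S.sz_anti h' ω)

/-- expected logarithmic size -/
noncomputable def Ls {ζ : Type*} (Z : Ω → ζ) : ℝ := Ex S.μ fun ω => Real.log (S.sz Z ω)

theorem Ls_anti {ζ ζ' : Type*} {Z : Ω → ζ} {Z' : Ω → ζ'} (h : Det Z Z') : S.Ls Z ≤ S.Ls Z' := by
  unfold Ls Ex
  refine sum_le_sum fun ω _ => mul_le_mul_of_nonneg_left ?_ (S.prob.nonneg ω)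
  exact Real.log_le_log (S.sz_pos Z ω) (S.sz_anti h ω)

theorem Ls_congr {ζ ζ' : Type*} {Z : Ω → ζ} {Z' : Ω → ζ'} (h : Det Z Z') (h' : Det Z' Z) :
    S.Ls Z = S.Ls Z' := le_antisymm (S.Ls_anti h) (S.Ls_anti h')

end Flags

/-- **the entropic bound for windows** -/
theorem entropic_bound {β' : ℝ} (hβ : beta < β') : ∃ C : ℝ, 0 ≤ C ∧
    ∀ {Ω : Type*} [Fintype Ω] (S : Flags Ω) {ζ ι : Type*} (Z : Ω → ζ) (W : Ω → ι)
      (J : ι → Set ℝ), (∀ i, (J i).OrdConnected) → (∀ i j, i ≠ j → Disjoint (J i) (J j)) →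
      (∀ ω, S.tm ω ∈ J (W ω)) →
      Hc S.μ W Z ≤ β' * (S.Ls Z - S.Ls fun ω => (Z ω, W ω)) + C := by
  classical
  obtain ⟨C, hC, hsum⟩ := sum_rpow_le hβ
  have hb := beta_nonneg
  have hβ'0 : 0 < β' := by linarith
  have hC0 : 0 < C := by linarith
  refine ⟨Real.log C, Real.log_nonneg hC, ?_⟩
  intro Ω _ S ζ ι Z W J hJ hd htm
  -- the class of `(Z, W)` is the class of `Z` in a window
  have hcls : ∀ ω, S.cls (fun ω => (Z ω, W ω)) (Z ω, W ω) = evIn (S.cls Z (Z ω)) (J (W ω)) := by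
    intro ω
    ext e
    rw [mem_evIn, S.mem_cls, S.mem_cls]
    constructor
    · rintro ⟨ω', h1, rfl⟩
      rw [Prod.mk.injEq] at h1
      refine ⟨⟨ω', h1.1, rfl⟩, ?_⟩
      have := htm ω'
      rw [h1.2] at this
      exact this
    · rintro ⟨⟨ω', h1, rfl⟩, h2⟩
      refine ⟨ω', ?_, rfl⟩
      rw [Prod.mk.injEq]
      refine ⟨h1, ?_⟩
      by_contra hne
      exact Set.disjoint_left.1 (hd _ _ hne) (htm ω') h2
  let q : ζ → ι → ℝ := fun z a => ((ne (evIn (S.cls Z z) (J a)) : ℝ) / ne (S.cls Z z)) ^ β' / C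
  have hq : ∀ ω, q (Z ω) (W ω) =
      (S.sz (fun ω => (Z ω, W ω)) ω / S.sz Z ω) ^ β' / C := by
    intro ω
    show ((ne (evIn (S.cls Z (Z ω)) (J (W ω))) : ℝ) / ne (S.cls Z (Z ω))) ^ β' / C = _
    rw [← hcls ω]
    rfl
  have hqpos : ∀ ω, 0 < q (Z ω) (W ω) := by
    intro ω
    rw [hq]
    have h1 := S.sz_pos (fun ω => (Z ω, W ω)) ω
    have h2 := S.sz_pos Z ω
    positivity
  have hg := gibbs S.prob W Z q (fun ω _ => hqpos ω)
    (fun ω x _ => by
      show 0 ≤ ((ne (evIn (S.cls Z (Z ω)) (J x)) : ℝ) / ne (S.cls Z (Z ω))) ^ β' / C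
      positivity)
    (fun ω => by
      show ∑ x ∈ univ.image W,
        ((ne (evIn (S.cls Z (Z ω)) (J x)) : ℝ) / ne (S.cls Z (Z ω))) ^ β' / C ≤ 1
      rw [← sum_div, div_le_one hC0]
      exact hsum _ (S.isRealE_cls Z (Z ω)) _ J (fun i _ => hJ i) (fun i _ j _ => hd i j))
  refine hg.trans (le_of_eq ?_)
  have hpt : ∀ ω, S.μ ω * (-Real.log (q (Z ω) (W ω))) =
      β' * (S.μ ω * Real.log (S.sz Z ω)) -
        β' * (S.μ ω * Real.log (S.sz (fun ω => (Z ω, W ω)) ω)) + S.μ ω * Real.log C := by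
    intro ω
    rw [hq]
    have h1 := S.sz_pos (fun ω => (Z ω, W ω)) ω
    have h2 := S.sz_pos Z ω
    rw [Real.log_div (by positivity) hC0.ne', Real.log_rpow (by positivity),
      Real.log_div h1.ne' h2.ne']
    ring
  rw [sum_congr rfl fun ω _ => hpt ω, sum_add_distrib, sum_sub_distrib, ← mul_sum, ← mul_sum,
    ← sum_mul, S.prob.sum]
  unfold Flags.Ls Ex
  ring

end Vale.Agent.P065.H859
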