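import Vale.Agent.P065.H859.LocF

/-!
# P065, lemma NG for `Loc` in asymptotic form (helper859)

For `A = exp (g ^ 2)` and `g` large (depending on the exponent `k` and the constants `C, c₁, γ` only):
all the flags but a `μ`-mass `g ^ (-k)` lose at most a factor `g ^ (2 k + 7)` in every step of the time
tree along their line, for every time shift `u`.
-/

set_option autoImplicit false

namespace Vale.Agent.P065.H859

open Finset Vale.Agent.P065.UB Vale.Agent.P065.UB.RankAux Vale.Agent.P065.Ent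
  Vale.Agent.P065.H725 Vale.Agent.P065.H154

/-- powers against exponentials -/
theorem pow_mul_exp_le {a : ℝ} (ha : 0 < a) (k : ℕ) :
    ∀ᶠ g : ℕ in Filter.atTop, (g : ℝ) ^ k * Real.exp (-(a * g)) ≤ 1 := by
  have h1 : Filter.Tendsto (fun g : ℕ => a * (g : ℝ)) Filter.atTop Filter.atTop :=
    Filter.Tendsto.const_mul_atTop ha tendsto_natCast_atTop_atTop
  have h2 := (Real.tendsto_pow_mul_exp_neg_atTop_nhds_zero k).comp h1
  have h3 := h2.eventually (gt_mem_nhds (show (0 : ℝ) < a ^ k by positivity))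
  filter_upwards [h3] with g hg
  have h4 : (a * (g : ℝ)) ^ k * Real.exp (-(a * g)) < a ^ k := hg
  rw [mul_pow, mul_assoc] at h4
  have h5 : 0 < a ^ k := by positivity
  nlinarith

/-- `C g ≤ g ^ 2` eventually, in the form needed for the richness -/
theorem two_pow_le_exp {c g : ℕ} (h : c ≤ g) : (2 : ℝ) ^ (c * g) ≤ Real.exp ((g : ℝ) ^ 2) := by
  have h1 : (2 : ℝ) ≤ Real.exp 1 := by
    have := Real.add_one_le_exp (1 : ℝ)
    linarith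
  calc (2 : ℝ) ^ (c * g) ≤ Real.exp 1 ^ (c * g) := pow_le_pow_left₀ (by norm_num) h1 _
    _ = Real.exp ((c * g : ℕ) : ℝ) := by rw [← Real.exp_nat_mul, mul_one]
    _ ≤ _ := by
        apply Real.exp_le_exp.2
        push_cast
        have h2 : (c : ℝ) ≤ g := by exact_mod_cast h
        nlinarith [Nat.cast_nonneg (α := ℝ) g]

/-- the numbers of lemma NG, asymptotically -/
theorem ngB_le {γ : ℝ} (hγ1 : γ < 1) (Lq C k m₀ : ℕ) {c : ℝ} (hc : 0 < c) :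
    ∀ᶠ g : ℕ in Filter.atTop, 1 ≤ g ∧ m₀ ≤ 2 * (C + 1) * g ∧
      (2 : ℝ) ^ (3 * (2 * (C + 1) * g)) ≤ 6 * Real.exp ((g : ℝ) ^ 2) ∧
      ((1 : ℝ) / g ^ (2 * k + 7) ≤ (1 / (g : ℝ) ^ (k + 3)) ^ 2 / 22) ∧
      Loc.ngB γ Lq C (2 * (C + 1) * g) (2 * (C + 1) * g) g (1 / (g : ℝ) ^ (k + 3)) ≤
        c / (g : ℝ) ^ k := by
  set K : ℝ := 1 + 12 * (1 + 2 ^ Lq) * (14 * C + 15) with hK
  have hC0 : (0 : ℝ) ≤ C := Nat.cast_nonneg _
  have hK0 : 0 < K := by positivity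
  have ha : 0 < (1 - γ) * (C + 1) / 2 := by
    have : 0 < 1 - γ := by linarith
    positivity
  have hN := pow_mul_exp_le ha (k + 2)
  filter_upwards [hN, Filter.eventually_ge_atTop 22, Filter.eventually_ge_atTop m₀,
    Filter.eventually_ge_atTop (6 * (C + 1)),
    Filter.eventually_ge_atTop ⌈(2 * C + 1) * (K + 1) / c⌉₊] with g h1 h22 hm h6 hcc
  have hg1 : (1 : ℝ) ≤ g := by
    have : 1 ≤ g := by omega
    exact_mod_cast this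
  have hg0 : (0 : ℝ) < g := by linarith
  refine ⟨by omega, by nlinarith, ?_, ?_, ?_⟩
  · have e : 3 * (2 * (C + 1) * g) = 6 * (C + 1) * g := by ring
    rw [e]
    have h2 := two_pow_le_exp h6
    have h3 := Real.exp_pos ((g : ℝ) ^ 2)
    linarith
  · have h22' : (22 : ℝ) ≤ g := by exact_mod_cast h22
    rw [div_pow, one_pow, div_div, ← pow_mul]
    apply one_div_le_one_div_of_le (by positivity)
    calc (g : ℝ) ^ ((k + 3) * 2) * 22 ≤ (g : ℝ) ^ ((k + 3) * 2) * g := by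
          exact mul_le_mul_of_nonneg_left h22' (by positivity)
      _ = (g : ℝ) ^ (2 * k + 7) := by rw [← pow_succ]; congr 1; ring
  · set s : ℝ := 1 / (g : ℝ) ^ (k + 3) with hs
    have hs0 : 0 < s := by positivity
    have hs1 : s ≤ 1 := by
      rw [hs, div_le_one (by positivity)]
      exact one_le_pow₀ hg1
    have hss : s * g ^ (k + 3) = 1 := by
      rw [hs]
      field_simp
    unfold Loc.ngB
    have e1 : ((2 * C * g + 1 : ℝ)) ≤ (2 * C + 1) * g := by nlinarith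
    have e2 : s ^ 2 / 22 ≤ s * g := by nlinarith
    have e3 : s * (12 * (1 + 2 ^ Lq) * (((2 * (C + 1) * g : ℕ) : ℝ) +
        6 * ((2 * (C + 1) * g : ℕ) : ℝ) + 1)) ≤ s * (12 * (1 + 2 ^ Lq) * ((14 * C + 15) * g)) := by
      apply mul_le_mul_of_nonneg_left _ hs0.le
      apply mul_le_mul_of_nonneg_left _ (by positivity)
      push_cast
      nlinarith
    have e4 : Real.exp (-((1 - γ) * (2 * ((2 * (C + 1) * g : ℕ) : ℝ)) / 8)) ≤ s * g := by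
      have e5 : -((1 - γ) * (2 * ((2 * (C + 1) * g : ℕ) : ℝ)) / 8) =
          -((1 - γ) * (C + 1) / 2 * g) := by
        push_cast
        ring
      rw [e5]
      have h7 : s * g * g ^ (k + 2) = 1 := by rw [← hss]; ring
      have h8 : (0 : ℝ) < g ^ (k + 2) := by positivity
      by_contra h9
      push Not at h9
      have := mul_lt_mul_of_pos_left h9 h8
      nlinarith
    have e6 : s ^ 2 / 22 + s * (12 * (1 + 2 ^ Lq) * (((2 * (C + 1) * g : ℕ) : ℝ) +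
        6 * ((2 * (C + 1) * g : ℕ) : ℝ) + 1)) +
        Real.exp (-((1 - γ) * (2 * ((2 * (C + 1) * g : ℕ) : ℝ)) / 8)) ≤ (K + 1) * (s * g) := by
      calc _ ≤ s * g + s * (12 * (1 + 2 ^ Lq) * ((14 * C + 15) * g)) + s * g := by
            gcongr
        _ = (K + 1) * (s * g) := by rw [hK]; ring
    calc _ ≤ ((2 * C + 1) * g) * ((K + 1) * (s * g)) := by
          apply mul_le_mul e1 e6 _ (by positivity)
          positivity
      _ ≤ c / (g : ℝ) ^ k := by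
          rw [le_div_iff₀ (by positivity)]
          have h10 : (2 * C + 1) * (K + 1) / c ≤ g := (Nat.le_ceil _).trans (by exact_mod_cast hcc)
          rw [div_le_iff₀ hc] at h10
          have h11 : (2 * C + 1) * g * ((K + 1) * (s * g)) * g ^ k * g =
              (2 * C + 1) * (K + 1) := by
            have : s * g * g * g ^ k * g = 1 := by rw [← hss]; ring
            linear_combination ((2 * C + 1) * (K + 1)) * this
          nlinarith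

namespace Loc

/-- **lemma NG, asymptotic form**: a step of relative mass `≤ g ^ (-(2 k + 7))` along the line is made
only by flags of `μ`-mass `≤ g ^ (-k)` -/
theorem ng_asy {γ : ℝ} (hγ0 : 0 ≤ γ) (hγ1 : γ < 1) {c₁ : ℝ} (hc₁ : 0 < c₁) (C k : ℕ) :
    ∃ g₀ : ℕ, 1 ≤ g₀ ∧ ∀ g : ℕ, g₀ ≤ g → ∀ {B₀ : ℕ} {c₂ ρ ε₂ ε₃ b : ℝ} {K₁ n : ℕ}
      (L : Loc B₀ c₁ c₂ ρ γ ε₂ ε₃ b (Real.exp ((g : ℝ) ^ 2)) K₁ n g) {q : ℕ} (hq : 2 ≤ q)
      (_ : 1 ≤ B₀) (_ : (B₀ : ℝ) ≤ 2 ^ C) {s : ℝ}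
      (_ : c₁ / 8 ≤ PE L.ν (L.Zg (2 * (C + 1) * g) s)) (u : ℝ) (T : ℕ),
      PE (L.mu (2 * (C + 1) * g) s) (fun ω => ∃ t < T,
        Pr L.ν (fun ω => ((L.fr hq).D u (t + 1) ω, L.ln ω)) ((L.fr hq).D u (t + 1) ω, L.ln ω) ≤
          1 / (g : ℝ) ^ (2 * k + 7) *
            Pr L.ν (fun ω => ((L.fr hq).D u t ω, L.ln ω)) ((L.fr hq).D u t ω, L.ln ω)) ≤
      1 / (g : ℝ) ^ k := by
  obtain ⟨Lq, m₀, hLq, h⟩ := ng_fr hγ0 hγ1
  have hc : 0 < c₁ / 8 := by positivity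
  obtain ⟨g₀, hg₀⟩ := Filter.eventually_atTop.1 (ngB_le hγ1 Lq C k m₀ hc)
  refine ⟨max g₀ 1, le_max_right _ _, ?_⟩
  intro g hg B₀ c₂ ρ ε₂ ε₃ b K₁ n L q hq hB₀ hC s hs u T
  obtain ⟨h1, h2, h3, h4, h5⟩ := hg₀ g ((le_max_left _ _).trans hg)
  have hg0 : (0 : ℝ) < g := by exact_mod_cast h1
  have hP : 0 < PE L.ν (L.Zg (2 * (C + 1) * g) s) := hc.trans_le hs
  have h6 := h L hq hB₀ hC (B := 2 * (C + 1) * g) h2 le_rfl h3 u T
    (s := 1 / (g : ℝ) ^ (k + 3)) (by positivity) s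
  refine le_trans ?_ (h6.trans ?_)
  · rw [← ms_eq_PE, ← ms_eq_PE]
    apply ms_mono (mu_prob hP)
    rintro ω - ⟨t, ht, h7⟩
    exact ⟨t, ht, h7.trans (mul_le_mul_of_nonneg_right h4 (Pr_nonneg L.prob _ _))⟩
  · rw [div_le_iff₀ hP]
    calc _ ≤ c₁ / 8 / (g : ℝ) ^ k := h5
      _ = 1 / (g : ℝ) ^ k * (c₁ / 8) := by ring
      _ ≤ _ := mul_le_mul_of_nonneg_left hs (by positivity)

/-- lemma NG in the form of `Sys.ng` and `SysI.ng` -/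
theorem ng_sys {γ : ℝ} (hγ0 : 0 ≤ γ) (hγ1 : γ < 1) {c₁ : ℝ} (hc₁ : 0 < c₁) (C kN : ℕ) :
    ∃ g₀ : ℕ, 1 ≤ g₀ ∧ ∀ g : ℕ, g₀ ≤ g → ∀ {B₀ : ℕ} {c₂ ρ ε₂ ε₃ b : ℝ} {K₁ n : ℕ}
      (L : Loc B₀ c₁ c₂ ρ γ ε₂ ε₃ b (Real.exp ((g : ℝ) ^ 2)) K₁ n g) {q : ℕ} (hq : 2 ≤ q)
      (_ : 1 ≤ B₀) (_ : (B₀ : ℝ) ≤ 2 ^ C) {s : ℝ}
      (_ : c₁ / 8 ≤ PE L.ν (L.Zg (2 * (C + 1) * g) s)) (u : ℝ) (T : ℕ),
      PE (L.mu (2 * (C + 1) * g) s) (fun ω => ∃ t < T,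
        Pr L.ν (fun ω => ((L.fr hq).D u (t + 1) ω, L.ln ω)) ((L.fr hq).D u (t + 1) ω, L.ln ω) ≤
          (1 / (g : ℝ)) ^ (3 * kN + 9) *
            Pr L.ν (fun ω => ((L.fr hq).D u t ω, L.ln ω)) ((L.fr hq).D u t ω, L.ln ω)) ≤
      (1 / (g : ℝ)) ^ kN := by
  obtain ⟨g₀, hg₀, h⟩ := ng_asy hγ0 hγ1 hc₁ C kN
  refine ⟨g₀, hg₀, ?_⟩
  intro g hg B₀ c₂ ρ ε₂ ε₃ b K₁ n L q hq hB₀ hC s hs u T
  have hg1 : (1 : ℝ) ≤ g := by exact_mod_cast hg₀.trans hg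
  have hP : 0 < PE L.ν (L.Zg (2 * (C + 1) * g) s) := lt_of_lt_of_le (by positivity) hs
  rw [one_div_pow, one_div_pow]
  refine le_trans ?_ (h g hg L hq hB₀ hC hs u T)
  rw [← ms_eq_PE, ← ms_eq_PE]
  apply ms_mono (mu_prob hP)
  rintro ω - ⟨t, ht, h7⟩
  refine ⟨t, ht, h7.trans (mul_le_mul_of_nonneg_right ?_ (Pr_nonneg L.prob _ _))⟩
  exact one_div_le_one_div_of_le (by positivity) (pow_le_pow_right₀ hg1 (by omega))

/-- the other form: outside an event of `μ`-mass `≤ g ^ (-k)`, every step along the line costs at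
most `(2 k + 7) log g` -/
theorem ng_pay {γ : ℝ} (hγ0 : 0 ≤ γ) (hγ1 : γ < 1) {c₁ : ℝ} (hc₁ : 0 < c₁) (C k : ℕ) :
    ∃ g₀ : ℕ, 1 ≤ g₀ ∧ ∀ g : ℕ, g₀ ≤ g → ∀ {B₀ : ℕ} {c₂ ρ ε₂ ε₃ b : ℝ} {K₁ n : ℕ}
      (L : Loc B₀ c₁ c₂ ρ γ ε₂ ε₃ b (Real.exp ((g : ℝ) ^ 2)) K₁ n g) {q : ℕ} (hq : 2 ≤ q)
      (_ : 1 ≤ B₀) (_ : (B₀ : ℝ) ≤ 2 ^ C) {s : ℝ}
      (_ : c₁ / 8 ≤ PE L.ν (L.Zg (2 * (C + 1) * g) s)) (u : ℝ) (T : ℕ),
      ∃ N : L.Ω → Prop, PE (L.mu (2 * (C + 1) * g) s) N ≤ 1 / (g : ℝ) ^ k ∧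
        (∀ ω ω', (L.fr hq).D u T ω = (L.fr hq).D u T ω' → L.ln ω = L.ln ω' → N ω → N ω') ∧
        ∀ ω, ¬ N ω → ∀ t < T, -Real.log
          (Pr L.ν (fun ω => ((L.fr hq).D u (t + 1) ω, L.ln ω)) ((L.fr hq).D u (t + 1) ω, L.ln ω) /
            Pr L.ν (fun ω => ((L.fr hq).D u t ω, L.ln ω)) ((L.fr hq).D u t ω, L.ln ω)) ≤
          (2 * k + 7) * Real.log g := by
  obtain ⟨g₀, hg₀, h⟩ := ng_asy hγ0 hγ1 hc₁ C k
  refine ⟨g₀, hg₀, ?_⟩
  intro g hg B₀ c₂ ρ ε₂ ε₃ b K₁ n L q hq hB₀ hC s hs u T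
  have hg1 : 1 ≤ g := hg₀.trans hg
  have hg0 : (0 : ℝ) < g := by exact_mod_cast hg1
  refine ⟨_, h g hg L hq hB₀ hC hs u T, ?_, ?_⟩
  · rintro ω ω' hD hl ⟨t, ht, h1⟩
    refine ⟨t, ht, ?_⟩
    have h2 : ∀ v ≤ T, (L.fr hq).D u v ω = (L.fr hq).D u v ω' := fun v hv =>
      (L.fr hq).D_det_le u hv ω ω' hD
    rw [← h2 (t + 1) (by omega), ← h2 t (by omega), ← hl]
    exact h1
  · intro ω hN t ht
    push Not at hN
    have h1 := hN t ht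
    have h2 : 0 < Pr L.ν (fun ω => ((L.fr hq).D u t ω, L.ln ω)) ((L.fr hq).D u t ω, L.ln ω) :=
      (L.pos ω).trans_le (le_Pr L.prob _ ω)
    have h3 : 1 / (g : ℝ) ^ (2 * k + 7) <
        Pr L.ν (fun ω => ((L.fr hq).D u (t + 1) ω, L.ln ω)) ((L.fr hq).D u (t + 1) ω, L.ln ω) /
          Pr L.ν (fun ω => ((L.fr hq).D u t ω, L.ln ω)) ((L.fr hq).D u t ω, L.ln ω) := by
      rwa [lt_div_iff₀ h2]
    have h4 := Real.log_le_log (by positivity) h3.le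
    rw [one_div, Real.log_inv, Real.log_pow] at h4
    push_cast at h4
    linarith

end Loc

end Vale.Agent.P065.H859
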