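import Vale.Agent.P065.H859.Final
import Vale.Agent.P065.H806.Asm0
import Vale.Agent.P065.H806.Asm2
import Vale.Agent.P065.H725.SysI

/-!
# P065: the top of the proof (helper859)

`HSplit` : a window `Loc` gives a system of case (I) or a system of case (II). With `CaseI` and
`CaseII` this excludes `1 < beta`, hence gives the bounds for the halving lines.
-/

set_option autoImplicit false

namespace Vale.Agent.P065.H859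

open Vale.Agent.P065.UB Vale.Agent.P065.H806 Vale.Agent.P065.H725

/-- **statement of the splitting**: the giants are defined with radius number `q = 3` -/
def HSplit : Prop := ∀ (B₀ : ℕ) (c₁ c₂ ρ γ : ℝ), 2 ≤ B₀ → 0 < c₁ → 0 < c₂ → 0 < ρ → ρ < 1 →
  0 ≤ γ → γ < 1 → ∃ PP₀ Γ₀ σ₀ : ℕ, ∀ (ε₂ : ℝ) (K₁ : ℕ), 0 < ε₂ → 1 ≤ K₁ →
  ∀ PP ≥ PP₀, ∀ Γ ≥ Γ₀, ∀ s₀ ≥ σ₀, ∃ ΛI : ℕ, ∀ kt : ℕ, ∃ Λ : ℕ, ∀ kN : ℕ,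
  ∃ ε₃ : ℝ, 0 < ε₃ ∧ ∃ b : ℝ, 0 < b ∧ ∃ f : ℕ, ∀ g : ℕ, f ≤ g →
    Loc B₀ c₁ c₂ ρ γ ε₂ ε₃ b (Real.exp ((g : ℝ) ^ 2)) K₁ (g / K₁) g →
    Nonempty (SysI B₀ Γ s₀ 3 ΛI kt kN c₂ (g / K₁) g) ∨
      Nonempty (Sys B₀ K₁ PP Γ s₀ Λ kN c₂ ρ ε₂ (c₂ / 40) (g / K₁) g)

/-- the local part from the two cases -/
theorem noLoc_of (hI : CaseI) (hII : CaseII) (hs : HSplit) (B₀ : ℕ) (c₁ c₂ ρ γ : ℝ)
    (hB : 2 ≤ B₀) (hc₁ : 0 < c₁) (hc₂ : 0 < c₂) (hρ : 0 < ρ) (hρ1 : ρ < 1) (hγ : 0 ≤ γ)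
    (hγ1 : γ < 1) : NoLoc B₀ c₁ c₂ ρ γ := by
  obtain ⟨ε₂, hε₂, Mb, hMb, H2⟩ := hII B₀ c₂ ρ hB hc₂ hρ hρ1
  obtain ⟨Γ₁, σ₁, H1⟩ := hI B₀ 3 c₂ hB hc₂
  obtain ⟨PP₃, Γ₃, σ₃, H3⟩ := hs B₀ c₁ c₂ ρ γ hB hc₁ hc₂ hρ hρ1 hγ hγ1
  refine ⟨ε₂, hε₂, Mb, hMb, fun g => Real.exp ((g : ℝ) ^ 2), fun g => Real.exp_pos _,
    fun K hK => ?_⟩
  have hK₁ : Mb ≤ Mb * K := Nat.le_mul_of_pos_right _ hK
  obtain ⟨PP₂, Γ₂, σ₂, H2⟩ := H2 (Mb * K) hK₁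
  obtain ⟨ΛI, H3⟩ := H3 ε₂ (Mb * K) hε₂ (by omega) (max PP₂ PP₃) (le_max_right _ _)
    (max Γ₁ (max Γ₂ Γ₃)) ((le_max_right _ _).trans (le_max_right _ _))
    (max σ₁ (max σ₂ σ₃)) ((le_max_right _ _).trans (le_max_right _ _))
  obtain ⟨kt, H1⟩ := H1 (max Γ₁ (max Γ₂ Γ₃)) (le_max_left _ _) (max σ₁ (max σ₂ σ₃))
    (le_max_left _ _) ΛI
  obtain ⟨k₁, H1⟩ := H1 kt le_rfl
  obtain ⟨Λ, H3⟩ := H3 kt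
  obtain ⟨k₂, H2⟩ := H2 (max PP₂ PP₃) (le_max_left _ _)
    (max Γ₁ (max Γ₂ Γ₃)) ((le_max_left _ _).trans (le_max_right _ _))
    (max σ₁ (max σ₂ σ₃)) ((le_max_left _ _).trans (le_max_right _ _)) Λ
  obtain ⟨g₁, H1⟩ := H1 (max k₁ k₂) (le_max_left _ _)
  obtain ⟨g₂, H2⟩ := H2 (max k₁ k₂) (le_max_right _ _)
  obtain ⟨ε₃, hε₃, b, hb, f, H3⟩ := H3 (max k₁ k₂)
  refine ⟨ε₃, hε₃, b, hb, max g₁ (max g₂ f), fun g hg L => ?_⟩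
  rcases H3 g (((le_max_right _ _).trans (le_max_right _ _)).trans hg) L with ⟨⟨S⟩⟩ | ⟨⟨S⟩⟩
  · exact H1 _ g ((le_max_left _ _).trans hg) S
  · exact H2 _ g (((le_max_left _ _).trans (le_max_right _ _)).trans hg) S

/-- **the exponent is one** -/
theorem beta_of (hI : CaseI) (hII : CaseII) (hs : HSplit) : ¬ 1 < beta :=
  not_one_lt_beta (noLoc_of hI hII hs)

/-- **the bounds for the halving lines and the `k`-sets** -/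
theorem final_of (hI : CaseI) (hII : CaseII) (hs : HSplit) :
    (∀ ε : ℝ, 0 < ε → ∃ C : ℝ, ∀ P : Finset (ℝ × ℝ), GenPos P →
      (halvingNumber P : ℝ) ≤ C * (P.card : ℝ) ^ (1 + ε)) ∧
    (∀ ε : ℝ, 0 < ε → ∃ C : ℝ, ∀ (P : Finset (ℝ × ℝ)) (k : ℕ), GenPos P → 1 ≤ k →
      k + 1 ≤ P.card → (kSetNumber P k : ℝ) ≤ C * P.card * (k : ℝ) ^ ε) :=
  final_of_beta (not_lt.1 (beta_of hI hII hs))

end Vale.Agent.P065.H859
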