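import Vale.Agent.P065.H859.Fam

/-!
# P065: cutting a level into windows, submultiplicativity, the exponent (helper859)
-/

set_option autoImplicit false

namespace Vale.Agent.P065.H859

open Finset Vale.Agent.P065.UB Vale.Agent.P065.UB.RankAux

theorem Tch_empty {P : Finset Pt} {k : ℕ} {I : Set ℝ} (h : ∀ e ∈ Ed P k, sl e.1 e.2 ∉ I) :
    Tch P k P I = ∅ := by
  rw [eq_empty_iff_forall_notMem]
  intro v hv
  obtain ⟨e, h1, h2, -⟩ := mem_Tch_self.1 hv
  exact h e h1 h2

theorem card_Tch_singleton {P : Finset Pt} (hP : Good P) {k : ℕ} {I : Set ℝ} {s : ℝ}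
    (hI : I ⊆ {s}) : #(Tch P k P I) ≤ 2 := by
  classical
  by_cases hex : ∃ e ∈ Ed P k, sl e.1 e.2 ∈ I
  · obtain ⟨⟨p, q⟩, h1, h2⟩ := hex
    have hsub : Tch P k P I ⊆ {p, q} := by
      intro v hv
      obtain ⟨⟨p', q'⟩, g1, g2, g3⟩ := mem_Tch_self.1 hv
      have e1 : sl p q = s := hI h2
      have e2 : sl p' q' = s := hI g2
      obtain ⟨rfl, rfl⟩ := Ed_unique hP h1 g1 (e1.trans e2.symm)
      rw [mem_insert, mem_singleton]
      rcases g3 with g3 | g3
      · exact Or.inl g3.symm
      · exact Or.inr g3.symm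
    exact (card_le_card hsub).trans card_le_two
  · rw [Tch_empty fun e he hes => hex ⟨e, he, hes⟩]
    simp

/-- **cutting lemma**: a window is cut into at most `2 q + 1` pieces, each touching at most `W`
points, where `q` is the size of a family of windows touching more than `W` points. -/
theorem exists_cut {P : Finset Pt} (hP : Good P) {k W : ℕ} (hW : 2 ≤ W) :
    ∀ (n : ℕ) (J : Set ℝ), J.OrdConnected → #(EdIn P k P J) ≤ n →
      ∃ (q : ℕ) (c : ℝ → ℕ) (I : ℕ → Set ℝ), Monotone c ∧ (∀ x, c x ≤ 2 * q) ∧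
        (∀ j, #(Tch P k P (J ∩ c ⁻¹' {j})) ≤ W) ∧ IsFam P k (W + 1) (range q) I ∧
        ∀ i < q, I i ⊆ J := by
  classical
  intro n
  induction n using Nat.strong_induction_on with
  | _ n ih =>
  intro J hJ hn
  by_cases hT : #(Tch P k P J) ≤ W
  · refine ⟨0, fun _ => 0, fun _ => ∅, monotone_const, by simp, ?_, ?_, by simp⟩
    · intro j
      exact (card_le_card (Tch_mono Set.inter_subset_left)).trans hT
    · constructor <;> intro i hi <;> simp at hi
  push Not at hT
  -- the first time at which more than `W` points have been touched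
  set S : Finset ℝ := (EdIn P k P J).image fun e => sl e.1 e.2 with hS
  set S' : Finset ℝ := {s ∈ S | W < #(Tch P k P (J ∩ Set.Iic s))} with hS'
  have hmemS : ∀ e ∈ Ed P k, sl e.1 e.2 ∈ J → sl e.1 e.2 ∈ S := fun e he hes =>
    mem_image_of_mem _ (mem_EdIn_self.2 ⟨he, hes⟩)
  have hSJ : ∀ s ∈ S, s ∈ J := by
    intro s hs
    obtain ⟨e, he, rfl⟩ := mem_image.1 hs
    exact (mem_EdIn_self.1 he).2
  have hSne : S.Nonempty := by
    rw [nonempty_iff_ne_empty]
    intro h0
    have : Tch P k P J = ∅ := Tch_empty fun e he hes => by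
      have := hmemS e he hes
      rw [h0] at this
      exact notMem_empty _ this
    rw [this, card_empty] at hT
    omega
  have hne : S'.Nonempty := by
    refine ⟨S.max' hSne, ?_⟩
    rw [hS', mem_filter]
    refine ⟨max'_mem _ _, hT.trans_le (card_le_card ?_)⟩
    intro v hv
    obtain ⟨e, h1, h2, h3⟩ := mem_Tch_self.1 hv
    exact mem_Tch_self.2 ⟨e, h1, ⟨h2, le_max' _ _ (hmemS e h1 h2)⟩, h3⟩
  set s₀ := S'.min' hne with hs₀
  have hs₀S' : s₀ ∈ S' := min'_mem _ _
  have hs₀S : s₀ ∈ S := (mem_filter.1 hs₀S').1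
  have hs₀J : s₀ ∈ J := hSJ s₀ hs₀S
  have hs₀W : W < #(Tch P k P (J ∩ Set.Iic s₀)) := (mem_filter.1 hs₀S').2
  have hlow : #(Tch P k P (J ∩ Set.Iio s₀)) ≤ W := by
    by_cases hex : (S.filter fun s => s < s₀).Nonempty
    · set s₁ := (S.filter fun s => s < s₀).max' hex with hs₁
      have h1 := mem_filter.1 ((S.filter fun s => s < s₀).max'_mem hex)
      rw [← hs₁] at h1
      have h2 : s₁ ∉ S' := fun h => absurd (min'_le S' s₁ h) (not_le.2 h1.2)
      have h3 : #(Tch P k P (J ∩ Set.Iic s₁)) ≤ W := by
        by_contra h4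
        exact h2 (mem_filter.2 ⟨h1.1, not_le.1 h4⟩)
      refine (card_le_card ?_).trans h3
      intro v hv
      obtain ⟨e, g1, g2, g3⟩ := mem_Tch_self.1 hv
      refine mem_Tch_self.2 ⟨e, g1, ⟨g2.1, ?_⟩, g3⟩
      exact le_max' _ _ (mem_filter.2 ⟨hmemS e g1 g2.1, g2.2⟩)
    · rw [Tch_empty, card_empty]
      · omega
      · intro e he hes
        exact hex ⟨_, mem_filter.2 ⟨hmemS e he hes.1, hes.2⟩⟩
  have hlt : #(EdIn P k P (J ∩ Set.Ioi s₀)) < n := by
    refine lt_of_lt_of_le ?_ hn
    apply card_lt_card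
    rw [ssubset_iff_of_subset]
    · obtain ⟨e, he, hes⟩ := mem_image.1 hs₀S
      refine ⟨e, he, fun h => ?_⟩
      have := (mem_EdIn_self.1 h).2.2
      simp only [Set.mem_Ioi] at this
      rw [hes] at this
      exact lt_irrefl _ this
    · intro e he
      rw [mem_EdIn_self] at he ⊢
      exact ⟨he.1, he.2.1⟩
  obtain ⟨q, c, I, c1, c2, c3, c4, c5⟩ :=
    ih _ hlt (J ∩ Set.Ioi s₀) (hJ.inter Set.ordConnected_Ioi) le_rfl
  refine ⟨q + 1, fun x => if x < s₀ then 0 else if x = s₀ then 1 else c x + 2,
    fun i => if i = 0 then J ∩ Set.Iic s₀ else I (i - 1), ?_, ?_, ?_, ?_, ?_⟩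
  · intro x y hxy
    simp only
    by_cases hx : x < s₀
    · rw [if_pos hx]; exact Nat.zero_le _
    · have hy : ¬ y < s₀ := fun h => hx (hxy.trans_lt h)
      rw [if_neg hx, if_neg hy]
      by_cases hx' : x = s₀
      · rw [if_pos hx']
        split_ifs <;> omega
      · have hy' : y ≠ s₀ := by
          rintro rfl
          exact hx (lt_of_le_of_ne hxy hx')
        rw [if_neg hx', if_neg hy']
        exact Nat.add_le_add_right (c1 hxy) 2
  · intro x
    have := c2 x
    simp only
    split_ifs <;> omega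
  · intro j
    rcases j with _ | _ | j
    · refine (card_le_card (Tch_mono ?_)).trans hlow
      rintro x ⟨hxJ, hx⟩
      refine ⟨hxJ, ?_⟩
      simp only [Set.mem_preimage, Set.mem_singleton_iff] at hx
      by_contra hx'
      rw [Set.mem_Iio] at hx'
      rw [if_neg hx'] at hx
      split_ifs at hx
    · refine (card_Tch_singleton hP (s := s₀) ?_).trans hW
      rintro x ⟨hxJ, hx⟩
      simp only [Set.mem_preimage, Set.mem_singleton_iff] at hx
      rw [Set.mem_singleton_iff]
      by_contra hx'
      rw [if_neg hx'] at hx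
      split_ifs at hx
      omega
    · refine (card_le_card (Tch_mono ?_)).trans (c3 j)
      rintro x ⟨hxJ, hx⟩
      simp only [Set.mem_preimage, Set.mem_singleton_iff] at hx
      by_cases g1 : x < s₀
      · rw [if_pos g1] at hx
        omega
      by_cases g2 : x = s₀
      · rw [if_neg g1, if_pos g2] at hx
        omega
      rw [if_neg g1, if_neg g2] at hx
      refine ⟨⟨hxJ, lt_of_le_of_ne (not_lt.1 g1) (Ne.symm g2)⟩, ?_⟩
      rw [Set.mem_preimage, Set.mem_singleton_iff]
      omega
  · refine ⟨?_, ?_, ?_⟩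
    · intro i hi
      rw [mem_range] at hi
      split_ifs with h
      · exact hJ.inter Set.ordConnected_Iic
      · exact c4.conn _ (mem_range.2 (by omega))
    · have hd : ∀ j, j ≠ 0 → j < q + 1 → Disjoint (J ∩ Set.Iic s₀) (I (j - 1)) := by
        intro j hj hjq
        rw [Set.disjoint_left]
        rintro x ⟨-, hx⟩ hx'
        have := (c5 (j - 1) (by omega) hx').2
        simp only [Set.mem_Iic, Set.mem_Ioi] at hx this
        exact absurd hx (not_le.2 this)
      intro i hi j hj hij
      rw [mem_range] at hi hj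
      split_ifs with h h'
      · exact absurd (h.trans h'.symm) hij
      · exact hd j h' hj
      · exact (hd i h hi).symm
      · exact c4.disj _ (mem_range.2 (by omega)) _ (mem_range.2 (by omega)) (by omega)
    · intro i hi
      rw [mem_range] at hi
      split_ifs with h
      · exact hs₀W
      · exact c4.card _ (mem_range.2 (by omega))
  · intro i hi
    simp only
    split_ifs with h
    · exact Set.inter_subset_left
    · exact (c5 (i - 1) (by omega)).trans Set.inter_subset_left

/-- submultiplicativity of the extremal function -/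
theorem F_le_mul {N w W : ℕ} (hw : 1 ≤ w) (hW : 2 ≤ W) :
    F N w ≤ (2 * F N (W + 1) + 1) * (F W w + 1) := by
  classical
  obtain ⟨P, k, I, hP, hN, hI⟩ := F_mem (N := N) (w := w) hw
  obtain ⟨q, c, I', c1, c2, c3, c4, -⟩ := exists_cut hP (k := k) hW _ Set.univ
    Set.ordConnected_univ le_rfl
  have hq : q ≤ F N (W + 1) := by
    have := card_le_F hP (by omega) c4 hN
    rwa [card_range] at this
  set p := F N w with hp
  -- good windows: one piece only
  let G : Finset ℕ := {i ∈ range p | ∃ j, ∀ e ∈ Ed P k, sl e.1 e.2 ∈ I i → c (sl e.1 e.2) = j}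
  let B : Finset ℕ := {i ∈ range p | ¬ ∃ j, ∀ e ∈ Ed P k, sl e.1 e.2 ∈ I i → c (sl e.1 e.2) = j}
  have hGB : #G + #B = p := by
    have := card_filter_add_card_filter_not (s := range p)
      (fun i => ∃ j, ∀ e ∈ Ed P k, sl e.1 e.2 ∈ I i → c (sl e.1 e.2) = j)
    rw [card_range] at this
    exact this
  have hne : ∀ i ∈ range p, ∃ e ∈ Ed P k, sl e.1 e.2 ∈ I i := by
    intro i hi
    have h1 := hI.card i hi
    have : (Tch P k P (I i)).Nonempty := card_pos.1 (by omega)
    obtain ⟨v, hv⟩ := this
    obtain ⟨e, h1, h2, -⟩ := mem_Tch_self.1 hv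
    exact ⟨e, h1, h2⟩
  -- bad windows
  have hB : #B ≤ 2 * q := by
    have hex : ∀ i ∈ B, ∃ x y : ℝ, x ∈ I i ∧ y ∈ I i ∧ c x < c y := by
      intro i hi
      have h1 := mem_filter.1 hi
      obtain ⟨e, he, hes⟩ := hne i h1.1
      have h2 := h1.2
      push Not at h2
      obtain ⟨e', he', hes', hne'⟩ := h2 (c (sl e.1 e.2))
      rcases lt_or_gt_of_ne hne' with h | h
      · exact ⟨_, _, hes', hes, h⟩
      · exact ⟨_, _, hes, hes', h⟩
    choose! x y hx hy hxy using hex
    have hinj : Set.InjOn (fun i => c (x i)) (B : Set ℕ) := by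
      -- different windows are ordered
      have key : ∀ i ∈ B, ∀ j ∈ B, x i < x j → i ≠ j → c (x i) ≠ c (x j) := by
        intro i hi j hj hlt hij heq
        have hd := hI.disj i (mem_filter.1 hi).1 j (mem_filter.1 hj).1 hij
        have hyj : y i ≤ x j := by
          by_contra h
          push Not at h
          have h3 : x j ∈ I i := (hI.conn i (mem_filter.1 hi).1).out (hx i hi) (hy i hi)
            ⟨hlt.le, h.le⟩
          exact Set.disjoint_left.1 hd h3 (hx j hj)
        have := c1 hyj
        have := hxy i hi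
        omega
      intro i hi j hj heq
      simp only at heq
      by_contra hij
      rcases lt_trichotomy (x i) (x j) with h | h | h
      · exact key i hi j hj h hij heq
      · have hd := hI.disj i (mem_filter.1 (mem_coe.1 hi)).1 j (mem_filter.1 (mem_coe.1 hj)).1 hij
        exact Set.disjoint_left.1 hd (hx i hi) (h ▸ hx j hj)
      · exact key j hj i hi h (Ne.symm hij) heq.symm
    have hmap : ∀ i ∈ B, c (x i) ∈ range (2 * q) := by
      intro i hi
      rw [mem_range]
      exact (hxy i hi).trans_le (c2 _)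
    have := card_le_card_of_injOn _ hmap hinj
    rwa [card_range] at this
  -- good windows
  have hG : #G ≤ (2 * q + 1) * F W w := by
    have hex : ∀ i ∈ G, ∃ j, ∀ e ∈ Ed P k, sl e.1 e.2 ∈ I i → c (sl e.1 e.2) = j := fun i hi =>
      (mem_filter.1 hi).2
    choose! j hj using hex
    have hmap : ∀ i ∈ G, j i ∈ range (2 * q + 1) := by
      intro i hi
      obtain ⟨e, he, hes⟩ := hne i (mem_filter.1 hi).1
      rw [mem_range, ← hj i hi e he hes]
      exact Nat.lt_succ_of_le (c2 _)
    rw [card_eq_sum_card_fiberwise hmap]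
    calc ∑ b ∈ range (2 * q + 1), #{i ∈ G | j i = b}
        ≤ ∑ _b ∈ range (2 * q + 1), F W w := by
          apply sum_le_sum
          intro b _
          have hfam : IsFam P k w ({i ∈ G | j i = b}) (fun i => I i ∩ c ⁻¹' {b}) := by
            have hr : ∀ i ∈ ({i ∈ G | j i = b} : Finset ℕ), i ∈ range p ∧ i ∈ G ∧ j i = b := by
              intro i hi
              have h1 := mem_filter.1 hi
              exact ⟨(mem_filter.1 h1.1).1, h1.1, h1.2⟩
            refine ⟨?_, ?_, ?_⟩
            · intro i hi
              refine (hI.conn i (hr i hi).1).inter ?_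
              exact (Set.ordConnected_singleton (a := b)).preimage_mono c1
            · intro i hi i' hi' hii
              exact (hI.disj i (hr i hi).1 i' (hr i' hi').1 hii).mono Set.inter_subset_left
                Set.inter_subset_left
            · intro i hi
              refine (hI.card i (hr i hi).1).trans (card_le_card ?_)
              intro v hv
              obtain ⟨e, h1, h2, h3⟩ := mem_Tch_self.1 hv
              refine mem_Tch_self.2 ⟨e, h1, ⟨h2, ?_⟩, h3⟩
              rw [Set.mem_preimage, Set.mem_singleton_iff, ← (hr i hi).2.2]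
              exact hj i (hr i hi).2.1 e h1 h2
          refine card_le_F_window hP hw (J := c ⁻¹' {b}) ?_ hfam
            (fun i _ => Set.inter_subset_right) ?_
          · exact (Set.ordConnected_singleton (a := b)).preimage_mono c1
          · have := c3 b
            rwa [Set.univ_inter] at this
      _ = (2 * q + 1) * F W w := by rw [sum_const, card_range, smul_eq_mul]
  calc p = #G + #B := hGB.symm
    _ ≤ (2 * q + 1) * F W w + 2 * q := Nat.add_le_add hG hB
    _ ≤ (2 * q + 1) * (F W w + 1) := by nlinarith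
    _ ≤ (2 * F N (W + 1) + 1) * (F W w + 1) := Nat.mul_le_mul_right _ (by omega)

end Vale.Agent.P065.H859
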