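import Vale.Agent.P065.H859.Cut
import Mathlib.Analysis.Subadditive

/-!
# P065: the scale-free extremal function and its exponent (helper859)
-/

set_option autoImplicit false

namespace Vale.Agent.P065.H859

open Finset Vale.Agent.P065.UB Vale.Agent.P065.UB.RankAux Filter Topology

def FsSizes (R : ℕ) : Set ℕ := {p | ∃ N w : ℕ, 1 ≤ w ∧ N ≤ R * w ∧ p = F N w}

/-- the scale-free extremal function: the supremum of `F (N, w)` over `N ≤ R w` -/
noncomputable def Fs (R : ℕ) : ℕ := sSup (FsSizes R)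

theorem fsSizes_le {R : ℕ} : ∀ p ∈ FsSizes R, p ≤ 64 * R ^ 2 := by
  rintro p ⟨N, w, hw, hN, rfl⟩
  have h1 := F_mul_sq_le (N := N) hw
  have h2 : 64 * N ^ 2 ≤ 64 * R ^ 2 * w ^ 2 := by
    calc 64 * N ^ 2 ≤ 64 * (R * w) ^ 2 := Nat.mul_le_mul_left _ (Nat.pow_le_pow_left hN 2)
      _ = 64 * R ^ 2 * w ^ 2 := by ring
  have h3 : 0 < w ^ 2 := by positivity
  exact Nat.le_of_mul_le_mul_right (h1.trans h2) h3

theorem fsSizes_bddAbove (R : ℕ) : BddAbove (FsSizes R) := ⟨64 * R ^ 2, fsSizes_le⟩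

theorem F_le_Fs {N w R : ℕ} (hw : 1 ≤ w) (h : N ≤ R * w) : F N w ≤ Fs R :=
  le_csSup (fsSizes_bddAbove R) ⟨N, w, hw, h, rfl⟩

theorem Fs_mem (R : ℕ) : Fs R ∈ FsSizes R :=
  Nat.sSup_mem ⟨_, R, 1, le_rfl, by omega, rfl⟩ (fsSizes_bddAbove R)

theorem Fs_le (R : ℕ) : Fs R ≤ 64 * R ^ 2 := fsSizes_le _ (Fs_mem R)

theorem F_two_two : 1 ≤ F 2 2 := by
  classical
  have hgood : Good ({(0, 0), (1, 0)} : Finset Pt) := by
    constructor
    · intro p hp q hq h
      simp only [mem_insert, mem_singleton] at hp hq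
      rcases hp with rfl | rfl <;> rcases hq with rfl | rfl <;> simp at h ⊢
    · intro m a ha b hb c hc hab hac hbc
      exfalso
      simp only [mem_insert, mem_singleton] at ha hb hc
      rcases ha with rfl | rfl <;> rcases hb with rfl | rfl <;> rcases hc with rfl | rfl <;>
        first | exact hab rfl | exact hac rfl | exact hbc rfl
  have hE : (((0, 0), (1, 0)) : Pt × Pt) ∈ Ed ({(0, 0), (1, 0)} : Finset Pt) 0 := by
    rw [mem_Ed]
    refine ⟨by simp, by simp, by norm_num, ?_⟩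
    rw [card_eq_zero, filter_eq_empty_iff]
    intro v hv
    simp only [mem_insert, mem_singleton] at hv
    rcases hv with rfl | rfl <;> unfold ht sl <;> norm_num
  have h1 := card_Ed_le_F hgood 0 (N := 2) card_le_two
  exact (card_pos.2 ⟨_, hE⟩).trans_le h1

theorem one_le_Fs {R : ℕ} (hR : 1 ≤ R) : 1 ≤ Fs R :=
  F_two_two.trans (F_le_Fs (by norm_num) (by omega))

theorem Fs_mul {R R' : ℕ} (hR' : 2 ≤ R') : Fs (R * R') ≤ (2 * Fs R + 1) * (Fs R' + 1) := by
  obtain ⟨N, w, hw, hN, h⟩ := Fs_mem (R * R')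
  rw [h]
  have hW : 2 ≤ R' * w := by nlinarith
  refine (F_le_mul hw hW).trans ?_
  have h1 : F N (R' * w + 1) ≤ Fs R :=
    (F_mono le_rfl (by omega) (Nat.le_succ _)).trans
      (F_le_Fs (w := R' * w) (by omega) (by rw [← mul_assoc]; exact hN))
  have h2 : F (R' * w) w ≤ Fs R' := F_le_Fs hw le_rfl
  exact Nat.mul_le_mul (by omega) (by omega)

/-- `logb 2 (6 Fs (2 ^ j))` -/
noncomputable def lF (j : ℕ) : ℝ := Real.logb 2 (6 * Fs (2 ^ j))

theorem lF_sub : Subadditive lF := by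
  intro i j
  have hi : (1 : ℝ) ≤ Fs (2 ^ i) := by exact_mod_cast one_le_Fs Nat.one_le_two_pow
  have hj : (1 : ℝ) ≤ Fs (2 ^ j) := by exact_mod_cast one_le_Fs Nat.one_le_two_pow
  unfold lF
  rw [← Real.logb_mul (by positivity) (by positivity)]
  apply Real.logb_le_logb_of_le (by norm_num)
  · have : (1 : ℝ) ≤ Fs (2 ^ (i + j)) := by exact_mod_cast one_le_Fs Nat.one_le_two_pow
    positivity
  rcases Nat.eq_zero_or_pos j with rfl | hj0
  · rw [Nat.add_zero]
    nlinarith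
  · have h1 := Fs_mul (R := 2 ^ i) (R' := 2 ^ j) (by
      calc 2 = 2 ^ 1 := (pow_one 2).symm
        _ ≤ 2 ^ j := Nat.pow_le_pow_right (by norm_num) hj0)
    rw [← pow_add] at h1
    have h2 : (Fs (2 ^ (i + j)) : ℝ) ≤ (2 * Fs (2 ^ i) + 1) * (Fs (2 ^ j) + 1) := by
      exact_mod_cast h1
    have h3 : ((2 * Fs (2 ^ i) + 1) * (Fs (2 ^ j) + 1) : ℝ) ≤
        (3 * Fs (2 ^ i)) * (2 * Fs (2 ^ j)) := by
      apply mul_le_mul <;> linarith
    linarith

theorem lF_nonneg (j : ℕ) : 0 ≤ lF j := by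
  have hj : (1 : ℝ) ≤ Fs (2 ^ j) := by exact_mod_cast one_le_Fs Nat.one_le_two_pow
  exact Real.logb_nonneg (by norm_num) (by linarith)

theorem lF_bdd : BddBelow (Set.range fun n : ℕ => lF n / n) := by
  refine ⟨0, ?_⟩
  rintro _ ⟨n, rfl⟩
  have := lF_nonneg n
  positivity

/-- the exponent of the extremal function -/
noncomputable def beta : ℝ := lF_sub.lim

theorem beta_mul_le (j : ℕ) : beta * j ≤ lF j := by
  rcases Nat.eq_zero_or_pos j with rfl | hj
  · have := lF_nonneg 0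
    simpa using this
  · have h := lF_sub.lim_le_div lF_bdd (n := j) (by omega)
    have hj' : (0 : ℝ) < j := by exact_mod_cast hj
    rw [le_div_iff₀ hj'] at h
    exact h

theorem rpow_beta_le (j : ℕ) : (2 : ℝ) ^ (beta * j) ≤ 6 * Fs (2 ^ j) := by
  have hj : (1 : ℝ) ≤ Fs (2 ^ j) := by exact_mod_cast one_le_Fs Nat.one_le_two_pow
  have h1 := Real.rpow_le_rpow_of_exponent_le (x := 2) (by norm_num) (beta_mul_le j)
  have h2 : (2 : ℝ) ^ lF j = 6 * Fs (2 ^ j) := by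
    unfold lF
    exact Real.rpow_logb (by norm_num) (by norm_num) (by positivity)
  rwa [h2] at h1

theorem lF_le_of_large {ε : ℝ} (hε : 0 < ε) : ∃ J₀ : ℕ, ∀ j, J₀ ≤ j → lF j ≤ (beta + ε) * j := by
  have h := lF_sub.tendsto_lim lF_bdd
  have h1 : ∀ᶠ n : ℕ in atTop, lF n / n < beta + ε :=
    h.eventually_lt_const (by unfold beta; linarith)
  obtain ⟨J₀, hJ⟩ := eventually_atTop.1 h1
  refine ⟨max J₀ 1, fun j hj => ?_⟩
  have h2 := hJ j ((le_max_left _ _).trans hj)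
  have h3 : (0 : ℝ) < j := by
    have : 1 ≤ j := (le_max_right _ _).trans hj
    exact_mod_cast this
  rw [div_lt_iff₀ h3] at h2
  exact h2.le

theorem Fs_pow_le {ε : ℝ} (hε : 0 < ε) : ∃ J₀ : ℕ, ∀ j, J₀ ≤ j →
    (Fs (2 ^ j) : ℝ) ≤ 2 ^ ((beta + ε) * j) := by
  obtain ⟨J₀, h⟩ := lF_le_of_large hε
  refine ⟨J₀, fun j hj => ?_⟩
  have hF : (1 : ℝ) ≤ Fs (2 ^ j) := by exact_mod_cast one_le_Fs Nat.one_le_two_pow
  have h2 : (2 : ℝ) ^ lF j = 6 * Fs (2 ^ j) := by
    unfold lF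
    exact Real.rpow_logb (by norm_num) (by norm_num) (by positivity)
  have h1 := Real.rpow_le_rpow_of_exponent_le (x := 2) (by norm_num) (h j hj)
  rw [h2] at h1
  linarith

theorem beta_nonneg : 0 ≤ beta := by
  refine ge_of_tendsto (lF_sub.tendsto_lim lF_bdd) (Eventually.of_forall fun n => ?_)
  have := lF_nonneg n
  positivity

/-- polynomial bound for all ratios -/
theorem exists_Fs_le {ε : ℝ} (hε : 0 < ε) : ∃ C : ℝ, 1 ≤ C ∧ ∀ j : ℕ,
    (Fs (2 ^ j) : ℝ) ≤ C * 2 ^ ((beta + ε) * j) := by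
  obtain ⟨J₀, h⟩ := Fs_pow_le hε
  refine ⟨max 1 (64 * (2 ^ J₀) ^ 2), le_max_left _ _, fun j => ?_⟩
  have hb := beta_nonneg
  have hpow : (1 : ℝ) ≤ 2 ^ ((beta + ε) * j) :=
    Real.one_le_rpow (by norm_num) (by positivity)
  rcases le_total J₀ j with hj | hj
  · calc (Fs (2 ^ j) : ℝ) ≤ 2 ^ ((beta + ε) * j) := h j hj
      _ ≤ _ := le_mul_of_one_le_left (by positivity) (le_max_left _ _)
  · have h1 : (Fs (2 ^ j) : ℝ) ≤ 64 * (2 ^ J₀) ^ 2 := by
      have h2 : Fs (2 ^ j) ≤ 64 * (2 ^ J₀) ^ 2 :=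
        (Fs_le _).trans (Nat.mul_le_mul_left _ (Nat.pow_le_pow_left
          (Nat.pow_le_pow_right (by norm_num) hj) 2))
      exact_mod_cast h2
    calc (Fs (2 ^ j) : ℝ) ≤ 64 * (2 ^ J₀) ^ 2 := h1
      _ ≤ max 1 (64 * (2 ^ J₀) ^ 2) := le_max_right _ _
      _ ≤ _ := le_mul_of_one_le_right (by positivity) hpow

/-- the extremal function for all pairs: `F (N, w) ≤ C (N / w) ^ (β + ε)` -/
theorem exists_F_le {ε : ℝ} (hε : 0 < ε) : ∃ C : ℝ, 1 ≤ C ∧ ∀ N w : ℕ, 1 ≤ w → w ≤ N →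
    (F N w : ℝ) ≤ C * ((N : ℝ) / w) ^ (beta + ε) := by
  obtain ⟨C, hC, h⟩ := exists_Fs_le hε
  have hb := beta_nonneg
  have h2b : (1 : ℝ) ≤ 2 ^ (beta + ε) := Real.one_le_rpow (by norm_num) (by positivity)
  refine ⟨C * 2 ^ (beta + ε), ?_, fun N w hw hN => ?_⟩
  · nlinarith
  set j := Nat.clog 2 (Nat.ceil ((N : ℝ) / w)) with hj
  have hw' : (0 : ℝ) < w := by exact_mod_cast hw
  have hN' : (1 : ℝ) ≤ (N : ℝ) / w := by
    rw [le_div_iff₀ hw', one_mul]
    exact_mod_cast hN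
  have h1 : (N : ℝ) ≤ 2 ^ j * w := by
    have h2 : Nat.ceil ((N : ℝ) / w) ≤ 2 ^ j := Nat.le_pow_clog (by norm_num) _
    have h3 : (N : ℝ) / w ≤ 2 ^ j := (Nat.le_ceil _).trans (by exact_mod_cast h2)
    rwa [div_le_iff₀ hw'] at h3
  have h1' : N ≤ 2 ^ j * w := by exact_mod_cast h1
  have h3 : (2 : ℝ) ^ j ≤ 2 * ((N : ℝ) / w) := by
    rcases Nat.eq_zero_or_pos j with h0 | hpos
    · rw [h0, pow_zero]; linarith
    · have h4 : 2 ^ (j - 1) < Nat.ceil ((N : ℝ) / w) := by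
        rw [← Nat.lt_clog_iff_pow_lt (by norm_num)]
        omega
      have h5 : ((2 ^ (j - 1) : ℕ) : ℝ) < (N : ℝ) / w := Nat.lt_ceil.1 h4
      push_cast at h5
      have h6 : (2 : ℝ) ^ j = 2 * 2 ^ (j - 1) := by
        rw [← pow_succ']
        congr 1
        omega
      rw [h6]
      linarith
  calc (F N w : ℝ) ≤ Fs (2 ^ j) := by exact_mod_cast F_le_Fs hw h1'
    _ ≤ C * 2 ^ ((beta + ε) * j) := h j
    _ = C * ((2 : ℝ) ^ j) ^ (beta + ε) := by
        rw [mul_comm (beta + ε) (j : ℝ), Real.rpow_mul (by norm_num), Real.rpow_natCast]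
    _ ≤ C * (2 * ((N : ℝ) / w)) ^ (beta + ε) := by
        apply mul_le_mul_of_nonneg_left _ (by linarith)
        exact Real.rpow_le_rpow (by positivity) h3 (by positivity)
    _ = C * 2 ^ (beta + ε) * ((N : ℝ) / w) ^ (beta + ε) := by
        rw [Real.mul_rpow (by norm_num) (by positivity), mul_assoc]

/-- the number of `k`-edges when the exponent is at most `1` -/
theorem card_Ed_le_of_beta (hβ : beta ≤ 1) {ε : ℝ} (hε : 0 < ε) : ∃ C : ℝ, 1 ≤ C ∧
    ∀ (P : Finset Pt) (k : ℕ), Good P → (#(Ed P k) : ℝ) ≤ C * (#P : ℝ) ^ (1 + ε) := by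
  classical
  obtain ⟨C, hC, h⟩ := exists_F_le hε
  refine ⟨C, hC, fun P k hP => ?_⟩
  by_cases hE : (Ed P k).Nonempty
  · obtain ⟨⟨p, q⟩, he⟩ := hE
    have h0 := mem_Ed.1 he
    have hne : p ≠ q := by rintro rfl; exact lt_irrefl _ h0.2.2.1
    have h2 : 2 ≤ #P := by
      calc 2 = #({p, q} : Finset Pt) := (card_pair hne).symm
        _ ≤ #P := card_le_card (by
          intro v hv
          rw [mem_insert, mem_singleton] at hv
          rcases hv with rfl | rfl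
          · exact h0.1
          · exact h0.2.1)
    have h1 : (#(Ed P k) : ℝ) ≤ F #P 2 := by exact_mod_cast card_Ed_le_F hP k le_rfl
    have h3 := h #P 2 (by norm_num) h2
    have hP2 : (2 : ℝ) ≤ #P := by exact_mod_cast h2
    have hb := beta_nonneg
    calc (#(Ed P k) : ℝ) ≤ F #P 2 := h1
      _ ≤ C * ((#P : ℝ) / (2 : ℕ)) ^ (beta + ε) := h3
      _ ≤ C * ((#P : ℝ)) ^ (beta + ε) := by
          apply mul_le_mul_of_nonneg_left _ (by linarith)
          apply Real.rpow_le_rpow (by positivity) _ (by positivity)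
          push_cast
          linarith
      _ ≤ C * (#P : ℝ) ^ (1 + ε) := by
          apply mul_le_mul_of_nonneg_left _ (by linarith)
          exact Real.rpow_le_rpow_of_exponent_le (by linarith) (by linarith)
  · rw [not_nonempty_iff_eq_empty] at hE
    rw [hE, card_empty]
    push_cast
    positivity

end Vale.Agent.P065.H859
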