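import Vale.Agent.P065.H859.Tie
import Vale.Agent.P065.H859.Expo
import Vale.Agent.P065.H987.Size

/-!
# P065: the edge size of a set of events (helper859)

An event is a pair `(m, v)`. `RealE E Q κ`: every event `(m, v) ∈ E` is carried by a `κ`-edge of the
good set `Q` with slope `m` and end `v`. `ne E` is the least number of points of such a `Q`.
-/

set_option autoImplicit false

namespace Vale.Agent.P065.H859

open Finset Vale.Agent.P065.UB Vale.Agent.P065.UB.RankAux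

/-- there is a `κ`-edge of `Q` with slope `m` and end `v` -/
def EvE (Q : Finset Pt) (κ : ℕ) (m : ℝ) (v : Pt) : Prop :=
  ∃ e ∈ Ed Q κ, sl e.1 e.2 = m ∧ (e.1 = v ∨ e.2 = v)

/-- `(Q, κ)` carries the events `E` -/
def RealE (E : Finset (ℝ × Pt)) (Q : Finset Pt) (κ : ℕ) : Prop :=
  Good Q ∧ ∀ e ∈ E, EvE Q κ e.1 e.2

def IsRealE (E : Finset (ℝ × Pt)) : Prop := ∃ Q κ, RealE E Q κ

/-- the edge size -/
noncomputable def ne (E : Finset (ℝ × Pt)) : ℕ := sInf {n | ∃ Q κ, RealE E Q κ ∧ #Q = n}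

theorem ne_spec {E : Finset (ℝ × Pt)} (h : IsRealE E) : ∃ Q κ, RealE E Q κ ∧ #Q = ne E := by
  obtain ⟨Q, κ, hQ⟩ := h
  exact Nat.sInf_mem (s := {n | ∃ Q κ, RealE E Q κ ∧ #Q = n}) ⟨#Q, Q, κ, hQ, rfl⟩

theorem ne_le {E : Finset (ℝ × Pt)} {Q : Finset Pt} {κ : ℕ} (h : RealE E Q κ) : ne E ≤ #Q :=
  Nat.sInf_le ⟨Q, κ, h, rfl⟩

theorem RealE.mono {E E' : Finset (ℝ × Pt)} (h : E ⊆ E') {Q : Finset Pt} {κ : ℕ}
    (hQ : RealE E' Q κ) : RealE E Q κ := ⟨hQ.1, fun e he => hQ.2 e (h he)⟩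

theorem IsRealE.mono {E E' : Finset (ℝ × Pt)} (h : E ⊆ E') (hE : IsRealE E') : IsRealE E := by
  obtain ⟨Q, κ, hQ⟩ := hE
  exact ⟨Q, κ, hQ.mono h⟩

theorem ne_mono {E E' : Finset (ℝ × Pt)} (h : E ⊆ E') (hE : IsRealE E') : ne E ≤ ne E' := by
  obtain ⟨Q, κ, hQ, hc⟩ := ne_spec hE
  rw [← hc]
  exact ne_le (hQ.mono h)

theorem EvE.mem {Q : Finset Pt} {κ : ℕ} {m : ℝ} {v : Pt} (h : EvE Q κ m v) : v ∈ Q := by
  obtain ⟨⟨p, q⟩, he, -, h⟩ := h
  have := mem_Ed.1 he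
  rcases h with rfl | rfl
  · exact this.1
  · exact this.2.1

/-- the size is at least the number of points -/
theorem card_pts_le {E : Finset (ℝ × Pt)} (hE : IsRealE E) [DecidableEq Pt] :
    #(E.image Prod.snd) ≤ ne E := by
  obtain ⟨Q, κ, hQ, hc⟩ := ne_spec hE
  rw [← hc]
  apply card_le_card
  intro v hv
  obtain ⟨e, he, rfl⟩ := mem_image.1 hv
  exact (hQ.2 e he).mem

/-- a nonempty set of events has size at least `2` -/
theorem two_le_ne {E : Finset (ℝ × Pt)} (hE : IsRealE E) (hne : E.Nonempty) : 2 ≤ ne E := by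
  classical
  obtain ⟨Q, κ, hQ, hc⟩ := ne_spec hE
  rw [← hc]
  obtain ⟨e, he⟩ := hne
  obtain ⟨⟨p, q⟩, h1, -, -⟩ := hQ.2 e he
  have h2 := mem_Ed.1 h1
  have hpq : p ≠ q := by rintro rfl; exact lt_irrefl _ h2.2.2.1
  calc 2 = #({p, q} : Finset Pt) := (card_pair hpq).symm
    _ ≤ #Q := card_le_card (by
      intro v hv
      rw [mem_insert, mem_singleton] at hv
      rcases hv with rfl | rfl
      · exact h2.1
      · exact h2.2.1)

open Classical in
/-- the events of `E` in the window `I` -/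
noncomputable def evIn (E : Finset (ℝ × Pt)) (I : Set ℝ) : Finset (ℝ × Pt) := {e ∈ E | e.1 ∈ I}

theorem mem_evIn {E : Finset (ℝ × Pt)} {I : Set ℝ} {e : ℝ × Pt} :
    e ∈ evIn E I ↔ e ∈ E ∧ e.1 ∈ I := by
  classical
  unfold evIn
  exact mem_filter

theorem evIn_subset (E : Finset (ℝ × Pt)) (I : Set ℝ) : evIn E I ⊆ E := fun _ h =>
  (mem_evIn.1 h).1

/-- the events of a window are carried by the touched points of the window -/
theorem ne_evIn_le {E : Finset (ℝ × Pt)} {Q : Finset Pt} {κ : ℕ} (hQ : RealE E Q κ) {I : Set ℝ}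
    (hI : I.OrdConnected) : ne (evIn E I) ≤ #(Tch Q κ Q I) := by
  obtain ⟨k', hk⟩ := Vale.Agent.P065.H859.restrict hQ.1 (k := κ) hI
  refine ne_le (κ := k') ⟨good_subset hQ.1 (Tch_subset _ _ _ _), ?_⟩
  intro e he
  obtain ⟨h1, h2⟩ := mem_evIn.1 he
  obtain ⟨f, hf, hs, hv⟩ := hQ.2 e h1
  exact ⟨f, hk f hf (by rw [hs]; exact h2), hs, hv⟩

/-- **the number of windows of large size** -/
theorem card_windows_le {E : Finset (ℝ × Pt)} (hE : IsRealE E) {ι : Type*} {A : Finset ι}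
    {I : ι → Set ℝ} (hI : ∀ i ∈ A, (I i).OrdConnected)
    (hd : ∀ i ∈ A, ∀ j ∈ A, i ≠ j → Disjoint (I i) (I j)) {w : ℕ} (hw : 1 ≤ w)
    (hn : ∀ i ∈ A, w ≤ ne (evIn E (I i))) : #A ≤ F (ne E) w := by
  obtain ⟨Q, κ, hQ, hc⟩ := ne_spec hE
  refine card_le_F hQ.1 hw (k := κ) (I := I) ⟨hI, hd, ?_⟩ hc.le
  intro i hi
  exact (hn i hi).trans (ne_evIn_le hQ (hI i hi))

/-- events of a window of a level -/
theorem realE_of_edges {P : Finset Pt} (hP : Good P) {k : ℕ} {E : Finset (ℝ × Pt)}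
    (h : ∀ e ∈ E, EvE P k e.1 e.2) : RealE E P k := ⟨hP, h⟩

theorem EvE.touch {P : Finset Pt} {k : ℕ} {m : ℝ} {v : Pt} (h : EvE P k m v) :
    H987.Touch P k m v := by
  obtain ⟨e, he, hs, hv⟩ := h
  have := H987.touch_ends he
  rw [hs] at this
  rcases hv with rfl | rfl
  · exact this.1
  · exact this.2

/-- a touch event with a partner is an edge -/
theorem evE_of_partner {Q : Finset Pt} (hQ : Good Q) {κ : ℕ} {m : ℝ} {v u : Pt}
    (h : H987.Touch Q κ m v) (hu : u ∈ Q) (huv : u ≠ v) (ht' : ht m u = ht m v) :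
    EvE Q κ m v := by
  have hx : u.1 ≠ v.1 := fun h' => huv (hQ.xinj u hu v h.1 h')
  rcases lt_or_gt_of_ne hx with hlt | hlt
  · have hm : m = sl u v := (ht_eq_iff hlt m).1 ht'
    refine ⟨(u, v), mem_Ed.2 ⟨hu, h.1, hlt, ?_⟩, hm.symm, Or.inr rfl⟩
    rw [← hm, ht']
    exact h.2
  · have hm : m = sl v u := (ht_eq_iff hlt m).1 ht'.symm
    refine ⟨(v, u), mem_Ed.2 ⟨h.1, hu, hlt, ?_⟩, hm.symm, Or.inl rfl⟩
    rw [← hm]
    exact h.2

open Classical in
/-- the times of the events of `E` without partner in `Q` -/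
noncomputable def lone (E : Finset (ℝ × Pt)) (Q : Finset Pt) : Finset ℝ :=
  {e ∈ E | ∀ u ∈ Q, u ≠ e.2 → ht e.1 u ≠ ht e.1 e.2}.image Prod.fst

/-- **from touch events to edges**: two points for every lonely event -/
theorem ne_le_of_touch {E : Finset (ℝ × Pt)} {Q : Finset Pt} {κ : ℕ} (hQ : H987.Real E Q κ) :
    ∃ Q' κ', RealE E Q' κ' ∧ #Q' ≤ #Q + 2 * #(lone E Q) := by
  classical
  have hex : ∀ m ∈ lone E Q, ∃ v, (m, v) ∈ E ∧ ∀ u ∈ Q, u ≠ v → ht m u ≠ ht m v := by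
    intro m hm
    obtain ⟨e, he, rfl⟩ := mem_image.1 hm
    have h1 := mem_filter.1 he
    exact ⟨e.2, h1.1, h1.2⟩
  choose! v hvE hvno using hex
  have hBA : lone E Q ⊆ E.image Prod.fst := by
    intro m hm
    exact mem_image.2 ⟨(m, v m), hvE m hm, rfl⟩
  obtain ⟨W, w1, w2, w3, w4, w5, -⟩ := exists_tie Q hQ.1 (E.image Prod.fst) (lone E Q) hBA v
    (fun m hm => (hQ.2 _ (hvE m hm)).1) hvno
  refine ⟨Q ∪ W, κ + #(lone E Q), ⟨w2, ?_⟩, ?_⟩
  · rintro ⟨m, u⟩ he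
    have hmA : m ∈ E.image Prod.fst := mem_image.2 ⟨_, he, rfl⟩
    have ht1 := hQ.2 _ he
    simp only at ht1
    have hlev : H987.Touch (Q ∪ W) (κ + #(lone E Q)) m u := by
      refine ⟨mem_union_left _ ht1.1, ?_⟩
      unfold H987.rk
      rw [filter_union, card_union_of_disjoint (disjoint_filter_filter w1)]
      rw [w4 m hmA u ht1.1 fun h => H987.touch_ht ht1 (hQ.2 _ (hvE m h))]
      have := ht1.2
      unfold H987.rk at this
      rw [this]
    by_cases hl : m ∈ lone E Q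
    · have hu : u = v m := by
        by_contra hne
        exact hvno m hl u ht1.1 hne (H987.touch_ht ht1 (hQ.2 _ (hvE m hl)))
      obtain ⟨w, hw, hw', -⟩ := w5 m hl
      refine evE_of_partner w2 hlev (mem_union_right _ hw) ?_ (by rw [hw', hu])
      rintro rfl
      exact disjoint_left.1 w1 ht1.1 hw
    · have : ∃ u' ∈ Q, u' ≠ u ∧ ht m u' = ht m u := by
        by_contra hcon
        push Not at hcon
        exact hl (mem_image.2 ⟨(m, u), mem_filter.2 ⟨he, hcon⟩, rfl⟩)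
      obtain ⟨u', h1, h2, h3⟩ := this
      exact evE_of_partner w2 hlev (mem_union_left _ h1) h2 h3
  · rw [card_union_of_disjoint w1]
    omega

end Vale.Agent.P065.H859
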