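import Vale.Agent.P065.H859.ESize

/-!
# P065: the strip lemma for the edge size (helper859, after H987/Size `nn_strip`)
-/

set_option autoImplicit false

namespace Vale.Agent.P065.H859

open Finset Vale.Agent.P065.UB Vale.Agent.P065.UB.RankAux Vale.Agent.P065.H987

open Classical in
theorem mem_EdBd {P : Finset Pt} {k : ℕ} {J : Finset Pt} {I : Set ℝ} {e : Pt × Pt} :
    e ∈ EdBd P k J I ↔
      e ∈ Ed P k ∧ ((e.1 ∈ J ∧ e.2 ∉ J) ∨ (e.1 ∉ J ∧ e.2 ∈ J)) ∧ sl e.1 e.2 ∈ I := by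
  unfold EdBd
  rw [mem_filter]

open Classical in
/-- the strip lemma of helper987 with the good sets exhibited -/
theorem strip_sets {P : Finset Pt} (hP : Good P) {k : ℕ} {E : Finset (ℝ × Pt)}
    {m₀ τ s d y₀ h : ℝ} (hh : 0 < h)
    (hdh : d * τ ≤ h) (ht' : ∀ e ∈ E, m₀ ≤ e.1 ∧ e.1 ≤ m₀ + τ)
    (hs' : ∀ e ∈ E, s ≤ e.2.1 ∧ e.2.1 ≤ s + d) (hPE : ∀ e ∈ E, Touch P k e.1 e.2) :
    ∃ (Q : ℤ → Finset Pt) (κ : ℤ → ℕ), (∀ i, Good (Q i)) ∧
      (∀ i, T3 (SlabT P k (Set.Icc m₀ (m₀ + τ)) (Set.Icc s (s + d))) m₀ s y₀ h i ⊆ Q i) ∧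
      (∀ e ∈ E, Touch (Q (lab m₀ s y₀ h e.2)) (κ (lab m₀ s y₀ h e.2)) e.1 e.2) ∧
      ∑ i ∈ E.image (fun e => lab m₀ s y₀ h e.2), #(Q i) ≤ 15 * #P := by
  set I : Set ℝ := Set.Icc m₀ (m₀ + τ) with hIdef
  have hI : I.OrdConnected := Set.ordConnected_Icc
  obtain ⟨J, hJ⟩ : ∃ J, J = SlabT P k I (Set.Icc s (s + d)) := ⟨_, rfl⟩
  have hJP : J ⊆ P := by rw [hJ]; exact SlabT_sub _ _ _ _
  have hJs : ∀ v ∈ J, s ≤ v.1 ∧ v.1 ≤ s + d := fun v hv => by
    rw [hJ, mem_SlabT] at hv; exact hv.2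
  have memE : ∀ e ∈ E, Touch P k e.1 e.2 ∧ e.2 ∈ J ∧ e.1 ∈ I := by
    intro e he
    have h1 := hPE e he
    have h2 : e.1 ∈ I := ht' e he
    refine ⟨h1, ?_, h2⟩
    rw [hJ, mem_SlabT, mem_TS]
    exact ⟨⟨h1.1, e.1, h2, h1⟩, hs' e he⟩
  have hzmono : ∀ m : ℝ, ∀ u v : Pt, ht m u < ht m v → zz m₀ s y₀ h m u < zz m₀ s y₀ h m v := by
    intro m u v huv
    unfold zz
    exact div_lt_div_of_pos_right (by linarith) hh
  have hzmono' : ∀ m : ℝ, ∀ u v : Pt, zz m₀ s y₀ h m u < zz m₀ s y₀ h m v → ht m u < ht m v := by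
    intro m u v huv
    unfold zz at huv
    rw [div_lt_div_iff_of_pos_right hh] at huv
    linarith
  have hlab : ∀ v : Pt, (lab m₀ s y₀ h v : ℝ) ≤ zz m₀ s y₀ h m₀ v ∧
      zz m₀ s y₀ h m₀ v < lab m₀ s y₀ h v + 1 := fun v =>
    ⟨Int.floor_le _, Int.lt_floor_add_one _⟩
  obtain ⟨Q, κ, q1, q2, -, q4, q5⟩ := strip_touch hP hJP hI (E := E) memE
    (fun e => lab m₀ s y₀ h e.2) (T3 J m₀ s y₀ h) (fun i => Nrow J m₀ s y₀ h (i - 1))
    (fun i => (Finset.filter_subset _ _).trans hJP)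
    (by
      intro e he
      obtain ⟨h1, h2⟩ := hlab e.2
      unfold T3
      rw [Finset.mem_filter]
      exact ⟨(memE e he).2.1, by linarith, by linarith⟩)
    (by
      intro e he
      obtain ⟨h1, h2⟩ := hlab e.2
      obtain ⟨h3, h4⟩ := ht' e he
      have bv := zz_bounds (y₀ := y₀) hh hdh h3 h4 (hJs _ (memE e he).2.1).1
        (hJs _ (memE e he).2.1).2
      unfold H987.rk Nrow T3
      rw [← Finset.card_union_of_disjoint]
      · congr 1
        ext u
        simp only [Finset.mem_union, Finset.mem_filter]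
        push_cast
        constructor
        · rintro ⟨hu, hlt⟩
          rcases lt_or_ge (zz m₀ s y₀ h m₀ u) (lab m₀ s y₀ h e.2 - 1) with h6 | h6
          · exact Or.inl ⟨hu, h6⟩
          · right
            have b := zz_bounds (y₀ := y₀) hh hdh h3 h4 (hJs _ hu).1 (hJs _ hu).2
            have := hzmono _ _ _ hlt
            exact ⟨⟨hu, h6, by linarith [b.2, bv.1]⟩, hlt⟩
        · rintro (⟨hu, h6⟩ | ⟨⟨hu, _, _⟩, hlt⟩)
          · refine ⟨hu, hzmono' _ _ _ ?_⟩
            have b := zz_bounds (y₀ := y₀) hh hdh h3 h4 (hJs _ hu).1 (hJs _ hu).2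
            linarith [b.1, bv.2]
          · exact ⟨hu, hlt⟩
      · rw [Finset.disjoint_left]
        intro u hu hu'
        rw [Finset.mem_filter] at hu hu'
        rw [Finset.mem_filter] at hu'
        have := hu.2
        push_cast at this
        linarith [hu'.1.2.1])
    (μ := 3)
    (by
      intro a
      rcases Finset.eq_empty_or_nonempty ({i ∈ E.image (fun e => lab m₀ s y₀ h e.2) |
        Nrow J m₀ s y₀ h (i - 1) ≤ a ∧
          a < Nrow J m₀ s y₀ h (i - 1) + #(T3 J m₀ s y₀ h i)} : Finset ℤ)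
        with h0 | h0
      · rw [h0]; simp
      · obtain ⟨i, hi, hmin⟩ := Finset.exists_min_image _ (fun x : ℤ => x) h0
        refine (Finset.card_le_card (t := {i, i + 1, i + 2}) ?_).trans Finset.card_le_three
        intro j hj
        have hij : i ≤ j := hmin j hj
        rw [Finset.mem_filter] at hi hj
        rw [Finset.mem_insert, Finset.mem_insert, Finset.mem_singleton]
        by_contra hne
        push Not at hne
        have h2 : i + 2 ≤ j - 1 := by omega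
        have h3 := Nrow_mono (J := J) (m₀ := m₀) (s := s) (y₀ := y₀) (h := h) h2
        have h4 := T3_add J m₀ s y₀ h i
        omega)
    0
  have s1 := sum_T3 J m₀ s y₀ h (E.image (fun e => lab m₀ s y₀ h e.2))
  have s3 : #(EdBd P k J I) ≤ 2 * #(TS P k I) := by
    rw [hJ]; exact bd_slabT hP hI Set.ordConnected_Icc
  have s2 : #J ≤ #(TS P k I) := by
    rw [hJ]; exact Finset.card_le_card fun v hv => (mem_SlabT.1 hv).1
  have s4 : #(TS P k I) ≤ #P := Finset.card_le_card fun v hv => (mem_TS.1 hv).1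
  refine ⟨Q, κ, q1, ?_, q4, ?_⟩
  · rw [← hJ]; exact q2
  · refine q5.trans ?_
    omega

open Classical in
/-- **the strip lemma** for the edge size: the rows of a slab have total size at most `19 ne E₀` -/
theorem ne_strip {E E₀ : Finset (ℝ × Pt)} {m₀ τ s d y₀ h : ℝ} (hh : 0 < h)
    (hdh : d * τ ≤ h) (ht' : ∀ e ∈ E, m₀ ≤ e.1 ∧ e.1 ≤ m₀ + τ)
    (hs' : ∀ e ∈ E, s ≤ e.2.1 ∧ e.2.1 ≤ s + d) (hE₀ : IsRealE E₀) (hsub : E ⊆ E₀) :
    ∑ i ∈ E.image (fun e => lab m₀ s y₀ h e.2), ne {e ∈ E | lab m₀ s y₀ h e.2 = i} ≤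
      19 * ne E₀ := by
  obtain ⟨P, k, ⟨hP, hPE⟩, hcard⟩ := ne_spec hE₀
  obtain ⟨Q, κ, q1, q2, q4, q5⟩ := strip_sets hP (E := E) (y₀ := y₀) hh hdh ht' hs'
    (fun e he => (hPE e (hsub he)).touch)
  set I : Set ℝ := Set.Icc m₀ (m₀ + τ) with hIdef
  obtain ⟨J, hJ⟩ : ∃ J, J = SlabT P k I (Set.Icc s (s + d)) := ⟨_, rfl⟩
  rw [← hJ] at q2
  have hJs : ∀ v ∈ J, s ≤ v.1 ∧ v.1 ≤ s + d := fun v hv => by
    rw [hJ, mem_SlabT] at hv; exact hv.2
  have hI : I.OrdConnected := Set.ordConnected_Icc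
  have memJ : ∀ e ∈ E, e.2 ∈ J := by
    intro e he
    rw [hJ, mem_SlabT, mem_TS]
    exact ⟨⟨(hPE e (hsub he)).mem, e.1, ht' e he, (hPE e (hsub he)).touch⟩, hs' e he⟩
  set lb : ℝ × Pt → ℤ := fun e => lab m₀ s y₀ h e.2 with hlb
  -- one class
  have one : ∀ i ∈ E.image lb, ne {e ∈ E | lb e = i} ≤
      #(Q i) + 2 * #(lone {e ∈ E | lb e = i} (Q i)) := by
    intro i _
    have hreal : Real {e ∈ E | lb e = i} (Q i) (κ i) := by
      refine ⟨q1 i, fun e he => ?_⟩
      obtain ⟨h1, h2⟩ := mem_filter.1 he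
      have := q4 e h1
      rw [show lab m₀ s y₀ h e.2 = i from h2] at this
      exact this
    obtain ⟨Q', κ', h1, h2⟩ := ne_le_of_touch hreal
    exact (ne_le h1).trans h2
  -- the lonely events are boundary edges
  have hlone : ∑ i ∈ E.image lb, #(lone {e ∈ E | lb e = i} (Q i)) ≤ #(EdBd P k J I) := by
    -- the boundary edge of a lonely event
    have hmap : ∀ i ∈ E.image lb, ∀ m ∈ lone {e ∈ E | lb e = i} (Q i),
        ∃ f ∈ EdBd P k J I, sl f.1 f.2 = m ∧ ∃ v ∈ J, lb (m, v) = i ∧ (f.1 = v ∨ f.2 = v) := by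
      intro i _ m hm
      obtain ⟨⟨m', v⟩, he, rfl⟩ := mem_image.1 hm
      obtain ⟨he1, hno⟩ := mem_filter.1 he
      obtain ⟨heE, hei⟩ := mem_filter.1 he1
      obtain ⟨⟨p, q⟩, hf, hfs, hfv⟩ := hPE _ (hsub heE)
      have hv : v ∈ J := memJ _ heE
      have hmI : m' ∈ I := ht' _ heE
      have hc := mem_Ed.1 hf
      have hpq : ht m' p = ht m' q := (ht_eq_iff hc.2.2.1 m').2 hfs.symm
      simp only at hno hfs hfv
      -- the partner is not in `J`
      have hpart : ∀ u, u ∈ J → u ≠ v → ht m' u ≠ ht m' v := by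
        intro u hu huv
        by_contra heq
        refine hno u (q2 i ?_) huv heq
        obtain ⟨h3, h4⟩ := ht' _ heE
        simp only at h3 h4
        have bv := zz_bounds (y₀ := y₀) hh hdh h3 h4 (hJs _ hv).1 (hJs _ hv).2
        have bu := zz_bounds (y₀ := y₀) hh hdh h3 h4 (hJs _ hu).1 (hJs _ hu).2
        have hz : zz m₀ s y₀ h m' u = zz m₀ s y₀ h m' v := by
          unfold zz
          rw [heq]
        have hl1 : (lab m₀ s y₀ h v : ℝ) ≤ zz m₀ s y₀ h m₀ v := Int.floor_le _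
        have hl2 : zz m₀ s y₀ h m₀ v < lab m₀ s y₀ h v + 1 := Int.lt_floor_add_one _
        have hi : lab m₀ s y₀ h v = i := hei
        rw [hi] at hl1 hl2
        unfold T3
        rw [mem_filter]
        refine ⟨hu, ?_, ?_⟩
        · linarith [bv.1, bv.2, bu.1, bu.2]
        · linarith [bv.1, bv.2, bu.1, bu.2]
      refine ⟨(p, q), ?_, hfs, v, hv, hei, hfv⟩
      rw [mem_EdBd]
      refine ⟨hf, ?_, by rw [hfs]; exact hmI⟩
      have hne : p ≠ q := by rintro rfl; exact lt_irrefl _ hc.2.2.1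
      rcases hfv with h5 | h5
      · subst h5
        left
        exact ⟨hv, fun hq => hpart q hq hne.symm hpq.symm⟩
      · subst h5
        right
        exact ⟨fun hp => hpart p hp hne hpq, hv⟩
    have hdisj : ∑ i ∈ E.image lb, #(lone {e ∈ E | lb e = i} (Q i)) =
        #((E.image lb).sigma fun i => lone {e ∈ E | lb e = i} (Q i)) := by
      rw [card_sigma]
    rw [hdisj]
    choose! f hf hfs v hv hvi hfv using hmap
    refine card_le_card_of_injOn (fun x => f x.1 x.2) ?_ ?_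
    · rintro ⟨i, m⟩ hx
      rw [mem_coe, mem_sigma] at hx
      exact hf i hx.1 m hx.2
    · rintro ⟨i, m⟩ hx ⟨j, m'⟩ hy hxy
      rw [mem_coe, mem_sigma] at hx hy
      simp only at hx hy hxy
      have hm : m = m' := by
        rw [← hfs i hx.1 m hx.2, ← hfs j hy.1 m' hy.2, hxy]
      subst hm
      -- the end in `J` is unique
      have h1 := hf i hx.1 m hx.2
      rw [mem_EdBd] at h1
      have e1 := hfv i hx.1 m hx.2
      have e2 := hfv j hy.1 m hy.2
      rw [← hxy] at e2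
      have v1 := hv i hx.1 m hx.2
      have v2 := hv j hy.1 m hy.2
      have hvv : v i m = v j m := by
        rcases h1.2.1 with h | h
        · rcases e1 with e1 | e1
          · rcases e2 with e2 | e2
            · exact e1.symm.trans e2
            · exact absurd (e2 ▸ v2) h.2
          · exact absurd (e1 ▸ v1) h.2
        · rcases e1 with e1 | e1
          · exact absurd (e1 ▸ v1) h.1
          · rcases e2 with e2 | e2
            · exact absurd (e2 ▸ v2) h.1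
            · exact e1.symm.trans e2
      have hij : i = j := by
        rw [← hvi i hx.1 m hx.2, ← hvi j hy.1 m hy.2, hvv]
      rw [hij]
  have s3 : #(EdBd P k J I) ≤ 2 * #(TS P k I) := by
    rw [hJ]; exact bd_slabT hP hI Set.ordConnected_Icc
  have s4 : #(TS P k I) ≤ #P := Finset.card_le_card fun v hv => (mem_TS.1 hv).1
  calc ∑ i ∈ E.image lb, ne {e ∈ E | lb e = i}
      ≤ ∑ i ∈ E.image lb, (#(Q i) + 2 * #(lone {e ∈ E | lb e = i} (Q i))) := sum_le_sum one
    _ = ∑ i ∈ E.image lb, #(Q i) + 2 * ∑ i ∈ E.image lb, #(lone {e ∈ E | lb e = i} (Q i)) := by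
        rw [sum_add_distrib, mul_sum]
    _ ≤ 15 * #P + 2 * (2 * #P) := by
        have := hlone.trans (s3.trans (Nat.mul_le_mul_left 2 s4))
        omega
    _ = 19 * ne E₀ := by rw [hcard]; ring

end Vale.Agent.P065.H859
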