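import Vale.Agent.P065.UB.Defs

/-!
# P065: simulation lemma (helper859)

A finite set `T` of points (lines in the dual picture) and finitely many times with prescribed
ranks: far points make all the ranks equal, at the cost of the total variation of the ranks.
-/

set_option autoImplicit false

namespace Vale.Agent.P065.H859

open Finset Vale.Agent.P065.UB

/-- the number of points of `P` strictly below `u` at time `m` -/
noncomputable def rk (P : Finset Pt) (m : ℝ) (u : Pt) : ℕ :=
  #{v ∈ P | ht m v < ht m u}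

theorem ht_sl_eq {a b : Pt} (h : a.1 ≠ b.1) {m : ℝ} : ht m a = ht m b ↔ m = sl a b := by
  have h' : b.1 - a.1 ≠ 0 := sub_ne_zero.2 (Ne.symm h)
  unfold ht sl
  rw [eq_div_iff h']
  constructor <;> intro h <;> linarith

theorem good_of_insert {T : Finset Pt} (hT : Good T) {w : Pt} (hw : w ∉ T)
    (hx : ∀ u ∈ T, u.1 ≠ w.1)
    (hg : ∀ a ∈ T, ∀ b ∈ T, a ≠ b → ht (sl a b) w ≠ ht (sl a b) a) : Good (insert w T) := by
  have hg' : ∀ m : ℝ, ∀ a ∈ T, ∀ b ∈ T, a ≠ b → ht m a = ht m b → ht m w ≠ ht m a := by
    intro m a ha b hb hab h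
    have hab' : a.1 ≠ b.1 := fun h' => hab (hT.xinj a ha b hb h')
    rw [ht_sl_eq hab'] at h
    subst h
    exact hg a ha b hb hab
  constructor
  · intro p hp q hq hpq
    rw [mem_insert] at hp hq
    rcases hp with rfl | hp <;> rcases hq with rfl | hq
    · rfl
    · exact absurd hpq.symm (hx q hq)
    · exact absurd hpq (hx p hp)
    · exact hT.xinj p hp q hq hpq
  · intro m a ha b hb c hc hab hac hbc h1 h2
    rw [mem_insert] at ha hb hc
    rcases ha with rfl | ha
    · rcases hb with rfl | hb
      · exact hab rfl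
      rcases hc with rfl | hc
      · exact hac rfl
      exact hg' m b hb c hc hbc (h1.symm.trans h2) h1
    rcases hb with rfl | hb
    · rcases hc with rfl | hc
      · exact hbc rfl
      exact hg' m a ha c hc hac h2 h1.symm
    rcases hc with rfl | hc
    · exact hg' m a ha b hb hab h1 h2.symm
    exact hT.gen m a ha b hb c hc hab hac hbc h1 h2

/-- one far point, going from below to above at time `m₀` -/
theorem exists_far_up (T : Finset Pt) (hT : Good T) (A : Finset ℝ) (m₀ : ℝ)
    (hm : ∀ a ∈ T, ∀ b ∈ T, a ≠ b → sl a b ≠ m₀) :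
    ∃ w : Pt, w ∉ T ∧ Good (insert w T) ∧
      (∀ m ∈ A, m < m₀ → ∀ u ∈ T, ht m w < ht m u) ∧
      (∀ m ∈ A, m₀ < m → ∀ u ∈ T, ht m u < ht m w) := by
  have hlin : ∀ c : ℝ, 0 < c → Filter.Tendsto (fun R : ℝ => R * c) Filter.atTop Filter.atTop :=
    fun c hc => Filter.tendsto_id.atTop_mul_const hc
  have e1 : ∀ᶠ R : ℝ in Filter.atTop, ∀ u ∈ T, u.1 ≠ -R := by
    rw [Filter.eventually_all_finset]
    intro u _
    filter_upwards [Filter.eventually_gt_atTop (-u.1)] with R hR h
    linarith
  have e2 : ∀ᶠ R : ℝ in Filter.atTop, ∀ m ∈ A, ∀ u ∈ T, m < m₀ → R * (m - m₀) < ht m u := by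
    rw [Filter.eventually_all_finset]
    intro m _
    rw [Filter.eventually_all_finset]
    intro u _
    by_cases h : m < m₀
    · filter_upwards [(hlin (m₀ - m) (by linarith)).eventually_gt_atTop (-ht m u)] with R hR _
      nlinarith
    · exact Filter.Eventually.of_forall fun R h' => absurd h' h
  have e3 : ∀ᶠ R : ℝ in Filter.atTop, ∀ m ∈ A, ∀ u ∈ T, m₀ < m → ht m u < R * (m - m₀) := by
    rw [Filter.eventually_all_finset]
    intro m _
    rw [Filter.eventually_all_finset]
    intro u _
    by_cases h : m₀ < m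
    · filter_upwards [(hlin (m - m₀) (by linarith)).eventually_gt_atTop (ht m u)] with R hR _
      exact hR
    · exact Filter.Eventually.of_forall fun R h' => absurd h' h
  have e4 : ∀ᶠ R : ℝ in Filter.atTop, ∀ a ∈ T, ∀ b ∈ T, a ≠ b →
      R * (sl a b - m₀) ≠ ht (sl a b) a := by
    rw [Filter.eventually_all_finset]
    intro a ha
    rw [Filter.eventually_all_finset]
    intro b hb
    by_cases hab : a = b
    · exact Filter.Eventually.of_forall fun R h' => absurd hab h'
    rcases lt_or_gt_of_ne (hm a ha b hb hab) with h | h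
    · filter_upwards [(hlin (m₀ - sl a b) (by linarith)).eventually_gt_atTop
        (-ht (sl a b) a)] with R hR _ h'
      nlinarith
    · filter_upwards [(hlin (sl a b - m₀) (by linarith)).eventually_gt_atTop
        (ht (sl a b) a)] with R hR _ h'
      nlinarith
  obtain ⟨R, h1, h2, h3, h4⟩ := (e1.and (e2.and (e3.and e4))).exists
  have hw : ∀ m, ht m (-R, -(m₀ * R)) = R * (m - m₀) := by
    intro m; unfold ht; ring
  refine ⟨(-R, -(m₀ * R)), ?_, ?_, ?_, ?_⟩
  · intro h
    exact h1 _ h rfl
  · refine good_of_insert hT (fun h => h1 _ h rfl) h1 ?_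
    intro a ha b hb hab
    rw [hw]
    exact h4 a ha b hb hab
  · intro m hmA hlt u hu
    rw [hw]
    exact h2 m hmA u hu hlt
  · intro m hmA hlt u hu
    rw [hw]
    exact h3 m hmA u hu hlt

/-- one far point, going from above to below at time `m₀` -/
theorem exists_far_down (T : Finset Pt) (hT : Good T) (A : Finset ℝ) (m₀ : ℝ)
    (hm : ∀ a ∈ T, ∀ b ∈ T, a ≠ b → sl a b ≠ m₀) :
    ∃ w : Pt, w ∉ T ∧ Good (insert w T) ∧
      (∀ m ∈ A, m < m₀ → ∀ u ∈ T, ht m u < ht m w) ∧
      (∀ m ∈ A, m₀ < m → ∀ u ∈ T, ht m w < ht m u) := by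
  have hlin : ∀ c : ℝ, 0 < c → Filter.Tendsto (fun R : ℝ => R * c) Filter.atTop Filter.atTop :=
    fun c hc => Filter.tendsto_id.atTop_mul_const hc
  have e1 : ∀ᶠ R : ℝ in Filter.atTop, ∀ u ∈ T, u.1 ≠ R := by
    rw [Filter.eventually_all_finset]
    intro u _
    filter_upwards [Filter.eventually_gt_atTop (u.1)] with R hR h
    linarith
  have e2 : ∀ᶠ R : ℝ in Filter.atTop, ∀ m ∈ A, ∀ u ∈ T, m < m₀ → ht m u < R * (m₀ - m) := by
    rw [Filter.eventually_all_finset]
    intro m _
    rw [Filter.eventually_all_finset]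
    intro u _
    by_cases h : m < m₀
    · filter_upwards [(hlin (m₀ - m) (by linarith)).eventually_gt_atTop (ht m u)] with R hR _
      exact hR
    · exact Filter.Eventually.of_forall fun R h' => absurd h' h
  have e3 : ∀ᶠ R : ℝ in Filter.atTop, ∀ m ∈ A, ∀ u ∈ T, m₀ < m → R * (m₀ - m) < ht m u := by
    rw [Filter.eventually_all_finset]
    intro m _
    rw [Filter.eventually_all_finset]
    intro u _
    by_cases h : m₀ < m
    · filter_upwards [(hlin (m - m₀) (by linarith)).eventually_gt_atTop (-ht m u)] with R hR _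
      nlinarith
    · exact Filter.Eventually.of_forall fun R h' => absurd h' h
  have e4 : ∀ᶠ R : ℝ in Filter.atTop, ∀ a ∈ T, ∀ b ∈ T, a ≠ b →
      R * (m₀ - sl a b) ≠ ht (sl a b) a := by
    rw [Filter.eventually_all_finset]
    intro a ha
    rw [Filter.eventually_all_finset]
    intro b hb
    by_cases hab : a = b
    · exact Filter.Eventually.of_forall fun R h' => absurd hab h'
    rcases lt_or_gt_of_ne (hm a ha b hb hab) with h | h
    · filter_upwards [(hlin (m₀ - sl a b) (by linarith)).eventually_gt_atTop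
        (ht (sl a b) a)] with R hR _ h'
      nlinarith
    · filter_upwards [(hlin (sl a b - m₀) (by linarith)).eventually_gt_atTop
        (-ht (sl a b) a)] with R hR _ h'
      nlinarith
  obtain ⟨R, h1, h2, h3, h4⟩ := (e1.and (e2.and (e3.and e4))).exists
  have hw : ∀ m, ht m (R, m₀ * R) = R * (m₀ - m) := by
    intro m; unfold ht; ring
  refine ⟨(R, m₀ * R), ?_, ?_, ?_, ?_⟩
  · intro h
    exact h1 _ h rfl
  · refine good_of_insert hT (fun h => h1 _ h rfl) h1 ?_
    intro a ha b hb hab
    rw [hw]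
    exact h4 a ha b hb hab
  · intro m hmA hlt u hu
    rw [hw]
    exact h2 m hmA u hu hlt
  · intro m hmA hlt u hu
    rw [hw]
    exact h3 m hmA u hu hlt

/-- a time in an open interval which is not a slope -/
theorem exists_gen (T : Finset Pt) {x y : ℝ} (h : x < y) :
    ∃ m₀, x < m₀ ∧ m₀ < y ∧ ∀ a ∈ T, ∀ b ∈ T, a ≠ b → sl a b ≠ m₀ := by
  have hinf : (Set.Ioo x y).Infinite := Set.Ioo_infinite h
  obtain ⟨m₀, hm, hn⟩ := hinf.exists_notMem_finset ((T ×ˢ T).image fun e => sl e.1 e.2)
  refine ⟨m₀, hm.1, hm.2, ?_⟩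
  intro a ha b hb _ h
  exact hn (mem_image.2 ⟨(a, b), mem_product.2 ⟨ha, hb⟩, h⟩)

theorem exists_far_up_many (T : Finset Pt) (hT : Good T) (A : Finset ℝ) {x y : ℝ} (hxy : x < y)
    (d : ℕ) :
    ∃ W : Finset Pt, Disjoint T W ∧ Good (T ∪ W) ∧ #W = d ∧
      (∀ w ∈ W, ∀ m ∈ A, ∀ u ∈ T, (m ≤ x → ht m w < ht m u) ∧ (y ≤ m → ht m u < ht m w)) ∧
      ∀ w ∈ W, ∀ v ∈ W, w ≠ v → ∀ m ∈ A, (m ≤ x ∨ y ≤ m) → ht m w ≠ ht m v := by
  classical
  induction d with
  | zero => exact ⟨∅, disjoint_empty_right _, by simpa using hT, rfl, by simp, by simp⟩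
  | succ d ih =>
    obtain ⟨W, h1, h2, h3, h4, h5⟩ := ih
    obtain ⟨m₀, g1, g2, g3⟩ := exists_gen (T ∪ W) hxy
    obtain ⟨w, k1, k2, k3, k4⟩ := exists_far_up (T ∪ W) h2 A m₀ g3
    have k1' : w ∉ W := fun h => k1 (mem_union_right _ h)
    have k1'' : w ∉ T := fun h => k1 (mem_union_left _ h)
    refine ⟨insert w W, ?_, ?_, ?_, ?_, ?_⟩
    · rw [disjoint_insert_right]
      exact ⟨k1'', h1⟩
    · rw [union_insert]; exact k2
    · rw [card_insert_of_notMem k1', h3]
    · intro v hv m hm u hu
      rw [mem_insert] at hv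
      rcases hv with rfl | hv
      · exact ⟨fun h => k3 m hm (by linarith) u (mem_union_left _ hu),
          fun h => k4 m hm (by linarith) u (mem_union_left _ hu)⟩
      · exact h4 v hv m hm u hu
    · have hne : ∀ v ∈ W, ∀ m ∈ A, (m ≤ x ∨ y ≤ m) → ht m w ≠ ht m v := by
        intro v hv m hm hxm
        rcases hxm with h | h
        · have := k3 m hm (by linarith) v (mem_union_right _ hv)
          exact this.ne
        · have := k4 m hm (by linarith) v (mem_union_right _ hv)
          exact this.ne'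
      intro u hu v hv huv m hm hxm
      rw [mem_insert] at hu hv
      rcases hu with rfl | hu
      · rcases hv with rfl | hv
        · exact absurd rfl huv
        · exact hne v hv m hm hxm
      · rcases hv with rfl | hv
        · exact (hne u hu m hm hxm).symm
        · exact h5 u hu v hv huv m hm hxm

theorem exists_far_down_many (T : Finset Pt) (hT : Good T) (A : Finset ℝ) {x y : ℝ} (hxy : x < y)
    (d : ℕ) :
    ∃ W : Finset Pt, Disjoint T W ∧ Good (T ∪ W) ∧ #W = d ∧
      (∀ w ∈ W, ∀ m ∈ A, ∀ u ∈ T, (m ≤ x → ht m u < ht m w) ∧ (y ≤ m → ht m w < ht m u)) ∧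
      ∀ w ∈ W, ∀ v ∈ W, w ≠ v → ∀ m ∈ A, (m ≤ x ∨ y ≤ m) → ht m w ≠ ht m v := by
  classical
  induction d with
  | zero => exact ⟨∅, disjoint_empty_right _, by simpa using hT, rfl, by simp, by simp⟩
  | succ d ih =>
    obtain ⟨W, h1, h2, h3, h4, h5⟩ := ih
    obtain ⟨m₀, g1, g2, g3⟩ := exists_gen (T ∪ W) hxy
    obtain ⟨w, k1, k2, k3, k4⟩ := exists_far_down (T ∪ W) h2 A m₀ g3
    have k1' : w ∉ W := fun h => k1 (mem_union_right _ h)
    have k1'' : w ∉ T := fun h => k1 (mem_union_left _ h)
    refine ⟨insert w W, ?_, ?_, ?_, ?_, ?_⟩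
    · rw [disjoint_insert_right]
      exact ⟨k1'', h1⟩
    · rw [union_insert]; exact k2
    · rw [card_insert_of_notMem k1', h3]
    · intro v hv m hm u hu
      rw [mem_insert] at hv
      rcases hv with rfl | hv
      · exact ⟨fun h => k3 m hm (by linarith) u (mem_union_left _ hu),
          fun h => k4 m hm (by linarith) u (mem_union_left _ hu)⟩
      · exact h4 v hv m hm u hu
    · have hne : ∀ v ∈ W, ∀ m ∈ A, (m ≤ x ∨ y ≤ m) → ht m w ≠ ht m v := by
        intro v hv m hm hxm
        rcases hxm with h | h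
        · have := k3 m hm (by linarith) v (mem_union_right _ hv)
          exact this.ne'
        · have := k4 m hm (by linarith) v (mem_union_right _ hv)
          exact this.ne
      intro u hu v hv huv m hm hxm
      rw [mem_insert] at hu hv
      rcases hu with rfl | hu
      · rcases hv with rfl | hv
        · exact absurd rfl huv
        · exact hne v hv m hm hxm
      · rcases hv with rfl | hv
        · exact (hne u hu m hm hxm).symm
        · exact h5 u hu v hv huv m hm hxm

/-- **Simulation lemma**, abstract form. Times `t 0 < .. < t p` with prescribed ranks `ρ i`: there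
are far points `W`, at most as many as the total variation of `ρ`, such that at time `t i` every
point of `T` has exactly `k - ρ i` points of `W` strictly below it. Moreover the points of `W` are
not tied with any point at these times. -/
theorem exists_sim (T : Finset Pt) (hT : Good T) (t : ℕ → ℝ) (p : ℕ)
    (htm : ∀ i < p, t i < t (i + 1)) (ρ : ℕ → ℕ) :
    ∃ (W : Finset Pt) (k : ℕ), Disjoint T W ∧ Good (T ∪ W) ∧
      #W ≤ ∑ i ∈ range p, ((ρ (i + 1) - ρ i) + (ρ i - ρ (i + 1))) ∧
      (∀ i ≤ p, ∀ u ∈ T, #{w ∈ W | ht (t i) w < ht (t i) u} + ρ i = k) ∧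
      ∀ i ≤ p, ∀ w ∈ W, ∀ u ∈ T ∪ W, w ≠ u → ht (t i) w ≠ ht (t i) u := by
  classical
  have hmono : ∀ i j, i ≤ j → j ≤ p → t i ≤ t j := by
    intro i j hij hj
    induction j, hij using Nat.le_induction with
    | base => exact le_rfl
    | succ j hij ih => exact (ih (by omega)).trans (htm j (by omega)).le
  -- the statement for ranks frozen after time `q`
  have key : ∀ q ≤ p, ∃ (W : Finset Pt) (k : ℕ), Disjoint T W ∧ Good (T ∪ W) ∧
      #W ≤ ∑ i ∈ range q, ((ρ (i + 1) - ρ i) + (ρ i - ρ (i + 1))) ∧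
      (∀ i ≤ p, ∀ u ∈ T, #{w ∈ W | ht (t i) w < ht (t i) u} + ρ (min i q) = k) ∧
      ∀ i ≤ p, ∀ w ∈ W, ∀ u ∈ T ∪ W, w ≠ u → ht (t i) w ≠ ht (t i) u := by
    intro q
    induction q with
    | zero =>
      intro _
      refine ⟨∅, ρ 0, disjoint_empty_right _, by simpa using hT, by simp, ?_, by simp⟩
      intro i _ u _
      simp
    | succ q ih =>
      intro hq
      obtain ⟨W, k, h1, h2, h3, h4, h5⟩ := ih (by omega)
      set A : Finset ℝ := (range (p + 1)).image t with hAdef
      have hA : ∀ m ∈ A, m ≤ t q ∨ t (q + 1) ≤ m := by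
        intro m hm
        obtain ⟨i, hi, rfl⟩ := mem_image.1 hm
        rw [mem_range] at hi
        rcases Nat.lt_or_ge q i with h | h
        · right; exact hmono (q + 1) i h (by omega)
        · left; exact hmono i q h (by omega)
      have hmem : ∀ i ≤ p, t i ∈ A := fun i hi => mem_image.2 ⟨i, mem_range.2 (by omega), rfl⟩
      have hlt := htm q (by omega)
      -- common treatment of the ties
      have htie : ∀ W' : Finset Pt,
          (∀ w ∈ W', ∀ m ∈ A, ∀ u ∈ T ∪ W, ht m w ≠ ht m u) →
          (∀ w ∈ W', ∀ v ∈ W', w ≠ v → ∀ m ∈ A, ht m w ≠ ht m v) →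
          ∀ i ≤ p, ∀ w ∈ W ∪ W', ∀ u ∈ T ∪ (W ∪ W'), w ≠ u → ht (t i) w ≠ ht (t i) u := by
        intro W' a1 a2 i hi w hw u hu hwu
        rcases mem_union.1 hw with hw | hw
        · rcases mem_union.1 hu with hu | hu
          · exact h5 i hi w hw u (mem_union_left _ hu) hwu
          · rcases mem_union.1 hu with hu | hu
            · exact h5 i hi w hw u (mem_union_right _ hu) hwu
            · exact (a1 u hu (t i) (hmem i hi) w (mem_union_right _ hw)).symm
        · rcases mem_union.1 hu with hu | hu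
          · exact a1 w hw (t i) (hmem i hi) u (mem_union_left _ hu)
          · rcases mem_union.1 hu with hu | hu
            · exact a1 w hw (t i) (hmem i hi) u (mem_union_right _ hu)
            · exact a2 w hw u hu hwu (t i) (hmem i hi)
      rcases le_total (ρ q) (ρ (q + 1)) with hle | hle
      · -- the rank goes up: new points go from below to above
        obtain ⟨W', g1, g2, g3, g4, g5⟩ :=
          exists_far_up_many (T ∪ W) h2 A hlt (ρ (q + 1) - ρ q)
        rw [disjoint_union_left] at g1
        refine ⟨W ∪ W', k + (ρ (q + 1) - ρ q), ?_, ?_, ?_, ?_, ?_⟩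
        · rw [disjoint_union_right]; exact ⟨h1, g1.1⟩
        · rw [← union_assoc]; exact g2
        · rw [card_union_of_disjoint g1.2, g3, sum_range_succ]; omega
        · intro i hi u hu
          have hu' : u ∈ T ∪ W := mem_union_left _ hu
          rw [filter_union, card_union_of_disjoint (disjoint_filter_filter g1.2)]
          have hk := h4 i hi u hu
          rcases Nat.lt_or_ge q i with h | h
          · -- late times
            have hti : t (q + 1) ≤ t i := hmono (q + 1) i h hi
            have he : {w ∈ W' | ht (t i) w < ht (t i) u} = ∅ := by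
              rw [filter_eq_empty_iff]
              intro w hw
              exact not_lt.2 ((g4 w hw (t i) (hmem i hi) u hu').2 hti).le
            rw [he, card_empty, Nat.min_eq_right (by omega)]
            rw [Nat.min_eq_right (by omega)] at hk
            omega
          · have hti : t i ≤ t q := hmono i q h (by omega)
            have he : {w ∈ W' | ht (t i) w < ht (t i) u} = W' := by
              rw [filter_eq_self]
              intro w hw
              exact (g4 w hw (t i) (hmem i hi) u hu').1 hti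
            rw [he, g3, Nat.min_eq_left (by omega)]
            rw [Nat.min_eq_left (by omega)] at hk
            omega
        · refine htie W' ?_ ?_
          · intro w hw m hm u hu
            rcases hA m hm with h | h
            · exact ((g4 w hw m hm u hu).1 h).ne
            · exact ((g4 w hw m hm u hu).2 h).ne'
          · intro w hw v hv hwv m hm
            exact g5 w hw v hv hwv m hm (hA m hm)
      · obtain ⟨W', g1, g2, g3, g4, g5⟩ :=
          exists_far_down_many (T ∪ W) h2 A hlt (ρ q - ρ (q + 1))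
        rw [disjoint_union_left] at g1
        refine ⟨W ∪ W', k, ?_, ?_, ?_, ?_, ?_⟩
        · rw [disjoint_union_right]; exact ⟨h1, g1.1⟩
        · rw [← union_assoc]; exact g2
        · rw [card_union_of_disjoint g1.2, g3, sum_range_succ]; omega
        · intro i hi u hu
          have hu' : u ∈ T ∪ W := mem_union_left _ hu
          rw [filter_union, card_union_of_disjoint (disjoint_filter_filter g1.2)]
          have hk := h4 i hi u hu
          rcases Nat.lt_or_ge q i with h | h
          · have hti : t (q + 1) ≤ t i := hmono (q + 1) i h hi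
            have he : {w ∈ W' | ht (t i) w < ht (t i) u} = W' := by
              rw [filter_eq_self]
              intro w hw
              exact (g4 w hw (t i) (hmem i hi) u hu').2 hti
            rw [he, g3, Nat.min_eq_right (by omega)]
            rw [Nat.min_eq_right (by omega)] at hk
            omega
          · have hti : t i ≤ t q := hmono i q h (by omega)
            have he : {w ∈ W' | ht (t i) w < ht (t i) u} = ∅ := by
              rw [filter_eq_empty_iff]
              intro w hw
              exact not_lt.2 ((g4 w hw (t i) (hmem i hi) u hu').1 hti).le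
            rw [he, card_empty, Nat.min_eq_left (by omega)]
            rw [Nat.min_eq_left (by omega)] at hk
            omega
        · refine htie W' ?_ ?_
          · intro w hw m hm u hu
            rcases hA m hm with h | h
            · exact ((g4 w hw m hm u hu).1 h).ne'
            · exact ((g4 w hw m hm u hu).2 h).ne
          · intro w hw v hv hwv m hm
            exact g5 w hw v hv hwv m hm (hA m hm)
  obtain ⟨W, k, h1, h2, h3, h4, h5⟩ := key p le_rfl
  refine ⟨W, k, h1, h2, h3, ?_, h5⟩
  intro i hi u hu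
  have := h4 i hi u hu
  rwa [Nat.min_eq_left hi] at this

/-- `ρ` has total variation at most `D` along the finite set `A` of times -/
def VarLe (A : Finset ℝ) (ρ : ℝ → ℕ) (D : ℕ) : Prop :=
  ∀ (p : ℕ) (t : ℕ → ℝ), (∀ i < p, t i < t (i + 1)) → (∀ i ≤ p, t i ∈ A) →
    ∑ i ∈ range p, ((ρ (t (i + 1)) - ρ (t i)) + (ρ (t i) - ρ (t (i + 1)))) ≤ D

theorem exists_enum (A : Finset ℝ) (hA : A.Nonempty) :
    ∃ (p : ℕ) (t : ℕ → ℝ), (∀ i < p, t i < t (i + 1)) ∧ (∀ i ≤ p, t i ∈ A) ∧
      ∀ m ∈ A, ∃ i ≤ p, t i = m := by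
  classical
  have hpos := hA.card_pos
  refine ⟨#A - 1, fun i => if h : i < #A then A.orderEmbOfFin rfl ⟨i, h⟩ else 0, ?_, ?_, ?_⟩
  · intro i hi
    have h1 : i < #A := by omega
    have h2 : i + 1 < #A := by omega
    simp only [h1, h2, dif_pos]
    apply (A.orderEmbOfFin rfl).strictMono
    rw [Fin.lt_def]
    exact Nat.lt_succ_self i
  · intro i hi
    have h1 : i < #A := by omega
    simp only [h1, dif_pos]
    exact orderEmbOfFin_mem A rfl _
  · intro m hm
    have : m ∈ Set.range (A.orderEmbOfFin rfl) := by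
      rw [range_orderEmbOfFin]
      exact hm
    obtain ⟨i, hi⟩ := this
    refine ⟨i.1, by have := i.2; omega, ?_⟩
    simp only [i.2, dif_pos]
    exact hi

/-- **Simulation lemma** for a finite set of times. -/
theorem exists_sim_finset (T : Finset Pt) (hT : Good T) (A : Finset ℝ) (ρ : ℝ → ℕ) (D : ℕ)
    (hD : VarLe A ρ D) :
    ∃ (W : Finset Pt) (k : ℕ), Disjoint T W ∧ Good (T ∪ W) ∧ #W ≤ D ∧
      (∀ m ∈ A, ∀ u ∈ T, #{w ∈ W | ht m w < ht m u} + ρ m = k) ∧
      ∀ m ∈ A, ∀ w ∈ W, ∀ u ∈ T ∪ W, w ≠ u → ht m w ≠ ht m u := by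
  classical
  rcases A.eq_empty_or_nonempty with rfl | hA
  · refine ⟨∅, 0, disjoint_empty_right _, by simpa using hT, by simp, ?_, ?_⟩
    · intro m hm
      exact absurd hm (notMem_empty m)
    · intro m hm
      exact absurd hm (notMem_empty m)
  obtain ⟨p, t, h1, h2, h3⟩ := exists_enum A hA
  obtain ⟨W, k, g1, g2, g3, g4, g5⟩ := exists_sim T hT t p h1 (fun i => ρ (t i))
  refine ⟨W, k, g1, g2, g3.trans (hD p t h1 h2), ?_, ?_⟩
  · intro m hm u hu
    obtain ⟨i, hi, rfl⟩ := h3 m hm
    exact g4 i hi u hu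
  · intro m hm
    obtain ⟨i, hi, rfl⟩ := h3 m hm
    exact g5 i hi

/-- **Simulation lemma** for edges: the edges `E` of `T`, of rank `ρ (slope)` in `T`, are edges of
one level of a good set with at most `#T + D` points. -/
theorem exists_sim_Ed (T : Finset Pt) (hT : Good T) (E : Finset (Pt × Pt))
    (hE : ∀ e ∈ E, e.1 ∈ T ∧ e.2 ∈ T ∧ e.1.1 < e.2.1) (ρ : ℝ → ℕ)
    (hρ : ∀ e ∈ E, #{v ∈ T | ht (sl e.1 e.2) v < ht (sl e.1 e.2) e.1} = ρ (sl e.1 e.2))
    (D : ℕ) (hD : VarLe (E.image fun e => sl e.1 e.2) ρ D) :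
    ∃ (Q : Finset Pt) (κ : ℕ), Good Q ∧ T ⊆ Q ∧ #Q ≤ #T + D ∧ ∀ e ∈ E, e ∈ Ed Q κ := by
  obtain ⟨W, k, g1, g2, g3, g4, -⟩ := exists_sim_finset T hT _ ρ D hD
  classical
  refine ⟨T ∪ W, k, g2, subset_union_left, ?_, ?_⟩
  · rw [card_union_of_disjoint g1]; omega
  · intro e he
    obtain ⟨h1, h2, h3⟩ := hE e he
    unfold Ed
    rw [mem_filter, mem_product]
    refine ⟨⟨mem_union_left _ h1, mem_union_left _ h2⟩, h3, ?_⟩
    rw [filter_union, card_union_of_disjoint (disjoint_filter_filter g1), hρ e he]
    have := g4 _ (mem_image_of_mem _ he) e.1 h1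
    omega

end Vale.Agent.P065.H859
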