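import Vale.Agent.P065.UB.WLov
import Vale.Agent.P065.H859.Sim

/-!
# P065: families of windows of one level and the extremal function (helper859)
-/

set_option autoImplicit false

namespace Vale.Agent.P065.H859

open Finset Vale.Agent.P065.UB Vale.Agent.P065.UB.RankAux

/-- a finite family of pairwise disjoint windows, each touching at least `w` points of the
`k`-level of `P` -/
structure IsFam (P : Finset Pt) (k w : ℕ) {ι : Type*} (A : Finset ι) (I : ι → Set ℝ) : Prop where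
  conn : ∀ i ∈ A, (I i).OrdConnected
  disj : ∀ i ∈ A, ∀ j ∈ A, i ≠ j → Disjoint (I i) (I j)
  card : ∀ i ∈ A, w ≤ #(Tch P k P (I i))

theorem EdBd_self (P : Finset Pt) (k : ℕ) (I : Set ℝ) : EdBd P k P I = ∅ := by
  classical
  unfold EdBd
  rw [filter_eq_empty_iff]
  rintro ⟨p, q⟩ he h
  have := mem_Ed.1 he
  rcases h.1 with h1 | h1
  · exact h1.2 this.2.1
  · exact h1.1 this.1

theorem mem_EdIn_self {P : Finset Pt} {k : ℕ} {I : Set ℝ} {e : Pt × Pt} :
    e ∈ EdIn P k P I ↔ e ∈ Ed P k ∧ sl e.1 e.2 ∈ I := by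
  obtain ⟨p, q⟩ := e
  rw [mem_EdIn]
  constructor
  · rintro ⟨h1, -, -, h2⟩; exact ⟨h1, h2⟩
  · rintro ⟨h1, h2⟩
    have := mem_Ed.1 h1
    exact ⟨h1, this.1, this.2.1, h2⟩

theorem mem_Tch_self {P : Finset Pt} {k : ℕ} {I : Set ℝ} {v : Pt} :
    v ∈ Tch P k P I ↔ ∃ e ∈ Ed P k, sl e.1 e.2 ∈ I ∧ (e.1 = v ∨ e.2 = v) := by
  rw [mem_Tch]
  constructor
  · rintro ⟨-, e, he, h⟩
    rw [mem_EdIn_self] at he
    exact ⟨e, he.1, he.2, h⟩
  · rintro ⟨e, he, h1, h2⟩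
    obtain ⟨p, q⟩ := e
    have := mem_Ed.1 he
    refine ⟨?_, (p, q), mem_EdIn_self.2 ⟨he, h1⟩, h2⟩
    rcases h2 with rfl | rfl
    · exact this.1
    · exact this.2.1

theorem Tch_mono {P : Finset Pt} {k : ℕ} {I J : Set ℝ} (h : I ⊆ J) :
    Tch P k P I ⊆ Tch P k P J := by
  intro v hv
  rw [mem_Tch_self] at hv ⊢
  obtain ⟨e, h1, h2, h3⟩ := hv
  exact ⟨e, h1, h h2, h3⟩

theorem sq_le_Sw {P : Finset Pt} (hP : Good P) {k w : ℕ} {I : Set ℝ} (hI : I.OrdConnected)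
    (hw1 : 1 ≤ w) (hw : w ≤ #(Tch P k P I)) : w ^ 2 ≤ 64 * #(Sw (Tch P k P I) I) := by
  classical
  rcases le_or_gt 8 #(Tch P k P I) with h8 | h8
  · have h := stRank P k P I hP (Subset.refl _) hI (by rw [EdBd_self, card_empty]; omega)
    exact (Nat.pow_le_pow_left hw 2).trans h
  · have hne : (Tch P k P I).Nonempty := card_pos.1 (by omega)
    obtain ⟨v, hv⟩ := hne
    obtain ⟨e, h1, h2, -⟩ := mem_Tch_self.1 hv
    have hS : e ∈ Sw (Tch P k P I) I := by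
      obtain ⟨p, q⟩ := e
      have := mem_Ed.1 h1
      rw [mem_Sw]
      refine ⟨mem_Tch_self.2 ⟨_, h1, h2, Or.inl rfl⟩, mem_Tch_self.2 ⟨_, h1, h2, Or.inr rfl⟩,
        this.2.2.1, h2⟩
    have hpos : 0 < #(Sw (Tch P k P I) I) := card_pos.2 ⟨e, hS⟩
    have h7 : w ≤ 7 := by omega
    have : w ^ 2 ≤ 7 ^ 2 := Nat.pow_le_pow_left h7 2
    omega

/-- crossing count: the number of windows touching `w` points is at most `64 (n / w) ^ 2` -/
theorem fam_bound {P : Finset Pt} (hP : Good P) {k w : ℕ} (hw : 1 ≤ w) {ι : Type*} {A : Finset ι}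
    {I : ι → Set ℝ} (h : IsFam P k w A I) : #A * w ^ 2 ≤ 64 * #P ^ 2 := by
  classical
  have h1 : ∀ i ∈ A, w ^ 2 ≤ 64 * #(Sw (Tch P k P (I i)) (I i)) := fun i hi =>
    sq_le_Sw hP (h.conn i hi) hw (h.card i hi)
  have h2 : #(A.biUnion fun i => Sw (Tch P k P (I i)) (I i))
      = ∑ i ∈ A, #(Sw (Tch P k P (I i)) (I i)) := by
    apply card_biUnion
    intro i hi j hj hij
    rw [Function.onFun, Finset.disjoint_left]
    rintro ⟨u, v⟩ hu hv
    rw [mem_Sw] at hu hv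
    exact Set.disjoint_left.1 (h.disj i hi j hj hij) hu.2.2.2 hv.2.2.2
  have h3 : (A.biUnion fun i => Sw (Tch P k P (I i)) (I i)) ⊆ P ×ˢ P := by
    intro e he
    rw [mem_biUnion] at he
    obtain ⟨i, -, he⟩ := he
    obtain ⟨u, v⟩ := e
    rw [mem_Sw] at he
    exact mem_product.2 ⟨Tch_subset _ _ _ _ he.1, Tch_subset _ _ _ _ he.2.1⟩
  calc #A * w ^ 2 = ∑ _i ∈ A, w ^ 2 := by rw [sum_const, smul_eq_mul]
    _ ≤ ∑ i ∈ A, 64 * #(Sw (Tch P k P (I i)) (I i)) := sum_le_sum h1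
    _ = 64 * ∑ i ∈ A, #(Sw (Tch P k P (I i)) (I i)) := by rw [mul_sum]
    _ = 64 * #(A.biUnion fun i => Sw (Tch P k P (I i)) (I i)) := by rw [h2]
    _ ≤ 64 * #(P ×ˢ P) := Nat.mul_le_mul_left _ (card_le_card h3)
    _ = 64 * #P ^ 2 := by rw [card_product, sq]

/-- the possible sizes of families of windows touching at least `w` of at most `N` points -/
def FamSizes (N w : ℕ) : Set ℕ :=
  {p | ∃ (P : Finset Pt) (k : ℕ) (I : ℕ → Set ℝ), Good P ∧ #P ≤ N ∧ IsFam P k w (range p) I}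

/-- the extremal function: the maximal number of pairwise disjoint windows in each of which some
level of at most `N` points touches at least `w` points -/
noncomputable def F (N w : ℕ) : ℕ := sSup (FamSizes N w)

theorem famSizes_bdd {N w : ℕ} (hw : 1 ≤ w) : ∀ p ∈ FamSizes N w, p * w ^ 2 ≤ 64 * N ^ 2 := by
  rintro p ⟨P, k, I, hP, hN, h⟩
  have h1 := fam_bound hP hw h
  rw [card_range] at h1
  exact h1.trans (Nat.mul_le_mul_left _ (Nat.pow_le_pow_left hN 2))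

theorem famSizes_bddAbove {N w : ℕ} (hw : 1 ≤ w) : BddAbove (FamSizes N w) := by
  refine ⟨64 * N ^ 2, fun p hp => ?_⟩
  have h1 := famSizes_bdd hw p hp
  have h2 : 1 ≤ w ^ 2 := Nat.one_le_pow _ _ hw
  nlinarith

theorem zero_mem_famSizes (N w : ℕ) : 0 ∈ FamSizes N w := by
  refine ⟨∅, 0, fun _ => ∅, ?_, by simp, ?_⟩
  · constructor
    · intro p hp; exact absurd hp (notMem_empty p)
    · intro m a ha; exact absurd ha (notMem_empty a)
  · constructor <;> intro i hi <;> simp at hi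

theorem F_mem {N w : ℕ} (hw : 1 ≤ w) : F N w ∈ FamSizes N w :=
  Nat.sSup_mem ⟨0, zero_mem_famSizes N w⟩ (famSizes_bddAbove hw)

/-- `F (N, w) w ^ 2 ≤ 64 N ^ 2` -/
theorem F_mul_sq_le {N w : ℕ} (hw : 1 ≤ w) : F N w * w ^ 2 ≤ 64 * N ^ 2 :=
  famSizes_bdd hw _ (F_mem hw)

theorem IsFam.mono {P : Finset Pt} {k w w' : ℕ} (hw : w' ≤ w) {ι : Type*} {A A' : Finset ι}
    (hA : A' ⊆ A) {I : ι → Set ℝ} (h : IsFam P k w A I) : IsFam P k w' A' I :=
  ⟨fun i hi => h.conn i (hA hi), fun i hi j hj => h.disj i (hA hi) j (hA hj),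
    fun i hi => hw.trans (h.card i (hA hi))⟩

/-- reindexing by the natural numbers -/
theorem IsFam.reindex {P : Finset Pt} {k w : ℕ} {ι : Type*} {A : Finset ι} {I : ι → Set ℝ}
    (h : IsFam P k w A I) : ∃ I' : ℕ → Set ℝ, IsFam P k w (range #A) I' ∧
      ∀ n < #A, ∃ i ∈ A, I' n = I i := by
  classical
  obtain ⟨I', hI⟩ : ∃ I' : ℕ → Set ℝ, ∀ n (hn : n < #A),
      I' n = I (A.equivFin.symm ⟨n, hn⟩).1 :=
    ⟨fun n => if h : n < #A then I (A.equivFin.symm ⟨n, h⟩).1 else ∅, fun n hn => by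
      simp only [hn, dif_pos]⟩
  refine ⟨I', ⟨?_, ?_, ?_⟩, ?_⟩
  · intro n hn
    rw [mem_range] at hn
    rw [hI n hn]
    exact h.conn _ (A.equivFin.symm ⟨n, hn⟩).2
  · intro n hn m hm hnm
    rw [mem_range] at hn hm
    rw [hI n hn, hI m hm]
    refine h.disj _ (A.equivFin.symm ⟨n, hn⟩).2 _ (A.equivFin.symm ⟨m, hm⟩).2 ?_
    intro h'
    have h2 := A.equivFin.symm.injective (Subtype.ext h')
    exact hnm (congrArg Fin.val h2)
  · intro n hn
    rw [mem_range] at hn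
    rw [hI n hn]
    exact h.card _ (A.equivFin.symm ⟨n, hn⟩).2
  · intro n hn
    exact ⟨_, (A.equivFin.symm ⟨n, hn⟩).2, hI n hn⟩

theorem card_le_F {P : Finset Pt} (hP : Good P) {k w : ℕ} (hw : 1 ≤ w) {ι : Type*} {A : Finset ι}
    {I : ι → Set ℝ} (h : IsFam P k w A I) {N : ℕ} (hN : #P ≤ N) : #A ≤ F N w := by
  obtain ⟨I', h1, -⟩ := h.reindex
  exact le_csSup (famSizes_bddAbove hw) ⟨P, k, I', hP, hN, h1⟩

theorem F_mono {N N' w w' : ℕ} (hN : N ≤ N') (hw : 1 ≤ w') (hww : w' ≤ w) : F N w ≤ F N' w' := by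
  obtain ⟨P, k, I, h1, h2, h3⟩ := F_mem (N := N) (w := w) (hw.trans hww)
  have h4 := card_le_F h1 hw (h3.mono hww (Subset.refl _)) (h2.trans hN)
  rwa [card_range] at h4

/-- the number of `k`-edges is at most `F (n, 2)` -/
theorem card_Ed_le_F {P : Finset Pt} (hP : Good P) (k : ℕ) {N : ℕ} (hN : #P ≤ N) :
    #(Ed P k) ≤ F N 2 := by
  classical
  have hfam : IsFam P k 2 (Ed P k) (fun e => {sl e.1 e.2}) := by
    refine ⟨fun e _ => Set.ordConnected_singleton, ?_, ?_⟩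
    · rintro ⟨p, q⟩ he ⟨p', q'⟩ he' hne
      rw [Set.disjoint_singleton]
      intro h
      obtain ⟨rfl, rfl⟩ := Ed_unique hP he he' h
      exact hne rfl
    · rintro ⟨p, q⟩ he
      have hpq := (mem_Ed.1 he).2.2.1
      have hsub : ({p, q} : Finset Pt) ⊆ Tch P k P {sl p q} := by
        intro v hv
        rw [mem_insert, mem_singleton] at hv
        refine mem_Tch_self.2 ⟨(p, q), he, rfl, ?_⟩
        rcases hv with rfl | rfl
        · exact Or.inl rfl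
        · exact Or.inr rfl
      have hne : p ≠ q := by rintro rfl; exact lt_irrefl _ hpq
      calc 2 = #({p, q} : Finset Pt) := (card_pair hne).symm
        _ ≤ _ := card_le_card hsub
  exact card_le_F hP (by norm_num) hfam hN

theorem good_subset {P T : Finset Pt} (hP : Good P) (h : T ⊆ P) : Good T :=
  ⟨fun p hp q hq => hP.xinj p (h hp) q (h hq),
    fun m a ha b hb c hc => hP.gen m a (h ha) b (h hb) c (h hc)⟩

/-- the touched points of a window carry the whole window -/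
theorem restrict {P : Finset Pt} (hP : Good P) {k : ℕ} {J : Set ℝ} (hJ : J.OrdConnected) :
    ∃ k' : ℕ, ∀ e ∈ Ed P k, sl e.1 e.2 ∈ J → e ∈ Ed (Tch P k P J) k' := by
  classical
  by_cases hex : ∃ e ∈ Ed P k, sl e.1 e.2 ∈ J
  · obtain ⟨e₀, h1, h2⟩ := hex
    refine ⟨cT (Tch P k P J) e₀, ?_⟩
    intro e he hes
    have e1 : e ∈ EdIn P k P J := mem_EdIn_self.2 ⟨he, hes⟩
    have e2 : e₀ ∈ EdIn P k P J := mem_EdIn_self.2 ⟨h1, h2⟩
    have w1 := window hP (Subset.refl P) hJ e1 e2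
    have w2 := window hP (Subset.refl P) hJ e2 e1
    rw [EdBd_self, card_empty] at w1 w2
    have hc : cT (Tch P k P J) e = cT (Tch P k P J) e₀ := by omega
    obtain ⟨p, q⟩ := e
    have := mem_Ed.1 he
    rw [mem_Ed]
    refine ⟨mem_Tch_self.2 ⟨_, he, hes, Or.inl rfl⟩, mem_Tch_self.2 ⟨_, he, hes, Or.inr rfl⟩,
      this.2.2.1, ?_⟩
    rw [← hc]
    rfl
  · refine ⟨0, fun e he hes => absurd ⟨e, he, hes⟩ hex⟩

/-- windows inside a window live on its touched points -/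
theorem IsFam.restrict {P : Finset Pt} (hP : Good P) {k w : ℕ} {J : Set ℝ} (hJ : J.OrdConnected)
    {ι : Type*} {A : Finset ι} {I : ι → Set ℝ} (h : IsFam P k w A I) (hIJ : ∀ i ∈ A, I i ⊆ J) :
    ∃ k' : ℕ, IsFam (Tch P k P J) k' w A I := by
  obtain ⟨k', hk⟩ := Vale.Agent.P065.H859.restrict hP (k := k) hJ
  refine ⟨k', h.conn, h.disj, ?_⟩
  intro i hi
  refine (h.card i hi).trans (card_le_card ?_)
  intro v hv
  rw [mem_Tch_self] at hv ⊢
  obtain ⟨e, h1, h2, h3⟩ := hv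
  exact ⟨e, hk e h1 (hIJ i hi h2), h2, h3⟩

theorem card_le_F_window {P : Finset Pt} (hP : Good P) {k w : ℕ} (hw : 1 ≤ w) {J : Set ℝ}
    (hJ : J.OrdConnected) {ι : Type*} {A : Finset ι} {I : ι → Set ℝ} (h : IsFam P k w A I)
    (hIJ : ∀ i ∈ A, I i ⊆ J) {N : ℕ} (hN : #(Tch P k P J) ≤ N) : #A ≤ F N w := by
  obtain ⟨k', h'⟩ := h.restrict hP hJ hIJ
  exact card_le_F (good_subset hP (Tch_subset _ _ _ _)) hw h' hN

end Vale.Agent.P065.H859
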