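import Vale.Agent.P065.H859.Levels
import Vale.Agent.P065.H859.Greedy

/-!
# P065: thin classes and atoms are rare (helper859)
-/

set_option autoImplicit false

namespace Vale.Agent.P065.H859

open Finset Vale.Agent.P065.UB Vale.Agent.P065.UB.RankAux Vale.Agent.P065.Ent

/-- flags conditioned on an event -/
noncomputable def Flags.cond {Ω : Type*} [Fintype Ω] (S : Flags Ω) (Q : Ω → Prop)
    (h : 0 < PE S.μ Q) : Flags Ω where
  μ := cE S.μ Q
  prob := cnd_isProb S.prob h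
  tm := S.tm
  ln := S.ln
  real := S.real

theorem cE_true {Ω : Type*} [Fintype Ω] {μ : Ω → ℝ} {Q : Ω → Prop} {ω : Ω}
    (h : 0 < cE μ Q ω) : Q ω := by
  have := cnd_pos h
  rw [this]
  trivial

theorem cE_le {Ω : Type*} [Fintype Ω] {μ : Ω → ℝ} (hμ : IsProb μ) {Q : Ω → Prop}
    (h : 0 < PE μ Q) (ω : Ω) : cE μ Q ω ≤ μ ω / PE μ Q := by
  unfold cE cnd
  split_ifs
  · exact le_rfl
  · exact div_nonneg (hμ.nonneg ω) h.le

theorem Pr_cE_le {Ω α : Type*} [Fintype Ω] {μ : Ω → ℝ} (hμ : IsProb μ) {Q : Ω → Prop}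
    (h : 0 < PE μ Q) (X : Ω → α) (x : α) : Pr (cE μ Q) X x ≤ Pr μ X x / PE μ Q := by
  classical
  unfold Pr
  rw [sum_div]
  refine sum_le_sum fun ω _ => ?_
  split_ifs
  · exact cE_le hμ h ω
  · rw [zero_div]

theorem Pr_cE_eq {Ω α : Type*} [Fintype Ω] {μ : Ω → ℝ} {Q : Ω → Prop}
    {X : Ω → α} (hX : Det X Q) {ω : Ω} (hω : Q ω) :
    Pr (cE μ Q) X (X ω) = Pr μ X (X ω) / PE μ Q := by
  classical
  unfold Pr
  rw [sum_div]
  refine sum_congr rfl fun ω' _ => ?_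
  split_ifs with h1
  · have h2 : Q ω' = Q ω := hX _ _ h1
    have h3 : Q ω' = True := by rw [h2]; exact eq_true hω
    unfold cE cnd
    rw [if_pos h3]
  · rw [zero_div]

/-- the label entropies add up -/
theorem Hc_label_le {Ω : Type*} [Fintype Ω] {μ : Ω → ℝ} (hμ : IsProb μ) {ι ζ κ : Type*}
    (W : ℕ → Ω → ι) (Λ : ℕ → Ω → ζ) (h0 : ∀ ω ω', Λ 0 ω = Λ 0 ω')
    (hΛ : ∀ s, Det (Λ (s + 1)) (Λ s)) (T : ℕ) (V : Ω → κ) (hV : ∀ s < T, Det V (W (s + 1))) :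
    Hc μ (Λ T) V ≤ ∑ s ∈ range T, Hc μ (Λ (s + 1)) (fun ω => (W (s + 1) ω, Λ s ω)) := by
  have key : ∀ n ≤ T, Hc μ (Λ n) V ≤
      ∑ s ∈ range n, Hc μ (Λ (s + 1)) (fun ω => (W (s + 1) ω, Λ s ω)) := by
    intro n
    induction n with
    | zero =>
      intro _
      rw [sum_range_zero]
      exact (Hc_eq_zero fun ω ω' _ => h0 ω ω').le
    | succ n ih =>
      intro hn
      rw [sum_range_succ]
      have h1 := ih (by omega)
      have e1 : Hc μ (Λ (n + 1)) V = Hc μ (fun ω => (Λ (n + 1) ω, Λ n ω)) V :=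
        Hc_congr ((Det.refl _).pair (hΛ n)) (det_fst _ _) (Det.refl _) (Det.refl _)
      rw [e1, Hc_pair]
      have h2 : Hc μ (Λ (n + 1)) (fun ω => (Λ n ω, V ω)) ≤
          Hc μ (Λ (n + 1)) (fun ω => (W (n + 1) ω, Λ n ω)) :=
        Hc_anti hμ _ (((det_snd _ _).trans (hV n (by omega))).pair (det_fst _ _))
      linarith
  exact key T le_rfl

/-- the arithmetic of `fat_ineq` -/
theorem fat_comb {β' lp lw lA lM lb L0 LY LXY S0b C C' a T HY HX Hc' : ℝ} (hβ0 : 0 < β')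
    (hβ1 : 1 ≤ β') (hC : 0 ≤ C) (hC' : 0 ≤ C') (hT : 0 ≤ T) (hlb : 0 ≤ -lb) (hS : 0 ≤ S0b)
    (h1 : HY + β' * LY ≤ β' * L0 + a + C * T) (h4 : lp + lw - lA - LY + lb ≤ HY)
    (h5 : lp + lb ≤ HX) (h6 : HX ≤ HY + Hc') (h7 : Hc' ≤ β' * (LY - LXY) + C')
    (h8 : HY ≤ lM + a) (h11 : lw - S0b ≤ LXY) (h12 : a ≤ S0b) :
    (β' - 1) / β' * (lp - lM) ≤ β' * (L0 - lw) - lp + lA + 2 * (-lb) + (β' + 1) * S0b +
      (C + C') * (T + 2) := by
  set ℓ := LY - lw with hℓ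
  have k1 : (β' - 1) * ℓ ≤ β' * (L0 - lw) - lp + lA - lb + S0b + C * T := by
    rw [hℓ]
    nlinarith
  have k2 : lp + lb - lM - S0b - β' * S0b - C' ≤ β' * ℓ := by
    have := mul_le_mul_of_nonneg_left h11 hβ0.le
    rw [hℓ]
    linarith
  have k3 : (β' - 1) / β' * (lp + lb - lM - S0b - β' * S0b - C') ≤ (β' - 1) * ℓ := by
    have e1 : (β' - 1) * ℓ = (β' - 1) / β' * (β' * ℓ) := by field_simp
    rw [e1]
    exact mul_le_mul_of_nonneg_left k2 (div_nonneg (by linarith) hβ0.le)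
  have k4 : (β' - 1) / β' ≤ 1 := by
    rw [div_le_one hβ0]
    linarith
  have k5 : 0 ≤ (β' - 1) / β' := div_nonneg (by linarith) hβ0.le
  have k6 : (β' - 1) / β' * β' = β' - 1 := by field_simp
  have k7 : (β' - 1) / β' * (-lb + S0b + C') ≤ -lb + S0b + C' :=
    mul_le_of_le_one_left (by positivity) k4
  have k8 : (β' - 1) / β' * (lp + lb - lM - S0b - β' * S0b - C') =
      (β' - 1) / β' * (lp - lM) - (β' - 1) / β' * (-lb + S0b + C') - (β' - 1) * S0b := by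
    have : (β' - 1) / β' * (β' * S0b) = (β' - 1) * S0b := by
      rw [← mul_assoc, k6]
    linear_combination -this
  have k9 : C * T + C' ≤ (C + C') * (T + 2) := by nlinarith
  nlinarith

/-- **thin classes are rare**: the basic inequality -/
theorem fat_ineq {β' : ℝ} (hβ : beta < β') (hβ1 : 1 ≤ β') : ∃ C : ℝ, 0 ≤ C ∧
    ∀ {p w : ℕ} (U : Conf p w) (lv : ℕ → ℕ), Monotone lv → lv 0 = 0 → (∀ s, lv s ≤ U.top) →
      ∀ (Λ : ℕ → Fin p × Fin w → Fin p × Fin w), (∀ ω ω', Λ 0 ω = Λ 0 ω') →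
      (∀ s, Det (Λ (s + 1)) (Λ s)) →
      ∀ (T : ℕ) (Q : Fin p × Fin w → Prop), 0 < PE U.μ Q →
      Det (fun ω => (U.C (lv T) ω, Λ T ω)) Q → ∀ A : ℝ, 0 < A →
      (∀ ω, Q ω → (p : ℝ) * w * Pr U.μ (fun ω => (U.C (lv T) ω, Λ T ω))
        (U.C (lv T) ω, Λ T ω) ≤ A * U.sz (fun ω => (U.C (lv T) ω, Λ T ω)) ω) →
      (β' - 1) / β' * (Real.log p - lv T * Real.log U.B) ≤
        β' * (U.Ls (U.C 0) - Real.log w) - Real.log p + Real.log A +
        2 * (-Real.log (PE U.μ Q)) + (β' + 1) * ((∑ s ∈ range T, Hc U.μ (Λ (s + 1))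
          (fun ω => (U.C (lv (s + 1)) ω, Λ s ω))) / PE U.μ Q) + C * (T + 2) := by
  classical
  obtain ⟨C, hC, hT⟩ := telescope hβ
  obtain ⟨C', hC', hE⟩ := entropic_bound hβ
  refine ⟨C + C', by positivity, ?_⟩
  intro p w U lv hlv hlv0 hlvt Λ h0 hΛ T Q hPQ hQ A hA hthin
  have hβ0 : 0 < β' := by linarith
  obtain ⟨hp, hw⟩ := U.pos
  have hp' : (0 : ℝ) < p := by exact_mod_cast hp
  have hw' : (0 : ℝ) < w := by exact_mod_cast hw
  set b₀ := PE U.μ Q with hb₀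
  have hb1 : b₀ ≤ 1 := Pr_le_one U.prob _ _
  have hlogb : 0 ≤ -Real.log b₀ := by
    have := Real.log_nonpos hPQ.le hb1
    linarith
  set S : Flags (Fin p × Fin w) := U.toFlags.cond Q hPQ with hS
  have hSμ : S.μ = cE U.μ Q := rfl
  set Y : Fin p × Fin w → ℕ × (Fin p × Fin w) := fun ω => (U.C (lv T) ω, Λ T ω) with hY
  have hszeq : ∀ {κ : Type} (Z : Fin p × Fin w → κ) (ω : Fin p × Fin w),
      S.sz Z ω = U.sz Z ω := fun Z ω => rfl
  -- (1) the telescope for the conditioned flags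
  set a : ℕ → ℝ := fun s => Hc S.μ (Λ (s + 1)) (fun ω => (U.C (lv (s + 1)) ω, Λ s ω)) with ha
  have h1 := hT S T (fun s => U.C (lv s)) Λ (fun s n => U.c (lv s) ⁻¹' {n})
    (fun s n => U.C_conn _ _) (fun s n n' h => U.C_disj _ _ _ h) (fun s ω => U.C_mem _ _)
    (fun s => U.C_det (hlv (Nat.le_succ s))) hΛ a (fun _ => 0) (fun _ => 0)
    (fun s _ => by
      have : S.Ls (fun ω => (U.C (lv (s + 1)) ω, Λ (s + 1) ω)) ≤
          S.Ls (fun ω => (U.C (lv (s + 1)) ω, Λ s ω)) :=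
        S.Ls_anti ((det_fst _ _).pair ((det_snd _ _).trans (hΛ s)))
      linarith) (fun s _ => by simp only [ha, add_zero, le_refl])
  simp only [sum_const_zero, mul_zero, add_zero] at h1
  have hW0 : ∀ ω, U.C (lv 0) ω = 0 := fun ω => by rw [hlv0]; exact U.C_zero ω
  have h2 : H S.μ (fun ω => (U.C (lv 0) ω, Λ 0 ω)) = 0 := by
    have : Hc S.μ (fun ω => (U.C (lv 0) ω, Λ 0 ω)) (fun _ => ()) = 0 :=
      Hc_eq_zero fun ω ω' _ => by rw [hW0, hW0, h0 ω ω']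
    rwa [Hc_const S.prob] at this
  have h3 : S.Ls (fun ω => (U.C (lv 0) ω, Λ 0 ω)) = U.Ls (U.C 0) := by
    have e : ∀ ω ω', U.sz (fun ω => (U.C (lv 0) ω, Λ 0 ω)) ω = U.sz (U.C 0) ω' := by
      intro ω ω'
      unfold Flags.sz
      congr 2
      ext e
      rw [U.mem_cls, U.mem_cls]
      constructor
      · rintro ⟨ω₁, -, e2⟩
        exact ⟨ω₁, by rw [U.C_zero, U.C_zero], e2⟩
      · rintro ⟨ω₁, -, e2⟩
        exact ⟨ω₁, Prod.ext ((hW0 ω₁).trans (hW0 ω).symm) (h0 ω₁ ω), e2⟩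
    have ω₀ : Fin p × Fin w := (⟨0, hp⟩, ⟨0, hw⟩)
    have e1 : S.Ls (fun ω => (U.C (lv 0) ω, Λ 0 ω)) = Real.log (U.sz (U.C 0) ω₀) := by
      unfold Flags.Ls Ex
      have : ∀ ω, S.μ ω * Real.log (S.sz (fun ω => (U.C (lv 0) ω, Λ 0 ω)) ω) =
          S.μ ω * Real.log (U.sz (U.C 0) ω₀) := fun ω => by rw [← e ω ω₀]; rfl
      rw [sum_congr rfl fun ω _ => this ω, ← sum_mul, S.prob.sum, one_mul]
    have e2 : U.Ls (U.C 0) = Real.log (U.sz (U.C 0) ω₀) := by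
      unfold Flags.Ls Ex
      have : ∀ ω, U.μ ω * Real.log (U.sz (U.C 0) ω) =
          U.μ ω * Real.log (U.sz (U.C 0) ω₀) := fun ω => by
        rw [← e ω ω₀, e ω ω]
      rw [sum_congr rfl fun ω _ => this ω, ← sum_mul, U.prob.sum, one_mul]
    rw [e1, e2]
  rw [h2, h3, zero_add] at h1
  -- (4) the classes in `Q` are thin
  have h4 : Real.log p + Real.log w - Real.log A - S.Ls Y + Real.log b₀ ≤ H S.μ Y := by
    have e1 : ∀ ω, S.μ ω * (Real.log p + Real.log w - Real.log A + Real.log b₀ -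
        Real.log (S.sz Y ω)) ≤ S.μ ω * (-Real.log (Pr S.μ Y (Y ω))) := by
      intro ω
      rcases (S.prob.nonneg ω).eq_or_lt with e0 | e0
      · rw [← e0, zero_mul, zero_mul]
      · apply mul_le_mul_of_nonneg_left _ e0.le
        have hQω : Q ω := cE_true e0
        have e2 : Pr S.μ Y (Y ω) = Pr U.μ Y (Y ω) / b₀ := Pr_cE_eq hQ hQω
        have e3 : 0 < Pr U.μ Y (Y ω) := Pr_pos U.prob Y (U.mu_pos ω)
        rw [e2, Real.log_div e3.ne' hPQ.ne']
        have e4 := hthin ω hQω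
        have e5 : Real.log ((p : ℝ) * w * Pr U.μ Y (Y ω)) ≤ Real.log (A * U.sz Y ω) :=
          Real.log_le_log (by positivity) e4
        have e6 : 0 < U.sz Y ω := U.sz_pos Y ω
        rw [Real.log_mul (by positivity) e3.ne', Real.log_mul hp'.ne' hw'.ne',
          Real.log_mul hA.ne' e6.ne'] at e5
        have e7 : S.sz Y ω = U.sz Y ω := rfl
        rw [e7]
        linarith
    have e8 := sum_le_sum fun ω (_ : ω ∈ univ) => e1 ω
    have e9 : ∑ ω, S.μ ω * (Real.log p + Real.log w - Real.log A + Real.log b₀ -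
        Real.log (S.sz Y ω)) = Real.log p + Real.log w - Real.log A + Real.log b₀ - S.Ls Y := by
      unfold Flags.Ls Ex
      rw [sum_congr rfl fun ω _ => mul_sub _ _ _, sum_sub_distrib, ← sum_mul, S.prob.sum, one_mul]
    rw [e9] at e8
    unfold H
    linarith
  -- (5) the entropy of the leaf
  have h5 : Real.log p + Real.log b₀ ≤ H S.μ (Prod.fst : Fin p × Fin w → Fin p) := by
    have e1 : ∀ ω : Fin p × Fin w, S.μ ω * (Real.log p + Real.log b₀) ≤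
        S.μ ω * (-Real.log (Pr S.μ Prod.fst ω.1)) := by
      intro ω
      rcases (S.prob.nonneg ω).eq_or_lt with e0 | e0
      · rw [← e0, zero_mul, zero_mul]
      · apply mul_le_mul_of_nonneg_left _ e0.le
        have e2 : 0 < Pr S.μ Prod.fst ω.1 := Pr_pos S.prob Prod.fst e0
        have e3 : Pr S.μ Prod.fst ω.1 ≤ 1 / p / b₀ := by
          have := Pr_cE_le U.prob hPQ Prod.fst ω.1
          rwa [U.Pr_fst] at this
        have e4 := Real.log_le_log e2 e3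
        rw [Real.log_div (by positivity) hPQ.ne', one_div, Real.log_inv] at e4
        linarith
    have e8 := sum_le_sum fun ω (_ : ω ∈ univ) => e1 ω
    rw [← sum_mul, S.prob.sum, one_mul] at e8
    exact e8
  -- (6)
  have h6 : H S.μ (Prod.fst : Fin p × Fin w → Fin p) ≤
      H S.μ Y + Hc S.μ (Prod.fst : Fin p × Fin w → Fin p) Y := by
    rw [← H_pair]
    exact H_mono S.prob (det_fst _ _)
  have h7 := hE S Y (Prod.fst : Fin p × Fin w → Fin p) U.J U.conn U.disj U.mem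
  -- (7)
  have hBpos : 0 < U.B ^ lv T := Nat.pow_pos U.B_pos
  have h8 : H S.μ Y ≤ lv T * Real.log U.B + ∑ s ∈ range T, a s := by
    have e1 : H S.μ Y = H S.μ (U.C (lv T)) + Hc S.μ (Λ T) (U.C (lv T)) := by
      rw [← H_pair]
      exact H_congr (det_swap _ _) (det_swap _ _)
    have e2 : H S.μ (U.C (lv T)) ≤ Real.log (U.B ^ lv T : ℕ) := by
      have := H_le_log S.prob (U.C (lv T)) (range (U.B ^ lv T))
        (fun ω => mem_range.2 (U.C_lt _ ω)) (by rw [card_range]; exact hBpos)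
      rwa [card_range] at this
    rw [Nat.cast_pow, Real.log_pow] at e2
    have e3 := Hc_label_le S.prob (fun s => U.C (lv s)) Λ h0 hΛ T (U.C (lv T))
      (fun s hs => U.C_det (hlv hs))
    rw [e1]
    exact add_le_add e2 e3
  -- (8)
  have hdetT : Det (Prod.fst : Fin p × Fin w → Fin p) (U.C (lv T)) := U.fst_det (hlvt T)
  have h9 : S.Ls (fun ω => (Y ω, ω.1)) = S.Ls (fun ω => (ω.1, Λ T ω)) :=
    S.Ls_congr ((det_snd _ _).pair ((det_fst _ _).trans (det_snd _ _)))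
      ((((det_fst _ _).trans hdetT).pair (det_snd _ _)).pair (det_fst _ _))
  set S0 := ∑ s ∈ range T, Hc U.μ (Λ (s + 1)) (fun ω => (U.C (lv (s + 1)) ω, Λ s ω)) with hS0
  have h10 : Hc U.μ (Λ T) (Prod.fst : Fin p × Fin w → Fin p) ≤ S0 :=
    Hc_label_le U.prob (fun s => U.C (lv s)) Λ h0 hΛ T (Prod.fst : Fin p × Fin w → Fin p)
      (fun s _ => U.fst_det (hlvt _))
  have h11 : Real.log w - S0 / b₀ ≤ S.Ls (fun ω => (ω.1, Λ T ω)) := by
    have e1 := Hc_eq_sum U.prob (Λ T) (Prod.fst : Fin p × Fin w → Fin p)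
    have e2 : ∀ ω : Fin p × Fin w, S.μ ω * Real.log w -
        U.μ ω / b₀ * (-Real.log (Pr U.μ (fun ω => (Λ T ω, ω.1)) (Λ T ω, ω.1) /
          Pr U.μ Prod.fst ω.1)) ≤ S.μ ω * Real.log (S.sz (fun ω => (ω.1, Λ T ω)) ω) := by
      intro ω
      set r := Pr U.μ (fun ω => (Λ T ω, ω.1)) (Λ T ω, ω.1) / Pr U.μ Prod.fst ω.1 with hr
      have r1 : 0 < Pr U.μ (fun ω => (Λ T ω, ω.1)) (Λ T ω, ω.1) :=
        Pr_pos U.prob (fun ω => (Λ T ω, ω.1)) (U.mu_pos ω)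
      have r2 : 0 < Pr U.μ Prod.fst ω.1 := Pr_pos U.prob Prod.fst (U.mu_pos ω)
      have r3 : r ≤ 1 := by
        rw [hr, div_le_one r2]
        exact Pr_mono U.prob (det_snd (Λ T) Prod.fst) ω
      have r4 : 0 ≤ -Real.log r := by
        have := Real.log_nonpos (div_pos r1 r2).le r3
        linarith
      have r5 : Real.log w - (-Real.log r) ≤ Real.log (S.sz (fun ω => (ω.1, Λ T ω)) ω) := by
        have s1 := U.leaf_hyp (Λ T) ω
        have s2 : Pr U.μ (fun ω => (ω.1, Λ T ω)) (ω.1, Λ T ω) =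
            Pr U.μ (fun ω => (Λ T ω, ω.1)) (Λ T ω, ω.1) :=
          Pr_congr (det_swap _ _) (det_swap _ _) ω
        rw [s2] at s1
        rw [sub_neg_eq_add, ← Real.log_mul hw'.ne' (div_pos r1 r2).ne']
        apply Real.log_le_log (by positivity)
        rw [← mul_div_assoc, div_le_iff₀ r2]
        have s3 : S.sz (fun ω => (ω.1, Λ T ω)) ω = U.sz (fun ω => (ω.1, Λ T ω)) ω := rfl
        rw [s3]
        linarith
      have r6 : S.μ ω ≤ U.μ ω / b₀ := cE_le U.prob hPQ ω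
      have r7 := mul_le_mul_of_nonneg_right r6 r4
      have r8 := mul_le_mul_of_nonneg_left r5 (S.prob.nonneg ω)
      linarith
    have e3 := sum_le_sum fun ω (_ : ω ∈ univ) => e2 ω
    rw [sum_sub_distrib, ← sum_mul, S.prob.sum, one_mul] at e3
    have e4 : ∑ ω : Fin p × Fin w, U.μ ω / b₀ *
        (-Real.log (Pr U.μ (fun ω => (Λ T ω, ω.1)) (Λ T ω, ω.1) / Pr U.μ Prod.fst ω.1)) =
        Hc U.μ (Λ T) (Prod.fst : Fin p × Fin w → Fin p) / b₀ := by
      rw [e1, sum_div]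
      exact sum_congr rfl fun ω _ => by ring
    rw [e4] at e3
    have e5 : Hc U.μ (Λ T) (Prod.fst : Fin p × Fin w → Fin p) / b₀ ≤ S0 / b₀ :=
      div_le_div_of_nonneg_right h10 hPQ.le
    unfold Flags.Ls Ex
    linarith
  rw [h9] at h7
  -- the conditioned label entropies
  have h12 : ∑ s ∈ range T, a s ≤ S0 / b₀ := by
    rw [hS0, sum_div]
    refine sum_le_sum fun s _ => ?_
    rw [le_div_iff₀ hPQ, mul_comm]
    exact PE_mul_Hc_le' U.prob _ _ Q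
  have hS00 : 0 ≤ S0 / b₀ := by
    apply div_nonneg _ hPQ.le
    exact sum_nonneg fun s _ => Hc_nonneg U.prob _ _
  exact fat_comb hβ0 hβ1 hC hC' (Nat.cast_nonneg T) hlogb hS00 h1 h4 h5 h6 h7 h8 h11 h12

/-- a line carries at most the fraction `1 / w` of a piece -/
theorem Conf.line_mass {p w : ℕ} (U : Conf p w) {i : ℕ} (hi : i ≤ U.top) (n : ℕ) (v : Pt) :
    Pr U.μ (fun ω => (U.C i ω, U.ln ω)) (n, v) ≤ Pr U.μ (U.C i) n / w := by
  classical
  obtain ⟨hp, hw⟩ := U.pos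
  have hp' : (0 : ℝ) < p := by exact_mod_cast hp
  have hw' : (0 : ℝ) < w := by exact_mod_cast hw
  unfold Pr
  rw [Fintype.sum_prod_type, Fintype.sum_prod_type, sum_div]
  refine sum_le_sum fun a _ => ?_
  have hconst : ∀ u u' : Fin w, U.C i (a, u) = U.C i (a, u') := fun u u' =>
    U.const i hi (a, u) (a, u') rfl
  by_cases hex : ∃ u : Fin w, U.C i (a, u) = n ∧ U.ln (a, u) = v
  · obtain ⟨u₀, h1, h2⟩ := hex
    rw [sum_eq_single u₀]
    · rw [if_pos (by show (U.C i (a, u₀), U.ln (a, u₀)) = (n, v); rw [h1, h2])]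
      have h3 : ∀ u : Fin w, U.C i (a, u) = n := fun u => (hconst u u₀).trans h1
      simp only [h3, if_true, U.unif, sum_const, card_univ, Fintype.card_fin, nsmul_eq_mul]
      apply le_of_eq
      field_simp
    · intro u _ hu
      rw [if_neg]
      intro h
      have h4 := (Prod.mk.inj h).2
      exact hu (U.inj a u u₀ (h4.trans h2.symm))
    · intro h
      exact absurd (mem_univ _) h
  · rw [sum_eq_zero]
    · apply div_nonneg _ hw'.le
      refine sum_nonneg fun u _ => ?_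
      split_ifs
      · exact U.prob.nonneg _
      · exact le_rfl
    · intro u _
      rw [if_neg]
      intro h
      exact hex ⟨u, (Prod.mk.inj h).1, (Prod.mk.inj h).2⟩

/-- **atoms are rare** -/
theorem atom_ineq {p w : ℕ} (U : Conf p w) (lv : ℕ → ℕ) (hlv : Monotone lv)
    (hlvt : ∀ s, lv s ≤ U.top) (Λ : ℕ → Fin p × Fin w → Fin p × Fin w)
    (h0 : ∀ ω ω', Λ 0 ω = Λ 0 ω') (hΛ : ∀ s, Det (Λ (s + 1)) (Λ s)) (T : ℕ) {A : ℝ} (hA : 0 < A)
    (Q : Fin p × Fin w → Prop)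
    (hQ : ∀ ω, Q ω → ∃ ω', (U.C (lv T) ω', Λ T ω') = (U.C (lv T) ω, Λ T ω) ∧
      Pr U.μ (fun ω => (U.C (lv T) ω, Λ T ω)) (U.C (lv T) ω, Λ T ω) ≤
        A * Pr U.μ (fun ω => ((U.C (lv T) ω, Λ T ω), U.ln ω)) ((U.C (lv T) ω, Λ T ω), U.ln ω')) :
    PE U.μ Q * (Real.log w - Real.log A) ≤ ∑ s ∈ range T, Hc U.μ (Λ (s + 1))
          (fun ω => (U.C (lv (s + 1)) ω, Λ s ω)) := by
  classical
  obtain ⟨hp, hw⟩ := U.pos
  have hw' : (0 : ℝ) < w := by exact_mod_cast hw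
  refine le_trans ?_ (Hc_label_le U.prob (fun s => U.C (lv s)) Λ h0 hΛ T (U.C (lv T))
      (fun s hs => U.C_det (hlv hs)))
  rw [Hc_eq_sum U.prob, PE_eq, sum_mul]
  refine sum_le_sum fun ω _ => ?_
  have p1 : 0 < Pr U.μ (fun ω => (Λ T ω, U.C (lv T) ω)) (Λ T ω, U.C (lv T) ω) :=
    Pr_pos U.prob (fun ω => (Λ T ω, U.C (lv T) ω)) (U.mu_pos ω)
  have p2 : 0 < Pr U.μ (U.C (lv T)) (U.C (lv T) ω) := Pr_pos U.prob _ (U.mu_pos ω)
  have p3 : Pr U.μ (fun ω => (Λ T ω, U.C (lv T) ω)) (Λ T ω, U.C (lv T) ω) ≤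
      Pr U.μ (U.C (lv T)) (U.C (lv T) ω) := Pr_mono U.prob (det_snd (Λ T) (U.C (lv T))) ω
  split_ifs with h
  · apply mul_le_mul_of_nonneg_left _ (U.prob.nonneg ω)
    obtain ⟨ω', e1, e2⟩ := hQ ω h
    have e3 : Pr U.μ (fun ω => (Λ T ω, U.C (lv T) ω)) (Λ T ω, U.C (lv T) ω) =
        Pr U.μ (fun ω => (U.C (lv T) ω, Λ T ω)) (U.C (lv T) ω, Λ T ω) :=
      Pr_congr (det_swap _ _) (det_swap _ _) ω
    have e4 : Pr U.μ (fun ω => ((U.C (lv T) ω, Λ T ω), U.ln ω))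
        ((U.C (lv T) ω, Λ T ω), U.ln ω') ≤ Pr U.μ (U.C (lv T)) (U.C (lv T) ω) / w := by
      have f1 : Pr U.μ (fun ω => ((U.C (lv T) ω, Λ T ω), U.ln ω))
          ((U.C (lv T) ω, Λ T ω), U.ln ω') = Pr U.μ (fun ω => ((U.C (lv T) ω, Λ T ω), U.ln ω))
          ((U.C (lv T) ω', Λ T ω'), U.ln ω') := by rw [e1]
      rw [f1]
      have f2 : Pr U.μ (fun ω => ((U.C (lv T) ω, Λ T ω), U.ln ω))
          ((U.C (lv T) ω', Λ T ω'), U.ln ω') ≤
          Pr U.μ (fun ω => (U.C (lv T) ω, U.ln ω)) (U.C (lv T) ω', U.ln ω') :=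
        Pr_mono U.prob (X := fun ω => ((U.C (lv T) ω, Λ T ω), U.ln ω))
          (Y := fun ω => (U.C (lv T) ω, U.ln ω))
          (((det_fst _ _).trans (det_fst _ _)).pair (det_snd _ _)) ω'
      refine f2.trans ?_
      rw [(Prod.mk.inj e1).1]
      exact U.line_mass (hlvt T) _ _
    rw [e3]
    have p4 : 0 < Pr U.μ (fun ω => (U.C (lv T) ω, Λ T ω)) (U.C (lv T) ω, Λ T ω) := by
      rw [← e3]; exact p1
    have e5 : Pr U.μ (fun ω => (U.C (lv T) ω, Λ T ω)) (U.C (lv T) ω, Λ T ω) /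
        Pr U.μ (U.C (lv T)) (U.C (lv T) ω) ≤ A / w := by
      rw [div_le_iff₀ p2]
      calc _ ≤ A * Pr U.μ (fun ω => ((U.C (lv T) ω, Λ T ω), U.ln ω))
            ((U.C (lv T) ω, Λ T ω), U.ln ω') := e2
        _ ≤ A * (Pr U.μ (U.C (lv T)) (U.C (lv T) ω) / w) := mul_le_mul_of_nonneg_left e4 hA.le
        _ = A / w * Pr U.μ (U.C (lv T)) (U.C (lv T) ω) := by ring
    have e6 := Real.log_le_log (div_pos p4 p2) e5
    rw [Real.log_div hA.ne' hw'.ne'] at e6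
    linarith
  · rw [zero_mul]
    apply mul_nonneg (U.prob.nonneg ω)
    have := Real.log_nonpos (div_pos p1 p2).le ((div_le_one p2).2 p3)
    linarith

end Vale.Agent.P065.H859
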