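import Vale.Agent.P065.H859.Expo
import Vale.Agent.P065.H882.KDep
import Vale.Agent.P065.U.H792.Trans

/-!
# P065: the official form of the conclusion from `beta ≤ 1` (helper859)
-/

set_option autoImplicit false

namespace Vale.Agent.P065.H859

open Finset Vale.Agent.P065 Vale.Agent.P065.UB

/-- if the exponent `beta` of the extremal function is at most `1`, then `h(n) ≤ n ^ (1 + o(1))`
and `e_k(n) ≤ n k ^ (o(1))`, in terms of the official definitions -/
theorem final_of_beta (hβ : beta ≤ 1) :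
    (∀ ε : ℝ, 0 < ε → ∃ C : ℝ, ∀ P : Finset (ℝ × ℝ), GenPos P →
      (halvingNumber P : ℝ) ≤ C * (P.card : ℝ) ^ (1 + ε)) ∧
    (∀ ε : ℝ, 0 < ε → ∃ C : ℝ, ∀ (P : Finset (ℝ × ℝ)) (k : ℕ), GenPos P → 1 ≤ k →
      k + 1 ≤ P.card → (kSetNumber P k : ℝ) ≤ C * P.card * (k : ℝ) ^ ε) := by
  constructor
  · intro ε hε
    obtain ⟨C, hC, H⟩ := card_Ed_le_of_beta hβ (lt_min hε one_pos)
    have hmin : min ε 1 ≤ 1 := min_le_right _ _
    have h1 := U.H792.Trans.trans (1 / 3 - min ε 1) C (by
      have : 0 < min ε 1 := lt_min hε one_pos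
      linarith) (by linarith) (fun P k hP => by
        have := H P k hP
        rwa [show (4 / 3 - (1 / 3 - min ε 1) : ℝ) = 1 + min ε 1 by ring])
    refine ⟨C, fun P hP => ?_⟩
    have h2 : (halvingNumber P : ℝ) ≤ hmax #P := by
      exact_mod_cast halvingNumber_le_hmax rfl hP
    have h3 := h1.1 #P
    rw [show (4 / 3 - (1 / 3 - min ε 1) : ℝ) = 1 + min ε 1 by ring] at h3
    rcases Nat.eq_zero_or_pos #P with h0 | hpos
    · rw [h0] at h2 h3 ⊢
      have e1 : ((0 : ℕ) : ℝ) ^ (1 + min ε 1) = 0 := by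
        rw [Nat.cast_zero, Real.zero_rpow]
        have : 0 < min ε 1 := lt_min hε one_pos
        linarith
      have e2 : ((0 : ℕ) : ℝ) ^ (1 + ε) = 0 := by
        rw [Nat.cast_zero, Real.zero_rpow]
        linarith
      rw [e1] at h3
      rw [e2]
      linarith
    · have hP1 : (1 : ℝ) ≤ #P := by exact_mod_cast hpos
      calc (halvingNumber P : ℝ) ≤ C * (#P : ℝ) ^ (1 + min ε 1) := h2.trans h3
        _ ≤ C * (#P : ℝ) ^ (1 + ε) := by
          apply mul_le_mul_of_nonneg_left _ (by linarith)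
          exact Real.rpow_le_rpow_of_exponent_le hP1 (by linarith [min_le_left ε 1])
  · intro ε hε
    have hm0 : 0 < min ε 1 := lt_min hε one_pos
    obtain ⟨C, hC, H⟩ := card_Ed_le_of_beta hβ hm0
    have h2 := Vale.Agent.P065.H882.kdep (c := 1 / 3 - min ε 1) (C := C) (by linarith)
      (fun P k hP => by
        have := H P k hP
        rwa [show (4 / 3 - (1 / 3 - min ε 1) : ℝ) = 1 + min ε 1 by ring])
    set C' : ℝ := 9 * C * 3 ^ (4 / 3 - (1 / 3 - min ε 1)) with hC'
    have hC'0 : 0 ≤ C' := by positivity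
    have h3 := U.H792.Trans.trans_k (1 / 3 - min ε 1) C' (by linarith) hC'0 (fun P k hP => by
      have := h2 P k hP
      rw [mul_assoc] at this
      exact this)
    refine ⟨2 * C' + 2, fun P k hP hk hkn => ?_⟩
    have h4 : (kSetNumber P k : ℝ) ≤ emax k #P := by
      exact_mod_cast kSetNumber_le_emax rfl hP
    have h5 := h3 #P k hk hkn
    rw [show (1 / 3 - (1 / 3 - min ε 1) : ℝ) = min ε 1 by ring] at h5
    have hk1 : (1 : ℝ) ≤ k := by exact_mod_cast hk
    calc (kSetNumber P k : ℝ) ≤ (2 * C' + 2) * (#P * (k : ℝ) ^ min ε 1) := h4.trans h5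
      _ ≤ (2 * C' + 2) * (#P * (k : ℝ) ^ ε) := by
        apply mul_le_mul_of_nonneg_left _ (by positivity)
        apply mul_le_mul_of_nonneg_left _ (by positivity)
        exact Real.rpow_le_rpow_of_exponent_le hk1 (min_le_left ε 1)
      _ = (2 * C' + 2) * #P * (k : ℝ) ^ ε := by ring

end Vale.Agent.P065.H859
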