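import Vale.Agent.P065.H859.Tree

/-!
# P065: the local entropies of the pieces along a line (helper859)
-/

set_option autoImplicit false

namespace Vale.Agent.P065.H859

open Finset Vale.Agent.P065.UB Vale.Agent.P065.UB.RankAux Vale.Agent.P065.Ent

theorem Pr_of_inj {Ω α : Type*} [Fintype Ω] (μ : Ω → ℝ) {Z : Ω → α} (hZ : Function.Injective Z)
    (ω : Ω) : Pr μ Z (Z ω) = μ ω := by
  classical
  unfold Pr
  rw [sum_eq_single ω]
  · rw [if_pos rfl]
  · intro ω' _ h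
    rw [if_neg]
    intro h'
    exact h (hZ h')
  · intro h
    exact absurd (mem_univ ω) h

/-- a variable which is constant on the support has entropy `0` -/
theorem H_eq_zero_of_const {Ω α : Type*} [Fintype Ω] {μ : Ω → ℝ} (hμ : IsProb μ) {X : Ω → α}
    {x : α} (h : ∀ ω, 0 < μ ω → X ω = x) : H μ X = 0 := by
  classical
  unfold H
  refine sum_eq_zero fun ω _ => ?_
  rcases (hμ.nonneg ω).eq_or_lt with h0 | h0
  · rw [← h0, zero_mul]
  · have h1 : Pr μ X (X ω) = 1 := by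
      rw [← hμ.sum]
      unfold Pr
      refine sum_congr rfl fun ω' _ => ?_
      split_ifs with h2
      · rfl
      · rcases (hμ.nonneg ω').eq_or_lt with h3 | h3
        · exact h3
        · exact absurd ((h ω' h3).trans (h ω h0).symm) h2
    rw [h1, Real.log_one, neg_zero, mul_zero]

/-- conditioning on a variable as an average over the flags -/
theorem Hc_eq_Ex {Ω α β : Type*} [Fintype Ω] {μ : Ω → ℝ} (hμ : IsProb μ) (X : Ω → α)
    (Y : Ω → β) : Hc μ X Y = Ex μ (fun ω => H (cnd μ Y (Y ω)) X) := by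
  classical
  rw [Hc_fiber hμ]
  unfold Ex
  exact (sum_fiber μ Y (fun y => H (cnd μ Y y) X)).symm

namespace Conf

variable {p w : ℕ} (U : Conf p w)

theorem C_det {i i' : ℕ} (h : i ≤ i') : Det (U.C i') (U.C i) := fun _ _ e =>
  pieces_det U.succ h e

theorem C_zero (ω : Fin p × Fin w) : U.C 0 ω = 0 := U.zero _

theorem C_lt (i : ℕ) (ω : Fin p × Fin w) : U.C i ω < U.B ^ i :=
  pieces_lt U.zero U.succ U.B_pos i _

theorem fst_det {i : ℕ} (hi : i ≤ U.top) : Det (Prod.fst : Fin p × Fin w → Fin p) (U.C i) :=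
  fun ω ω' e => U.const i hi ω ω' e

theorem C_conn (i n : ℕ) : (U.c i ⁻¹' {n}).OrdConnected :=
  Set.ordConnected_singleton.preimage_mono (U.mono i)

theorem C_disj (i n n' : ℕ) (h : n ≠ n') : Disjoint (U.c i ⁻¹' {n}) (U.c i ⁻¹' {n'}) := by
  rw [Set.disjoint_left]
  intro x hx hx'
  exact h (hx.symm.trans hx')

theorem C_mem (i : ℕ) (ω : Fin p × Fin w) : U.tm ω ∈ U.c i ⁻¹' {U.C i ω} := rfl

theorem mu_pos (ω : Fin p × Fin w) : 0 < U.μ ω := by
  rw [U.unif]
  have h1 := U.pos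
  have h2 : (0 : ℝ) < p := by exact_mod_cast h1.1
  have h3 : (0 : ℝ) < w := by exact_mod_cast h1.2
  positivity

/-- the local entropy of the next piece, given the piece and the line -/
noncomputable def xi (i : ℕ) (ω : Fin p × Fin w) : ℝ :=
  H (cnd U.μ (fun ω => (U.C i ω, U.ln ω)) (U.C i ω, U.ln ω)) (U.C (i + 1))

theorem cnd_prob {α : Type*} (Y : Fin p × Fin w → α) (ω : Fin p × Fin w) :
    IsProb (cnd U.μ Y (Y ω)) := cnd_isProb U.prob (Pr_pos U.prob Y (U.mu_pos ω))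

theorem xi_nonneg (i : ℕ) (ω : Fin p × Fin w) : 0 ≤ U.xi i ω :=
  H_nonneg (U.cnd_prob (fun ω => (U.C i ω, U.ln ω)) ω) _

theorem xi_le (i : ℕ) (ω : Fin p × Fin w) : U.xi i ω ≤ Real.log U.B := by
  classical
  have hpr := U.cnd_prob (fun ω => (U.C i ω, U.ln ω)) ω
  have h1 : H (cnd U.μ (fun ω => (U.C i ω, U.ln ω)) (U.C i ω, U.ln ω)) (U.C i) = 0 :=
    H_eq_zero_of_const hpr (x := U.C i ω) fun ω' h => by
      have h' := cnd_pos (Y := fun ω => (U.C i ω, U.ln ω)) h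
      exact (Prod.mk.inj h').1
  have h2 := Hc_le_log hpr (U.C (i + 1)) (U.C i) U.B U.B_pos (by
    intro ω'
    refine ⟨Ico (U.C i ω' * U.B) (U.C i ω' * U.B + U.B), ?_, ?_⟩
    · rw [Nat.card_Ico]
      omega
    · intro ω'' h
      have h3 : U.C i ω'' = U.C (i + 1) ω'' / U.B := U.succ i _
      rw [mem_Ico, ← h, h3]
      constructor
      · exact Nat.div_mul_le_self _ _
      · exact Nat.lt_div_mul_add U.B_pos)
  have h3 : Hc (cnd U.μ (fun ω => (U.C i ω, U.ln ω)) (U.C i ω, U.ln ω)) (U.C (i + 1)) (U.C i) =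
      H (cnd U.μ (fun ω => (U.C i ω, U.ln ω)) (U.C i ω, U.ln ω)) (U.C (i + 1)) := by
    unfold Hc
    rw [h1, sub_zero]
    exact H_congr (det_fst _ _) ((Det.refl _).pair (U.C_det (Nat.le_succ i)))
  rw [h3] at h2
  exact h2

theorem Ex_xi (i : ℕ) : Ex U.μ (U.xi i) = Hc U.μ (U.C (i + 1)) (fun ω => (U.C i ω, U.ln ω)) :=
  (Hc_eq_Ex U.prob _ _).symm

theorem sum_Ex_xi (n : ℕ) : ∑ i ∈ range n, Ex U.μ (U.xi i) = Hc U.μ (U.C n) U.ln := by
  induction n with
  | zero =>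
    rw [sum_range_zero]
    exact (Hc_eq_zero fun ω ω' _ => by rw [U.C_zero, U.C_zero]).symm
  | succ n ih =>
    rw [sum_range_succ, ih, U.Ex_xi]
    have e1 : Hc U.μ (U.C (n + 1)) U.ln = Hc U.μ (fun ω => (U.C (n + 1) ω, U.C n ω)) U.ln :=
      Hc_congr ((Det.refl _).pair (U.C_det (Nat.le_succ n))) (det_fst _ _) (Det.refl _)
        (Det.refl _)
    rw [e1, Hc_pair]

theorem H_fst_ln : H U.μ (fun ω => (ω.1, U.ln ω)) = Real.log p + Real.log w := by
  have h1 := U.pos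
  have h2 : (0 : ℝ) < p := by exact_mod_cast h1.1
  have h3 : (0 : ℝ) < w := by exact_mod_cast h1.2
  have hinj : Function.Injective (fun ω : Fin p × Fin w => (ω.1, U.ln ω)) := by
    rintro ⟨a, u⟩ ⟨b, v⟩ h
    obtain ⟨h4, h5⟩ := Prod.mk.inj h
    have h6 : a = b := h4
    subst h6
    exact Prod.ext rfl (U.inj a u v h5)
  unfold H
  have : ∀ ω : Fin p × Fin w, U.μ ω * (-Real.log (Pr U.μ (fun ω => (ω.1, U.ln ω))
      (ω.1, U.ln ω))) = U.μ ω * (Real.log p + Real.log w) := by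
    intro ω
    rw [Pr_of_inj U.μ hinj ω, U.unif, one_div, Real.log_inv, neg_neg,
      Real.log_mul h2.ne' h3.ne']
  rw [sum_congr rfl fun ω _ => this ω, ← sum_mul, U.prob.sum, one_mul]

theorem H_ln_le : H U.μ U.ln ≤ Real.log #U.lines := by
  have h1 := U.pos
  have : 0 < #U.lines := card_pos.2 ⟨_, U.mem_lines (⟨0, h1.1⟩, ⟨0, h1.2⟩)⟩
  exact H_le_log U.prob U.ln U.lines U.mem_lines this

end Conf

/-- the entropies along a line -/
theorem exists_sum_xi_ge {β' : ℝ} (hβ : beta < β') : ∃ C : ℝ, 0 ≤ C ∧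
    ∀ {p w : ℕ} (U : Conf p w) (n : ℕ), n ≤ U.top →
      Real.log p + Real.log w - Real.log #U.lines - β' * (U.Ls (U.C n) - Real.log w) - C ≤
        ∑ i ∈ range n, Ex U.μ (U.xi i) := by
  obtain ⟨C, hC, hE⟩ := entropic_bound hβ
  refine ⟨C, hC, ?_⟩
  intro p w U n hn
  have hβ0 : 0 ≤ β' := by
    have := beta_nonneg
    linarith
  rw [U.sum_Ex_xi]
  have h1 := hE U.toFlags (U.C n) (Prod.fst : Fin p × Fin w → Fin p) U.J U.conn U.disj U.mem
  have h2 := U.leaf (fun _ => ())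
  have h3 : U.Ls (fun ω => (U.C n ω, ω.1)) = U.Ls (fun ω => (ω.1, ())) :=
    U.Ls_congr ((det_snd _ _).pair (det_const _ _))
      (((det_fst _ _).trans (U.fst_det hn)).pair (det_fst _ _))
  have h4 : Hc U.μ (fun _ : Fin p × Fin w => ()) (Prod.fst : Fin p × Fin w → Fin p) = 0 :=
    Hc_eq_zero (det_const _ _)
  rw [h4, sub_zero] at h2
  rw [h3] at h1
  -- `H (X | l) ≤ H (C n | l) + H (X | C n)`
  have h5 : Hc U.μ (Prod.fst : Fin p × Fin w → Fin p) U.ln ≤
      Hc U.μ (Prod.fst : Fin p × Fin w → Fin p) (U.C n) + Hc U.μ (U.C n) U.ln :=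
    Hc_triangle U.prob _ _ _
  have h6 : Hc U.μ (Prod.fst : Fin p × Fin w → Fin p) U.ln =
      Real.log p + Real.log w - H U.μ U.ln := by
    unfold Hc
    rw [U.H_fst_ln]
  have h7 := U.H_ln_le
  have h8 := mul_le_mul_of_nonneg_left h2 hβ0
  linarith

end Vale.Agent.P065.H859
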