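import Vale.Agent.P065.H859.LocWin

/-!
# P065: the content lemma for the rich classes of the window (helper859)
-/

set_option autoImplicit false

namespace Vale.Agent.P065.H859

open Finset Vale.Agent.P065.UB Vale.Agent.P065.UB.RankAux Vale.Agent.P065.Ent
  Vale.Agent.P065.H987 Vale.Agent.P065.H725

namespace Sel

variable {B₀ : ℕ} {c₀ c₁ θ ε₂ ε₃ b A : ℝ} {K g : ℕ} (S : Sel B₀ c₀ c₁ θ ε₂ ε₃ b A K g)

/-- the bottom class -/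
def V (ω : Fin S.p × Fin S.w) : ℕ × (Fin S.p × Fin S.w) := (S.U.C (S.i₀ + g) ω, S.Λ' ω)

theorem detV : Det S.V S.Y :=
  ((det_fst _ _).trans (S.U.C_det (Nat.le_add_right _ _))).pair ((det_snd _ _).trans S.det₁)

/-- the law of a bottom class -/
noncomputable def μV (s₀ : S.Om) : Fin S.p × Fin S.w → ℝ := cnd S.U.μ S.V (S.V s₀.1)

theorem μV_prob (s₀ : S.Om) : IsProb (S.μV s₀) := S.U.cnd_prob S.V s₀.1

theorem μV_eq (s₀ : S.Om) : S.μV s₀ = cnd S.μ₀ S.V (S.V s₀.1) := by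
  have h := cnd_cnd S.U.prob S.detV (S.U.mu_pos s₀.1)
  rw [s₀.2] at h
  exact h.symm

theorem μV_off (s₀ : S.Om) (ω : Fin S.p × Fin S.w)
    (h : ω ∉ Set.range (Subtype.val : S.Om → _)) : S.μV s₀ ω = 0 := by
  rw [S.μV_eq]
  exact cnd_off S.μ₀_off S.V _ ω h

/-- the law of the class on the flags of the window -/
theorem cnd_nu (s₀ : S.Om) : cnd S.nu (fun s => S.V s.1) (S.V s₀.1) = fun s => S.μV s₀ s.1 := by
  funext s
  rw [S.μV_eq]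
  exact cnd_pull Subtype.val_injective S.μ₀_off S.V (S.V s₀.1) s

theorem ms_V (s₀ : S.Om) (Q : Fin S.p × Fin S.w → Prop) :
    ms (cnd S.nu (fun s => S.V s.1) (S.V s₀.1)) (fun s => Q s.1) = ms (S.μV s₀) Q := by
  rw [S.cnd_nu]
  exact ms_pull Subtype.val_injective (S.μV_off s₀) Q

theorem cE_V (s₀ : S.Om) (Q : Fin S.p × Fin S.w → Prop) :
    cE (cnd S.nu (fun s => S.V s.1) (S.V s₀.1)) (fun s => Q s.1) =
      fun s => cE (S.μV s₀) Q s.1 := by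
  rw [S.cnd_nu]
  funext s
  exact cE_pull Subtype.val_injective (S.μV_off s₀) Q s

theorem cE_off (s₀ : S.Om) (Q : Fin S.p × Fin S.w → Prop) (ω : Fin S.p × Fin S.w)
    (h : ω ∉ Set.range (Subtype.val : S.Om → _)) : cE (S.μV s₀) Q ω = 0 := by
  unfold cE
  exact cnd_off (S.μV_off s₀) Q True ω h

theorem ms_cE_V (s₀ : S.Om) (Q Q' : Fin S.p × Fin S.w → Prop) :
    ms (cE (cnd S.nu (fun s => S.V s.1) (S.V s₀.1)) (fun s => Q s.1)) (fun s => Q' s.1) =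
      ms (cE (S.μV s₀) Q) Q' := by
  rw [S.cE_V]
  exact ms_pull Subtype.val_injective (S.cE_off s₀ Q) Q'

theorem contentG_V {α σ : ℝ} (hσ : σ ≠ 0) (s₀ : S.Om) (Q : Fin S.p × Fin S.w → Prop)
    (θs θh : ℝ) (k₀ : ℤ) (xr τ : ℝ) (Gd : Pt → Prop) (I : Finset ℤ) (η : ℝ) :
    contentG (sq4 θs θh k₀ xr τ) (fun _ k _ v c => |v.1 - c.1| ≤ 2 ^ (-k) / 12)
      (cE (cnd S.nu (fun s => S.V s.1) (S.V s₀.1)) (fun s => Q s.1))
      (fun s => nrm α σ (S.U.ln s.1)) Gd I η =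
    contentG (sq4 θs θh k₀ (α + σ * xr) (σ * τ)) (fun _ k _ v c => |v.1 - c.1| ≤ 2 ^ (-k) / 12)
      (cE (S.μV s₀) Q) S.U.ln (fun v => Gd (nrm α σ v)) I η := by
  rw [← contentG_nrm hσ, S.cE_V]
  exact contentG_pull Subtype.val_injective (S.cE_off s₀ Q) _ _
    (fun ω => nrm α σ (S.U.ln ω)) Gd I η

theorem mem_V {s₀ : S.Om} {ω : Fin S.p × Fin S.w} (h : S.V ω = S.V s₀.1) :
    S.Y ω = S.Y S.ω₀ := (S.detV _ _ h).trans s₀.2

/-- **the content lemma for a rich class of the window** -/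
theorem content (hγ0 : 0 ≤ beta⁻¹ + θ) (hγ1 : beta⁻¹ + θ ≤ 1) (hδ : 1 - beta⁻¹ ≤ 1)
    (hA : 0 < A) {α σ : ℝ} (hσ : 0 < σ) {lo hi : S.Om → ℝ}
    (hfr : ∀ s s' : S.Om, S.U.C (S.i₀ + g) s'.1 = S.U.C (S.i₀ + g) s.1 →
      α + σ * lo s < S.U.tm s'.1 ∧ S.U.tm s'.1 < α + σ * hi s) (s₀ : S.Om)
    (hrich : Rich S.U S.V A s₀.1) (T : Pt → Prop)
    (hT : 0 < ms (cnd S.nu (fun s => S.V s.1) (S.V s₀.1))
      (fun s => T (nrm α σ (S.U.ln s.1))))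
    (m : ℕ) (τ : ℝ) (hτ : 0 < τ) (xr : Fin m → ℝ)
    (hxr : ∀ x, lo s₀ ≤ x → x ≤ hi s₀ → ∃ r, |xr r - x| ≤ τ)
    (θs : ℝ) (θh : Fin m → ℝ) (k₀ k₁ : ℤ)
    (htop : ∀ s s' : S.Om, S.V s.1 = S.V s₀.1 → S.V s'.1 = S.V s₀.1 →
      |(nrm α σ (S.U.ln s'.1)).1 - (nrm α σ (S.U.ln s.1)).1| ≤ 2 ^ (-k₀) / 3)
    (hbot : ∀ s s' : S.Om, S.V s.1 = S.V s₀.1 → S.V s'.1 = S.V s₀.1 →
      (nrm α σ (S.U.ln s'.1)).1 ≠ (nrm α σ (S.U.ln s.1)).1 →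
      (2 : ℝ) ^ (-k₁) / 6 < |(nrm α σ (S.U.ln s'.1)).1 - (nrm α σ (S.U.ln s.1)).1|)
    (Gd : Pt → Prop)
    (hG : 0 < ms (cE (cnd S.nu (fun s => S.V s.1) (S.V s₀.1))
      (fun s => T (nrm α σ (S.U.ln s.1)))) (fun s => Gd (nrm α σ (S.U.ln s.1))))
    (η : ℝ) (hη : 0 < η) (hη1 : η ≤ 1 / 2)
    (hQη : 16 * Real.log (1 / η) ≤ A * ms (cnd S.nu (fun s => S.V s.1) (S.V s₀.1))
      (fun s => T (nrm α σ (S.U.ln s.1))) * η) :
    (1 - (beta⁻¹ + θ)) * Real.log (1 / η) ≤ 2 * Real.log (1 /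
        ms (cnd S.nu (fun s => S.V s.1) (S.V s₀.1)) (fun s => T (nrm α σ (S.U.ln s.1)))) +
      Real.log m + 15 +
      4 * (Real.log (1 / ms (cE (cnd S.nu (fun s => S.V s.1) (S.V s₀.1))
          (fun s => T (nrm α σ (S.U.ln s.1)))) (fun s => Gd (nrm α σ (S.U.ln s.1)))) +
        (∑ r : Fin m, contentG (sq4 θs (θh r) k₀ (xr r) τ)
          (fun _ k _ v c => |v.1 - c.1| ≤ 2 ^ (-k) / 12)
          (cE (cnd S.nu (fun s => S.V s.1) (S.V s₀.1)) (fun s => T (nrm α σ (S.U.ln s.1))))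
          (fun s => nrm α σ (S.U.ln s.1)) Gd (Finset.Icc k₀ k₁) η) /
        ms (cE (cnd S.nu (fun s => S.V s.1) (S.V s₀.1))
          (fun s => T (nrm α σ (S.U.ln s.1)))) (fun s => Gd (nrm α σ (S.U.ln s.1)))) := by
  have e1 : ms (cnd S.nu (fun s => S.V s.1) (S.V s₀.1)) (fun s => T (nrm α σ (S.U.ln s.1))) =
      ms (S.μV s₀) (fun ω => T (nrm α σ (S.U.ln ω))) :=
    S.ms_V s₀ (fun ω => T (nrm α σ (S.U.ln ω)))
  have e2 : ms (cE (cnd S.nu (fun s => S.V s.1) (S.V s₀.1))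
      (fun s => T (nrm α σ (S.U.ln s.1)))) (fun s => Gd (nrm α σ (S.U.ln s.1))) =
      ms (cE (S.μV s₀) (fun ω => T (nrm α σ (S.U.ln ω)))) (fun ω => Gd (nrm α σ (S.U.ln ω))) :=
    S.ms_cE_V s₀ (fun ω => T (nrm α σ (S.U.ln ω))) (fun ω => Gd (nrm α σ (S.U.ln ω)))
  have e3 : ∀ r : Fin m, contentG (sq4 θs (θh r) k₀ (xr r) τ)
      (fun _ k _ v c => |v.1 - c.1| ≤ 2 ^ (-k) / 12)
      (cE (cnd S.nu (fun s => S.V s.1) (S.V s₀.1)) (fun s => T (nrm α σ (S.U.ln s.1))))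
      (fun s => nrm α σ (S.U.ln s.1)) Gd (Finset.Icc k₀ k₁) η =
      contentG (sq4 θs (θh r) k₀ (α + σ * xr r) (σ * τ))
        (fun _ k _ v c => |v.1 - c.1| ≤ 2 ^ (-k) / 12)
        (cE (S.μV s₀) (fun ω => T (nrm α σ (S.U.ln ω)))) S.U.ln (fun v => Gd (nrm α σ v))
        (Finset.Icc k₀ k₁) η := fun r =>
    S.contentG_V hσ.ne' s₀ (fun ω => T (nrm α σ (S.U.ln ω))) θs (θh r) k₀ (xr r) τ Gd _ η
  rw [sum_congr rfl fun r _ => e3 r]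
  rw [e1] at hT hQη ⊢
  rw [e2] at hG ⊢
  exact content_cls_fine (U := S.U.toUFlags) hγ0 hγ1 hδ (S.U.fst_det S.htop) S.opt s₀.1 hA
    hrich.1 hrich.2 (x0 := α + σ * lo s₀) (x1 := α + σ * hi s₀) (by
      intro ω h
      exact hfr s₀ ⟨ω, S.mem_V h⟩ (Prod.mk.inj h).1)
    (fun v => T (nrm α σ v)) hT (by positivity : 0 < σ * τ) (fun r => α + σ * xr r) (by
      intro x h1 h2
      obtain ⟨r, hr⟩ := hxr ((x - α) / σ) (by
        rw [le_div_iff₀ hσ]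
        linarith) (by
        rw [div_le_iff₀ hσ]
        linarith)
      refine ⟨r, ?_⟩
      have h3 : α + σ * xr r - x = σ * (xr r - (x - α) / σ) := by
        field_simp
        ring
      rw [h3, abs_mul, abs_of_pos hσ]
      exact mul_le_mul_of_nonneg_left hr hσ.le)
    θs θh k₀ k₁ (by
      intro ω ω' h h'
      exact htop ⟨ω, S.mem_V h⟩ ⟨ω', S.mem_V h'⟩ h h')
    (by
      intro ω ω' h h' hne
      exact hbot ⟨ω, S.mem_V h⟩ ⟨ω', S.mem_V h'⟩ h h' hne)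
    (fun v => Gd (nrm α σ v)) hG hη hη1 hQη

end Sel

end Vale.Agent.P065.H859
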