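import Vale.Agent.P065.H859.LocCont

/-!
# P065: the crossing lemma and the general content lemma for the window (helper859)
-/

set_option autoImplicit false

namespace Vale.Agent.P065.H859

open Finset Vale.Agent.P065.UB Vale.Agent.P065.UB.RankAux Vale.Agent.P065.Ent
  Vale.Agent.P065.H987 Vale.Agent.P065.H725

/-- **the crossing lemma for a greedy class** -/
theorem cross_cls {p w : ℕ} {U : UFlags p w} {ι ζ : Type*} {Wn : Fin p × Fin w → ι} {γ δ : ℝ}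
    {L : Fin p × Fin w → ζ} (hγ0 : 0 ≤ γ) (hγ1 : γ ≤ 1) (hδ : δ ≤ 1)
    (hX : Det (Prod.fst : Fin p × Fin w → Fin p) Wn)
    (h : Opt U Wn γ δ L) (ω₀ : Fin p × Fin w) {Q : ℝ} (hQ : 0 < Q)
    (hfl : Q * U.sz (fun ω => (Wn ω, L ω)) ω₀ ≤
      p * w * Pr U.μ (fun ω => (Wn ω, L ω)) (Wn ω₀, L ω₀))
    (hat : ∀ ω', (Wn ω', L ω') = (Wn ω₀, L ω₀) →
      Q * Pr U.μ (fun ω => ((Wn ω, L ω), U.ln ω)) ((Wn ω₀, L ω₀), U.ln ω') ≤
      Pr U.μ (fun ω => (Wn ω, L ω)) (Wn ω₀, L ω₀))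
    {x0 x1 : ℝ} (hx : ∀ ω, (Wn ω, L ω) = (Wn ω₀, L ω₀) → x0 < U.tm ω ∧ U.tm ω < x1)
    (T : Pt → Prop)
    (hp : 0 < ms (cnd U.μ (fun ω => (Wn ω, L ω)) (Wn ω₀, L ω₀)) (fun ω => T (U.ln ω)))
    {R : ℝ} (hR : 1 ≤ R)
    (hQR : 16 * R ≤ Q * ms (cnd U.μ (fun ω => (Wn ω, L ω)) (Wn ω₀, L ω₀)) (fun ω => T (U.ln ω)))
    (hc : ∑ ω, cnd U.μ (fun ω => (Wn ω, L ω)) (Wn ω₀, L ω₀) ω *
      (ms (cnd U.μ (fun ω => (Wn ω, L ω)) (Wn ω₀, L ω₀))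
        (fun ω' => T (U.ln ω') ∧ Cr x0 x1 (U.ln ω') (U.ln ω) ∧ T (U.ln ω))) ≤
      ms (cnd U.μ (fun ω => (Wn ω, L ω)) (Wn ω₀, L ω₀)) (fun ω => T (U.ln ω)) ^ 2 / (2 * R)) :
    (1 - γ) * Real.log (R / 2) ≤ 2 * Real.log (1 /
        ms (cnd U.μ (fun ω => (Wn ω, L ω)) (Wn ω₀, L ω₀)) (fun ω => T (U.ln ω))) + 12 := by
  classical
  set D := clsDat U (fun ω => (Wn ω, L ω)) ω₀ with hD
  obtain ⟨hp0, hw0⟩ := U.pos
  have hp' : (0 : ℝ) < p := by exact_mod_cast hp0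
  have hw' : (0 : ℝ) < w := by exact_mod_cast hw0
  have hPr := Pr_pos U.prob (fun ω => (Wn ω, L ω)) (H725.mu_pos U ω₀)
  set P0 := ms (cnd U.μ (fun ω => (Wn ω, L ω)) (Wn ω₀, L ω₀)) (fun ω => T (U.ln ω)) with hP0
  have hR0 : 0 < R := by linarith
  have hsz : U.sz (fun ω => (Wn ω, L ω)) ω₀ = ((ne D.E : ℕ) : ℝ) := rfl
  have hlogR : 0 ≤ Real.log (R + 1) := Real.log_nonneg (by linarith)
  have hlogR' : Real.log (R + 1) ≤ R := by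
    have := Real.log_le_sub_one_of_pos (by linarith : (0 : ℝ) < R + 1)
    linarith
  have hκQ : U.sz (fun ω => (Wn ω, L ω)) ω₀ *
      (1 / (p * w * Pr U.μ (fun ω => (Wn ω, L ω)) (Wn ω₀, L ω₀))) ≤ 1 / Q := by
    rw [mul_one_div, div_le_div_iff₀ (by positivity) hQ]
    linarith
  exact D.cross hγ0 hγ1 hδ (clsDat_opt hX h ω₀) (x0 := x0) (x1 := x1)
    (by
      intro e he
      obtain ⟨ω, h1, rfl⟩ := U.mem_cls.1 he
      exact hx ω h1)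
    T hR (κ := 1 / (p * w * Pr U.μ (fun ω => (Wn ω, L ω)) (Wn ω₀, L ω₀))) hp hc
    (by
      intro v
      refine (clsDat_line U (fun ω => (Wn ω, L ω)) ω₀ hQ hat v).trans ?_
      show 1 / Q ≤ P0 / (4 * R)
      rw [div_le_div_iff₀ hQ (by positivity)]
      linarith)
    (fun a v => clsDat_flag U (fun ω => (Wn ω, L ω)) ω₀ a v)
    (by
      show _ ≤ P0 / 2
      rw [← hsz]
      calc 8 * U.sz (fun ω => (Wn ω, L ω)) ω₀ *
            (1 / (p * w * Pr U.μ (fun ω => (Wn ω, L ω)) (Wn ω₀, L ω₀))) * Real.log (R + 1)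
          = 8 * Real.log (R + 1) * (U.sz (fun ω => (Wn ω, L ω)) ω₀ *
            (1 / (p * w * Pr U.μ (fun ω => (Wn ω, L ω)) (Wn ω₀, L ω₀)))) := by ring
        _ ≤ 8 * Real.log (R + 1) * (1 / Q) := mul_le_mul_of_nonneg_left hκQ (by positivity)
        _ ≤ 8 * R * (1 / Q) := by
            apply mul_le_mul_of_nonneg_right _ (by positivity)
            linarith
        _ ≤ P0 / 2 := by
            rw [mul_one_div, div_le_iff₀ hQ]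
            linarith)

theorem Cr_nrm {α σ : ℝ} (hσ : 0 < σ) (x0 x1 : ℝ) (u v : Pt) :
    Cr x0 x1 (nrm α σ u) (nrm α σ v) ↔ Cr (α + σ * x0) (α + σ * x1) u v := by
  unfold Cr
  simp only [ht_nrm hσ.ne', div_lt_div_iff_of_pos_right hσ]

namespace Sel

variable {B₀ : ℕ} {c₀ c₁ θ ε₂ ε₃ b A : ℝ} {K g : ℕ} (S : Sel B₀ c₀ c₁ θ ε₂ ε₃ b A K g)

theorem sum_cnd_V (s₀ : S.Om) (F : Fin S.p × Fin S.w → ℝ) :
    ∑ s : S.Om, cnd S.nu (fun s => S.V s.1) (S.V s₀.1) s * F s.1 = ∑ ω, S.μV s₀ ω * F ω := by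
  rw [S.cnd_nu]
  exact Fintype.sum_of_injective Subtype.val Subtype.val_injective _ _
    (fun ω h => by rw [S.μV_off s₀ ω h, zero_mul]) fun _ => rfl

/-- **the crossing lemma for a rich class of the window** -/
theorem cross (hγ0 : 0 ≤ beta⁻¹ + θ) (hγ1 : beta⁻¹ + θ ≤ 1) (hδ : 1 - beta⁻¹ ≤ 1)
    (hA : 0 < A) {α σ : ℝ} (hσ : 0 < σ) {lo hi : S.Om → ℝ}
    (hfr : ∀ s s' : S.Om, S.U.C (S.i₀ + g) s'.1 = S.U.C (S.i₀ + g) s.1 →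
      α + σ * lo s < S.U.tm s'.1 ∧ S.U.tm s'.1 < α + σ * hi s) (s₀ : S.Om)
    (hrich : Rich S.U S.V A s₀.1) (T : Pt → Prop)
    (hT : 0 < ms (cnd S.nu (fun s => S.V s.1) (S.V s₀.1))
      (fun s => T (nrm α σ (S.U.ln s.1))))
    (R : ℝ) (hR : 1 ≤ R)
    (hQR : 16 * R ≤ A * ms (cnd S.nu (fun s => S.V s.1) (S.V s₀.1))
      (fun s => T (nrm α σ (S.U.ln s.1))))
    (hc : ∑ s : S.Om, cnd S.nu (fun s => S.V s.1) (S.V s₀.1) s *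
      (ms (cnd S.nu (fun s => S.V s.1) (S.V s₀.1))
        (fun s' => T (nrm α σ (S.U.ln s'.1)) ∧
          Cr (lo s₀) (hi s₀) (nrm α σ (S.U.ln s'.1)) (nrm α σ (S.U.ln s.1)) ∧
          T (nrm α σ (S.U.ln s.1)))) ≤
      ms (cnd S.nu (fun s => S.V s.1) (S.V s₀.1)) (fun s => T (nrm α σ (S.U.ln s.1))) ^ 2 /
        (2 * R)) :
    (1 - (beta⁻¹ + θ)) * Real.log (R / 2) ≤ 2 * Real.log (1 /
        ms (cnd S.nu (fun s => S.V s.1) (S.V s₀.1)) (fun s => T (nrm α σ (S.U.ln s.1)))) +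
        12 := by
  have e1 : ms (cnd S.nu (fun s => S.V s.1) (S.V s₀.1)) (fun s => T (nrm α σ (S.U.ln s.1))) =
      ms (S.μV s₀) (fun ω => T (nrm α σ (S.U.ln ω))) :=
    S.ms_V s₀ (fun ω => T (nrm α σ (S.U.ln ω)))
  have e2 : ∑ s : S.Om, cnd S.nu (fun s => S.V s.1) (S.V s₀.1) s *
      (ms (cnd S.nu (fun s => S.V s.1) (S.V s₀.1))
        (fun s' => T (nrm α σ (S.U.ln s'.1)) ∧
          Cr (lo s₀) (hi s₀) (nrm α σ (S.U.ln s'.1)) (nrm α σ (S.U.ln s.1)) ∧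
          T (nrm α σ (S.U.ln s.1)))) =
      ∑ ω, S.μV s₀ ω * (ms (S.μV s₀) (fun ω' => T (nrm α σ (S.U.ln ω')) ∧
          Cr (α + σ * lo s₀) (α + σ * hi s₀) (S.U.ln ω') (S.U.ln ω) ∧
          T (nrm α σ (S.U.ln ω)))) := by
    rw [← S.sum_cnd_V s₀ (fun ω => ms (S.μV s₀) (fun ω' => T (nrm α σ (S.U.ln ω')) ∧
          Cr (α + σ * lo s₀) (α + σ * hi s₀) (S.U.ln ω') (S.U.ln ω) ∧
          T (nrm α σ (S.U.ln ω))))]
    refine sum_congr rfl fun s _ => ?_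
    rw [S.ms_V s₀ (fun ω' => T (nrm α σ (S.U.ln ω')) ∧
          Cr (lo s₀) (hi s₀) (nrm α σ (S.U.ln ω')) (nrm α σ (S.U.ln s.1)) ∧
          T (nrm α σ (S.U.ln s.1)))]
    simp only [Cr_nrm hσ]
  rw [e2] at hc
  rw [e1] at hT hQR hc ⊢
  exact cross_cls (U := S.U.toUFlags) hγ0 hγ1 hδ (S.U.fst_det S.htop) S.opt s₀.1 hA
    hrich.1 hrich.2 (x0 := α + σ * lo s₀) (x1 := α + σ * hi s₀) (by
      intro ω h
      exact hfr s₀ ⟨ω, S.mem_V h⟩ (Prod.mk.inj h).1)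
    (fun v => T (nrm α σ v)) hT hR hQR hc

/-- **the general content lemma for a rich class of the window** -/
theorem contG (hγ0 : 0 ≤ beta⁻¹ + θ) (hγ1 : beta⁻¹ + θ ≤ 1) (hδ : 1 - beta⁻¹ ≤ 1)
    (hA : 0 < A) {α σ : ℝ} (hσ : 0 < σ) {lo hi : S.Om → ℝ}
    (hfr : ∀ s s' : S.Om, S.U.C (S.i₀ + g) s'.1 = S.U.C (S.i₀ + g) s.1 →
      α + σ * lo s < S.U.tm s'.1 ∧ S.U.tm s'.1 < α + σ * hi s) (s₀ : S.Om)
    (hrich : Rich S.U S.V A s₀.1) (T : Pt → Prop)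
    (hT : 0 < ms (cnd S.nu (fun s => S.V s.1) (S.V s₀.1))
      (fun s => T (nrm α σ (S.U.ln s.1))))
    (a' κ : Type) [Fintype a'] [Nonempty a'] (cel : a' → ℤ → Pt → κ)
    (near : a' → ℤ → κ → Pt → Pt → Prop) (hr : ∀ a k z v, near a k z v v) (I : Finset ℤ)
    (hnest : ∀ a, ∀ k ∈ I, ∀ k' ∈ I, k ≤ k' → ∀ u v, cel a k' u = cel a k' v →
      cel a k u = cel a k v) (Gd : Pt → Prop)
    (hG : 0 < ms (cE (cnd S.nu (fun s => S.V s.1) (S.V s₀.1))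
      (fun s => T (nrm α σ (S.U.ln s.1)))) (fun s => Gd (nrm α σ (S.U.ln s.1))))
    (hsep : ∀ s s' : S.Om, S.V s.1 = S.V s₀.1 → S.V s'.1 = S.V s₀.1 →
      T (nrm α σ (S.U.ln s.1)) → T (nrm α σ (S.U.ln s'.1)) →
      Gd (nrm α σ (S.U.ln s.1)) → Gd (nrm α σ (S.U.ln s'.1)) →
      (nrm α σ (S.U.ln s'.1)).1 ≠ (nrm α σ (S.U.ln s.1)).1 →
      Cr (lo s₀) (hi s₀) (nrm α σ (S.U.ln s'.1)) (nrm α σ (S.U.ln s.1)) →
      ∃ a, ∃ k ∈ I, cel a k (nrm α σ (S.U.ln s'.1)) = cel a k (nrm α σ (S.U.ln s.1)) ∧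
        ∀ c, ¬ (near a k (cel a k (nrm α σ (S.U.ln s.1))) (nrm α σ (S.U.ln s.1)) c ∧
          near a k (cel a k (nrm α σ (S.U.ln s.1))) (nrm α σ (S.U.ln s'.1)) c))
    (η : ℝ) (hη : 0 < η) (hη1 : η ≤ 1 / 2)
    (hQη : 16 * Real.log (1 / η) ≤ A * ms (cnd S.nu (fun s => S.V s.1) (S.V s₀.1))
      (fun s => T (nrm α σ (S.U.ln s.1))) * η) :
    (1 - (beta⁻¹ + θ)) * Real.log (1 / η) ≤ 2 * Real.log (1 /
        ms (cnd S.nu (fun s => S.V s.1) (S.V s₀.1)) (fun s => T (nrm α σ (S.U.ln s.1)))) +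
      Real.log (4 * Fintype.card a') + 12 +
      4 * (Real.log (1 / ms (cE (cnd S.nu (fun s => S.V s.1) (S.V s₀.1))
          (fun s => T (nrm α σ (S.U.ln s.1)))) (fun s => Gd (nrm α σ (S.U.ln s.1)))) +
        contentG cel near
          (cE (cnd S.nu (fun s => S.V s.1) (S.V s₀.1)) (fun s => T (nrm α σ (S.U.ln s.1))))
          (fun s => nrm α σ (S.U.ln s.1)) Gd I η /
        ms (cE (cnd S.nu (fun s => S.V s.1) (S.V s₀.1))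
          (fun s => T (nrm α σ (S.U.ln s.1)))) (fun s => Gd (nrm α σ (S.U.ln s.1)))) := by
  have e1 : ms (cnd S.nu (fun s => S.V s.1) (S.V s₀.1)) (fun s => T (nrm α σ (S.U.ln s.1))) =
      ms (S.μV s₀) (fun ω => T (nrm α σ (S.U.ln ω))) :=
    S.ms_V s₀ (fun ω => T (nrm α σ (S.U.ln ω)))
  have e2 : ms (cE (cnd S.nu (fun s => S.V s.1) (S.V s₀.1))
      (fun s => T (nrm α σ (S.U.ln s.1)))) (fun s => Gd (nrm α σ (S.U.ln s.1))) =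
      ms (cE (S.μV s₀) (fun ω => T (nrm α σ (S.U.ln ω)))) (fun ω => Gd (nrm α σ (S.U.ln ω))) :=
    S.ms_cE_V s₀ (fun ω => T (nrm α σ (S.U.ln ω))) (fun ω => Gd (nrm α σ (S.U.ln ω)))
  have e3 : contentG cel near
      (cE (cnd S.nu (fun s => S.V s.1) (S.V s₀.1)) (fun s => T (nrm α σ (S.U.ln s.1))))
      (fun s => nrm α σ (S.U.ln s.1)) Gd I η =
      contentG (fun a k v => cel a k (nrm α σ v))
        (fun a k z v c => near a k z (nrm α σ v) (nrm α σ c))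
        (cE (S.μV s₀) (fun ω => T (nrm α σ (S.U.ln ω)))) S.U.ln (fun v => Gd (nrm α σ v))
        I η := by
    rw [S.cE_V s₀ (fun ω => T (nrm α σ (S.U.ln ω)))]
    exact contentG_pull Subtype.val_injective (S.cE_off s₀ _) cel near
      (fun ω => nrm α σ (S.U.ln ω)) Gd I η
  rw [e3]
  rw [e1] at hT hQη ⊢
  rw [e2] at hG ⊢
  obtain ⟨P, k, hP, hPE⟩ := S.U.real
  exact content_clsG (U := S.U.toUFlags) hγ0 hγ1 hδ (S.U.fst_det S.htop) S.opt s₀.1 hA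
    hrich.1 hrich.2 (x0 := α + σ * lo s₀) (x1 := α + σ * hi s₀) (by
      intro ω h
      exact hfr s₀ ⟨ω, S.mem_V h⟩ (Prod.mk.inj h).1)
    (fun v => T (nrm α σ v)) hT (fun a k v => cel a k (nrm α σ v))
    (fun a k z v c => near a k z (nrm α σ v) (nrm α σ c)) (fun a k z v => hr a k z _) I
    (fun a k hk k' hk' hkk u v h => hnest a k hk k' hk' hkk _ _ h)
    (fun v => Gd (nrm α σ v)) hG (by
      intro ω ω' h h' h1 h2 h3 h4 h5 h6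
      obtain ⟨a, k, hk, h7, h8⟩ := hsep ⟨ω, S.mem_V h⟩ ⟨ω', S.mem_V h'⟩ h h' h1 h2 h3 h4 h5
        ((Cr_nrm hσ _ _ _ _).2 h6)
      exact ⟨a, k, hk, h7, fun c hc => h8 _ hc⟩) hη hη1 hQη

end Sel

end Vale.Agent.P065.H859
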