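import Vale.Agent.P065.H859.LocDef
import Vale.Agent.P065.H60.Ext
import Vale.Agent.P065.H353.KraftGeo
import Vale.Agent.P065.H860.NGGeo

/-!
# P065: first consequences of `Loc` for the frame (helper859)

The bottom intervals in the form of H60, number of pieces, common range of slope scales, the typical
flags `Zg B` (`Z`, rich class, class of mass at least `2 ^ (-B)`).
-/

set_option autoImplicit false

namespace Vale.Agent.P065.H859

open Finset Vale.Agent.P065.UB Vale.Agent.P065.UB.RankAux Vale.Agent.P065.Ent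
  Vale.Agent.P065.H725

section gen

variable {Ω α β : Type*} [Fintype Ω] {μ : Ω → ℝ}

/-- Markov for the surprise -/
theorem PE_surprise_le (hμ : IsProb μ) (X : Ω → α) (Y : Ω → β) {s : ℝ} (hs : 0 < s) :
    PE μ (fun ω => s ≤ -Real.log (Pr μ (fun ω => (X ω, Y ω)) (X ω, Y ω) / Pr μ Y (Y ω))) ≤
      Hc μ X Y / s := by
  classical
  rw [le_div_iff₀ hs, Hc_eq_sum hμ, ← ms_eq_PE, ms, sum_mul]
  apply sum_le_sum
  intro ω _
  rcases (hμ.nonneg ω).eq_or_lt with h0 | h0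
  · rw [← h0]
    simp
  · have h1 : 0 ≤ -Real.log (Pr μ (fun ω => (X ω, Y ω)) (X ω, Y ω) / Pr μ Y (Y ω)) := by
      rw [Left.nonneg_neg_iff]
      have h2 := Pr_pos hμ Y h0
      have h3 := Pr_nonneg hμ (fun ω => (X ω, Y ω)) (X ω, Y ω)
      exact Real.log_nonpos (div_nonneg h3 h2.le)
        ((div_le_one h2).2 (Pr_mono hμ (det_snd X Y) ω))
    split_ifs with h
    · exact mul_le_mul_of_nonneg_left h h0.le
    · rw [zero_mul]
      exact mul_nonneg h0.le h1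

/-- the small atoms have small total mass -/
theorem PE_small_le (hμ : IsProb μ) [DecidableEq α] (X : Ω → α) {δ : ℝ} (hδ : 0 ≤ δ) :
    PE μ (fun ω => Pr μ X (X ω) ≤ δ) ≤ #(univ.image X) * δ := by
  classical
  rw [← ms_eq_PE, ms]
  have h1 := sum_fiberwise_of_maps_to (s := univ) (t := univ.image X) (g := X)
    (fun ω _ => mem_image_of_mem X (mem_univ ω)) (fun ω => if Pr μ X (X ω) ≤ δ then μ ω else 0)
  rw [← h1, ← nsmul_eq_mul]
  apply sum_le_card_nsmul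
  intro x _
  by_cases hx : Pr μ X x ≤ δ
  · refine le_trans ?_ hx
    unfold Pr
    rw [sum_filter]
    apply sum_le_sum
    intro ω _
    by_cases h : X ω = x
    · rw [if_pos h, if_pos h]
      split_ifs
      · exact le_rfl
      · exact hμ.nonneg ω
    · rw [if_neg h, if_neg h]
  · refine le_trans (le_of_eq ?_) hδ
    apply sum_eq_zero
    intro ω hω
    rw [(mem_filter.1 hω).2, if_neg hx]

end gen

namespace Loc

variable {B₀ : ℕ} {c₁ c₂ ρ γ ε₂ ε₃ b A : ℝ} {K₁ n g : ℕ} (L : Loc B₀ c₁ c₂ ρ γ ε₂ ε₃ b A K₁ n g)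

/-- the bottom intervals in the form of H60 -/
def itv : H60.Itv L.Ω where
  P := L.P
  n := n
  lo := L.lo
  hi := L.hi
  lo_nonneg := L.lo_nonneg
  lo_lt_hi := L.lo_lt
  hi_le_one := L.hi_le
  lo_congr := L.lo_congr
  hi_congr := L.hi_congr
  hi_le_lo := fun ω ω' h => (L.disj ω ω' h).le

theorem card_lbl (j : ℕ) (ω : L.Ω) : (H353.lbl L.P j ω).card ≤ B₀ ^ (2 * K₁) := by
  obtain ⟨S, hS, h⟩ := L.child j ω
  refine (card_le_card ?_).trans hS
  intro u hu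
  obtain ⟨ω', h1, rfl⟩ := (H353.mem_lbl L.P).1 hu
  exact h ω' h1

theorem card_W (j : ℕ) : #(univ.image (L.P.W j)) ≤ (B₀ ^ (2 * K₁)) ^ j := by
  classical
  induction j with
  | zero =>
    rw [pow_zero]
    apply card_le_one.2
    intro a ha c hc
    obtain ⟨ω, -, rfl⟩ := mem_image.1 ha
    obtain ⟨ω', -, rfl⟩ := mem_image.1 hc
    exact L.top ω ω'
  | succ j ih =>
    have hf : ∀ u : ℕ, ∃ m : ℕ, ∀ ω, L.P.W (j + 1) ω = u → L.P.W j ω = m := by
      intro u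
      by_cases h : ∃ ω, L.P.W (j + 1) ω = u
      · obtain ⟨ω, hω⟩ := h
        exact ⟨L.P.W j ω, fun ω' h' => L.P.nest j ω' ω (h'.trans hω.symm)⟩
      · exact ⟨0, fun ω hω => absurd ⟨ω, hω⟩ h⟩
    choose f hf using hf
    have h1 : #(univ.image (L.P.W (j + 1))) ≤ B₀ ^ (2 * K₁) * #(univ.image (L.P.W j)) := by
      apply card_le_mul_card_image_of_maps_to (f := f)
      · intro u hu
        obtain ⟨ω, -, rfl⟩ := mem_image.1 hu
        rw [← hf _ ω rfl]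
        exact mem_image_of_mem _ (mem_univ _)
      · intro m hm
        obtain ⟨ω₀, -, rfl⟩ := mem_image.1 hm
        refine (card_le_card ?_).trans (L.card_lbl j ω₀)
        intro u hu
        rw [mem_filter] at hu
        obtain ⟨ω, -, rfl⟩ := mem_image.1 hu.1
        rw [H353.mem_lbl]
        exact ⟨ω, (hf _ ω rfl).trans hu.2, rfl⟩
    calc _ ≤ B₀ ^ (2 * K₁) * #(univ.image (L.P.W j)) := h1
      _ ≤ B₀ ^ (2 * K₁) * (B₀ ^ (2 * K₁)) ^ j := Nat.mul_le_mul_left _ ih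
      _ = _ := by rw [pow_succ, mul_comm]

/-- number of the bottom pieces -/
theorem card_leaves (hB : 1 ≤ B₀) : #(univ.image (L.P.W n)) ≤ B₀ ^ (2 * g) := by
  refine (L.card_W n).trans ?_
  rw [← pow_mul]
  apply Nat.pow_le_pow_right hB
  calc 2 * K₁ * n = 2 * (K₁ * n) := by ring
    _ ≤ 2 * g := Nat.mul_le_mul_left _ L.K_le

/-- a common range of scales for the slopes -/
theorem exists_scales : ∃ k₀ k₁ : ℤ, ∀ ω ω',
    |(L.ln ω').1 - (L.ln ω).1| ≤ 2 ^ (-k₀) / 3 ∧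
      ((L.ln ω').1 ≠ (L.ln ω).1 → (2 : ℝ) ^ (-k₁) / 6 < |(L.ln ω').1 - (L.ln ω).1|) := by
  obtain ⟨k₀, k₁, h⟩ := H860.exists_range
    (fun p : L.Ω × L.Ω => (L.ln p.2).1 - (L.ln p.1).1)
  refine ⟨k₀, k₁, fun ω ω' => ⟨(h (ω, ω')).1, fun hne => (h (ω, ω')).2 (sub_ne_zero.2 hne)⟩⟩

/-- a common range of scales for the heights at a time -/
theorem exists_scales_ht (xz : ℝ) : ∃ k₀ k₁ : ℤ, ∀ ω ω',
    |ht xz (L.ln ω') - ht xz (L.ln ω)| ≤ 2 ^ (-k₀) / 3 ∧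
      (ht xz (L.ln ω') ≠ ht xz (L.ln ω) →
        (2 : ℝ) ^ (-k₁) / 6 < |ht xz (L.ln ω') - ht xz (L.ln ω)|) := by
  obtain ⟨k₀, k₁, h⟩ := H860.exists_range
    (fun p : L.Ω × L.Ω => ht xz (L.ln p.2) - ht xz (L.ln p.1))
  refine ⟨k₀, k₁, fun ω ω' => ⟨(h (ω, ω')).1, fun hne => (h (ω, ω')).2 (sub_ne_zero.2 hne)⟩⟩

/-- the mass of the class of a flag -/
noncomputable def PrV (ω : L.Ω) : ℝ := Pr L.ν (fun ω => (L.P.W n ω, L.lam ω)) (L.P.W n ω, L.lam ω)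

theorem PrV_pos (ω : L.Ω) : 0 < L.PrV ω := Pr_pos L.prob _ (L.pos ω)

theorem PrV_congr {ω ω' : L.Ω} (h : L.P.W n ω = L.P.W n ω') (h' : L.lam ω = L.lam ω') :
    L.PrV ω = L.PrV ω' := by
  unfold PrV
  rw [h, h']

/-- the small classes have small mass: pieces -/
theorem PE_W_small (hB : 1 ≤ B₀) {δ : ℝ} (hδ : 0 ≤ δ) :
    PE L.ν (fun ω => Pr L.ν (L.P.W n) (L.P.W n ω) ≤ δ) ≤ B₀ ^ (2 * g) * δ := by
  refine (PE_small_le L.prob (L.P.W n) hδ).trans (mul_le_mul_of_nonneg_right ?_ hδ)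
  exact_mod_cast L.card_leaves hB

/-- **the small classes have small mass** -/
theorem PE_V_small (hB : 1 ≤ B₀) {δ s : ℝ} (hδ : 0 < δ) (hs : 0 < s) :
    PE L.ν (fun ω => L.PrV ω ≤ δ * Real.exp (-s)) ≤ B₀ ^ (2 * g) * δ + ε₃ * g / s := by
  have h1 := L.PE_W_small hB hδ.le
  have h2 := PE_surprise_le L.prob L.lam (L.P.W n) hs
  have h3 : Hc L.ν L.lam (L.P.W n) / s ≤ ε₃ * g / s := div_le_div_of_nonneg_right L.hlam hs.le
  have h4 : PE L.ν (fun ω => L.PrV ω ≤ δ * Real.exp (-s)) ≤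
      PE L.ν (fun ω => Pr L.ν (L.P.W n) (L.P.W n ω) ≤ δ) +
      PE L.ν (fun ω => s ≤ -Real.log (Pr L.ν (fun ω => (L.lam ω, L.P.W n ω))
        (L.lam ω, L.P.W n ω) / Pr L.ν (L.P.W n) (L.P.W n ω))) := by
    rw [← ms_eq_PE, ← ms_eq_PE, ← ms_eq_PE]
    refine (ms_mono L.prob ?_).trans (ms_or_le L.prob _ _)
    intro ω _ hω
    by_contra hc
    push Not at hc
    obtain ⟨hc1, hc2⟩ := hc
    have e1 : Pr L.ν (fun ω => (L.lam ω, L.P.W n ω)) (L.lam ω, L.P.W n ω) = L.PrV ω :=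
      Pr_congr (det_swap _ _) (det_swap _ _) ω
    rw [e1] at hc2
    have hW := Pr_pos L.prob (L.P.W n) (L.pos ω)
    have hV := L.PrV_pos ω
    have h5 : Real.exp (-s) < L.PrV ω / Pr L.ν (L.P.W n) (L.P.W n ω) := by
      rw [← Real.lt_log_iff_exp_lt (by positivity)]
      linarith
    rw [lt_div_iff₀ hW] at h5
    have h6 : Real.exp (-s) * δ < Real.exp (-s) * Pr L.ν (L.P.W n) (L.P.W n ω) :=
      mul_lt_mul_of_pos_left hc1 (Real.exp_pos _)
    linarith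
  linarith

/-- the surprise of the label given the bottom piece -/
noncomputable def lsur (ω : L.Ω) : ℝ :=
  -Real.log (Pr L.ν (fun ω => (L.lam ω, L.P.W n ω)) (L.lam ω, L.P.W n ω) /
    Pr L.ν (L.P.W n) (L.P.W n ω))

theorem lsur_congr {ω ω' : L.Ω} (h : L.P.W n ω = L.P.W n ω') (h' : L.lam ω = L.lam ω') :
    L.lsur ω = L.lsur ω' := by
  unfold lsur
  rw [h, h']

theorem lsur_eq (ω : L.Ω) :
    L.lsur ω = -Real.log (L.PrV ω / Pr L.ν (L.P.W n) (L.P.W n ω)) := by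
  unfold lsur PrV
  rw [Pr_congr (μ := L.ν) (det_swap L.lam (L.P.W n)) (det_swap (L.P.W n) L.lam) ω]

/-- **the typical flags**: `Z`, rich class, class of mass at least `2 ^ (-B)`, surprise of the label
at most `s g` -/
def Zg (B : ℕ) (s : ℝ) (ω : L.Ω) : Prop :=
  L.Z ω ∧ L.rich ω ∧ (1 / 2 : ℝ) ^ B ≤ L.PrV ω ∧ L.lsur ω ≤ s * g

theorem Zg_congr {B : ℕ} {s : ℝ} {ω ω' : L.Ω} (h : L.P.W n ω = L.P.W n ω')
    (h' : L.ln ω = L.ln ω') (h'' : L.lam ω = L.lam ω') (hZ : L.Zg B s ω) : L.Zg B s ω' :=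
  ⟨L.Z_congr ω ω' h h' hZ.1, L.rich_congr ω ω' h h'' hZ.2.1, by
    rw [← L.PrV_congr h h'']
    exact hZ.2.2.1, by
    rw [← L.lsur_congr h h'']
    exact hZ.2.2.2⟩

/-- **the mass of the typical flags** -/
theorem Zg_mass {C : ℕ} (hB : 1 ≤ B₀) (hC : (B₀ : ℝ) ≤ 2 ^ C) (hg : 1 ≤ g) {s : ℝ} (hs : 0 < s) :
    c₁ / 4 - b - (1 / 2) ^ g - 2 * ε₃ - ε₃ / s ≤ PE L.ν (L.Zg (2 * (C + 1) * g) s) := by
  have hg0 : (0 : ℝ) < g := by exact_mod_cast hg
  have hlog2 : 0 < Real.log 2 := Real.log_pos (by norm_num)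
  have h1 := L.PE_V_small hB (δ := (1 / 2 : ℝ) ^ (2 * C * g + g)) (s := g * Real.log 2)
    (by positivity) (by positivity)
  have e1 : (1 / 2 : ℝ) ^ (2 * C * g + g) * Real.exp (-(g * Real.log 2)) =
      (1 / 2) ^ (2 * (C + 1) * g) := by
    have e2 : Real.exp (-(g * Real.log 2)) = (1 / 2) ^ g := by
      rw [← mul_neg, ← Real.log_inv, mul_comm, Real.exp_mul, Real.exp_log (by norm_num),
        Real.rpow_natCast]
      norm_num
    rw [e2, ← pow_add]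
    congr 1
    ring
  rw [e1] at h1
  have h2 : (B₀ : ℝ) ^ (2 * g) * (1 / 2) ^ (2 * C * g + g) ≤ (1 / 2) ^ g := by
    have h3 : (B₀ : ℝ) ^ (2 * g) ≤ (2 ^ C) ^ (2 * g) := pow_le_pow_left₀ (by positivity) hC _
    have h4 : ((2 : ℝ) ^ C) ^ (2 * g) * (1 / 2) ^ (2 * C * g + g) = (1 / 2) ^ g := by
      rw [pow_add, ← mul_assoc, ← pow_mul, show C * (2 * g) = 2 * C * g by ring, ← mul_pow]
      norm_num
    calc _ ≤ ((2 : ℝ) ^ C) ^ (2 * g) * (1 / 2) ^ (2 * C * g + g) :=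
          mul_le_mul_of_nonneg_right h3 (by positivity)
      _ = _ := h4
  have hε : 0 ≤ ε₃ := by
    have h6 := (Hc_nonneg L.prob L.lam (L.P.W n)).trans L.hlam
    exact nonneg_of_mul_nonneg_left h6 hg0
  have h5 : ε₃ * g / (g * Real.log 2) ≤ 2 * ε₃ := by
    rw [div_le_iff₀ (by positivity)]
    have h7 : (1 : ℝ) / 2 ≤ Real.log 2 := by
      have := Real.log_two_gt_d9
      linarith
    have h8 : (0 : ℝ) ≤ ε₃ * g := by positivity
    nlinarith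
  have h5' : PE L.ν (fun ω => s * g ≤ L.lsur ω) ≤ ε₃ / s := by
    refine (PE_surprise_le L.prob L.lam (L.P.W n) (s := s * g) (by positivity)).trans ?_
    refine (div_le_div_of_nonneg_right L.hlam (by positivity)).trans (le_of_eq ?_)
    rw [mul_div_mul_right _ _ hg0.ne']
  have h6 : PE L.ν L.Z ≤ PE L.ν (L.Zg (2 * (C + 1) * g) s) + (PE L.ν (fun ω => ¬ L.rich ω) +
      (PE L.ν (fun ω => L.PrV ω ≤ (1 / 2) ^ (2 * (C + 1) * g)) +
        PE L.ν (fun ω => s * g ≤ L.lsur ω))) := by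
    rw [← ms_eq_PE, ← ms_eq_PE, ← ms_eq_PE, ← ms_eq_PE, ← ms_eq_PE]
    refine (ms_mono L.prob (Q' := fun ω => L.Zg (2 * (C + 1) * g) s ω ∨ (¬ L.rich ω ∨
      (L.PrV ω ≤ (1 / 2) ^ (2 * (C + 1) * g) ∨ s * g ≤ L.lsur ω))) ?_).trans
      ((ms_or_le L.prob _ _).trans ?_)
    · intro ω _ hω
      by_cases h7 : L.rich ω
      · rcases le_total (L.PrV ω) ((1 / 2) ^ (2 * (C + 1) * g)) with h8 | h8
        · exact Or.inr (Or.inr (Or.inl h8))
        · rcases le_total (L.lsur ω) (s * g) with h9 | h9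
          · exact Or.inl ⟨hω, h7, h8, h9⟩
          · exact Or.inr (Or.inr (Or.inr h9))
      · exact Or.inr (Or.inl h7)
    · have h9 := ms_or_le L.prob (fun ω => ¬ L.rich ω)
        (fun ω => L.PrV ω ≤ (1 / 2) ^ (2 * (C + 1) * g) ∨ s * g ≤ L.lsur ω)
      have h10 := ms_or_le L.prob (fun ω => L.PrV ω ≤ (1 / 2) ^ (2 * (C + 1) * g))
        (fun ω => s * g ≤ L.lsur ω)
      linarith
  have h7 := L.hZ
  have h8 := L.hrich
  linarith

/-! ## The law of the typical flags -/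

/-- **the law `μ`**: `ν` conditioned on the typical flags -/
noncomputable def mu (B : ℕ) (s : ℝ) : L.Ω → ℝ := cE L.ν (L.Zg B s)

section mu

variable {L} {B : ℕ} {s : ℝ}

theorem mu_prob (h : 0 < PE L.ν (L.Zg B s)) : IsProb (L.mu B s) :=
  cE_isProb L.prob (by rwa [ms_eq_PE])

theorem mu_le (ω : L.Ω) : L.mu B s ω ≤ L.ν ω / PE L.ν (L.Zg B s) := by
  classical
  unfold mu cE cnd
  split_ifs
  · exact le_rfl
  · exact div_nonneg (L.prob.nonneg ω) (Pr_nonneg L.prob _ _)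

theorem Zg_of_mu {ω : L.Ω} (hω : 0 < L.mu B s ω) : L.Zg B s ω := of_eq_true (cnd_pos hω)

theorem mu_pos (h : 0 < PE L.ν (L.Zg B s)) {ω : L.Ω} (hω : L.Zg B s ω) : 0 < L.mu B s ω := by
  classical
  unfold mu cE cnd
  rw [if_pos (eq_true hω)]
  exact div_pos (L.pos ω) h

/-- events under `μ` -/
theorem PE_mu (Q : L.Ω → Prop) :
    PE (L.mu B s) Q = PE L.ν (fun ω => L.Zg B s ω ∧ Q ω) / PE L.ν (L.Zg B s) := by
  have h := ms_cE L.prob (L.Zg B s) Q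
  rw [ms_eq_PE, ms_eq_PE, ms_eq_PE] at h
  exact h

/-- the law `μ` has density at most `1 / PE ν Zg` -/
theorem PE_mu_le (Q : L.Ω → Prop) :
    PE (L.mu B s) Q ≤ PE L.ν Q / PE L.ν (L.Zg B s) := by
  rw [PE_mu, ← ms_eq_PE, ← ms_eq_PE, ← ms_eq_PE]
  exact div_le_div_of_nonneg_right (ms_mono L.prob fun _ _ h => h.2) (ms_nonneg L.prob _)

end mu

end Loc

end Vale.Agent.P065.H859
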