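import Vale.Agent.P065.H859.LocSub

/-!
# P065: the time frame of a window (helper859)
-/

set_option autoImplicit false

namespace Vale.Agent.P065.H859

open Finset Vale.Agent.P065.UB Vale.Agent.P065.UB.RankAux Vale.Agent.P065.Ent
  Vale.Agent.P065.H987 Vale.Agent.P065.H725

/-- finitely many positive numbers have a positive lower bound -/
theorem exists_pos_le {ι : Type*} [Finite ι] (f : ι → ℝ) : ∃ δ : ℝ, 0 < δ ∧
    ∀ i, 0 < f i → δ ≤ f i := by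
  classical
  have := Fintype.ofFinite ι
  rcases (univ.filter fun i => 0 < f i).eq_empty_or_nonempty with h | h
  · refine ⟨1, one_pos, fun i hi => ?_⟩
    have : i ∈ (univ.filter fun i => 0 < f i) := mem_filter.2 ⟨mem_univ _, hi⟩
    rw [h] at this
    exact absurd this (notMem_empty _)
  · obtain ⟨i₀, hi₀, hmin⟩ := exists_min_image _ f h
    exact ⟨f i₀, (mem_filter.1 hi₀).2, fun i hi => hmin i (mem_filter.2 ⟨mem_univ _, hi⟩)⟩

theorem exists_frame {Ω : Type*} [Fintype Ω] [Nonempty Ω] (tm : Ω → ℝ) (W : Ω → ℕ)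
    (mono : ∀ ω ω', tm ω ≤ tm ω' → W ω ≤ W ω') : ∃ (α s : ℝ) (lo hi : Ω → ℝ), 0 < s ∧
      (∀ ω, lo ω < hi ω) ∧ (∀ ω, 0 ≤ lo ω) ∧ (∀ ω, hi ω ≤ 1) ∧
      (∀ ω ω', W ω = W ω' → lo ω = lo ω') ∧ (∀ ω ω', W ω = W ω' → hi ω = hi ω') ∧
      (∀ ω ω', W ω < W ω' → hi ω < lo ω') ∧
      ∀ ω ω', W ω' = W ω → α + s * lo ω < tm ω' ∧ tm ω' < α + s * hi ω := by
  classical
  obtain ⟨δ, hδ, hδ'⟩ := exists_pos_le (fun q : Ω × Ω => (tm q.2 - tm q.1) / 3)
  have hgap : ∀ ω ω', tm ω < tm ω' → tm ω + 3 * δ ≤ tm ω' := by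
    intro ω ω' h
    have := hδ' (ω, ω') (by
      show 0 < (tm ω' - tm ω) / 3
      linarith)
    have h2 : δ ≤ (tm ω' - tm ω) / 3 := this
    linarith
  set cl : Ω → Finset Ω := fun ω => univ.filter fun ω' => W ω' = W ω with hcl
  have hne : ∀ ω, (cl ω).Nonempty := fun ω => ⟨ω, mem_filter.2 ⟨mem_univ _, rfl⟩⟩
  have hun : (univ : Finset Ω).Nonempty := univ_nonempty
  set mn : Ω → ℝ := fun ω => (cl ω).inf' (hne ω) tm with hmn
  set mx : Ω → ℝ := fun ω => (cl ω).sup' (hne ω) tm with hmx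
  set bot := univ.inf' hun tm with hbot
  set top := univ.sup' hun tm with htop
  have h1 : ∀ ω ω', W ω' = W ω → mn ω ≤ tm ω' ∧ tm ω' ≤ mx ω := fun ω ω' h =>
    ⟨inf'_le tm (mem_filter.2 ⟨mem_univ _, h⟩), le_sup' tm (mem_filter.2 ⟨mem_univ _, h⟩)⟩
  have h2 : ∀ ω, bot ≤ mn ω ∧ mx ω ≤ top := by
    intro ω
    constructor
    · exact le_inf' _ _ fun ω' _ => inf'_le tm (mem_univ ω')
    · exact sup'_le _ _ fun ω' _ => le_sup' tm (mem_univ ω')
  have h3 : ∀ ω ω', W ω < W ω' → mx ω + 3 * δ ≤ mn ω' := by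
    intro ω ω' h
    obtain ⟨a, ha, ha'⟩ := exists_mem_eq_sup' (hne ω) tm
    obtain ⟨c, hc, hc'⟩ := exists_mem_eq_inf' (hne ω') tm
    have e1 : W a = W ω := (mem_filter.1 ha).2
    have e2 : W c = W ω' := (mem_filter.1 hc).2
    have e3 : mx ω = tm a := ha'
    have e4 : mn ω' = tm c := hc'
    rw [e3, e4]
    apply hgap
    by_contra hcon
    push Not at hcon
    have := mono c a hcon
    omega
  have hcongr : ∀ ω ω', W ω = W ω' → cl ω = cl ω' := by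
    intro ω ω' h
    rw [hcl]
    simp only [h]
  have h4 : ∀ ω ω', W ω = W ω' → mn ω = mn ω' := by
    intro ω ω' h
    have e := hcongr ω ω' h
    rw [hmn]
    simp only [e]
  have h5 : ∀ ω ω', W ω = W ω' → mx ω = mx ω' := by
    intro ω ω' h
    have e := hcongr ω ω' h
    rw [hmx]
    simp only [e]
  obtain ⟨ω₀⟩ := ‹Nonempty Ω›
  have h6 : bot ≤ top := (h2 ω₀).1.trans (((h1 ω₀ ω₀ rfl).1.trans (h1 ω₀ ω₀ rfl).2).trans (h2 ω₀).2)
  have hs : 0 < (top + δ) - (bot - δ) := by linarith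
  refine ⟨bot - δ, (top + δ) - (bot - δ), fun ω => (mn ω - δ - (bot - δ)) / ((top + δ) - (bot - δ)),
    fun ω => (mx ω + δ - (bot - δ)) / ((top + δ) - (bot - δ)), hs, ?_, ?_, ?_, ?_, ?_, ?_, ?_⟩
  · intro ω
    apply div_lt_div_of_pos_right _ hs
    have := h1 ω ω rfl
    linarith [this.1, this.2]
  · intro ω
    apply div_nonneg _ hs.le
    linarith [(h2 ω).1]
  · intro ω
    rw [div_le_one hs]
    linarith [(h2 ω).2]
  · intro ω ω' h
    show (mn ω - δ - (bot - δ)) / ((top + δ) - (bot - δ)) = _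
    rw [h4 ω ω' h]
  · intro ω ω' h
    show (mx ω + δ - (bot - δ)) / ((top + δ) - (bot - δ)) = _
    rw [h5 ω ω' h]
  · intro ω ω' h
    apply div_lt_div_of_pos_right _ hs
    linarith [h3 ω ω' h]
  · intro ω ω' h
    have e := h1 ω ω' h
    have e1 : (bot - δ) + ((top + δ) - (bot - δ)) *
        ((mn ω - δ - (bot - δ)) / ((top + δ) - (bot - δ))) = mn ω - δ := by
      rw [mul_div_cancel₀ _ hs.ne']
      ring
    have e2 : (bot - δ) + ((top + δ) - (bot - δ)) *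
        ((mx ω + δ - (bot - δ)) / ((top + δ) - (bot - δ))) = mx ω + δ := by
      rw [mul_div_cancel₀ _ hs.ne']
      ring
    constructor
    · show (bot - δ) + ((top + δ) - (bot - δ)) *
        ((mn ω - δ - (bot - δ)) / ((top + δ) - (bot - δ))) < tm ω'
      rw [e1]
      linarith [e.1]
    · show tm ω' < (bot - δ) + ((top + δ) - (bot - δ)) *
        ((mx ω + δ - (bot - δ)) / ((top + δ) - (bot - δ)))
      rw [e2]
      linarith [e.2]

theorem exists_pcs {Ω : Type*} [Fintype Ω] (lo hi : Ω → ℝ) (Wn : Ω → ℕ)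
    (lo_lt : ∀ ω, lo ω < hi ω) (lo_nonneg : ∀ ω, 0 ≤ lo ω) (hi_le : ∀ ω, hi ω ≤ 1)
    (lo_congr : ∀ ω ω', Wn ω = Wn ω' → lo ω = lo ω')
    (hi_congr : ∀ ω ω', Wn ω = Wn ω' → hi ω = hi ω')
    (disj : ∀ ω ω', Wn ω < Wn ω' → hi ω < lo ω') (W : ℕ → Ω → ℕ)
    (hW : ∀ j ω ω', Wn ω ≤ Wn ω' → W j ω ≤ W j ω')
    (nest : ∀ j ω ω', W (j + 1) ω = W (j + 1) ω' → W j ω = W j ω') :
    ∃ P : H268.Pcs Ω, P.W = W ∧ ∀ ω, P.x ω = (lo ω + hi ω) / 2 := by
  classical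
  obtain ⟨δ, hδ, hδ'⟩ := exists_pos_le (fun ω : Ω => hi ω - lo ω)
  have hd : ∀ ω, δ ≤ hi ω - lo ω := fun ω => hδ' ω (by
    have := lo_lt ω
    linarith)
  have hlt : ∀ ω ω', Wn ω < Wn ω' → (lo ω + hi ω) / 2 + δ ≤ (lo ω' + hi ω') / 2 := by
    intro ω ω' h
    have h1 := disj ω ω' h
    have h2 := hd ω
    have h3 := hd ω'
    linarith
  obtain ⟨T, hT⟩ : ∃ T : ℕ, 4 ≤ 2 ^ T * δ := by
    obtain ⟨T, hT⟩ := pow_unbounded_of_one_lt (4 / δ) (by norm_num : (1 : ℝ) < 2)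
    refine ⟨T, ?_⟩
    rw [div_lt_iff₀ hδ] at hT
    exact hT.le
  refine ⟨⟨fun ω => (lo ω + hi ω) / 2, W, δ, T, ?_, nest, hδ, ?_, ?_, hT⟩, rfl, fun _ => rfl⟩
  · intro j ω ω' h
    apply hW
    by_contra hcon
    push Not at hcon
    have := hlt ω' ω hcon
    linarith
  · intro ω ω' h
    apply hlt
    rcases lt_trichotomy (Wn ω) (Wn ω') with h1 | h1 | h1
    · exact h1
    · rw [lo_congr ω ω' h1, hi_congr ω ω' h1] at h
      exact absurd h (lt_irrefl _)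
    · have := hlt ω' ω h1
      linarith
  · intro ω ω'
    show (lo ω' + hi ω') / 2 - (lo ω + hi ω) / 2 + δ ≤ 1
    have h1 := hd ω
    have h2 := hd ω'
    have h3 := lo_nonneg ω
    have h4 := hi_le ω'
    linarith

end Vale.Agent.P065.H859
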