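import Vale.Agent.P065.H859.LocCross

/-!
# P065: the window exists (helper859)
-/

set_option autoImplicit false

namespace Vale.Agent.P065.H859

open Finset Vale.Agent.P065.UB Vale.Agent.P065.UB.RankAux Vale.Agent.P065.Ent
  Vale.Agent.P065.H987 Vale.Agent.P065.H725

namespace Sel

variable {B₀ : ℕ} {c₀ c₁ θ ε₂ ε₃ b A : ℝ} {K g : ℕ} (S : Sel B₀ c₀ c₁ θ ε₂ ε₃ b A K g)

theorem PE_nu (Q : Fin S.p × Fin S.w → Prop) : PE S.nu (fun s => Q s.1) = PE S.μ₀ Q :=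
  PE_pull Subtype.val_injective S.μ₀_off Q

theorem Hc_nu {α β : Type*} (X : Fin S.p × Fin S.w → α) (Y : Fin S.p × Fin S.w → β) :
    Hc S.nu (fun s => X s.1) (fun s => Y s.1) = Hc S.μ₀ X Y :=
  Hc_pull Subtype.val_injective S.μ₀_off X Y

theorem Rich_congr {ω ω' : Fin S.p × Fin S.w} (h : S.V ω = S.V ω') (hr : Rich S.U S.V A ω) :
    Rich S.U S.V A ω' := by
  unfold Rich at *
  have hs : S.U.sz S.V ω' = S.U.sz S.V ω := by
    unfold Flags.sz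
    rw [h]
  rw [hs, ← h]
  exact ⟨hr.1, fun ω'' h'' => hr.2 ω'' h''⟩

theorem Zw_congr {ω ω' : Fin S.p × Fin S.w} (h : S.U.C (S.i₀ + g) ω = S.U.C (S.i₀ + g) ω')
    (hl : S.U.ln ω = S.U.ln ω') (hZ : S.U.Zw c₀ c₁ ε₂ K S.i₀ g ω) :
    S.U.Zw c₀ c₁ ε₂ K S.i₀ g ω' := by
  obtain ⟨G, hG, h1, h2⟩ := hZ
  refine ⟨G, fun i hi => ?_, h1, h2⟩
  obtain ⟨h3, h4⟩ := hG i hi
  refine ⟨h3, ?_⟩
  rw [mem_Ico] at h3
  have h5 : S.U.C i ω = S.U.C i ω' := S.U.C_det (by omega) _ _ h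
  have h6 : S.U.xi i ω' = S.U.xi i ω := by
    unfold Conf.xi
    rw [h5, hl]
  rw [h6]
  exact h4

theorem xinj (s s' : S.Om) (h : (S.U.ln s.1).1 = (S.U.ln s'.1).1) :
    S.U.ln s.1 = S.U.ln s'.1 := by
  obtain ⟨P, k, hP, hPE⟩ := S.U.real
  exact hP.xinj _ (hPE s.1).mem _ (hPE s'.1).mem h

include S in
theorem loc {t : ℝ} (ht : 0 < t) (ht4 : t ≤ 1 / 4) (hc : √t * (2 + Real.log B₀) < c₀)
    (hγ0 : 0 ≤ beta⁻¹ + θ) (hγ1 : beta⁻¹ + θ ≤ 1)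
    (hδ : 1 - beta⁻¹ ≤ 1) (hA : 0 < A) (hε : 0 < ε₂) (hK : 1 ≤ K) {K₁ n : ℕ}
    (hK₁ : 4 * K ≤ K₁) (h : K₁ * n ≤ g) (h' : g < K₁ * (n + 1)) (hn : 1 ≤ n) :
    Nonempty (Loc B₀ c₁ (c₁ / 4 * t) (1 - t) (beta⁻¹ + θ) (4 * ε₂) ε₃ b A K₁ n g) := by
  classical
  have : Nonempty S.Om := ⟨⟨S.ω₀, rfl⟩⟩
  obtain ⟨α, σ, lo, hi, hσ, lo_lt, lo_nonneg, hi_le, lo_congr, hi_congr, disj, hfr⟩ :=
    exists_frame (fun s : S.Om => S.U.tm s.1) (fun s : S.Om => S.U.C (S.i₀ + g) s.1)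
      (fun s s' h => S.U.C_mono_tm h)
  obtain ⟨P, hPW, hPx⟩ := exists_pcs lo hi (fun s : S.Om => S.U.C (S.i₀ + g) s.1) lo_lt
    lo_nonneg hi_le lo_congr hi_congr disj
    (fun j (s : S.Om) => S.U.C (lvb S.i₀ K₁ n g j) s.1)
    (fun j s s' hs => S.U.C_mono (lvb_le h j) hs)
    (fun j s s' hs => S.U.C_det (lvb_succ h h' j).1 _ _ hs)
  have hW : ∀ j s, P.W j s = S.U.C (lvb S.i₀ K₁ n g j) s.1 := fun j s => by rw [hPW]
  have hWj : ∀ j, P.W j = fun s => S.U.C (lvb S.i₀ K₁ n g j) s.1 := fun j => by rw [hPW]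
  have hWn : P.W n = fun s => S.U.C (S.i₀ + g) s.1 := by
    rw [hWj n, lvb_ge le_rfl]
  have hf : Function.Injective (nrm α σ) := fun u v huv => nrm_inj hσ.ne' huv
  have hV : (fun s : S.Om => (P.W n s, S.Λ' s.1)) = fun s => S.V s.1 := by
    funext s
    rw [hWn]
    rfl
  have hVp : ∀ s : S.Om, (P.W n s, S.Λ' s.1) = S.V s.1 := fun s => congrFun hV s
  have hlnj : ∀ j, (fun s : S.Om => (P.W j s, nrm α σ (S.U.ln s.1))) =
      fun s => (S.U.C (lvb S.i₀ K₁ n g j) s.1, nrm α σ (S.U.ln s.1)) := by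
    intro j
    funext s
    rw [hWj j]
  refine ⟨{ Ω := S.Om, ν := S.nu, prob := S.nu_prob, pos := S.nu_pos
            ln := fun s => nrm α σ (S.U.ln s.1), P := P, lo := lo, hi := hi, x_eq := hPx
            lo_lt := lo_lt, lo_nonneg := lo_nonneg, hi_le := hi_le, Lab := Fin S.p × Fin S.w
            lam := fun s => S.Λ' s.1, n_pos := hn, K_le := h, g_lt := h'
            Z := fun s => S.U.Zw c₀ c₁ ε₂ K S.i₀ g s.1
            rich := fun s => Rich S.U S.V A s.1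
            xinj := ?_, lo_congr := ?_, hi_congr := ?_, disj := ?_, top := ?_, bot := ?_
            child := ?_, hlam := ?_, Z_congr := ?_, hZ := ?_, sur := ?_, bad := ?_
            rich_congr := ?_, hrich := ?_, content := ?_, contG := ?_, cross := ?_ }⟩
  · intro s s' hs
    show nrm α σ (S.U.ln s.1) = nrm α σ (S.U.ln s'.1)
    rw [S.xinj s s' hs]
  · intro s s' hs
    rw [hWn] at hs
    exact lo_congr s s' hs
  · intro s s' hs
    rw [hWn] at hs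
    exact hi_congr s s' hs
  · intro s s' hs
    rw [hWn] at hs
    exact disj s s' hs
  · intro s s'
    rw [hW, hW, lvb_zero hn]
    exact S.top_const s s'
  · intro j hj s
    rw [hW, hW, lvb_ge hj, lvb_ge le_rfl]
  · intro j s
    obtain ⟨T, hT, hT'⟩ := S.U.C_child (lvb_succ (i₀ := S.i₀) h h' j).1 s.1
    refine ⟨T, hT.trans ?_, ?_⟩
    · rw [S.hB]
      apply Nat.pow_le_pow_right
      · have := S.U.B_pos
        rw [S.hB] at this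
        exact this
      · exact (lvb_succ (i₀ := S.i₀) h h' j).2
    · intro s' hs
      rw [hW, hW] at hs
      rw [hW]
      exact hT' s'.1 hs
  · rw [hWn]
    exact (S.Hc_nu S.Λ' (S.U.C (S.i₀ + g))).le.trans S.hH
  · intro s s' h1 h2 h3
    rw [hWn] at h1
    exact S.Zw_congr h1 (hf h2) h3
  · rw [S.PE_nu]
    exact S.hZ
  · intro s hs
    rw [hWn]
    exact S.surprise ht ht4 hc hf s hs
  · intro s hs
    obtain ⟨T, hT, hT'⟩ := S.blocks ht ht4 hc hε hK hK₁ h h' hn hf s hs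
    refine ⟨T, hT, fun j hj hjT => ?_⟩
    rw [hlnj, hlnj, hW, hW]
    exact hT' j hj hjT
  · intro s s' h1 h2 h3
    rw [hWn] at h1
    exact S.Rich_congr (Prod.ext h1 h2) h3
  · rw [S.PE_nu (fun ω => ¬ Rich S.U S.V A ω)]
    exact S.hR
  · intro s₀ hr
    rw [hV, hVp]
    intro T hT m τ hτ xr hxr θs θh k₀ k₁ htop hbot Gd hG η hη hη1 hQη
    exact S.content hγ0 hγ1 hδ hA hσ hfr s₀ hr T hT m τ hτ xr hxr θs θh k₀ k₁
      (fun s s' h1 h2 => htop s s' ((hVp s).trans h1) ((hVp s').trans h2))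
      (fun s s' h1 h2 => hbot s s' ((hVp s).trans h1) ((hVp s').trans h2)) Gd hG η hη hη1 hQη
  · intro s₀ hr
    rw [hV, hVp]
    intro T hT a' κ _ _ cel near hrefl I hnest Gd hG hsep η hη hη1 hQη
    exact S.contG hγ0 hγ1 hδ hA hσ hfr s₀ hr T hT a' κ cel near hrefl I hnest Gd hG
      (fun s s' h1 h2 => hsep s s' ((hVp s).trans h1) ((hVp s').trans h2)) η hη hη1 hQη
  · intro s₀ hr
    rw [hV, hVp]
    intro T hT R hR hQR hcc
    exact S.cross hγ0 hγ1 hδ hA hσ hfr s₀ hr T hT R hR hQR hcc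

end Sel

/-- **the window exists**: if `1 < beta` then, for all choices of the later constants, there is a
typical window -/
theorem exists_loc (hb : 1 < beta) : ∃ (B₀ : ℕ) (c₁ c₂ ρ γ : ℝ), 2 ≤ B₀ ∧ 0 < c₁ ∧ 0 < c₂ ∧
    0 < ρ ∧ ρ < 1 ∧ 0 ≤ γ ∧ γ < 1 ∧ ∀ ε₂ : ℝ, 0 < ε₂ → ∀ M : ℕ, 4 ≤ M →
    ∀ (ε₃ b : ℕ → ℝ) (f : ℕ → ℕ) (A : ℕ → ℝ), (∀ K, 0 < ε₃ K) → (∀ K, 0 < b K) →
    (∀ g, 0 < A g) → ∃ K g : ℕ, 1 ≤ K ∧ f K ≤ g ∧
      Nonempty (Loc B₀ c₁ c₂ ρ γ ε₂ (ε₃ K) (b K) (A g) (M * K) (g / (M * K)) g) := by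
  have hβ0 : 0 < beta := by linarith
  have hinv : beta⁻¹ < 1 := inv_lt_one_of_one_lt₀ hb
  have hinv0 : 0 < beta⁻¹ := inv_pos.2 hβ0
  set θ := (1 - beta⁻¹) / 3 with hθ
  have hθ0 : 0 < θ := by rw [hθ]; linarith
  obtain ⟨B₀, c₀, c₁, hB₀, hc₀, hc₁, hS⟩ := exists_sel hb hθ0
  have hlB : 0 ≤ Real.log B₀ := Real.log_nonneg (by
    have : (1 : ℝ) ≤ B₀ := by exact_mod_cast (by omega : 1 ≤ B₀)
    exact this)
  obtain ⟨t, ht, ht4, hc⟩ := exists_atom hc₀ hlB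
  refine ⟨B₀, c₁, c₁ / 4 * t, 1 - t, beta⁻¹ + θ, hB₀, hc₁, by positivity, by linarith,
    by linarith, by linarith, by rw [hθ]; linarith, ?_⟩
  intro ε₂ hε₂ M hM ε₃ b f A hε₃ hbp hA
  obtain ⟨K, g, hK, -, hfg, ⟨S⟩⟩ := hS (ε₂ / 4) (by positivity) ε₃ b
    (fun K => max (f K) (M * K)) A hε₃ hbp hA
  have hMK : 0 < M * K := Nat.mul_pos (by omega) hK
  refine ⟨K, g, hK, (le_max_left _ _).trans hfg, ?_⟩
  have hg : M * K ≤ g := (le_max_right _ _).trans hfg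
  have key := S.loc ht ht4 hc (by linarith) (by rw [hθ]; linarith) (by linarith) (hA g)
    (by positivity) hK (K₁ := M * K) (n := g / (M * K)) (Nat.mul_le_mul_right K hM)
    (Nat.mul_div_le g (M * K)) (by
      have := Nat.lt_mul_div_succ g hMK
      exact this) ((Nat.one_le_div_iff hMK).2 hg)
  have e : 4 * (ε₂ / 4) = ε₂ := by ring
  rwa [e] at key

end Vale.Agent.P065.H859
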