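import Vale.Agent.P065.H859.SelMain

/-!
# P065: the surprise of the pieces along a line (helper859)

At a level where the line splits (`c₀ ≤ xi`), the piece of the next level has at most `ρ` times
the mass of the piece, along the line.
-/

set_option autoImplicit false

namespace Vale.Agent.P065.H859

open Finset Vale.Agent.P065.UB Vale.Agent.P065.UB.RankAux Vale.Agent.P065.Ent

/-- numerical part -/
theorem atom_num {t c lB : ℝ} (ht : 0 < t) (ht4 : t ≤ 1 / 4) (hlB : 0 ≤ lB)
    (hc : √ t * (2 + lB) < c) : -Real.log (1 - t) + t * (lB - Real.log t) < c := by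
  set s := √ t with hs
  have hs0 : 0 < s := Real.sqrt_pos.2 ht
  have hst : t = s * s := (Real.mul_self_sqrt ht.le).symm
  have hs2 : s ≤ 1 / 2 := by
    by_contra hcon
    push Not at hcon
    nlinarith
  have h1 : -Real.log (1 - t) ≤ 2 * t := by
    rw [← Real.log_inv]
    have h2 : (0 : ℝ) < (1 - t)⁻¹ := inv_pos.2 (by linarith)
    have h3 := Real.log_le_sub_one_of_pos h2
    have h4 : (1 - t)⁻¹ ≤ 1 + 2 * t := by
      rw [inv_le_iff_one_le_mul₀ (by linarith)]
      nlinarith
    linarith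
  have h2 : -Real.log t ≤ 2 * (s⁻¹ - 1) := by
    have h3 := Real.log_le_sub_one_of_pos (inv_pos.2 hs0)
    rw [Real.log_inv] at h3
    have h4 : Real.log t = 2 * Real.log s := by
      rw [hst, Real.log_mul hs0.ne' hs0.ne']
      ring
    rw [h4]
    linarith
  have h3 : t * (-Real.log t) ≤ 2 * s - 2 * t := by
    have h4 : t * (2 * (s⁻¹ - 1)) = 2 * s - 2 * t := by
      rw [hst]
      field_simp
    rw [← h4]
    exact mul_le_mul_of_nonneg_left h2 ht.le
  have h4 : t * lB ≤ s * lB := by
    apply mul_le_mul_of_nonneg_right _ hlB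
    nlinarith
  nlinarith

/-- **a variable with few values and large entropy has no atom close to `1`** -/
theorem atom_le_of_H {Ω α : Type*} [Fintype Ω] {μ : Ω → ℝ} (hμ : IsProb μ) (X : Ω → α) {B : ℕ}
    (hB : 0 < B) {s : Finset α} (hs : #s ≤ B) (hX : ∀ ω, 0 < μ ω → X ω ∈ s) {c t : ℝ}
    (ht : 0 < t) (ht4 : t ≤ 1 / 4) (hc : √ t * (2 + Real.log B) < c) (h : c ≤ H μ X) (a : α) :
    Pr μ X a ≤ 1 - t := by
  classical
  by_contra hcon
  push Not at hcon
  have hBR : (0 : ℝ) < B := by exact_mod_cast hB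
  have hB1 : (1 : ℝ) ≤ B := by exact_mod_cast hB
  have hlB : 0 ≤ Real.log B := Real.log_nonneg hB1
  set q : Unit → α → ℝ := fun _ x => if x = a then 1 - t else (if x ∈ s then t / B else 0) with hq
  have h1 := gibbs hμ X (fun _ => ()) q (by
    intro ω hω
    show 0 < if X ω = a then 1 - t else (if X ω ∈ s then t / B else 0)
    split_ifs with h2 h3
    · linarith
    · positivity
    · exact absurd (hX ω hω) h3) (by
    intro _ x _
    show 0 ≤ if x = a then 1 - t else (if x ∈ s then t / B else 0)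
    split_ifs
    · linarith
    · positivity
    · exact le_rfl) (by
    intro _
    have h2 : ∀ x ∈ univ.image X, q () x ≤ (if x = a then 1 - t else 0) +
        (if x ∈ s then t / B else 0) := by
      intro x _
      show (if x = a then 1 - t else (if x ∈ s then t / B else 0)) ≤ _
      split_ifs
      · have : 0 ≤ t / B := by positivity
        linarith
      · linarith
      · linarith
      · linarith
    refine (sum_le_sum h2).trans ?_
    rw [sum_add_distrib]
    have h3 : ∑ x ∈ univ.image X, (if x = a then 1 - t else 0) ≤ 1 - t := by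
      rw [sum_ite_eq']
      split_ifs
      · exact le_rfl
      · linarith
    have h4 : ∑ x ∈ univ.image X, (if x ∈ s then t / B else 0) ≤ t := by
      rw [← sum_filter, sum_const, nsmul_eq_mul]
      have h5 : ((#({x ∈ univ.image X | x ∈ s} : Finset α) : ℕ) : ℝ) ≤ B := by
        have : #({x ∈ univ.image X | x ∈ s} : Finset α) ≤ B := by
          refine le_trans (card_le_card ?_) hs
          intro x hx
          exact (mem_filter.1 hx).2
        exact_mod_cast this
      calc ((#({x ∈ univ.image X | x ∈ s} : Finset α) : ℕ) : ℝ) * (t / B) ≤ B * (t / B) :=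
            mul_le_mul_of_nonneg_right h5 (by positivity)
        _ = t := by field_simp
    linarith)
  rw [Hc_const hμ] at h1
  have h2 : ∑ ω, μ ω * (-Real.log (q () (X ω))) ≤
      ∑ ω, μ ω * ((-Real.log (1 - t)) + (if X ω = a then 0 else (Real.log B - Real.log t))) := by
    refine sum_le_sum fun ω _ => ?_
    rcases (hμ.nonneg ω).eq_or_lt with h0 | h0
    · rw [← h0, zero_mul, zero_mul]
    · apply mul_le_mul_of_nonneg_left _ h0.le
      have h3 : 0 ≤ -Real.log (1 - t) := by
        have := Real.log_nonpos (by linarith : 0 ≤ 1 - t) (by linarith)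
        linarith
      show -Real.log (if X ω = a then 1 - t else (if X ω ∈ s then t / B else 0)) ≤ _
      split_ifs with h4 h5
      · linarith
      · rw [Real.log_div ht.ne' hBR.ne']
        linarith
      · exact absurd (hX ω h0) h5
  have h3 : ∑ ω, μ ω * ((-Real.log (1 - t)) +
      (if X ω = a then 0 else (Real.log B - Real.log t))) =
      -Real.log (1 - t) + (1 - Pr μ X a) * (Real.log B - Real.log t) := by
    have e : ∀ ω, μ ω * ((-Real.log (1 - t)) + (if X ω = a then 0 else (Real.log B - Real.log t))) =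
        μ ω * (-Real.log (1 - t) + (Real.log B - Real.log t)) -
        (if X ω = a then μ ω else 0) * (Real.log B - Real.log t) := by
      intro ω
      split_ifs <;> ring
    rw [sum_congr rfl fun ω _ => e ω, sum_sub_distrib, ← sum_mul, ← sum_mul, hμ.sum]
    unfold Pr
    ring
  have hlt : Real.log t ≤ 0 := Real.log_nonpos ht.le (by linarith)
  have h4 : (1 - Pr μ X a) * (Real.log B - Real.log t) ≤ t * (Real.log B - Real.log t) :=
    mul_le_mul_of_nonneg_right (by linarith) (by linarith)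
  have h5 := atom_num ht ht4 hlB hc
  linarith

/-- the constant -/
theorem exists_atom {c lB : ℝ} (hc : 0 < c) (hlB : 0 ≤ lB) :
    ∃ t : ℝ, 0 < t ∧ t ≤ 1 / 4 ∧ √ t * (2 + lB) < c := by
  set s := min (1 / 2) (c / (2 * (2 + lB))) with hs
  have hs0 : 0 < s := lt_min (by norm_num) (by positivity)
  refine ⟨s * s, by positivity, ?_, ?_⟩
  · have := min_le_left (1 / 2) (c / (2 * (2 + lB)))
    nlinarith
  · rw [Real.sqrt_mul_self hs0.le]
    have h1 : s ≤ c / (2 * (2 + lB)) := min_le_right _ _
    have h2 : s * (2 + lB) ≤ c / (2 * (2 + lB)) * (2 + lB) :=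
      mul_le_mul_of_nonneg_right h1 (by positivity)
    have h3 : c / (2 * (2 + lB)) * (2 + lB) = c / 2 := by field_simp
    linarith

namespace Conf

variable {p w : ℕ} (U : Conf p w)

/-- the mass of the next piece along the line -/
theorem own_le {c₀ t : ℝ} (ht : 0 < t) (ht4 : t ≤ 1 / 4)
    (hc : √ t * (2 + Real.log U.B) < c₀) {i : ℕ} {ω : Fin p × Fin w} (h : c₀ ≤ U.xi i ω) :
    Pr U.μ (fun ω => (U.C (i + 1) ω, U.ln ω)) (U.C (i + 1) ω, U.ln ω) ≤
      (1 - t) * Pr U.μ (fun ω => (U.C i ω, U.ln ω)) (U.C i ω, U.ln ω) := by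
  classical
  have hpr := U.cnd_prob (fun ω => (U.C i ω, U.ln ω)) ω
  have hP : 0 < Pr U.μ (fun ω => (U.C i ω, U.ln ω)) (U.C i ω, U.ln ω) :=
    Pr_pos U.prob (fun ω => (U.C i ω, U.ln ω)) (U.mu_pos ω)
  have h1 := atom_le_of_H hpr (U.C (i + 1)) U.B_pos
    (s := Ico (U.C i ω * U.B) (U.C i ω * U.B + U.B)) (by
      rw [Nat.card_Ico]
      omega) (by
      intro ω' h'
      have h2 := cnd_pos (Y := fun ω => (U.C i ω, U.ln ω)) h'
      have h3 : U.C i ω' = U.C i ω := (Prod.mk.inj h2).1
      have h4 : U.C i ω' = U.C (i + 1) ω' / U.B := U.succ i _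
      rw [mem_Ico, ← h3, h4]
      constructor
      · exact Nat.div_mul_le_self _ _
      · exact Nat.lt_div_mul_add U.B_pos) ht ht4 hc h (U.C (i + 1) ω)
  rw [Pr_cnd, div_le_iff₀ hP] at h1
  refine le_trans (le_of_eq ?_) h1
  refine (Pr_congr (X := fun ω => (U.C (i + 1) ω, U.ln ω))
    (Y := fun ω => (U.C (i + 1) ω, (U.C i ω, U.ln ω))) ?_ ?_ ω)
  · exact (det_fst _ _).pair ((((det_fst _ _).trans (U.C_det (Nat.le_succ i)))).pair (det_snd _ _))
  · exact (det_fst _ _).pair ((det_snd _ _).trans (det_snd _ _))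

/-- the mass of the piece of level `i'` along the line, with `n` splits in between -/
theorem own_pow {c₀ t : ℝ} (ht : 0 < t) (ht4 : t ≤ 1 / 4)
    (hc : √ t * (2 + Real.log U.B) < c₀) {ω : Fin p × Fin w} {i : ℕ} :
    ∀ {i' : ℕ}, i ≤ i' → ∀ G : Finset ℕ, (∀ k ∈ G, k ∈ Ico i i' ∧ c₀ ≤ U.xi k ω) →
    Pr U.μ (fun ω => (U.C i' ω, U.ln ω)) (U.C i' ω, U.ln ω) ≤
      (1 - t) ^ #G * Pr U.μ (fun ω => (U.C i ω, U.ln ω)) (U.C i ω, U.ln ω) := by
  classical
  intro i' h
  induction i', h using Nat.le_induction with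
  | base =>
    intro G hG
    have h1 : G = ∅ := by
      rw [eq_empty_iff_forall_notMem]
      intro k hk
      have := (hG k hk).1
      rw [mem_Ico] at this
      omega
    rw [h1, card_empty, pow_zero, one_mul]
  | succ n hn ih =>
    intro G hG
    have hmono : Pr U.μ (fun ω => (U.C (n + 1) ω, U.ln ω)) (U.C (n + 1) ω, U.ln ω) ≤
        Pr U.μ (fun ω => (U.C n ω, U.ln ω)) (U.C n ω, U.ln ω) :=
      Pr_mono U.prob (X := fun ω => (U.C (n + 1) ω, U.ln ω)) (Y := fun ω => (U.C n ω, U.ln ω))
        (((det_fst _ _).trans (U.C_det (Nat.le_succ n))).pair (det_snd _ _)) ω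
    have hP0 : 0 ≤ Pr U.μ (fun ω => (U.C i ω, U.ln ω)) (U.C i ω, U.ln ω) :=
      Pr_nonneg U.prob _ _
    by_cases hnG : n ∈ G
    · have h2 := ih (G.erase n) (by
        intro k hk
        obtain ⟨hk1, hk2⟩ := mem_erase.1 hk
        obtain ⟨h3, h4⟩ := hG k hk2
        rw [mem_Ico] at h3 ⊢
        exact ⟨⟨h3.1, by omega⟩, h4⟩)
      have h3 := U.own_le ht ht4 hc (hG n hnG).2
      have h4 : #(G.erase n) + 1 = #G := card_erase_add_one hnG
      rw [← h4, pow_succ]
      calc _ ≤ (1 - t) * Pr U.μ (fun ω => (U.C n ω, U.ln ω)) (U.C n ω, U.ln ω) := h3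
        _ ≤ (1 - t) * ((1 - t) ^ #(G.erase n) *
            Pr U.μ (fun ω => (U.C i ω, U.ln ω)) (U.C i ω, U.ln ω)) :=
          mul_le_mul_of_nonneg_left h2 (by linarith)
        _ = _ := by ring
    · have h2 := ih G (by
        intro k hk
        obtain ⟨h3, h4⟩ := hG k hk
        rw [mem_Ico] at h3 ⊢
        have : k ≠ n := fun e => hnG (e ▸ hk)
        exact ⟨⟨h3.1, by omega⟩, h4⟩)
      exact hmono.trans h2

end Conf

end Vale.Agent.P065.H859
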