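import Vale.Agent.P065.H859.LocDef
import Vale.Agent.P065.H859.Own

/-!
# P065: restriction to a part of the flags, normalisation of the time (helper859)
-/

set_option autoImplicit false

namespace Vale.Agent.P065.H859

open Finset Vale.Agent.P065.UB Vale.Agent.P065.UB.RankAux Vale.Agent.P065.Ent
  Vale.Agent.P065.H987 Vale.Agent.P065.H725

section pull

variable {Ω S : Type*} [Fintype Ω] [Fintype S] {e : S → Ω} (he : Function.Injective e)
  {μ : Ω → ℝ} (h0 : ∀ ω, ω ∉ Set.range e → μ ω = 0)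

include he h0

theorem isProb_pull (hμ : IsProb μ) : IsProb (fun s => μ (e s)) :=
  ⟨fun s => hμ.nonneg _, by
    rw [← hμ.sum]
    exact Fintype.sum_of_injective e he _ _ h0 fun _ => rfl⟩

theorem Pr_pull {α : Type*} (X : Ω → α) (x : α) :
    Pr (fun s => μ (e s)) (fun s => X (e s)) x = Pr μ X x := by
  classical
  unfold Pr
  exact Fintype.sum_of_injective e he _ _ (fun ω h => by rw [h0 ω h, ite_self]) fun _ => rfl

theorem H_pull {α : Type*} (X : Ω → α) :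
    H (fun s => μ (e s)) (fun s => X (e s)) = H μ X := by
  unfold H
  refine Fintype.sum_of_injective e he _ _ (fun ω h => by rw [h0 ω h, zero_mul]) fun s => ?_
  rw [Pr_pull he h0 X]

theorem Hc_pull {α β : Type*} (X : Ω → α) (Y : Ω → β) :
    Hc (fun s => μ (e s)) (fun s => X (e s)) (fun s => Y (e s)) = Hc μ X Y := by
  unfold Hc
  rw [H_pull he h0 (fun ω => (X ω, Y ω)), H_pull he h0 Y]

theorem PE_pull (Q : Ω → Prop) : PE (fun s => μ (e s)) (fun s => Q (e s)) = PE μ Q := by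
  unfold PE
  exact Pr_pull he h0 Q True

theorem ms_pull (Q : Ω → Prop) : ms (fun s => μ (e s)) (fun s => Q (e s)) = ms μ Q := by
  rw [ms_eq_PE, ms_eq_PE]
  exact PE_pull he h0 Q

theorem cnd_pull {β : Type*} (Y : Ω → β) (y : β) (s : S) :
    cnd (fun s => μ (e s)) (fun s => Y (e s)) y s = cnd μ Y y (e s) := by
  unfold cnd
  rw [Pr_pull he h0 Y]

omit he [Fintype S] in
theorem cnd_off {β : Type*} (Y : Ω → β) (y : β) (ω : Ω) (h : ω ∉ Set.range e) :
    cnd μ Y y ω = 0 := by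
  unfold cnd
  rw [h0 ω h, zero_div, ite_self]

theorem cE_pull (Q : Ω → Prop) (s : S) :
    cE (fun s => μ (e s)) (fun s => Q (e s)) s = cE μ Q (e s) := by
  unfold cE
  exact cnd_pull he h0 Q True s

theorem contentG_pull {α ζ : Type*} [Fintype α] (cel : α → ℤ → Pt → ζ)
    (near : α → ℤ → ζ → Pt → Pt → Prop) (ln : Ω → Pt) (Gd : Pt → Prop) (K : Finset ℤ) (η : ℝ) :
    contentG cel near (fun s => μ (e s)) (fun s => ln (e s)) Gd K η =
      contentG cel near μ ln Gd K η := by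
  classical
  have hcm : ∀ a k s, cm cel (fun s => μ (e s)) (fun s => ln (e s)) a k s =
      cm cel μ ln a k (e s) := fun a k s =>
    ms_pull he h0 (fun ω' => cel a k (ln ω') = cel a k (ln (e s)))
  have hnr : ∀ a k s, nrG cel near (fun s => μ (e s)) (fun s => ln (e s)) a k s =
      nrG cel near μ ln a k (e s) := by
    intro a k s
    unfold nrG
    rw [hcm, ms_pull he h0 (fun ω' => cel a k (ln ω') = cel a k (ln (e s)) ∧
      near a k (cel a k (ln (e s))) (ln (e s)) (ln ω'))]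
  unfold contentG
  refine sum_congr rfl fun a _ => sum_congr rfl fun k _ => ?_
  refine Fintype.sum_of_injective e he _ _ (fun ω h => ?_) fun s => ?_
  · rw [h0 ω h, ite_self, zero_mul]
  · rw [hcm, hnr]

end pull

/-- conditioning twice -/
theorem cnd_cnd {Ω α β : Type*} [Fintype Ω] {μ : Ω → ℝ} (hμ : IsProb μ) {V : Ω → α} {Y : Ω → β}
    (hVY : Det V Y) {ω : Ω} (hω : 0 < μ ω) : cnd (cnd μ Y (Y ω)) V (V ω) = cnd μ V (V ω) := by
  classical
  funext ω'
  have h1 : Pr μ (fun ω => (V ω, Y ω)) (V ω, Y ω) = Pr μ V (V ω) :=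
    Pr_congr (X := fun ω => (V ω, Y ω)) (Y := V) (det_fst _ _) ((Det.refl _).pair hVY) ω
  have h2 : 0 < Pr μ Y (Y ω) := Pr_pos hμ Y hω
  unfold cnd
  by_cases h : V ω' = V ω
  · rw [if_pos h, if_pos h, if_pos (hVY _ _ h)]
    have h3 : Pr (fun ω' => if Y ω' = Y ω then μ ω' / Pr μ Y (Y ω) else 0) V (V ω) =
        Pr μ V (V ω) / Pr μ Y (Y ω) := by
      rw [← h1]
      exact Pr_cnd μ V Y (V ω) (Y ω)
    rw [h3, div_div_div_cancel_right₀ h2.ne']
  · rw [if_neg h, if_neg h]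

/-! ### normalisation of the time -/

/-- the line in the time `t = α + s t'`, heights in units of `s` -/
noncomputable def nrm (α s : ℝ) (v : Pt) : Pt := (v.1, (v.2 - α * v.1) / s)

theorem ht_nrm {α s : ℝ} (hs : s ≠ 0) (t : ℝ) (v : Pt) :
    ht t (nrm α s v) = ht (α + s * t) v / s := by
  unfold ht nrm
  field_simp
  ring

theorem nrm_inj {α s : ℝ} (hs : s ≠ 0) {u v : Pt} (h : nrm α s u = nrm α s v) : u = v := by
  unfold nrm at h
  obtain ⟨h1, h2⟩ := Prod.mk.inj h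
  have h3 : u.2 - α * u.1 = v.2 - α * v.1 := by
    field_simp at h2
    exact h2
  rw [h1] at h3
  exact Prod.ext h1 (by linarith)

theorem sq4_nrm {α s : ℝ} (hs : s ≠ 0) (θs θh : ℝ) (k₀ : ℤ) (xr τ : ℝ) (a : Bool × Bool) (k : ℤ)
    (v : Pt) : sq4 θs θh k₀ xr τ a k (nrm α s v) = sq4 θs θh k₀ (α + s * xr) (s * τ) a k v := by
  unfold sq4
  rw [ht_nrm hs, div_div]
  rfl

theorem contentG_nrm {Ω : Type*} [Fintype Ω] {α s : ℝ} (hs : s ≠ 0) (θs θh : ℝ) (k₀ : ℤ)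
    (xr τ : ℝ) (ν : Ω → ℝ) (ln : Ω → Pt) (Gd : Pt → Prop) (K : Finset ℤ) (η : ℝ) :
    contentG (sq4 θs θh k₀ xr τ) (fun _ k _ v c => |v.1 - c.1| ≤ 2 ^ (-k) / 12) ν
      (fun ω => nrm α s (ln ω)) Gd K η =
    contentG (sq4 θs θh k₀ (α + s * xr) (s * τ)) (fun _ k _ v c => |v.1 - c.1| ≤ 2 ^ (-k) / 12)
      ν ln (fun v => Gd (nrm α s v)) K η := by
  have hcm : ∀ a k ω, cm (sq4 θs θh k₀ xr τ) ν (fun ω => nrm α s (ln ω)) a k ω =
      cm (sq4 θs θh k₀ (α + s * xr) (s * τ)) ν ln a k ω := by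
    intro a k ω
    unfold cm
    simp only [sq4_nrm hs]
  have hnr : ∀ a k ω, nrG (sq4 θs θh k₀ xr τ) (fun _ k _ v c => |v.1 - c.1| ≤ 2 ^ (-k) / 12) ν
      (fun ω => nrm α s (ln ω)) a k ω =
      nrG (sq4 θs θh k₀ (α + s * xr) (s * τ)) (fun _ k _ v c => |v.1 - c.1| ≤ 2 ^ (-k) / 12)
        ν ln a k ω := by
    intro a k ω
    unfold nrG
    rw [hcm]
    simp only [sq4_nrm hs]
    rfl
  unfold contentG
  refine sum_congr rfl fun a _ => sum_congr rfl fun k _ => sum_congr rfl fun ω _ => ?_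
  rw [hcm, hnr]

/-! ### pieces -/

namespace Conf

variable {p w : ℕ} (U : Conf p w)

theorem C_div {i : ℕ} (m : ℕ) (ω : Fin p × Fin w) : U.C i ω = U.C (i + m) ω / U.B ^ m := by
  induction m with
  | zero => simp
  | succ m ih =>
    have h1 : U.C (i + m) ω = U.C (i + m + 1) ω / U.B := U.succ _ _
    rw [ih, h1, Nat.div_div_eq_div_mul, ← add_assoc, pow_succ, mul_comm]

theorem C_mono_tm {i : ℕ} {ω ω' : Fin p × Fin w} (h : U.tm ω ≤ U.tm ω') : U.C i ω ≤ U.C i ω' :=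
  U.mono i h

theorem C_mono {i i' : ℕ} (h : i ≤ i') {ω ω' : Fin p × Fin w} (h' : U.C i' ω ≤ U.C i' ω') :
    U.C i ω ≤ U.C i ω' := by
  obtain ⟨m, rfl⟩ := Nat.exists_eq_add_of_le h
  rw [U.C_div m ω, U.C_div m ω']
  exact Nat.div_le_div_right h'

/-- the children of a piece -/
theorem C_child {i i' : ℕ} (h : i ≤ i') (ω : Fin p × Fin w) :
    ∃ S : Finset ℕ, #S ≤ U.B ^ (i' - i) ∧ ∀ ω', U.C i ω' = U.C i ω → U.C i' ω' ∈ S := by
  obtain ⟨m, rfl⟩ := Nat.exists_eq_add_of_le h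
  refine ⟨Ico (U.C i ω * U.B ^ m) (U.C i ω * U.B ^ m + U.B ^ m), ?_, ?_⟩
  · rw [Nat.card_Ico, Nat.add_sub_cancel_left, Nat.add_sub_cancel_left]
  · intro ω' h'
    rw [mem_Ico, ← h', U.C_div m ω']
    exact ⟨Nat.div_mul_le_self _ _, Nat.lt_div_mul_add (pow_pos U.B_pos m)⟩

end Conf

end Vale.Agent.P065.H859
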