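import Vale.Agent.P065.H859.LocFrame

/-!
# P065: the selected window as a finite probability space (helper859)
-/

set_option autoImplicit false

namespace Vale.Agent.P065.H859

open Finset Vale.Agent.P065.UB Vale.Agent.P065.UB.RankAux Vale.Agent.P065.Ent
  Vale.Agent.P065.H987 Vale.Agent.P065.H725

/-- levels of the blocks -/
def lvb (i₀ K₁ n g j : ℕ) : ℕ := if j < n then i₀ + K₁ * j else i₀ + g

theorem lvb_zero {i₀ K₁ n g : ℕ} (hn : 1 ≤ n) : lvb i₀ K₁ n g 0 = i₀ := by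
  unfold lvb
  rw [if_pos (by omega), mul_zero, add_zero]

theorem lvb_ge {i₀ K₁ n g j : ℕ} (hj : n ≤ j) : lvb i₀ K₁ n g j = i₀ + g := by
  unfold lvb
  rw [if_neg (by omega)]

theorem le_lvb (i₀ K₁ n g j : ℕ) : i₀ ≤ lvb i₀ K₁ n g j := by
  unfold lvb
  split_ifs <;> omega

theorem lvb_le {i₀ K₁ n g : ℕ} (h : K₁ * n ≤ g) (j : ℕ) : lvb i₀ K₁ n g j ≤ i₀ + g := by
  unfold lvb
  split_ifs with hj
  · have : K₁ * j ≤ K₁ * n := Nat.mul_le_mul_left _ hj.le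
    omega
  · exact le_rfl

theorem lvb_succ {i₀ K₁ n g : ℕ} (h : K₁ * n ≤ g) (h' : g < K₁ * (n + 1)) (j : ℕ) :
    lvb i₀ K₁ n g j ≤ lvb i₀ K₁ n g (j + 1) ∧
      lvb i₀ K₁ n g (j + 1) - lvb i₀ K₁ n g j ≤ 2 * K₁ := by
  have h2 : K₁ * (n + 1) = K₁ * n + K₁ := by ring
  rcases lt_trichotomy (j + 1) n with hj | hj | hj
  · unfold lvb
    rw [if_pos hj, if_pos (by omega)]
    have : K₁ * (j + 1) = K₁ * j + K₁ := by ring
    omega
  · unfold lvb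
    rw [if_neg (by omega : ¬ j + 1 < n), if_pos (by omega : j < n)]
    have : K₁ * n = K₁ * j + K₁ := by rw [← hj]; ring
    omega
  · unfold lvb
    rw [if_neg (by omega : ¬ j + 1 < n), if_neg (by omega : ¬ j < n)]
    omega

theorem lvb_block {i₀ K₁ n g : ℕ} (h : K₁ * n ≤ g) {j : ℕ} (hj : j < n) :
    lvb i₀ K₁ n g j = i₀ + K₁ * j ∧ i₀ + K₁ * (j + 1) ≤ lvb i₀ K₁ n g (j + 1) := by
  constructor
  · unfold lvb
    rw [if_pos hj]
  · unfold lvb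
    split_ifs with h1
    · exact le_rfl
    · have : j + 1 = n := by omega
      rw [this]
      omega

/-- few blocks do not contain a level of `G` -/
theorem bad_blocks {G N : Finset ℕ} {i₀ K K₁ n g : ℕ} {ε : ℝ} (hε : 0 < ε) (hK : 1 ≤ K)
    (hK₁ : 4 * K ≤ K₁) (h : K₁ * n ≤ g) (h' : g < K₁ * (n + 1)) (hn : 1 ≤ n)
    (hN : (#N : ℝ) ≤ ε * g)
    (hGN : ∀ i ∈ Ico i₀ (i₀ + g), i ∉ N → ∃ i' ∈ G, i' ≤ i + K ∧ i ≤ i' + K) :
    ∃ S : Finset ℕ, (#S : ℝ) ≤ 4 * ε * n ∧ ∀ j < n, j ∉ S →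
      ∃ i ∈ G, lvb i₀ K₁ n g j ≤ i ∧ i < lvb i₀ K₁ n g (j + 1) := by
  classical
  set S := (range n).filter fun j => ¬ ∃ i ∈ G, lvb i₀ K₁ n g j ≤ i ∧ i < lvb i₀ K₁ n g (j + 1)
    with hS
  refine ⟨S, ?_, ?_⟩
  · set L : ℕ → Finset ℕ := fun j => Ico (i₀ + K₁ * j + K) (i₀ + K₁ * j + (K₁ - K)) with hL
    have h1 : ∀ j ∈ S, L j ⊆ N := by
      intro j hj i hi
      obtain ⟨hj1, hj2⟩ := mem_filter.1 hj
      rw [mem_range] at hj1
      rw [hL, mem_Ico] at hi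
      by_contra hcon
      obtain ⟨b1, b2⟩ := lvb_block (i₀ := i₀) (g := g) h hj1
      have hmul : K₁ * (j + 1) = K₁ * j + K₁ := by ring
      have hmul2 : K₁ * (j + 1) ≤ K₁ * n := Nat.mul_le_mul_left _ hj1
      obtain ⟨i', h2, h3, h4⟩ := hGN i (mem_Ico.2 ⟨by omega, by omega⟩) hcon
      exact hj2 ⟨i', h2, by omega, by omega⟩
    have h2 : (S : Set ℕ).PairwiseDisjoint L := by
      intro j hj j' hj' hne
      rw [Function.onFun, disjoint_left]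
      intro i hi hi'
      rw [hL, mem_Ico] at hi hi'
      rcases lt_or_gt_of_ne hne with h3 | h3
      · have : K₁ * (j + 1) ≤ K₁ * j' := Nat.mul_le_mul_left _ h3
        have hmul : K₁ * (j + 1) = K₁ * j + K₁ := by ring
        omega
      · have : K₁ * (j' + 1) ≤ K₁ * j := Nat.mul_le_mul_left _ h3
        have hmul : K₁ * (j' + 1) = K₁ * j' + K₁ := by ring
        omega
    have h3 : #S * (K₁ - 2 * K) ≤ #N := by
      have h4 : #(S.biUnion L) ≤ #N := card_le_card (biUnion_subset.2 h1)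
      rw [card_biUnion h2] at h4
      have h5 : ∀ j ∈ S, #(L j) = K₁ - 2 * K := by
        intro j _
        rw [hL, Nat.card_Ico]
        omega
      rw [sum_congr rfl h5, sum_const, smul_eq_mul] at h4
      exact h4
    have h4 : ((K₁ - 2 * K : ℕ) : ℝ) ≥ K₁ / 2 := by
      have h5 : 4 * (K : ℝ) ≤ K₁ := by exact_mod_cast hK₁
      rw [Nat.cast_sub (by omega)]
      push_cast
      linarith
    have h5 : (#S : ℝ) * ((K₁ - 2 * K : ℕ) : ℝ) ≤ ε * g := by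
      refine le_trans ?_ hN
      exact_mod_cast h3
    have hK₁R : (0 : ℝ) < K₁ := by
      have : 0 < K₁ := by omega
      exact_mod_cast this
    have h6 : (g : ℝ) ≤ 2 * K₁ * n := by
      have h7 : g ≤ 2 * (K₁ * n) := by
        have h8 : K₁ * (n + 1) = K₁ * n + K₁ := by ring
        have h9 : K₁ * 1 ≤ K₁ * n := Nat.mul_le_mul_left _ hn
        omega
      have h10 : (g : ℝ) ≤ 2 * (K₁ * n) := by exact_mod_cast h7
      linarith
    have h7 : (#S : ℝ) * (K₁ / 2) ≤ ε * (2 * K₁ * n) :=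
      (mul_le_mul_of_nonneg_left h4 (by positivity)).trans
        (h5.trans (mul_le_mul_of_nonneg_left h6 hε.le))
    have h8 : (#S : ℝ) * (K₁ / 2) ≤ (4 * ε * n) * (K₁ / 2) := by linarith
    exact le_of_mul_le_mul_right h8 (by positivity)
  · intro j hj hjS
    by_contra hcon
    exact hjS (mem_filter.2 ⟨mem_range.2 hj, hcon⟩)

namespace Sel

variable {B₀ : ℕ} {c₀ c₁ θ ε₂ ε₃ b A : ℝ} {K g : ℕ} (S : Sel B₀ c₀ c₁ θ ε₂ ε₃ b A K g)

/-- the class of the window -/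
def Y (ω : Fin S.p × Fin S.w) : ℕ × (Fin S.p × Fin S.w) := (S.U.C S.i₀ ω, S.Λ ω)

/-- the flags of the window -/
abbrev Om : Type := {ω : Fin S.p × Fin S.w // S.Y ω = S.Y S.ω₀}

noncomputable instance : Fintype S.Om := Fintype.ofFinite _

/-- the law of the window on all flags -/
noncomputable def μ₀ : Fin S.p × Fin S.w → ℝ := cnd S.U.μ S.Y (S.Y S.ω₀)

/-- the law of the window -/
noncomputable def nu (s : S.Om) : ℝ := S.μ₀ s.1

theorem μ₀_prob : IsProb S.μ₀ := S.U.cnd_prob S.Y S.ω₀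

theorem μ₀_off (ω : Fin S.p × Fin S.w) (h : ω ∉ Set.range (Subtype.val : S.Om → _)) :
    S.μ₀ ω = 0 := by
  unfold μ₀ cnd
  rw [if_neg]
  intro h'
  exact h ⟨⟨ω, h'⟩, rfl⟩

theorem PrY_pos : 0 < Pr S.U.μ S.Y (S.Y S.ω₀) := Pr_pos S.U.prob S.Y (S.U.mu_pos _)

theorem nu_pos (s : S.Om) : 0 < S.nu s := by
  unfold nu μ₀ cnd
  rw [if_pos s.2]
  exact div_pos (S.U.mu_pos _) S.PrY_pos

theorem nu_prob : IsProb S.nu := isProb_pull Subtype.val_injective S.μ₀_off S.μ₀_prob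

theorem detY {i : ℕ} (hi : S.i₀ ≤ i) : Det (fun ω => (S.U.C i ω, S.U.ln ω)) S.Y := by
  have h1 : Det (fun ω => (S.U.C i ω, S.U.ln ω)) (fun ω => (S.U.C S.i₀ ω, S.U.ln ω)) :=
    ((det_fst _ _).trans (S.U.C_det hi)).pair (det_snd _ _)
  exact ((det_fst _ _).trans (S.U.C_det hi)).pair (h1.trans S.det)

/-- the mass of a piece along a line in the window -/
theorem Pr_win {i : ℕ} (hi : S.i₀ ≤ i) {f : Pt → Pt} (hf : Function.Injective f) (s : S.Om) :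
    Pr S.nu (fun s => (S.U.C i s.1, f (S.U.ln s.1))) (S.U.C i s.1, f (S.U.ln s.1)) =
      Pr S.U.μ (fun ω => (S.U.C i ω, S.U.ln ω)) (S.U.C i s.1, S.U.ln s.1) /
        Pr S.U.μ S.Y (S.Y S.ω₀) := by
  have h1 : Pr S.nu (fun s => (S.U.C i s.1, f (S.U.ln s.1))) (S.U.C i s.1, f (S.U.ln s.1)) =
      Pr S.μ₀ (fun ω => (S.U.C i ω, f (S.U.ln ω))) (S.U.C i s.1, f (S.U.ln s.1)) :=
    Pr_pull Subtype.val_injective S.μ₀_off (fun ω => (S.U.C i ω, f (S.U.ln ω))) _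
  rw [h1]
  unfold μ₀
  rw [Pr_cnd]
  congr 1
  have h3 : Pr S.U.μ (fun ω => ((S.U.C i ω, f (S.U.ln ω)), S.Y ω))
      ((S.U.C i s.1, f (S.U.ln s.1)), S.Y s.1) =
      Pr S.U.μ (fun ω => (S.U.C i ω, S.U.ln ω)) (S.U.C i s.1, S.U.ln s.1) := by
    refine Pr_congr (X := fun ω => ((S.U.C i ω, f (S.U.ln ω)), S.Y ω))
      (Y := fun ω => (S.U.C i ω, S.U.ln ω)) ?_ ?_ s.1
    · intro ω ω' h
      obtain ⟨h3, h4⟩ := Prod.mk.inj h
      obtain ⟨h5, h6⟩ := Prod.mk.inj h3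
      exact Prod.ext h5 (hf h6)
    · intro ω ω' h
      obtain ⟨h5, h6⟩ := Prod.mk.inj h
      refine Prod.ext (Prod.ext h5 ?_) (S.detY hi ω ω' h)
      show f (S.U.ln ω) = f (S.U.ln ω')
      have h7 : S.U.ln ω = S.U.ln ω' := h6
      rw [h7]
  rw [s.2] at h3
  exact h3

/-- the top piece is constant -/
theorem top_const (s s' : S.Om) : S.U.C S.i₀ s.1 = S.U.C S.i₀ s'.1 := by
  have h1 := Prod.mk.inj (s.2.trans s'.2.symm)
  exact h1.1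

theorem Pr_ln {f : Pt → Pt} (hf : Function.Injective f) (s : S.Om) :
    Pr S.nu (fun s => f (S.U.ln s.1)) (f (S.U.ln s.1)) =
      Pr S.U.μ (fun ω => (S.U.C S.i₀ ω, S.U.ln ω)) (S.U.C S.i₀ s.1, S.U.ln s.1) /
        Pr S.U.μ S.Y (S.Y S.ω₀) := by
  rw [← S.Pr_win le_rfl hf s]
  refine Pr_congr (X := fun s : S.Om => f (S.U.ln s.1))
    (Y := fun s : S.Om => (S.U.C S.i₀ s.1, f (S.U.ln s.1))) ?_ (det_snd _ _) s
  intro a a' h
  exact Prod.ext (S.top_const a a') h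

variable {t : ℝ}

/-- the surprise of the bottom piece along the line -/
theorem surprise (ht : 0 < t) (ht4 : t ≤ 1 / 4) (hc : √t * (2 + Real.log B₀) < c₀)
    {f : Pt → Pt} (hf : Function.Injective f) (s : S.Om)
    (hZ : S.U.Zw c₀ c₁ ε₂ K S.i₀ g s.1) :
    c₁ / 4 * t * g ≤ -Real.log (Pr S.nu (fun s => (S.U.C (S.i₀ + g) s.1, f (S.U.ln s.1)))
      (S.U.C (S.i₀ + g) s.1, f (S.U.ln s.1)) / Pr S.nu (fun s => f (S.U.ln s.1))
        (f (S.U.ln s.1))) := by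
  obtain ⟨G, hG, hGc, -⟩ := hZ
  have hP := S.PrY_pos
  rw [S.Pr_win (Nat.le_add_right _ _) hf, S.Pr_ln hf, div_div_div_cancel_right₀ hP.ne']
  have hc' : √t * (2 + Real.log S.U.B) < c₀ := by rw [S.hB]; exact hc
  have h1 := S.U.own_pow ht ht4 hc' (Nat.le_add_right S.i₀ g) G hG
  have hp0 : 0 < Pr S.U.μ (fun ω => (S.U.C S.i₀ ω, S.U.ln ω)) (S.U.C S.i₀ s.1, S.U.ln s.1) :=
    Pr_pos S.U.prob (fun ω => (S.U.C S.i₀ ω, S.U.ln ω)) (S.U.mu_pos _)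
  have hp1 : 0 < Pr S.U.μ (fun ω => (S.U.C (S.i₀ + g) ω, S.U.ln ω))
      (S.U.C (S.i₀ + g) s.1, S.U.ln s.1) :=
    Pr_pos S.U.prob (fun ω => (S.U.C (S.i₀ + g) ω, S.U.ln ω)) (S.U.mu_pos _)
  have h2 := (div_le_iff₀ hp0).2 h1
  have h3 := Real.log_le_log (div_pos hp1 hp0) h2
  rw [Real.log_pow] at h3
  have h4 : Real.log (1 - t) ≤ -t := by
    have := Real.log_le_sub_one_of_pos (by linarith : (0 : ℝ) < 1 - t)
    linarith
  have h5 : (#G : ℝ) * Real.log (1 - t) ≤ #G * (-t) :=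
    mul_le_mul_of_nonneg_left h4 (by positivity)
  have h6 : c₁ / 4 * g * t ≤ #G * t := mul_le_mul_of_nonneg_right hGc ht.le
  linarith

/-- the split blocks -/
theorem blocks (ht : 0 < t) (ht4 : t ≤ 1 / 4) (hc : √t * (2 + Real.log B₀) < c₀)
    (hε : 0 < ε₂) (hK : 1 ≤ K) {K₁ n : ℕ} (hK₁ : 4 * K ≤ K₁) (h : K₁ * n ≤ g)
    (h' : g < K₁ * (n + 1)) (hn : 1 ≤ n) {f : Pt → Pt} (hf : Function.Injective f) (s : S.Om)
    (hZ : S.U.Zw c₀ c₁ ε₂ K S.i₀ g s.1) :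
    ∃ T : Finset ℕ, (#T : ℝ) ≤ 4 * ε₂ * n ∧ ∀ j < n, j ∉ T →
      Pr S.nu (fun s => (S.U.C (lvb S.i₀ K₁ n g (j + 1)) s.1, f (S.U.ln s.1)))
        (S.U.C (lvb S.i₀ K₁ n g (j + 1)) s.1, f (S.U.ln s.1)) ≤
      (1 - t) * Pr S.nu (fun s => (S.U.C (lvb S.i₀ K₁ n g j) s.1, f (S.U.ln s.1)))
        (S.U.C (lvb S.i₀ K₁ n g j) s.1, f (S.U.ln s.1)) := by
  obtain ⟨G, hG, -, N, -, hN, hGN⟩ := hZ
  obtain ⟨T, hT, hT'⟩ := bad_blocks hε hK hK₁ h h' hn hN hGN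
  refine ⟨T, hT, fun j hj hjT => ?_⟩
  obtain ⟨i, hi, hi1, hi2⟩ := hT' j hj hjT
  have hc' : √t * (2 + Real.log S.U.B) < c₀ := by rw [S.hB]; exact hc
  rw [S.Pr_win (le_lvb _ _ _ _ _) hf, S.Pr_win (le_lvb _ _ _ _ _) hf, mul_div_assoc']
  apply div_le_div_of_nonneg_right _ S.PrY_pos.le
  have h1 := S.U.own_pow ht ht4 hc' (ω := s.1) (lvb_succ (i₀ := S.i₀) h h' j).1 {i} (by
    intro k hk
    rw [mem_singleton] at hk
    rw [hk]
    exact ⟨mem_Ico.2 ⟨hi1, hi2⟩, (hG i hi).2⟩)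
  rwa [card_singleton, pow_one] at h1

end Sel

end Vale.Agent.P065.H859
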