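import Vale.Agent.P065.H859.LocFr
import Vale.Agent.P065.H987.NGSum
import Vale.Agent.P065.H860.NGCls
import Vale.Agent.P065.H422.NG3

/-!
# P065, lemma NG for `Loc` (helper859)

For every choice of centres `c` of the bottom pieces and every time shift `u`: the flags of good
classes which make a giant time exit along their line are rare.
-/

set_option autoImplicit false

namespace Vale.Agent.P065.H859

open Finset Vale.Agent.P065.UB Vale.Agent.P065.UB.RankAux Vale.Agent.P065.Ent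
  Vale.Agent.P065.H725

/-- masses in a finer class are at most `2 ^ B` times the masses in a coarser class -/
theorem ms_cnd_le {Ω α β : Type*} [Fintype Ω] {ν : Ω → ℝ} (hν : IsProb ν) {V : Ω → α} {Y : Ω → β}
    (h : Det V Y) {ω₀ : Ω} (h0 : 0 < Pr ν V (V ω₀)) {B : ℕ}
    (hB : (1 / 2 : ℝ) ^ B ≤ Pr ν V (V ω₀)) (Q : Ω → Prop) :
    ms (cnd ν V (V ω₀)) Q ≤ 2 ^ B * ms (cnd ν Y (Y ω₀)) Q := by
  classical
  have hYV : Pr ν V (V ω₀) ≤ Pr ν Y (Y ω₀) := Pr_mono hν h ω₀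
  have hY0 : 0 < Pr ν Y (Y ω₀) := h0.trans_le hYV
  have hY1 := Pr_le_one hν Y (Y ω₀)
  unfold ms
  rw [mul_sum]
  apply sum_le_sum
  intro ω _
  have hn := hν.nonneg ω
  by_cases hQ : Q ω
  · rw [if_pos hQ, if_pos hQ]
    unfold cnd
    by_cases hV : V ω = V ω₀
    · rw [if_pos hV, if_pos (h ω ω₀ hV), div_le_iff₀ h0]
      have h1 : 1 ≤ 2 ^ B * Pr ν V (V ω₀) := by
        calc (1 : ℝ) = 2 ^ B * (1 / 2) ^ B := by rw [← mul_pow]; norm_num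
          _ ≤ _ := mul_le_mul_of_nonneg_left hB (by positivity)
      have h2 : ν ω ≤ ν ω / Pr ν Y (Y ω₀) := by
        rw [le_div_iff₀ hY0]
        nlinarith
      have h3 : 0 ≤ ν ω / Pr ν Y (Y ω₀) := div_nonneg hn hY0.le
      nlinarith
    · rw [if_neg hV]
      split_ifs
      · positivity
      · simp
  · rw [if_neg hQ, if_neg hQ, mul_zero]

namespace Loc

variable {B₀ : ℕ} {c₁ c₂ ρ γ ε₂ ε₃ b A : ℝ} {K₁ n g : ℕ} (L : Loc B₀ c₁ c₂ ρ γ ε₂ ε₃ b A K₁ n g)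

/-- the type of the bottom pieces -/
abbrev Leaf : Type := {m : ℕ // m ∈ univ.image (L.P.W n)}

/-- the bottom piece of a flag -/
def leaf (ω : L.Ω) : L.Leaf := ⟨L.P.W n ω, mem_image_of_mem _ (mem_univ ω)⟩

theorem leaf_iff {ω ω' : L.Ω} : L.leaf ω = L.leaf ω' ↔ L.P.W n ω = L.P.W n ω' := Subtype.ext_iff

/-- a flag of the bottom piece -/
noncomputable def rep (w : L.Leaf) : L.Ω := (mem_image.1 w.2).choose

theorem W_rep (w : L.Leaf) : L.P.W n (L.rep w) = w.1 := (mem_image.1 w.2).choose_spec.2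

theorem W_rep_leaf (ω : L.Ω) : L.P.W n (L.rep (L.leaf ω)) = L.P.W n ω := L.W_rep _

theorem card_Leaf {C : ℕ} (hB : 1 ≤ B₀) (hC : (B₀ : ℝ) ≤ 2 ^ C) :
    Fintype.card L.Leaf ≤ 2 ^ (2 * C * g) := by
  rw [Fintype.card_coe]
  refine (L.card_leaves hB).trans ?_
  have h1 : B₀ ≤ 2 ^ C := by exact_mod_cast hC
  calc B₀ ^ (2 * g) ≤ (2 ^ C) ^ (2 * g) := Nat.pow_le_pow_left h1 _
    _ = 2 ^ (2 * C * g) := by rw [← pow_mul]; congr 1; ring

/-- a choice of centres in the bottom intervals -/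
structure Ctr where
  x : L.Ω → ℝ
  lo_lt : ∀ ω, L.lo ω < x ω
  lt_hi : ∀ ω, x ω < L.hi ω
  congr : ∀ ω ω', L.P.W n ω = L.P.W n ω' → x ω = x ω'

variable {L}

namespace Ctr

variable (c : L.Ctr)

/-- the time cells of the centres, shift `u` -/
noncomputable def D (u : ℝ) (t : ℕ) (ω : L.Ω) : ℤ := ⌊(2 : ℝ) ^ t * (c.x ω + u)⌋

/-- the level `T` separates the pieces -/
def Sep (u : ℝ) (T : ℕ) : Prop := ∀ ω ω', c.D u T ω = c.D u T ω' → L.P.W n ω = L.P.W n ω'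

/-- order of the centres and order of the pieces -/
theorem W_lt {ω ω' : L.Ω} (h : c.x ω < c.x ω') : L.P.W n ω < L.P.W n ω' := by
  rcases lt_trichotomy (L.P.W n ω) (L.P.W n ω') with h1 | h1 | h1
  · exact h1
  · exact absurd (c.congr ω ω' h1) h.ne
  · have h2 := L.disj ω' ω h1
    have h3 := c.lo_lt ω
    have h4 := c.lt_hi ω'
    linarith

/-- the family of leaves -/
noncomputable def lvs (u : ℝ) (T : ℕ) (hT : c.Sep u T) : H987.Leaves L.Leaf where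
  x w := c.x (L.rep w) + u
  lo w := L.lo (L.rep w) + u
  hi w := L.hi (L.rep w) + u
  T := T
  lo_lt w := by linarith [c.lo_lt (L.rep w)]
  lt_hi w := by linarith [c.lt_hi (L.rep w)]
  disj w w' h := by
    have h1 := L.disj _ _ (c.W_lt (ω := L.rep w) (ω' := L.rep w') (by linarith))
    linarith
  inj w w' h := by
    apply Subtype.ext
    rw [← L.W_rep w, ← L.W_rep w']
    exact hT _ _ h

variable {u : ℝ} {T : ℕ} (hT : c.Sep u T)

theorem lvs_D (t : ℕ) (ω : L.Ω) : (c.lvs u T hT).D t (L.leaf ω) = c.D u t ω := by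
  unfold H987.Leaves.D D
  show ⌊(2 : ℝ) ^ t * (c.x (L.rep (L.leaf ω)) + u)⌋ = _
  rw [c.congr _ _ (L.W_rep_leaf ω)]

/-- distances from the centre `z` to the interval of `ω` -/
theorem dist {z : L.Leaf} {ω : L.Ω} (h : z ≠ L.leaf ω) :
    0 < (c.lvs u T hT).del z (L.leaf ω) ∧ ∀ x, L.lo ω ≤ x → x ≤ L.hi ω →
      (c.lvs u T hT).del z (L.leaf ω) ≤ |x - c.x (L.rep z)| ∧
      |x - c.x (L.rep z)| ≤ (c.lvs u T hT).Del z (L.leaf ω) := by
  have hW : L.P.W n (L.rep z) ≠ L.P.W n ω := by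
    intro h1
    apply h
    apply Subtype.ext
    rw [← L.W_rep z, h1]
    rfl
  have e1 : (c.lvs u T hT).x z = c.x (L.rep z) + u := rfl
  have e2 : (c.lvs u T hT).x (L.leaf ω) = c.x ω + u := by
    show c.x (L.rep (L.leaf ω)) + u = _
    rw [c.congr _ _ (L.W_rep_leaf ω)]
  have e3 : (c.lvs u T hT).lo (L.leaf ω) = L.lo ω + u := by
    show L.lo (L.rep (L.leaf ω)) + u = _
    rw [L.lo_congr _ _ (L.W_rep_leaf ω)]
  have e4 : (c.lvs u T hT).hi (L.leaf ω) = L.hi ω + u := by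
    show L.hi (L.rep (L.leaf ω)) + u = _
    rw [L.hi_congr _ _ (L.W_rep_leaf ω)]
  unfold H987.Leaves.del H987.Leaves.Del
  rw [e1, e2, e3, e4]
  have hlo := c.lo_lt (L.rep z)
  have hhi := c.lt_hi (L.rep z)
  have hlo' := c.lo_lt ω
  have hhi' := c.lt_hi ω
  rcases lt_or_gt_of_ne hW with h1 | h1
  · have h2 := L.disj _ _ h1
    have h3 : c.x (L.rep z) + u < c.x ω + u := by linarith
    rw [if_pos h3, if_pos h3]
    refine ⟨by linarith, fun x hx0 hx1 => ?_⟩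
    rw [abs_of_nonneg (by linarith)]
    constructor <;> linarith
  · have h2 := L.disj _ _ h1
    have h3 : ¬ c.x (L.rep z) + u < c.x ω + u := by
      push Not
      linarith
    rw [if_neg h3, if_neg h3]
    refine ⟨by linarith, fun x hx0 hx1 => ?_⟩
    rw [abs_of_nonpos (by linarith)]
    constructor <;> linarith

end Ctr

/-- common ranges of scales for the heights at all the centres -/
theorem exists_scales_ctr (c : L.Ctr) : ∃ κ₀ κ₁ : ℤ, ∀ (z : L.Leaf) (ω ω' : L.Ω),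
    |ht (c.x (L.rep z)) (L.ln ω') - ht (c.x (L.rep z)) (L.ln ω)| ≤ 2 ^ (-κ₀) / 3 ∧
      (ht (c.x (L.rep z)) (L.ln ω') ≠ ht (c.x (L.rep z)) (L.ln ω) →
        (2 : ℝ) ^ (-κ₁) / 6 <
          |ht (c.x (L.rep z)) (L.ln ω') - ht (c.x (L.rep z)) (L.ln ω)|) := by
  obtain ⟨k₀, k₁, h⟩ := H860.exists_range
    (fun p : L.Leaf × L.Ω × L.Ω => ht (c.x (L.rep p.1)) (L.ln p.2.2) -
      ht (c.x (L.rep p.1)) (L.ln p.2.1))
  exact ⟨k₀, k₁, fun z ω ω' => ⟨(h (z, ω, ω')).1, fun hne => (h (z, ω, ω')).2 (sub_ne_zero.2 hne)⟩⟩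

/-- finitely many integers have common bounds -/
theorem exists_bds {ι : Type*} [Finite ι] (f : ι → ℤ) : ∃ a b : ℤ, ∀ i, a ≤ f i ∧ f i ≤ b := by
  obtain ⟨a, ha⟩ := (Set.finite_range f).bddBelow
  obtain ⟨b, hb⟩ := (Set.finite_range f).bddAbove
  exact ⟨a, b, fun i => ⟨ha (Set.mem_range_self i), hb (Set.mem_range_self i)⟩⟩

/-- **lemma NG for `Loc`**: the flags of rich classes of mass at least `2 ^ (-B)` which make, at some
level of the time tree of the centres (any centres, any shift), a step of relative mass at most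
`ε = s ^ 2 / 22` along their line, are rare -/
theorem ng {γ : ℝ} (hγ0 : 0 ≤ γ) (hγ1 : γ < 1) : ∃ Lq m₀ : ℕ, 1 ≤ Lq ∧
    ∀ {B₀ : ℕ} {c₁ c₂ ρ ε₂ ε₃ b A : ℝ} {K₁ n g : ℕ} (L : Loc B₀ c₁ c₂ ρ γ ε₂ ε₃ b A K₁ n g)
      (_ : 1 ≤ B₀) {C : ℕ} (_ : (B₀ : ℝ) ≤ 2 ^ C) {B m : ℕ} (_ : m₀ ≤ m) (_ : B ≤ m)
      (_ : (2 : ℝ) ^ (3 * m) ≤ 6 * A) (c : L.Ctr) {u : ℝ} {T : ℕ} (_ : c.Sep u T) {s : ℝ}
      (_ : 0 ≤ s),
      PE L.ν (fun ω => (L.rich ω ∧ (1 / 2 : ℝ) ^ B ≤ L.PrV ω) ∧ ∃ t < T,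
        Pr L.ν (fun ω => (c.D u (t + 1) ω, L.ln ω)) (c.D u (t + 1) ω, L.ln ω) ≤
          s ^ 2 / 22 * Pr L.ν (fun ω => (c.D u t ω, L.ln ω)) (c.D u t ω, L.ln ω)) ≤
      (2 * C * g + 1) * (s ^ 2 / 22 + s * (12 * (1 + 2 ^ Lq) * (B + 6 * m + 1)) +
        Real.exp (-((1 - γ) * (2 * m) / 8))) := by
  classical
  obtain ⟨Lq, m₀, hLq, hcl⟩ := H860.class_ng hγ0 hγ1
  refine ⟨Lq, m₀, hLq, ?_⟩
  intro B₀ c₁ c₂ ρ ε₂ ε₃ b A K₁ n g L hB₀ C hC B m hm hBm hA c u T hT s hs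
  obtain ⟨k₀, k₁, hk⟩ := L.exists_scales
  obtain ⟨κ₀, κ₁, hκ⟩ := exists_scales_ctr c
  obtain ⟨omin, _, homin⟩ := exists_bds
    (fun p : L.Leaf × L.Leaf => H860.olo ((c.lvs u T hT).Del p.1 p.2))
  obtain ⟨_, omax, homax⟩ := exists_bds
    (fun p : L.Leaf × L.Leaf => H860.ohi ((c.lvs u T hT).del p.1 p.2))
  have hcard := L.card_Leaf hB₀ hC
  have hdist : ∀ z w : L.Leaf, z ≠ w → 0 < (c.lvs u T hT).del z w ∧
      0 < (c.lvs u T hT).Del z w := by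
    intro z w hzw
    obtain ⟨h1, h2⟩ := c.dist hT (z := z) (ω := L.rep w) (by
      intro h
      apply hzw
      rw [h]
      exact Subtype.ext (L.W_rep w))
    have e : L.leaf (L.rep w) = w := Subtype.ext (L.W_rep w)
    rw [e] at h1 h2
    obtain ⟨h3, h4⟩ := h2 (L.lo (L.rep w)) le_rfl (L.lo_lt _).le
    exact ⟨h1, by linarith⟩
  have key := H987.ng_total_good (c.lvs u T hT) (n := 2 * C * g) hcard L.prob L.leaf L.ln
    (ε := s ^ 2 / 22) (s := s) (by positivity) hs (by linarith)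
    (fun _ => H860.cS k₀) (fun z => H860.cZ κ₀ (c.x (L.rep z))) ((1 / 2) ^ Lq) (B + 6 * m)
    omin omax k₀ k₁ κ₀ κ₁ (fun z w => H860.olo ((c.lvs u T hT).Del z w))
    (fun z w => H860.ohi ((c.lvs u T hT).del z w)) ?_
    (B := 12 * (1 + 2 ^ Lq) * (B + 6 * m + 1)) (by positivity) ?_ ?_
    (fun ω => (L.P.W n ω, L.lam ω)) ?_ (fun ω => L.rich ω ∧ (1 / 2 : ℝ) ^ B ≤ L.PrV ω)
    (δ := Real.exp (-((1 - γ) * (2 * m) / 8))) (Real.exp_pos _).le ?_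
  · have e1 : ∀ t ω, (c.lvs u T hT).D t (L.leaf ω) = c.D u t ω := fun t ω => c.lvs_D hT t ω
    rw [← ms_eq_PE]
    have e3 : ((2 * C * g : ℕ) : ℝ) = 2 * C * g := by push_cast; ring
    rw [e3] at key
    refine le_trans (le_of_eq ?_) key
    congr 1
    funext ω
    have e4 : ((∃ t < T, Pr L.ν (fun ω => (c.D u (t + 1) ω, L.ln ω)) (c.D u (t + 1) ω, L.ln ω) ≤
          s ^ 2 / 22 * Pr L.ν (fun ω => (c.D u t ω, L.ln ω)) (c.D u t ω, L.ln ω)) =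
        ∃ t < (c.lvs u T hT).T, (c.lvs u T hT).gi (H987.lw L.ν L.leaf L.ln (L.ln ω)) (s ^ 2 / 22) t
          (L.leaf ω)) := by
      apply propext
      apply exists_congr
      intro t
      rw [H987.gi_lw_iff]
      simp only [e1]
      rfl
    rw [e4]
  · intro z w hzw o h1 h2
    obtain ⟨h3, h4⟩ := hdist z w hzw
    obtain ⟨h5, h6⟩ := (H860.band_iff h3 h4 o).1 ⟨h1, h2⟩
    unfold H987.Leaves.inO
    constructor <;> linarith
  · intro z hz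
    have hz' : 0 < Pr L.ν (fun ω => z ∈ (c.lvs u T hT).cen (L.leaf ω)) True := by
      unfold H987.pc at hz
      rw [ms_eq_PE] at hz
      exact hz
    have hμ := cnd_isProb L.prob hz'
    unfold H987.nE
    have e2 : ∀ ω : L.Ω, cnd L.ν (fun ω => z ∈ (c.lvs u T hT).cen (L.leaf ω)) True ω *
        ∑ a, (#{k ∈ Icc k₀ k₁ | H860.Bad (cnd L.ν (fun ω => z ∈ (c.lvs u T hT).cen (L.leaf ω)) True)
          L.ln (H860.cS k₀ a) (H860.cZ κ₀ (c.x (L.rep z)) a) ((1 / 2) ^ Lq) (B + 6 * m) omin κ₁ k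
            (L.ln ω)} : ℝ) =
        ∑ a, cnd L.ν (fun ω => z ∈ (c.lvs u T hT).cen (L.leaf ω)) True ω *
          (#{k ∈ Icc k₀ k₁ | H860.Bad (cnd L.ν (fun ω => z ∈ (c.lvs u T hT).cen (L.leaf ω)) True)
          L.ln (H860.cS k₀ a) (H860.cZ κ₀ (c.x (L.rep z)) a) ((1 / 2) ^ Lq) (B + 6 * m) omin κ₁ k
            (L.ln ω)} : ℝ) := fun ω => mul_sum _ _ _
    rw [sum_congr rfl fun ω _ => e2 ω, sum_comm]
    have h1 : ∀ a : Bool × Bool, ∑ ω, cnd L.ν (fun ω => z ∈ (c.lvs u T hT).cen (L.leaf ω)) True ω *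
          (#{k ∈ Icc k₀ k₁ | H860.Bad (cnd L.ν (fun ω => z ∈ (c.lvs u T hT).cen (L.leaf ω)) True)
          L.ln (H860.cS k₀ a) (H860.cZ κ₀ (c.x (L.rep z)) a) ((1 / 2) ^ Lq) (B + 6 * m) omin κ₁ k
            (L.ln ω)} : ℝ) ≤ 3 * (1 + 1 / (1 / 2) ^ Lq) * (((B + 6 * m : ℕ) : ℝ) + 1) :=
      fun a => H422.sum_bad hμ L.ln (H860.cS_nst k₀ a) (H860.cZ_nst κ₀ _ a) (by positivity) _ _ _ _
    refine (sum_le_sum fun a _ => h1 a).trans (le_of_eq ?_)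
    rw [sum_const, card_univ, Fintype.card_prod, Fintype.card_bool, nsmul_eq_mul, one_div_pow,
      one_div_one_div]
    push_cast
    ring
  · intro z hz
    have hz' : 0 < Pr L.ν (fun ω => z ∈ (c.lvs u T hT).cen (L.leaf ω)) True := by
      unfold H987.pc at hz
      rw [ms_eq_PE] at hz
      exact hz
    have hμ := cnd_isProb L.prob hz'
    unfold H987.nE
    have e2 : ∀ ω : L.Ω, cnd L.ν (fun ω => z ∈ (c.lvs u T hT).cen (L.leaf ω)) True ω *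
        ∑ a, (#{k ∈ Icc κ₀ κ₁ | H860.Bad (cnd L.ν (fun ω => z ∈ (c.lvs u T hT).cen (L.leaf ω)) True)
          L.ln (H860.cZ κ₀ (c.x (L.rep z)) a) (H860.cS k₀ a) ((1 / 2) ^ Lq) (B + 6 * m) (-omax) k₁ k
            (L.ln ω)} : ℝ) =
        ∑ a, cnd L.ν (fun ω => z ∈ (c.lvs u T hT).cen (L.leaf ω)) True ω *
          (#{k ∈ Icc κ₀ κ₁ | H860.Bad (cnd L.ν (fun ω => z ∈ (c.lvs u T hT).cen (L.leaf ω)) True)
          L.ln (H860.cZ κ₀ (c.x (L.rep z)) a) (H860.cS k₀ a) ((1 / 2) ^ Lq) (B + 6 * m) (-omax) k₁ k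
            (L.ln ω)} : ℝ) := fun ω => mul_sum _ _ _
    rw [sum_congr rfl fun ω _ => e2 ω, sum_comm]
    have h1 : ∀ a : Bool × Bool, ∑ ω, cnd L.ν (fun ω => z ∈ (c.lvs u T hT).cen (L.leaf ω)) True ω *
          (#{k ∈ Icc κ₀ κ₁ | H860.Bad (cnd L.ν (fun ω => z ∈ (c.lvs u T hT).cen (L.leaf ω)) True)
          L.ln (H860.cZ κ₀ (c.x (L.rep z)) a) (H860.cS k₀ a) ((1 / 2) ^ Lq) (B + 6 * m) (-omax) k₁ k
            (L.ln ω)} : ℝ) ≤ 3 * (1 + 1 / (1 / 2) ^ Lq) * (((B + 6 * m : ℕ) : ℝ) + 1) :=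
      fun a => H422.sum_bad hμ L.ln (H860.cZ_nst κ₀ _ a) (H860.cS_nst k₀ a) (by positivity) _ _ _ _
    refine (sum_le_sum fun a _ => h1 a).trans (le_of_eq ?_)
    rw [sum_const, card_univ, Fintype.card_prod, Fintype.card_bool, nsmul_eq_mul, one_div_pow,
      one_div_one_div]
    push_cast
    ring
  · intro ω ω' h
    exact L.leaf_iff.2 (Prod.mk.inj h).1
  · intro ω₀ _ hgood z hz hzw
    obtain ⟨hrich, hPV⟩ := hgood
    have hVpos : 0 < Pr L.ν (fun ω => (L.P.W n ω, L.lam ω)) (L.P.W n ω₀, L.lam ω₀) :=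
      L.PrV_pos ω₀
    have hdet : Det (fun ω => (L.P.W n ω, L.lam ω))
        (fun ω => z ∈ (c.lvs u T hT).cen (L.leaf ω)) := by
      intro ω ω' h
      have h1 : L.leaf ω = L.leaf ω' := L.leaf_iff.2 (Prod.mk.inj h).1
      show (z ∈ (c.lvs u T hT).cen (L.leaf ω)) = (z ∈ (c.lvs u T hT).cen (L.leaf ω'))
      rw [h1]
    have hY : (z ∈ (c.lvs u T hT).cen (L.leaf ω₀)) = True := eq_true hz
    have hYpos : 0 < Pr L.ν (fun ω => z ∈ (c.lvs u T hT).cen (L.leaf ω)) True := by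
      have h1 := Pr_mono L.prob hdet ω₀
      simp only [hY] at h1
      exact hVpos.trans_le h1
    have hμ := cnd_isProb L.prob hYpos
    have hν' := cnd_isProb L.prob hVpos
    obtain ⟨hd1, hd2⟩ := c.dist hT hzw
    obtain ⟨-, hDel⟩ := hdist z (L.leaf ω₀) hzw
    refine hcl hμ L.ln hν' L.ln (fun ω ω' _ _ h => L.xinj ω ω' h) hm hBm ?_ (L.lo_lt ω₀).le hd1 hd2
      (fun ω ω' _ _ => hk ω' ω) (fun ω ω' _ _ => hκ z ω' ω) (homin (z, L.leaf ω₀)).1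
      (homax (z, L.leaf ω₀)).2 (fun o h1 h2 => (H860.band_iff hd1 hDel o).2 ⟨h1, h2⟩) hA ?_
    · intro Q
      have h1 := ms_cnd_le L.prob hdet hVpos hPV (fun ω => Q (L.ln ω))
      simp only [hY] at h1
      exact h1
    · intro S hS R hR1 hR2 hR3
      exact L.cross ω₀ hrich S hS R hR1 hR2 hR3

/-- the bound of lemma NG -/
noncomputable def ngB (γ : ℝ) (Lq C B m g : ℕ) (s : ℝ) : ℝ :=
  (2 * C * g + 1) * (s ^ 2 / 22 + s * (12 * (1 + 2 ^ Lq) * (B + 6 * m + 1)) +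
    Real.exp (-((1 - γ) * (2 * m) / 8)))

/-- **lemma NG for the law `μ` of the typical flags** -/
theorem ng_mu {γ : ℝ} (hγ0 : 0 ≤ γ) (hγ1 : γ < 1) : ∃ Lq m₀ : ℕ, 1 ≤ Lq ∧
    ∀ {B₀ : ℕ} {c₁ c₂ ρ ε₂ ε₃ b A : ℝ} {K₁ n g : ℕ} (L : Loc B₀ c₁ c₂ ρ γ ε₂ ε₃ b A K₁ n g)
      (_ : 1 ≤ B₀) {C : ℕ} (_ : (B₀ : ℝ) ≤ 2 ^ C) {B m : ℕ} (_ : m₀ ≤ m) (_ : B ≤ m)
      (_ : (2 : ℝ) ^ (3 * m) ≤ 6 * A) (c : L.Ctr) {u : ℝ} {T : ℕ} (_ : c.Sep u T) {s : ℝ}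
      (_ : 0 ≤ s) (s' : ℝ),
      PE (L.mu B s') (fun ω => ∃ t < T,
        Pr L.ν (fun ω => (c.D u (t + 1) ω, L.ln ω)) (c.D u (t + 1) ω, L.ln ω) ≤
          s ^ 2 / 22 * Pr L.ν (fun ω => (c.D u t ω, L.ln ω)) (c.D u t ω, L.ln ω)) ≤
      ngB γ Lq C B m g s / PE L.ν (L.Zg B s') := by
  obtain ⟨Lq, m₀, hLq, h⟩ := ng hγ0 hγ1
  refine ⟨Lq, m₀, hLq, ?_⟩
  intro B₀ c₁ c₂ ρ ε₂ ε₃ b A K₁ n g L hB₀ C hC B m hm hBm hA c u T hT s hs s'
  rw [PE_mu]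
  apply div_le_div_of_nonneg_right _ (Pr_nonneg L.prob _ _)
  refine le_trans ?_ (h L hB₀ hC hm hBm hA c hT hs)
  rw [← ms_eq_PE, ← ms_eq_PE]
  exact ms_mono L.prob fun ω _ h' => ⟨⟨h'.1.2.1, h'.1.2.2.1⟩, h'.2⟩

end Loc

end Vale.Agent.P065.H859
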