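import Vale.Agent.P065.H587.Ent2

/-!
# P065: selection of the scale (helper859)
-/

set_option autoImplicit false

namespace Vale.Agent.P065.H859

open Finset Vale.Agent.P065.Ent

/-- the levels below `top` at distance more than `K` from `A` -/
def far (top K : ℕ) (A : Finset ℕ) : Finset ℕ :=
  {i ∈ range top | ∀ i' ∈ A, i + K < i' ∨ i' + K < i}

/-- the window `s` of length `g` -/
def win (g s : ℕ) : Finset ℕ := Ico (g * s) (g * s + g)

/-- the levels of the window at distance more than `K` from the elements of `A` in the window -/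
def lonely (g s K : ℕ) (A : Finset ℕ) : Finset ℕ :=
  {i ∈ win g s | ∀ i' ∈ A, i' ∈ win g s → i + K < i' ∨ i' + K < i}

theorem far_anti {top K K' : ℕ} (h : K ≤ K') (A : Finset ℕ) : far top K' A ⊆ far top K A := by
  intro i hi
  unfold far at *
  rw [mem_filter] at *
  refine ⟨hi.1, fun i' hi' => ?_⟩
  have := hi.2 i' hi'
  omega

theorem far_subset (top K : ℕ) (A : Finset ℕ) : far top K A ⊆ range top := filter_subset _ _

theorem card_win (g s : ℕ) : #(win g s) = g := by
  unfold win
  rw [Nat.card_Ico]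
  omega

theorem sum_win {g T : ℕ} (hg : 0 < g) {S : Finset ℕ} (hS : S ⊆ range (g * T)) :
    ∑ s ∈ range T, #(S ∩ win g s) = #S := by
  classical
  have h1 : ∀ i ∈ S, i / g ∈ range T := by
    intro i hi
    have := mem_range.1 (hS hi)
    rw [mem_range]
    exact Nat.div_lt_of_lt_mul this
  rw [card_eq_sum_card_fiberwise h1]
  refine sum_congr rfl fun s _ => ?_
  congr 1
  ext i
  rw [mem_inter, mem_filter]
  refine and_congr_right fun _ => ?_
  unfold win
  rw [mem_Ico]
  constructor
  · rintro ⟨h2, h3⟩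
    apply Nat.div_eq_of_lt_le
    · rwa [mul_comm]
    · have : (s + 1) * g = g * s + g := by ring
      omega
  · intro h2
    have h3 := Nat.div_add_mod i g
    have h4 := Nat.mod_lt i hg
    rw [h2] at h3
    omega

theorem window_pt {top g s K : ℕ} {A : Finset ℕ} {c ε : ℝ} (hc : 0 < c) (hε : 0 < ε)
    (hg : 0 < g) (hKg : K ≤ g) (hK : 4 * (K : ℝ) ≤ ε * g) (hs : win g s ⊆ range top) :
    (#(A ∩ win g s) : ℝ) / g - c / 4 -
      2 / (ε * g) * #((far top K A \ far top g A) ∩ win g s) ≤
      if (c / 4 * g ≤ #(A ∩ win g s) ∧ (#(lonely g s K A) : ℝ) ≤ ε * g) then 1 else 0 := by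
  classical
  have hg' : (0 : ℝ) < g := by exact_mod_cast hg
  have hεg : 0 < ε * g := by positivity
  have h1 : (#(A ∩ win g s) : ℝ) ≤ g := by
    have : #(A ∩ win g s) ≤ g := (card_le_card inter_subset_right).trans (card_win g s).le
    exact_mod_cast this
  have h2 : (#(A ∩ win g s) : ℝ) / g ≤ 1 := (div_le_one hg').2 h1
  have h3 : 0 ≤ 2 / (ε * g) * (#((far top K A \ far top g A) ∩ win g s) : ℝ) := by positivity
  split_ifs with h
  · linarith
  · by_cases h4 : c / 4 * g ≤ #(A ∩ win g s)
    · have h5 : ε * g < #(lonely g s K A) := by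
        by_contra hcon
        push Not at hcon
        exact h ⟨h4, hcon⟩
      -- the window contains an element of `A`
      have h6 : (A ∩ win g s).Nonempty := by
        rw [← card_pos]
        have : (0 : ℝ) < #(A ∩ win g s) := lt_of_lt_of_le (by positivity) h4
        exact_mod_cast this
      obtain ⟨a, ha⟩ := h6
      rw [mem_inter] at ha
      have h7 : lonely g s K A ⊆ ((far top K A \ far top g A) ∩ win g s) ∪
          (Ico (g * s) (g * s + K) ∪ Ico (g * s + g - K) (g * s + g)) := by
        intro i hi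
        unfold lonely at hi
        rw [mem_filter] at hi
        have hiw := hi.1
        have hiw' := hi.1
        unfold win at hiw'
        rw [mem_Ico] at hiw'
        have haw := ha.2
        unfold win at haw
        rw [mem_Ico] at haw
        rw [mem_union, mem_union, mem_inter, mem_sdiff, mem_Ico, mem_Ico]
        by_cases h8 : i < g * s + K
        · exact Or.inr (Or.inl ⟨hiw'.1, h8⟩)
        · by_cases h9 : g * s + g - K ≤ i
          · exact Or.inr (Or.inr ⟨h9, hiw'.2⟩)
          · left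
            refine ⟨⟨?_, ?_⟩, hiw⟩
            · unfold far
              rw [mem_filter]
              refine ⟨hs hiw, fun i' hi' => ?_⟩
              by_cases h10 : i' ∈ win g s
              · exact hi.2 i' hi' h10
              · unfold win at h10
                rw [mem_Ico] at h10
                omega
            · unfold far
              rw [mem_filter]
              rintro ⟨-, h10⟩
              have := h10 a ha.1
              omega
      have h8 : #(lonely g s K A) ≤ #((far top K A \ far top g A) ∩ win g s) + (K + K) := by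
        refine (card_le_card h7).trans ((card_union_le _ _).trans ?_)
        have := card_union_le (Ico (g * s) (g * s + K)) (Ico (g * s + g - K) (g * s + g))
        rw [Nat.card_Ico, Nat.card_Ico] at this
        omega
      have h9 : (#(lonely g s K A) : ℝ) ≤ #((far top K A \ far top g A) ∩ win g s) + 2 * K := by
        have h10 : (#(lonely g s K A) : ℝ) ≤
            ((#((far top K A \ far top g A) ∩ win g s) + (K + K) : ℕ) : ℝ) := by
          exact_mod_cast h8
        push_cast at h10
        linarith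
      have h10 : ε * g / 2 ≤ #((far top K A \ far top g A) ∩ win g s) := by linarith
      have h11 : 1 ≤ 2 / (ε * g) * (#((far top K A \ far top g A) ∩ win g s) : ℝ) := by
        calc (1 : ℝ) = 2 / (ε * g) * (ε * g / 2) := by field_simp
          _ ≤ _ := mul_le_mul_of_nonneg_left h10 (by positivity)
      linarith
    · push Not at h4
      have h5 : (#(A ∩ win g s) : ℝ) / g < c / 4 := by
        rw [div_lt_iff₀ hg']
        exact h4
      linarith

/-- the good event of the window `s` -/
def Zev {Ω : Type*} (A : Ω → Finset ℕ) (c ε : ℝ) (g s K : ℕ) (ω : Ω) : Prop :=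
  c / 4 * g ≤ #(A ω ∩ win g s) ∧ (#(lonely g s K (A ω)) : ℝ) ≤ ε * g

theorem sum_PE_ge {Ω : Type*} [Fintype Ω] {μ : Ω → ℝ} (hμ : IsProb μ) (A : Ω → Finset ℕ)
    {T g K : ℕ} {c ε : ℝ} (hc : 0 < c) (hε : 0 < ε) (hg : 0 < g) (hKg : K ≤ g)
    (hK : 4 * (K : ℝ) ≤ ε * g) (hA : ∀ ω, A ω ⊆ range (g * T)) :
    Ex μ (fun ω => (#(A ω) : ℝ)) / g - c / 4 * T - 2 / (ε * g) *
      (Ex μ (fun ω => (#(far (g * T) K (A ω)) : ℝ)) -
        Ex μ (fun ω => (#(far (g * T) g (A ω)) : ℝ))) ≤
      ∑ s ∈ range T, PE μ (Zev A c ε g s K) := by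
  classical
  have hg' : (0 : ℝ) < g := by exact_mod_cast hg
  have hpt : ∀ ω, (#(A ω) : ℝ) / g - c / 4 * T - 2 / (ε * g) *
      ((#(far (g * T) K (A ω)) : ℝ) - #(far (g * T) g (A ω))) ≤
      ∑ s ∈ range T, if Zev A c ε g s K ω then (1 : ℝ) else 0 := by
    intro ω
    have h1 : ∑ s ∈ range T, ((#(A ω ∩ win g s) : ℝ) / g - c / 4 -
        2 / (ε * g) * #((far (g * T) K (A ω) \ far (g * T) g (A ω)) ∩ win g s)) ≤
        ∑ s ∈ range T, if Zev A c ε g s K ω then (1 : ℝ) else 0 := by
      refine sum_le_sum fun s hs => ?_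
      have hsub : win g s ⊆ range (g * T) := by
        intro i hi
        unfold win at hi
        rw [mem_Ico] at hi
        rw [mem_range] at hs ⊢
        have : g * (s + 1) ≤ g * T := Nat.mul_le_mul_left _ hs
        have e : g * (s + 1) = g * s + g := by ring
        omega
      refine (window_pt (A := A ω) hc hε hg hKg hK hsub).trans (le_of_eq ?_)
      by_cases hZ : Zev A c ε g s K ω
      · rw [if_pos hZ]
        exact if_pos hZ
      · rw [if_neg hZ]
        exact if_neg hZ
    refine le_trans (le_of_eq ?_) h1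
    rw [sum_sub_distrib, sum_sub_distrib, ← sum_div, ← mul_sum, sum_const, card_range,
      nsmul_eq_mul]
    have e1 : ∑ s ∈ range T, (#(A ω ∩ win g s) : ℝ) = #(A ω) := by
      exact_mod_cast sum_win hg (hA ω)
    have e2 : ∑ s ∈ range T, (#((far (g * T) K (A ω) \ far (g * T) g (A ω)) ∩ win g s) : ℝ) =
        #(far (g * T) K (A ω)) - #(far (g * T) g (A ω)) := by
      have e3 : ∑ s ∈ range T, #((far (g * T) K (A ω) \ far (g * T) g (A ω)) ∩ win g s) =
          #(far (g * T) K (A ω) \ far (g * T) g (A ω)) :=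
        sum_win hg (sdiff_subset.trans (far_subset _ _ _))
      have e4 := card_sdiff_add_card_eq_card (far_anti (top := g * T) hKg (A ω))
      have e5 : (#(far (g * T) K (A ω) \ far (g * T) g (A ω)) : ℝ) +
          #(far (g * T) g (A ω)) = #(far (g * T) K (A ω)) := by exact_mod_cast e4
      have e6 : ∑ s ∈ range T,
          (#((far (g * T) K (A ω) \ far (g * T) g (A ω)) ∩ win g s) : ℝ) =
          #(far (g * T) K (A ω) \ far (g * T) g (A ω)) := by exact_mod_cast e3
      rw [e6]
      linarith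
    rw [e1, e2]
    ring
  have h2 : ∀ s ∈ range T, PE μ (Zev A c ε g s K) =
      ∑ ω, μ ω * (if Zev A c ε g s K ω then (1 : ℝ) else 0) := by
    intro s _
    rw [PE_eq]
    refine sum_congr rfl fun ω _ => ?_
    split_ifs <;> ring
  rw [sum_congr rfl h2, sum_comm]
  have h3 : ∑ ω, μ ω * ((#(A ω) : ℝ) / g - c / 4 * T - 2 / (ε * g) *
      ((#(far (g * T) K (A ω)) : ℝ) - #(far (g * T) g (A ω)))) ≤
      ∑ ω, ∑ s ∈ range T, μ ω * (if Zev A c ε g s K ω then (1 : ℝ) else 0) := by
    refine sum_le_sum fun ω _ => ?_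
    rw [← mul_sum]
    exact mul_le_mul_of_nonneg_left (hpt ω) (hμ.nonneg ω)
  refine le_trans (le_of_eq ?_) h3
  have e : ∀ ω, μ ω * ((#(A ω) : ℝ) / g - c / 4 * T - 2 / (ε * g) *
      ((#(far (g * T) K (A ω)) : ℝ) - #(far (g * T) g (A ω)))) =
      (μ ω * #(A ω)) / g - μ ω * (c / 4 * T) - 2 / (ε * g) *
      (μ ω * (#(far (g * T) K (A ω)) : ℝ) - μ ω * #(far (g * T) g (A ω))) := fun ω => by ring
  unfold Ex
  rw [sum_congr rfl fun ω _ => e ω, sum_sub_distrib, sum_sub_distrib, ← sum_div, ← sum_mul,
    ← mul_sum, sum_sub_distrib, hμ.sum, one_mul]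

/-- **pigeonhole over the scales** -/
theorem pigeon {Ω : Type*} [Fintype Ω] {μ : Ω → ℝ} (hμ : IsProb μ) (A : Ω → Finset ℕ) (top : ℕ)
    (K : ℕ → ℕ) {n : ℕ} (hn : 0 < n) : ∃ q < n,
      Ex μ (fun ω => (#(far top (K q) (A ω)) : ℝ)) -
        Ex μ (fun ω => (#(far top (K (q + 1)) (A ω)) : ℝ)) ≤ top / n := by
  classical
  set E : ℕ → ℝ := fun q => Ex μ (fun ω => (#(far top (K q) (A ω)) : ℝ)) with hE
  have h0 : ∀ q, 0 ≤ E q := fun q => sum_nonneg fun ω _ =>
    mul_nonneg (hμ.nonneg ω) (Nat.cast_nonneg _)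
  have h1 : ∀ q, E q ≤ top := by
    intro q
    have : E q ≤ ∑ ω, μ ω * (top : ℝ) := by
      refine sum_le_sum fun ω _ => mul_le_mul_of_nonneg_left ?_ (hμ.nonneg ω)
      have h2 : #(far top (K q) (A ω)) ≤ top :=
        (card_le_card (far_subset _ _ _)).trans (card_range top).le
      show (#(far top (K q) (A ω)) : ℝ) ≤ top
      exact_mod_cast h2
    rwa [← sum_mul, hμ.sum, one_mul] at this
  have h2 : ∑ q ∈ range n, (E q - E (q + 1)) = E 0 - E n := sum_range_sub' E n
  have hn' : (0 : ℝ) < n := by exact_mod_cast hn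
  have h3 : ∑ q ∈ range n, (E q - E (q + 1)) ≤ ∑ q ∈ range n, (top : ℝ) / n := by
    rw [h2, sum_const, card_range, nsmul_eq_mul, mul_div_cancel₀ _ hn'.ne']
    have := h1 0
    have := h0 n
    linarith
  obtain ⟨q, hq, h4⟩ := exists_le_of_sum_le (nonempty_range_iff.2 (by omega)) h3
  exact ⟨q, mem_range.1 hq, h4⟩

end Vale.Agent.P065.H859
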