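import Vale.Agent.P065.H859.Fat
import Vale.Agent.P065.H859.Pigeon

/-!
# P065: rich classes (helper859)
-/

set_option autoImplicit false

namespace Vale.Agent.P065.H859

open Finset Vale.Agent.P065.UB Vale.Agent.P065.UB.RankAux Vale.Agent.P065.Ent

/-- greedy labels for the pieces of a configuration -/
theorem greedyC (hb : 1 < beta) {β' : ℝ} (hβ : beta < β') (θ : ℝ) : ∃ C : ℝ, 0 ≤ C ∧
    ∀ {p w : ℕ} (U : Conf p w) (lv : ℕ → ℕ), Monotone lv → lv 0 = 0 → (∀ s, lv s ≤ U.top) →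
      ∃ Λ : ℕ → Fin p × Fin w → Fin p × Fin w, (∀ ω ω', Λ 0 ω = Λ 0 ω') ∧
        (∀ s, Det (Λ (s + 1)) (Λ s)) ∧
        (∀ s, Det (fun ω => (U.C (lv (s + 1)) ω, Λ s ω, U.ln ω)) (Λ (s + 1))) ∧
        (∀ s, Opt U.toUFlags (U.C (lv (s + 1))) (beta⁻¹ + θ) (1 - beta⁻¹) (Λ (s + 1))) ∧
        ∀ T : ℕ, β' * θ * ∑ s ∈ range T, Hc U.μ (Λ (s + 1))
            (fun ω => (U.C (lv (s + 1)) ω, Λ s ω)) ≤
          β' * (U.Ls (U.C 0) - Real.log w) - Real.log p + C * (T + 1) := by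
  obtain ⟨C, hC, hG⟩ := greedy hb hβ (θ := θ)
  refine ⟨C, hC, ?_⟩
  intro p w U lv hlv hlv0 hlvt
  obtain ⟨Λ, h0, h1, h2, h3, h4⟩ := hG U.toUFlags (fun s => U.C (lv s))
    (fun s n => U.c (lv s) ⁻¹' {n}) (fun s n => U.C_conn _ _) (fun s n n' h => U.C_disj _ _ _ h)
    (fun s ω => U.C_mem _ _) (fun s => U.C_det (hlv (Nat.le_succ s))) (fun s => U.fst_det (hlvt s))
  refine ⟨Λ, h0, h1, h2, h3, ?_⟩
  intro T
  have h5 := h4 T
  have h6 : H U.μ (U.C (lv 0)) = 0 := by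
    have : Hc U.μ (U.C (lv 0)) (fun _ => ()) = 0 :=
      Hc_eq_zero fun ω ω' _ => by rw [hlv0, U.C_zero, U.C_zero]
    rwa [Hc_const U.prob] at this
  rw [h6, hlv0, zero_add] at h5
  exact h5

/-- a class is rich: it has many flags compared with its size, and no heavy line -/
def Rich {p w : ℕ} (U : Conf p w) {κ : Type*} (Y : Fin p × Fin w → κ) (A : ℝ)
    (ω : Fin p × Fin w) : Prop :=
  A * U.sz Y ω ≤ (p : ℝ) * w * Pr U.μ Y (Y ω) ∧
    ∀ ω', Y ω' = Y ω → A * Pr U.μ (fun ω => (Y ω, U.ln ω)) (Y ω, U.ln ω') ≤ Pr U.μ Y (Y ω)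

theorem PE_le_add {Ω : Type*} [Fintype Ω] {μ : Ω → ℝ} (hμ : IsProb μ) {Q Q₁ Q₂ : Ω → Prop}
    (h : ∀ ω, Q ω → Q₁ ω ∨ Q₂ ω) : PE μ Q ≤ PE μ Q₁ + PE μ Q₂ := by
  classical
  rw [PE_eq, PE_eq, PE_eq, ← sum_add_distrib]
  refine sum_le_sum fun ω _ => ?_
  have h0 := hμ.nonneg ω
  by_cases h1 : Q ω
  · rw [if_pos h1]
    rcases h ω h1 with h2 | h2
    · rw [if_pos h2]
      split_ifs <;> linarith
    · rw [if_pos h2]
      split_ifs <;> linarith
  · rw [if_neg h1]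
    split_ifs <;> linarith

/-- the numbers of a configuration -/
structure Num (p w : ℕ) (U : Conf p w) (β' θ ε εB η δ L C : ℝ) (T : ℕ) : Prop where
  hθ : 0 < θ
  hδ : 0 < δ
  hη : 0 < η
  hL : 0 < L
  hβ2 : β' ≤ 2 * beta
  hεη : 4 * ε ≤ η * beta
  hεBη : 4 * εB ≤ η * beta
  hεB : 0 < εB
  hp : (beta - ε) * L ≤ Real.log p
  hN : U.Ls (U.C 0) - Real.log w ≤ L
  hw : L ≤ Real.log w
  hB : U.top * Real.log U.B ≤ (beta + εB) * ((1 - η) * L)
  hε : β' - beta + ε ≤ 2 * δ / 3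
  hC : C * (T + 2) ≤ δ / 3 * L

/-- greedy labels with few poor classes -/
def RareProp (β' θ C : ℝ) : Prop :=
    ∀ {p w : ℕ} (U : Conf p w) (lv : ℕ → ℕ), Monotone lv → lv 0 = 0 → (∀ s, lv s ≤ U.top) →
      ∃ Λ : ℕ → Fin p × Fin w → Fin p × Fin w, (∀ ω ω', Λ 0 ω = Λ 0 ω') ∧
        (∀ s, Det (Λ (s + 1)) (Λ s)) ∧
        (∀ s, Det (fun ω => (U.C (lv (s + 1)) ω, Λ s ω, U.ln ω)) (Λ (s + 1))) ∧
        (∀ s, Opt U.toUFlags (U.C (lv (s + 1))) (beta⁻¹ + θ) (1 - beta⁻¹) (Λ (s + 1))) ∧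
        ∀ (T : ℕ) (ε εB η δ L : ℝ), Num p w U β' θ ε εB η δ L C T →
          ∑ s ∈ range T, Hc U.μ (Λ (s + 1)) (fun ω => (U.C (lv (s + 1)) ω, Λ s ω)) ≤
            δ / (beta * θ) * L ∧
          ∀ b A : ℝ, 0 < b → 0 < A → δ * (1 + (2 * beta + 1) / (beta * θ * b)) ≤
              (beta - 1) * η / 8 → 2 * δ ≤ beta * θ * b →
            Real.log A - 2 * Real.log b < (beta - 1) * η / 8 * L → 2 * Real.log A ≤ L →
            ∀ T' ≤ T, PE U.μ (fun ω => ¬ Rich U (fun ω => (U.C (lv T') ω, Λ T' ω)) A ω) ≤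
              2 * b

/-- **poor classes are rare** -/
theorem exists_rare (hb : 1 < beta) {β' : ℝ} (hβ : beta < β') (θ : ℝ) :
    ∃ C : ℝ, 0 ≤ C ∧ RareProp β' θ C := by
  classical
  obtain ⟨C, hC, hG⟩ := greedyC hb hβ θ
  obtain ⟨C', hC', hF⟩ := fat_ineq hβ (by linarith)
  refine ⟨C + C', by positivity, ?_⟩
  intro p w U lv hlv hlv0 hlvt
  obtain ⟨Λ, g0, g1, g2, g3, g4⟩ := hG U lv hlv hlv0 hlvt
  refine ⟨Λ, g0, g1, g2, g3, ?_⟩
  intro T ε εB η δ L N
  have hθ := N.hθ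
  have hL := N.hL
  have hδ := N.hδ
  have hη := N.hη
  have hb0 : 0 < beta := by linarith
  have hβ0 : 0 < β' := by linarith
  have hTnn : (0 : ℝ) ≤ T := Nat.cast_nonneg T
  have hNC := N.hC
  have hCT : C * (T + 1) ≤ δ / 3 * L := by nlinarith
  have hC'T : C' * (T + 2) ≤ δ / 3 * L := by nlinarith
  -- the total label entropy
  set Hs : ℕ → ℝ := fun s => Hc U.μ (Λ (s + 1)) (fun ω => (U.C (lv (s + 1)) ω, Λ s ω)) with hHs
  have hHs0 : ∀ s, 0 ≤ Hs s := fun s => Hc_nonneg U.prob _ _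
  have hS1 : β' * θ * ∑ s ∈ range T, Hs s ≤ δ * L := by
    have h1 := g4 T
    have h2 : β' * (U.Ls (U.C 0) - Real.log w) ≤ β' * L := mul_le_mul_of_nonneg_left N.hN hβ0.le
    have h3 := N.hp
    have h4 : (β' - beta + ε) * L ≤ 2 * δ / 3 * L := mul_le_mul_of_nonneg_right N.hε hL.le
    linarith
  have hS : ∑ s ∈ range T, Hs s ≤ δ / (beta * θ) * L := by
    have h0 : 0 ≤ ∑ s ∈ range T, Hs s := sum_nonneg fun s _ => hHs0 s
    have h1 : beta * θ * ∑ s ∈ range T, Hs s ≤ δ * L := by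
      refine le_trans ?_ hS1
      exact mul_le_mul_of_nonneg_right (mul_le_mul_of_nonneg_right hβ.le hθ.le) h0
    have h2 : 0 < beta * θ := by positivity
    rw [div_mul_eq_mul_div, le_div_iff₀ h2]
    linarith
  refine ⟨hS, ?_⟩
  intro b A hbp hA hδ1 hδ2 hA1 hA2 T' hT'
  have hS' : ∑ s ∈ range T', Hs s ≤ δ / (beta * θ) * L := by
    refine le_trans ?_ hS
    exact sum_le_sum_of_subset_of_nonneg (range_subset_range.2 hT') fun s _ _ => hHs0 s
  have hS'0 : 0 ≤ ∑ s ∈ range T', Hs s := sum_nonneg fun s _ => hHs0 s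
  set Y : Fin p × Fin w → ℕ × (Fin p × Fin w) := fun ω => (U.C (lv T') ω, Λ T' ω) with hY
  set Q₁ : Fin p × Fin w → Prop := fun ω => (p : ℝ) * w * Pr U.μ Y (Y ω) ≤ A * U.sz Y ω with hQ₁
  set Q₂ : Fin p × Fin w → Prop := fun ω => ∃ ω', Y ω' = Y ω ∧
    Pr U.μ Y (Y ω) ≤ A * Pr U.μ (fun ω => (Y ω, U.ln ω)) (Y ω, U.ln ω') with hQ₂
  have hsub : ∀ ω, ¬ Rich U Y A ω → Q₁ ω ∨ Q₂ ω := by
    intro ω h
    by_contra hcon
    push Not at hcon
    apply h
    refine ⟨?_, ?_⟩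
    · have h1 : ¬ (p : ℝ) * w * Pr U.μ Y (Y ω) ≤ A * U.sz Y ω := hcon.1
      push Not at h1
      exact h1.le
    · intro ω' h'
      have h1 := hcon.2
      simp only [hQ₂, not_exists, not_and, not_le] at h1
      exact (h1 ω' h').le
  refine (PE_le_add U.prob hsub).trans ?_
  have hdet₁ : Det Y Q₁ := by
    intro ω ω' h
    show ((p : ℝ) * w * Pr U.μ Y (Y ω) ≤ A * U.sz Y ω) =
      ((p : ℝ) * w * Pr U.μ Y (Y ω') ≤ A * U.sz Y ω')
    unfold Flags.sz
    rw [h]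
  have hQ₁b : PE U.μ Q₁ ≤ b := by
    by_contra hcon
    push Not at hcon
    have hpos : 0 < PE U.μ Q₁ := hbp.trans hcon
    have h1 := hF U lv hlv hlv0 hlvt Λ g0 g1 T' Q₁ hpos hdet₁ A hA (fun ω h => h)
    have hNp := N.hp
    have hNB := N.hB
    have hlB : 0 ≤ Real.log U.B := Real.log_nonneg (by exact_mod_cast U.B_pos)
    have h2 : (lv T' : ℝ) * Real.log U.B ≤ (beta + εB) * ((1 - η) * L) := by
      refine le_trans ?_ hNB
      exact mul_le_mul_of_nonneg_right (by exact_mod_cast hlvt T') hlB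
    have h3 : η * beta / 2 * L ≤ Real.log p - lv T' * Real.log U.B := by
      have e1 := mul_le_mul_of_nonneg_right N.hεη hL.le
      have e2 := mul_le_mul_of_nonneg_right N.hεBη hL.le
      have e3 : 0 ≤ εB * η * L := by have := N.hεB; positivity
      nlinarith
    have h4 : (beta - 1) / (2 * beta) ≤ (β' - 1) / β' := by
      rw [div_le_div_iff₀ (by positivity) hβ0]
      have := N.hβ2
      nlinarith
    have h5 : (beta - 1) * η / 4 * L ≤ (β' - 1) / β' * (Real.log p - lv T' * Real.log U.B) := by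
      calc (beta - 1) * η / 4 * L = (beta - 1) / (2 * beta) * (η * beta / 2 * L) := by
            field_simp
            ring
        _ ≤ (β' - 1) / β' * (Real.log p - lv T' * Real.log U.B) := by
            apply mul_le_mul h4 h3 (by positivity)
            exact div_nonneg (by linarith) hβ0.le
    have h6 : β' * (U.Ls (U.C 0) - Real.log w) - Real.log p ≤ 2 * δ / 3 * L := by
      have e1 : β' * (U.Ls (U.C 0) - Real.log w) ≤ β' * L :=
        mul_le_mul_of_nonneg_left N.hN hβ0.le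
      have e2 : (β' - beta + ε) * L ≤ 2 * δ / 3 * L := mul_le_mul_of_nonneg_right N.hε hL.le
      linarith
    have h7 : C' * ((T' : ℝ) + 2) ≤ δ / 3 * L := by
      refine le_trans ?_ hC'T
      apply mul_le_mul_of_nonneg_left _ hC'
      have : (T' : ℝ) ≤ T := by exact_mod_cast hT'
      linarith
    have h8 : -Real.log (PE U.μ Q₁) ≤ -Real.log b := by
      have := Real.log_le_log hbp hcon.le
      linarith
    have h9 : (β' + 1) * ((∑ s ∈ range T', Hs s) / PE U.μ Q₁) ≤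
        δ * ((2 * beta + 1) / (beta * θ * b)) * L := by
      have e1 : (∑ s ∈ range T', Hs s) / PE U.μ Q₁ ≤ δ / (beta * θ) * L / b := by
        apply div_le_div₀ (by positivity) hS' hbp hcon.le
      have e2 : β' + 1 ≤ 2 * beta + 1 := by have := N.hβ2; linarith
      calc (β' + 1) * ((∑ s ∈ range T', Hs s) / PE U.μ Q₁)
          ≤ (2 * beta + 1) * (δ / (beta * θ) * L / b) := by
            apply mul_le_mul e2 e1 (div_nonneg hS'0 hpos.le) (by linarith)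
        _ = δ * ((2 * beta + 1) / (beta * θ * b)) * L := by field_simp
    have h10 : δ * L + δ * ((2 * beta + 1) / (beta * θ * b)) * L ≤ (beta - 1) * η / 8 * L := by
      have := mul_le_mul_of_nonneg_right hδ1 hL.le
      linarith
    linarith
  have hQ₂b : PE U.μ Q₂ ≤ b := by
    have h1 := atom_ineq U lv hlv hlvt Λ g0 g1 T' hA Q₂ (fun ω h => h)
    have h2 := N.hw
    have h3 : 0 ≤ PE U.μ Q₂ := Pr_nonneg U.prob _ _
    have h4 : PE U.μ Q₂ * (L / 2) ≤ δ / (beta * θ) * L := by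
      refine le_trans ?_ (h1.trans hS')
      apply mul_le_mul_of_nonneg_left _ h3
      linarith
    have h5 : PE U.μ Q₂ / 2 ≤ δ / (beta * θ) := by
      have : PE U.μ Q₂ / 2 * L ≤ δ / (beta * θ) * L := by linarith
      exact le_of_mul_le_mul_right this hL
    have h6 : δ / (beta * θ) ≤ b / 2 := by
      rw [div_le_iff₀ (by positivity)]
      linarith
    linarith
  linarith

end Vale.Agent.P065.H859
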