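import Vale.Agent.P065.H859.Select

/-!
# P065: existence of the typical window (helper859)
-/

set_option autoImplicit false

namespace Vale.Agent.P065.H859

open Finset Vale.Agent.P065.UB Vale.Agent.P065.UB.RankAux Vale.Agent.P065.Ent

/-- the raw facts about an extremal configuration -/
structure Raw (p w : ℕ) (U : Conf p w) (B₀ m j : ℕ) (ε εB η : ℝ) : Prop where
  hm : 1 ≤ m
  hj : 1 ≤ j
  hw : 2 ^ j ≤ w
  hB : U.B = B₀
  hBle : (B₀ : ℝ) ≤ 2 ^ ((beta + εB) * m)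
  hlines : #U.lines ≤ 2 ^ j * w
  hp : (2 : ℝ) ^ ((beta - ε) * j) ≤ p
  hsz : ∀ i, U.Ls (U.C i) ≤ Real.log ((2 : ℝ) ^ (j - m * i) * w)
  htop : (m * U.top : ℝ) ≤ (1 - η) * j
  htop' : (1 - 2 * η) * j ≤ m * U.top

variable {p w : ℕ} {U : Conf p w} {B₀ m j : ℕ} {ε εB η : ℝ}

theorem Raw.wpos (R : Raw p w U B₀ m j ε εB η) : (0 : ℝ) < w := by
  have := R.hw
  have h : 0 < w := lt_of_lt_of_le (by positivity) this
  exact_mod_cast h

theorem Raw.logw (R : Raw p w U B₀ m j ε εB η) : (j : ℝ) * Real.log 2 ≤ Real.log w := by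
  have h1 : ((2 : ℝ) ^ j) ≤ w := by exact_mod_cast R.hw
  have h2 := Real.log_le_log (by positivity) h1
  rwa [Real.log_pow] at h2

theorem Raw.logp (R : Raw p w U B₀ m j ε εB η) :
    (beta - ε) * (j * Real.log 2) ≤ Real.log p := by
  have h2 := Real.log_le_log (by positivity) R.hp
  rw [Real.log_rpow (by norm_num)] at h2
  linarith

theorem Raw.logB (R : Raw p w U B₀ m j ε εB η) (hB2 : 2 ≤ B₀) :
    Real.log B₀ ≤ (beta + εB) * (m * Real.log 2) := by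
  have h0 : (0 : ℝ) < B₀ := by
    have : 0 < B₀ := by omega
    exact_mod_cast this
  have h2 := Real.log_le_log h0 R.hBle
  rw [Real.log_rpow (by norm_num)] at h2
  linarith

theorem Raw.ls (R : Raw p w U B₀ m j ε εB η) (i : ℕ) :
    U.Ls (U.C i) - Real.log w ≤ ((j - m * i : ℕ) : ℝ) * Real.log 2 := by
  have h1 := R.hsz i
  rw [Real.log_mul (by positivity) R.wpos.ne', Real.log_pow] at h1
  linarith

/-- the numbers -/
theorem Raw.num (R : Raw p w U B₀ m j ε εB η) {θ δ C : ℝ} {g T : ℕ} (hB2 : 2 ≤ B₀)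
    (hbeta : 0 < beta) (hθ : 0 < θ) (hδ : 0 < δ) (hη : 0 < η) (hεη : 4 * ε ≤ η * beta)
    (hεBη : 4 * εB ≤ η * beta) (hεB : 0 < εB) (hδβ : δ ≤ beta) (hεδ : ε ≤ δ / 3)
    (hg : 0 < g) (hgT : g * T = U.top) (hgC : 6 * C ≤ δ * Real.log 2 * g)
    (hjC : 12 * C ≤ δ * Real.log 2 * j) :
    Num p w U (beta + δ / 3) θ ε εB η δ (j * Real.log 2) C T := by
  have hl2 : 0 < Real.log 2 := Real.log_pos (by norm_num)
  have hj : (1 : ℝ) ≤ j := by exact_mod_cast R.hj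
  have hm : (1 : ℝ) ≤ m := by exact_mod_cast R.hm
  have hgR : (0 : ℝ) < g := by exact_mod_cast hg
  have htop0 : (0 : ℝ) ≤ U.top := Nat.cast_nonneg _
  have hη1 : (1 - η) * j ≤ j := by nlinarith
  constructor
  · exact hθ
  · exact hδ
  · exact hη
  · positivity
  · linarith
  · exact hεη
  · exact hεBη
  · exact hεB
  · exact R.logp
  · have := R.ls 0
    rwa [mul_zero, Nat.sub_zero] at this
  · exact R.logw
  · rw [R.hB]
    have h1 := R.logB hB2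
    calc (U.top : ℝ) * Real.log B₀ ≤ U.top * ((beta + εB) * (m * Real.log 2)) :=
          mul_le_mul_of_nonneg_left h1 htop0
      _ = (beta + εB) * ((m * U.top) * Real.log 2) := by ring
      _ ≤ (beta + εB) * (((1 - η) * j) * Real.log 2) := by
          apply mul_le_mul_of_nonneg_left _ (by positivity)
          exact mul_le_mul_of_nonneg_right R.htop hl2.le
      _ = (beta + εB) * ((1 - η) * (j * Real.log 2)) := by ring
  · linarith
  · -- `C (T + 2) ≤ δ / 3 L`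
    have hgT' : (g : ℝ) * T = U.top := by exact_mod_cast hgT
    have h1 : (g : ℝ) * T ≤ j := by
      have h2 := R.htop
      nlinarith
    have hT : (0 : ℝ) ≤ T := Nat.cast_nonneg _
    have h3 : 6 * C * T ≤ δ * Real.log 2 * j := by
      calc 6 * C * T ≤ δ * Real.log 2 * g * T := mul_le_mul_of_nonneg_right hgC hT
        _ = δ * Real.log 2 * (g * T) := by ring
        _ ≤ δ * Real.log 2 * j := mul_le_mul_of_nonneg_left h1 (by positivity)
    linarith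

/-- the number of levels where the line splits -/
theorem Raw.card_good (R : Raw p w U B₀ m j ε εB η) (hb : 1 < beta) {C c₀ c₁ : ℝ}
    (hB2 : 2 ≤ B₀) (hη : 0 < η)
    (hC : Real.log p + Real.log w - Real.log #U.lines -
      (2 * beta) * (U.Ls (U.C U.top) - Real.log w) - C ≤ ∑ i ∈ range U.top, Ex U.μ (U.xi i))
    (hη2 : 32 * beta * η ≤ beta - 1) (hε : 8 * ε ≤ beta - 1)
    (hCj : 4 * C ≤ (beta - 1) * (j * Real.log 2))
    (hc₀ : c₀ = (beta - 1) / 4 * (m * Real.log 2)) (hc₁ : c₁ = c₀ / Real.log B₀) :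
    c₁ * U.top ≤ Ex U.μ (fun ω => (#(U.good c₀ ω) : ℝ)) := by
  have hl2 : 0 < Real.log 2 := Real.log_pos (by norm_num)
  have hj : (1 : ℝ) ≤ j := by exact_mod_cast R.hj
  have hm : (1 : ℝ) ≤ m := by exact_mod_cast R.hm
  have hlB : 0 < Real.log B₀ := Real.log_pos (by
    have : 1 < B₀ := by omega
    exact_mod_cast this)
  have hc₀p : 0 ≤ c₀ := by
    rw [hc₀]
    have : 0 ≤ beta - 1 := by linarith
    positivity
  have h1 := U.sum_xi_le hc₀p
  rw [R.hB] at h1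
  have h2 : Real.log #U.lines ≤ j * Real.log 2 + Real.log w := by
    have e1 : 0 < #U.lines := card_pos.2 ⟨_, U.mem_lines (⟨0, U.pos.1⟩, ⟨0, U.pos.2⟩)⟩
    have e2 : (#U.lines : ℝ) ≤ 2 ^ j * w := by exact_mod_cast R.hlines
    have e3 := Real.log_le_log (by exact_mod_cast e1) e2
    rwa [Real.log_mul (by positivity) R.wpos.ne', Real.log_pow] at e3
  have h3 : U.Ls (U.C U.top) - Real.log w ≤ 2 * η * (j * Real.log 2) := by
    refine (R.ls U.top).trans ?_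
    have e1 : ((j - m * U.top : ℕ) : ℝ) ≤ 2 * η * j := by
      have e2 := R.htop'
      rcases le_total (m * U.top) j with h | h
      · rw [Nat.cast_sub h]
        push_cast
        linarith
      · rw [Nat.sub_eq_zero_of_le h]
        push_cast
        positivity
    calc ((j - m * U.top : ℕ) : ℝ) * Real.log 2 ≤ 2 * η * j * Real.log 2 :=
          mul_le_mul_of_nonneg_right e1 hl2.le
      _ = _ := by ring
  have h4 := R.logp
  have hL : 0 ≤ j * Real.log 2 := by positivity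
  have h5 : (beta - 1) / 2 * (j * Real.log 2) ≤ ∑ i ∈ range U.top, Ex U.μ (U.xi i) := by
    refine le_trans ?_ hC
    have e1 : 2 * beta * (U.Ls (U.C U.top) - Real.log w) ≤
        2 * beta * (2 * η * (j * Real.log 2)) := mul_le_mul_of_nonneg_left h3 (by linarith)
    have e2 : 32 * beta * η * (j * Real.log 2) ≤ (beta - 1) * (j * Real.log 2) :=
      mul_le_mul_of_nonneg_right hη2 hL
    have e3 : 8 * ε * (j * Real.log 2) ≤ (beta - 1) * (j * Real.log 2) :=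
      mul_le_mul_of_nonneg_right hε hL
    nlinarith
  have h6 : 2 * c₀ * U.top ≤ (beta - 1) / 2 * (j * Real.log 2) := by
    rw [hc₀]
    have e1 : (m * U.top : ℝ) ≤ j := by
      have := R.htop
      nlinarith
    have e2 : (m * U.top : ℝ) * Real.log 2 ≤ j * Real.log 2 :=
      mul_le_mul_of_nonneg_right e1 hl2.le
    nlinarith
  have h7 : c₀ * U.top ≤ Real.log B₀ * Ex U.μ (fun ω => (#(U.good c₀ ω) : ℝ)) := by linarith
  rw [hc₁, div_mul_eq_mul_div, div_le_iff₀ hlB]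
  linarith

/-- the sum of the probabilities of the good events -/
theorem sum_Z_ge {c₀ c₁ ε₂ : ℝ} {g T K n : ℕ} (hc₁ : 0 < c₁) (hε₂ : 0 < ε₂) (hg : 0 < g)
    (hKg : K ≤ g) (hK : 4 * (K : ℝ) ≤ ε₂ * g) (hgT : g * T = U.top)
    (hcard : c₁ * U.top ≤ Ex U.μ (fun ω => (#(U.good c₀ ω) : ℝ))) (hn : 8 ≤ n * (ε₂ * c₁))
    (hpig : Ex U.μ (fun ω => (#(far U.top K (U.good c₀ ω)) : ℝ)) -
        Ex U.μ (fun ω => (#(far U.top g (U.good c₀ ω)) : ℝ)) ≤ U.top / n) :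
    c₁ / 2 * T ≤ ∑ s ∈ range T, PE U.μ (Zev (U.good c₀) c₁ ε₂ g s K) := by
  have hgR : (0 : ℝ) < g := by exact_mod_cast hg
  have hn0 : (0 : ℝ) < n := by
    by_contra h
    have h1 : (n : ℝ) = 0 := le_antisymm (not_lt.1 h) (Nat.cast_nonneg n)
    rw [h1, zero_mul] at hn
    linarith
  have h1 := sum_PE_ge U.prob (U.good c₀) (T := T) hc₁ hε₂ hg hKg hK (fun ω => by
    rw [hgT]
    unfold Conf.good
    exact filter_subset _ _)
  rw [hgT] at h1
  refine le_trans ?_ h1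
  have hT : (0 : ℝ) ≤ T := Nat.cast_nonneg T
  have e0 : (U.top : ℝ) = g * T := by exact_mod_cast hgT.symm
  have e1 : c₁ * T ≤ Ex U.μ (fun ω => (#(U.good c₀ ω) : ℝ)) / g := by
    rw [le_div_iff₀ hgR]
    rw [e0] at hcard
    linarith
  have e2 : 2 / (ε₂ * g) * (Ex U.μ (fun ω => (#(far U.top K (U.good c₀ ω)) : ℝ)) -
        Ex U.μ (fun ω => (#(far U.top g (U.good c₀ ω)) : ℝ))) ≤ c₁ / 4 * T := by
    calc 2 / (ε₂ * g) * (Ex U.μ (fun ω => (#(far U.top K (U.good c₀ ω)) : ℝ)) -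
        Ex U.μ (fun ω => (#(far U.top g (U.good c₀ ω)) : ℝ)))
        ≤ 2 / (ε₂ * g) * (U.top / n) := mul_le_mul_of_nonneg_left hpig (by positivity)
      _ = 2 / (n * ε₂) * T := by
          rw [e0]
          field_simp
      _ ≤ c₁ / 4 * T := by
          apply mul_le_mul_of_nonneg_right _ hT
          rw [div_le_div_iff₀ (by positivity) (by norm_num)]
          linarith
  linarith

/-- the number of levels -/
theorem exists_top {m M j : ℕ} {η : ℝ} (hm : 1 ≤ m) (hM : 1 ≤ M) (hj : 1 ≤ j) (hη0 : 0 < η)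
    (hη1 : η ≤ 1 / 32) (hj4 : (m : ℝ) * M ≤ η * j) : ∃ t : ℕ, 0 < t ∧
      (m * (M * t : ℕ) : ℝ) ≤ (1 - η) * j ∧ (1 - 2 * η) * j ≤ (m * (M * t : ℕ) : ℝ) := by
  have hmR : (1 : ℝ) ≤ m := by exact_mod_cast hm
  have hMR : (1 : ℝ) ≤ M := by exact_mod_cast hM
  have hjR : (1 : ℝ) ≤ j := by exact_mod_cast hj
  have hmM : (0 : ℝ) < m * M := by positivity
  set t := ⌊(1 - η) * j / (m * M)⌋₊ with ht
  have hη2 : 0 ≤ (1 - η) * j := by
    have : 0 ≤ 1 - η := by linarith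
    positivity
  have ht1 : (t : ℝ) ≤ (1 - η) * j / (m * M) := Nat.floor_le (by positivity)
  have ht2 : (1 - η) * j / (m * M) < t + 1 := Nat.lt_floor_add_one _
  have htop1 : (m * (M * t : ℕ) : ℝ) ≤ (1 - η) * j := by
    rw [le_div_iff₀ hmM] at ht1
    push_cast
    linarith
  have htop2 : (1 - 2 * η) * j ≤ (m * (M * t : ℕ) : ℝ) := by
    rw [div_lt_iff₀ hmM] at ht2
    push_cast
    nlinarith
  refine ⟨t, ?_, htop1, htop2⟩
  have h1 : (0 : ℝ) < (m * (M * t : ℕ) : ℝ) := by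
    refine lt_of_lt_of_le ?_ htop2
    have : 0 < 1 - 2 * η := by linarith
    positivity
  by_contra h
  have h2 : t = 0 := by omega
  rw [h2] at h1
  simp at h1

/-- the label entropies are small compared with the windows -/
theorem Raw.delta (R : Raw p w U B₀ m j ε εB η) {θ δ c₁ ε₃ : ℝ} {g T : ℕ} (hbeta : 0 < beta)
    (hθ : 0 < θ) (hδ : 0 < δ) (hη1 : η ≤ 1 / 32) (hgT : g * T = U.top)
    (hd5 : δ * (16 * (m * Real.log 2)) ≤ c₁ * ε₃ * beta * θ) :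
    δ / (beta * θ) * (j * Real.log 2) ≤ c₁ / 8 * (ε₃ * g) * T := by
  have hl2 : 0 < Real.log 2 := Real.log_pos (by norm_num)
  have hj : (1 : ℝ) ≤ j := by exact_mod_cast R.hj
  have h1 : (g : ℝ) * T = U.top := by exact_mod_cast hgT
  have h2 : (j : ℝ) ≤ 2 * (m * U.top) := by
    have := R.htop'
    nlinarith
  have h3 : δ * (j * Real.log 2) ≤ δ * (2 * (m * U.top) * Real.log 2) := by
    apply mul_le_mul_of_nonneg_left _ hδ.le
    exact mul_le_mul_of_nonneg_right h2 hl2.le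
  have htop0 : (0 : ℝ) ≤ U.top := Nat.cast_nonneg _
  have h4 : δ * (16 * (m * Real.log 2)) * U.top ≤ c₁ * ε₃ * beta * θ * U.top :=
    mul_le_mul_of_nonneg_right hd5 htop0
  rw [div_mul_eq_mul_div, div_le_iff₀ (by positivity)]
  have h5 : c₁ / 8 * (ε₃ * g) * T * (beta * θ) = c₁ * ε₃ * beta * θ * U.top / 8 := by
    rw [← h1]; ring
  rw [h5]
  linarith

/-- the constants which depend on `K` -/
structure Cst (θ η c₁ : ℝ) (m : ℕ) (ε₃ b : ℕ → ℝ) (δ C : ℕ → ℝ) : Prop where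
  d1 : ∀ K, 0 < δ K
  d2 : ∀ K, δ K ≤ beta
  d3 : ∀ K, δ K * (1 + (2 * beta + 1) / (beta * θ * (c₁ * b K / 16))) ≤ (beta - 1) * η / 8
  d4 : ∀ K, 2 * δ K ≤ beta * θ * (c₁ * b K / 16)
  d5 : ∀ K, δ K * (16 * (m * Real.log 2)) ≤ c₁ * ε₃ K * beta * θ
  e1 : ∀ K, 0 ≤ C K
  e2 : ∀ K, RareProp (beta + δ K / 3) θ (C K)

theorem exists_cst (hb : 1 < beta) {θ η c₁ : ℝ} {m : ℕ} {ε₃ b : ℕ → ℝ} (hθ : 0 < θ) (hη : 0 < η)
    (hc₁ : 0 < c₁) (hm : 1 ≤ m) (hε₃ : ∀ K, 0 < ε₃ K) (hbp : ∀ K, 0 < b K) :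
    ∃ δ C : ℕ → ℝ, Cst θ η c₁ m ε₃ b δ C := by
  have hbeta : 0 < beta := by linarith
  have hl2 : 0 < Real.log 2 := Real.log_pos (by norm_num)
  have hmR : (1 : ℝ) ≤ m := by exact_mod_cast hm
  have hδ : ∀ K, ∃ δ : ℝ, 0 < δ ∧ δ ≤ beta ∧
      δ * (1 + (2 * beta + 1) / (beta * θ * (c₁ * b K / 16))) ≤ (beta - 1) * η / 8 ∧
      2 * δ ≤ beta * θ * (c₁ * b K / 16) ∧
      δ * (16 * (m * Real.log 2)) ≤ c₁ * ε₃ K * beta * θ := fun K =>
    exists_delta (by linarith) hη hbeta hθ (by have := hbp K; positivity) (by positivity)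
      (by have := hε₃ K; positivity)
  choose δ d1 d2 d3 d4 d5 using hδ
  have hC : ∀ K, ∃ C : ℝ, 0 ≤ C ∧ RareProp (beta + δ K / 3) θ C := fun K =>
    exists_rare hb (by linarith [d1 K]) θ
  choose C e1 e2 using hC
  exact ⟨δ, C, d1, d2, d3, d4, d5, e1, e2⟩

/-- conclusion for one scale -/
theorem Raw.finish (R : Raw p w U B₀ m j ε εB η) (hb : 1 < beta) {θ c₀ c₁ ε₂ C' : ℝ}
    {ε₃ b A δ C : ℕ → ℝ} (cst : Cst θ η c₁ m ε₃ b δ C) {K g M n : ℕ} (hB2 : 2 ≤ B₀)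
    (hθ : 0 < θ) (hη0 : 0 < η) (hη1 : η ≤ 1 / 32) (hη2 : 32 * beta * η ≤ beta - 1)
    (hεη : 4 * ε ≤ η * beta) (hεBη : 4 * εB ≤ η * beta) (hεB : 0 < εB) (hε8 : 8 * ε ≤ beta - 1)
    (hεδ : ε ≤ δ K / 3) (hc₀ : c₀ = (beta - 1) / 4 * (m * Real.log 2))
    (hc₁ : c₁ = c₀ / Real.log B₀) (hc₁0 : 0 < c₁) (hε₂ : 0 < ε₂) (hε₃ : 0 < ε₃ K)
    (hbp : 0 < b K) (hA : 0 < A g) (hg0 : 0 < g) (hKg : K ≤ g) (hK4 : 4 * (K : ℝ) ≤ ε₂ * g)
    (hCg : 6 * C K ≤ δ K * Real.log 2 * g) (hM : U.top = M) (hM0 : 0 < M) (hdvd : g ∣ M)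
    (hj5 : 12 * C K ≤ δ K * Real.log 2 * j)
    (hj6 : Real.log (A g) - 2 * Real.log (c₁ * b K / 16) <
      (beta - 1) * η / 8 * (j * Real.log 2))
    (hj7 : 2 * Real.log (A g) ≤ j * Real.log 2)
    (hC' : Real.log p + Real.log w - Real.log #U.lines -
      (2 * beta) * (U.Ls (U.C U.top) - Real.log w) - C' ≤ ∑ i ∈ range U.top, Ex U.μ (U.xi i))
    (hCj : 4 * C' ≤ (beta - 1) * (j * Real.log 2)) (hn : 8 ≤ n * (ε₂ * c₁))
    (hpig : Ex U.μ (fun ω => (#(far U.top K (U.good c₀ ω)) : ℝ)) -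
        Ex U.μ (fun ω => (#(far U.top g (U.good c₀ ω)) : ℝ)) ≤ U.top / n) :
    Nonempty (Sel B₀ c₀ c₁ θ ε₂ (ε₃ K) (b K) (A g) K g) := by
  have hbeta : 0 < beta := by linarith
  obtain ⟨T, hT⟩ := hdvd
  have hgT : g * T = U.top := by rw [hM, hT]
  have hT0 : 0 < T := by
    by_contra h
    have h1 : T = 0 := by omega
    rw [h1, mul_zero] at hT
    omega
  have hN := R.num (θ := θ) (δ := δ K) (C := C K) (g := g) (T := T) hB2 hbeta hθ (cst.d1 K) hη0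
    hεη hεBη hεB (cst.d2 K) hεδ hg0 hgT hCg hj5
  have hcard := R.card_good hb (C := C') (c₀ := c₀) (c₁ := c₁) hB2 hη0 hC' hη2 hε8 hCj hc₀ hc₁
  have hsum := sum_Z_ge hc₁0 hε₂ hg0 hKg hK4 hgT hcard hn hpig
  have hδ3 := R.delta hbeta hθ (cst.d1 K) hη1 hgT (cst.d5 K)
  have hfinal := sel_of (cst.e2 K) U hN hgT hg0 hT0 hc₁0 hε₃ hbp hA hsum
    (cst.d3 K) (cst.d4 K) hj6 hj7 hδ3
  rw [R.hB] at hfinal
  exact hfinal

/-- **SEL**: the typical window -/
theorem exists_sel (hb : 1 < beta) {θ : ℝ} (hθ : 0 < θ) : ∃ (B₀ : ℕ) (c₀ c₁ : ℝ),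
    2 ≤ B₀ ∧ 0 < c₀ ∧ 0 < c₁ ∧ ∀ (ε₂ : ℝ), 0 < ε₂ → ∀ (ε₃ b : ℕ → ℝ) (f : ℕ → ℕ) (A : ℕ → ℝ),
      (∀ K, 0 < ε₃ K) → (∀ K, 0 < b K) → (∀ g, 0 < A g) → ∃ K g : ℕ, 1 ≤ K ∧ K ≤ g ∧ f K ≤ g ∧
        Nonempty (Sel B₀ c₀ c₁ θ ε₂ (ε₃ K) (b K) (A g) K g) := by
  classical
  have hbeta : 0 < beta := by linarith
  have hl2 : 0 < Real.log 2 := Real.log_pos (by norm_num)
  set α := beta - 1 with hα
  have hα0 : 0 < α := by linarith
  set η := α / (32 * beta) with hη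
  have hη0 : 0 < η := by positivity
  have hηb : 32 * beta * η = α := by rw [hη]; field_simp
  have hη1 : η ≤ 1 / 32 := by
    rw [hη, div_le_div_iff₀ (by positivity) (by norm_num)]
    linarith
  obtain ⟨m₀, hm₀⟩ := exists_conf hbeta (εB := η * beta / 4) (η := η) (by positivity) hη0
    (by linarith) (by linarith)
  set m := max m₀ 1 with hm
  have hm1 : 1 ≤ m := le_max_right _ _
  have hmR : (1 : ℝ) ≤ m := by exact_mod_cast hm1
  obtain ⟨hBle, hconf⟩ := hm₀ m (le_max_left _ _)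
  set B₀ := 2 * Fs (2 ^ m) + 1 with hB₀
  have hB2 : 2 ≤ B₀ := by
    have := one_le_Fs (R := 2 ^ m) Nat.one_le_two_pow
    omega
  have hlB : 0 < Real.log B₀ := Real.log_pos (by
    have : 1 < B₀ := by omega
    exact_mod_cast this)
  set c₀ := α / 4 * (m * Real.log 2) with hc₀
  have hc₀0 : 0 < c₀ := by positivity
  set c₁ := c₀ / Real.log B₀ with hc₁
  have hc₁0 : 0 < c₁ := by positivity
  refine ⟨B₀, c₀, c₁, hB2, hc₀0, hc₁0, ?_⟩
  intro ε₂ hε₂ ε₃ b f A hε₃ hbp hA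
  obtain ⟨δ, C, cst⟩ := exists_cst hb (m := m) hθ hη0 hc₁0 hm1 hε₃ hbp
  have d1 := cst.d1
  obtain ⟨C', f1, f2⟩ := exists_sum_xi_ge (β' := 2 * beta) (by linarith)
  obtain ⟨Kq, k1, k2, k3, k4⟩ := exists_scales
    (fun K => max (max (f K) 1) (max ⌈4 * (K : ℝ) / ε₂⌉₊ ⌈6 * C K / (δ K * Real.log 2)⌉₊))
    (fun K => (le_max_right _ _).trans (le_max_left _ _))
  obtain ⟨n, hn⟩ := exists_nat_gt (8 / (ε₂ * c₁))
  have hn0 : 0 < n := by
    have h0 : (0 : ℝ) < n := lt_of_le_of_lt (by positivity) hn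
    exact_mod_cast h0
  set M := Kq n with hM
  have hM1 : 1 ≤ M := k1 n
  obtain ⟨ε, g1, g2, g3⟩ := exists_min_pos (fun q => δ (Kq q) / 3)
    (fun q => by have := d1 (Kq q); positivity) n (e := min (η * beta / 4) (α / 8))
    (by positivity)
  have g4 : 4 * ε ≤ η * beta := by
    have := g2.trans (min_le_left _ _)
    linarith
  have g5 : 8 * ε ≤ α := by
    have := g2.trans (min_le_right _ _)
    linarith
  obtain ⟨j₀, hj₀⟩ := hconf ε g1 g4
  obtain ⟨j₁, hj₁⟩ := exists_large_j (fun q => max (12 * C (Kq q) / (δ (Kq q) * Real.log 2))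
    (max ((Real.log (A (Kq (q + 1))) - 2 * Real.log (c₁ * b (Kq q) / 16) + 1) /
      (α * η / 8 * Real.log 2)) (2 * Real.log (A (Kq (q + 1))) / Real.log 2))) n
    (max (4 * C' / (α * Real.log 2)) (m * M / η))
  set j := max (max j₀ j₁) 1 with hj
  have hjj₀ : j₀ ≤ j := (le_max_left _ _).trans (le_max_left _ _)
  have hjj₁ : j₁ ≤ j := (le_max_right _ _).trans (le_max_left _ _)
  have hj1 : 1 ≤ j := le_max_right _ _
  have hjR : (1 : ℝ) ≤ j := by exact_mod_cast hj1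
  obtain ⟨hja, hjq⟩ := hj₁ j hjj₁
  have hj3 : 4 * C' ≤ α * (j * Real.log 2) := by
    have := (le_max_left _ _).trans hja
    rw [div_le_iff₀ (by positivity)] at this
    linarith
  have hj4 : (m : ℝ) * M ≤ η * j := by
    have := (le_max_right _ _).trans hja
    rw [div_le_iff₀ hη0] at this
    linarith
  obtain ⟨t, ht0, htop1, htop2⟩ := exists_top hm1 hM1 hj1 hη0 hη1 hj4
  obtain ⟨p, w, U, u1, u2, u3, u4, u5, u6⟩ := hj₀ j hjj₀ (M * t) htop1
  have R : Raw p w U B₀ m j ε (η * beta / 4) η :=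
    ⟨hm1, hj1, u2, u3, hBle, u4, u5, u6, by rw [u1]; exact htop1, by rw [u1]; exact htop2⟩
  -- the scale
  obtain ⟨q, hq, hpig⟩ := pigeon U.prob (U.good c₀) U.top Kq hn0
  set K := Kq q with hK
  set g := Kq (q + 1) with hg
  have hKg : K ≤ g := k3 q
  have hg0 : 0 < g := k1 (q + 1)
  have hgg := k2 q
  have hfK : f K ≤ g := ((le_max_left _ _).trans (le_max_left _ _)).trans hgg
  have hgR : (0 : ℝ) < g := by exact_mod_cast hg0
  have hK4 : 4 * (K : ℝ) ≤ ε₂ * g := by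
    have h1 : ⌈4 * (K : ℝ) / ε₂⌉₊ ≤ g :=
      ((le_max_left _ _).trans (le_max_right _ _)).trans hgg
    have h2 : 4 * (K : ℝ) / ε₂ ≤ g := (Nat.le_ceil _).trans (by exact_mod_cast h1)
    rw [div_le_iff₀ hε₂] at h2
    linarith
  have hCg : 6 * C K ≤ δ K * Real.log 2 * g := by
    have h1 : ⌈6 * C K / (δ K * Real.log 2)⌉₊ ≤ g :=
      ((le_max_right _ _).trans (le_max_right _ _)).trans hgg
    have h2 : 6 * C K / (δ K * Real.log 2) ≤ g := (Nat.le_ceil _).trans (by exact_mod_cast h1)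
    have h3 := d1 K
    rw [div_le_iff₀ (by positivity)] at h2
    linarith
  have hdvd : g ∣ M * t := (k4 (q + 1) n hq).mul_right t
  have hjq' := hjq q hq
  have hj5 : 12 * C K ≤ δ K * Real.log 2 * j := by
    have h1 := (le_max_left _ _).trans hjq'
    have h3 := d1 K
    rw [div_le_iff₀ (by positivity)] at h1
    linarith
  have hj6 : Real.log (A g) - 2 * Real.log (c₁ * b K / 16) <
      (beta - 1) * η / 8 * (j * Real.log 2) := by
    have h1 := ((le_max_left _ _).trans (le_max_right _ _)).trans hjq'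
    rw [div_le_iff₀ (by positivity)] at h1
    have h2 : (beta - 1) * η / 8 * (j * Real.log 2) = j * (α * η / 8 * Real.log 2) := by
      rw [← hα]; ring
    rw [h2]
    linarith
  have hj7 : 2 * Real.log (A g) ≤ j * Real.log 2 := by
    have h1 := ((le_max_right _ _).trans (le_max_right _ _)).trans hjq'
    rwa [div_le_iff₀ hl2] at h1
  have hn8 : 8 ≤ n * (ε₂ * c₁) := by
    have := hn.le
    rwa [div_le_iff₀ (by positivity)] at this
  refine ⟨K, g, k1 q, hKg, hfK, ?_⟩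
  exact R.finish hb cst (c₀ := c₀) (A := A) (M := M * t) (n := n) (C' := C') hB2 hθ hη0 hη1
    (by rw [hηb]) g4 (by linarith) (by positivity) (by linarith) (g3 q hq) rfl rfl hc₁0 hε₂
    (hε₃ K) (hbp K) (hA g) hg0 hKg hK4 hCg u1 (Nat.mul_pos hM1 ht0) hdvd hj5 hj6 hj7
    (f2 U U.top le_rfl) (by linarith) hn8 hpig

end Vale.Agent.P065.H859
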