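import Vale.Agent.P065.H859.Rich

/-!
# P065: the typical window (helper859)
-/

set_option autoImplicit false

namespace Vale.Agent.P065.H859

open Finset Vale.Agent.P065.UB Vale.Agent.P065.UB.RankAux Vale.Agent.P065.Ent

theorem Ex_PE_cnd {Ω κ : Type*} [Fintype Ω] {μ : Ω → ℝ} (hμ : IsProb μ) (Y : Ω → κ)
    (Q : Ω → Prop) : Ex μ (fun ω => PE (cnd μ Y (Y ω)) Q) = PE μ Q := by
  classical
  have h1 := sum_fiber μ Y (fun y => PE (cnd μ Y y) Q)
  unfold Ex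
  rw [h1, PE_eq]
  have h2 : ∑ ω, (if Q ω then μ ω else 0) = ∑ ω, μ ω * (if Q ω then (1 : ℝ) else 0) :=
    sum_congr rfl fun ω _ => by split_ifs <;> ring
  rw [h2, sum_cnd_fiber hμ Y (fun _ ω => if Q ω then (1 : ℝ) else 0)]
  refine sum_congr rfl fun y _ => ?_
  rw [PE_eq]
  congr 1
  exact sum_congr rfl fun ω _ => by split_ifs <;> ring

theorem Ex_Hc_cnd {Ω κ α β : Type*} [Fintype Ω] {μ : Ω → ℝ} (hμ : IsProb μ) (X : Ω → α)
    (V : Ω → β) (Y : Ω → κ) : Ex μ (fun ω => Hc (cnd μ Y (Y ω)) X V) =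
      Hc μ X (fun ω => (V ω, Y ω)) := by
  classical
  rw [Hc_fiber' hμ]
  unfold Ex
  exact sum_fiber μ Y (fun y => Hc (cnd μ Y y) X V)

/-- averaging over windows and classes -/
theorem exists_window {Ω κ α β : Type*} [Fintype Ω] {μ : Ω → ℝ} (hμ : IsProb μ)
    (hpos : ∀ ω, 0 < μ ω) {T : ℕ} (hT : 0 < T) (Y : ℕ → Ω → κ) (Z R : ℕ → Ω → Prop)
    (X : ℕ → Ω → α) (V : ℕ → Ω → β) {c e b : ℝ} (hc : 0 < c) (he : 0 < e) (hb : 0 < b)
    (h : c * T ≤ ∑ s ∈ range T, PE μ (Z s) - (∑ s ∈ range T,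
      Hc μ (X s) (fun ω => (V s ω, Y s ω))) / e - (∑ s ∈ range T, PE μ (R s)) / b) :
    ∃ s < T, ∃ ω, c ≤ PE (cnd μ (Y s) (Y s ω)) (Z s) ∧
      Hc (cnd μ (Y s) (Y s ω)) (X s) (V s) ≤ e ∧ PE (cnd μ (Y s) (Y s ω)) (R s) ≤ b := by
  classical
  set F : ℕ → Ω → ℝ := fun s ω => PE (cnd μ (Y s) (Y s ω)) (Z s) -
    Hc (cnd μ (Y s) (Y s ω)) (X s) (V s) / e - PE (cnd μ (Y s) (Y s ω)) (R s) / b with hF
  have h1 : ∀ s, Ex μ (F s) = PE μ (Z s) - Hc μ (X s) (fun ω => (V s ω, Y s ω)) / e -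
      PE μ (R s) / b := by
    intro s
    rw [← Ex_PE_cnd hμ (Y s) (Z s), ← Ex_PE_cnd hμ (Y s) (R s), ← Ex_Hc_cnd hμ]
    unfold Ex
    rw [sum_div, sum_div, ← sum_sub_distrib, ← sum_sub_distrib]
    refine sum_congr rfl fun ω _ => ?_
    rw [hF]
    ring
  have h2 : ∑ _s ∈ range T, c ≤ ∑ s ∈ range T, Ex μ (F s) := by
    rw [sum_congr rfl fun s _ => h1 s, sum_sub_distrib, sum_sub_distrib, ← sum_div, ← sum_div,
      sum_const, card_range, nsmul_eq_mul, mul_comm]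
    exact h
  obtain ⟨s, hs, h3⟩ := exists_le_of_sum_le (nonempty_range_iff.2 (by omega)) h2
  refine ⟨s, mem_range.1 hs, ?_⟩
  have h4 : ∃ ω, c ≤ F s ω := by
    by_contra hcon
    push Not at hcon
    have h5 : Ex μ (F s) < c := by
      have h6 : Ex μ (F s) < ∑ ω, μ ω * c := by
        unfold Ex
        have hne : (univ : Finset Ω).Nonempty := by
          by_contra hemp
          rw [not_nonempty_iff_eq_empty] at hemp
          have := hμ.sum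
          rw [hemp, sum_empty] at this
          exact zero_ne_one this
        exact sum_lt_sum_of_nonempty hne fun ω _ =>
          mul_lt_mul_of_pos_left (hcon ω) (hpos ω)
      rwa [← sum_mul, hμ.sum, one_mul] at h6
    linarith
  obtain ⟨ω, hω⟩ := h4
  have hpr : IsProb (cnd μ (Y s) (Y s ω)) := cnd_isProb hμ (Pr_pos hμ (Y s) (hpos ω))
  have q1 : 0 ≤ Hc (cnd μ (Y s) (Y s ω)) (X s) (V s) / e := div_nonneg (Hc_nonneg hpr _ _) he.le
  have q2 : 0 ≤ PE (cnd μ (Y s) (Y s ω)) (R s) / b := div_nonneg (Pr_nonneg hpr _ _) hb.le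
  have q3 : PE (cnd μ (Y s) (Y s ω)) (Z s) ≤ 1 := Pr_le_one hpr _ _
  have q4 : c ≤ PE (cnd μ (Y s) (Y s ω)) (Z s) -
    Hc (cnd μ (Y s) (Y s ω)) (X s) (V s) / e - PE (cnd μ (Y s) (Y s ω)) (R s) / b := hω
  refine ⟨ω, by linarith, ?_, ?_⟩
  · have : Hc (cnd μ (Y s) (Y s ω)) (X s) (V s) / e ≤ 1 := by linarith
    rwa [div_le_one he] at this
  · have : PE (cnd μ (Y s) (Y s ω)) (R s) / b ≤ 1 := by linarith
    rwa [div_le_one hb] at this

namespace Conf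

variable {p w : ℕ} (U : Conf p w)

open Classical in
/-- the levels where the line splits -/
noncomputable def good (c₀ : ℝ) (ω : Fin p × Fin w) : Finset ℕ :=
  {i ∈ range U.top | c₀ ≤ U.xi i ω}

theorem sum_xi_le {c₀ : ℝ} (hc : 0 ≤ c₀) :
    ∑ i ∈ range U.top, Ex U.μ (U.xi i) ≤
      c₀ * U.top + Real.log U.B * Ex U.μ (fun ω => (#(U.good c₀ ω) : ℝ)) := by
  classical
  have hlB : 0 ≤ Real.log U.B := Real.log_nonneg (by exact_mod_cast U.B_pos)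
  have h1 : ∀ ω, ∑ i ∈ range U.top, U.xi i ω ≤ c₀ * U.top + Real.log U.B * #(U.good c₀ ω) := by
    intro ω
    have h2 : ∀ i ∈ range U.top, U.xi i ω ≤
        c₀ + Real.log U.B * (if c₀ ≤ U.xi i ω then (1 : ℝ) else 0) := by
      intro i _
      split_ifs with h
      · have := U.xi_le i ω
        linarith
      · push Not at h
        linarith
    refine (sum_le_sum h2).trans (le_of_eq ?_)
    rw [sum_add_distrib, sum_const, card_range, nsmul_eq_mul, ← mul_sum, good, card_filter]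
    push_cast
    ring
  have h3 : ∑ i ∈ range U.top, Ex U.μ (U.xi i) = ∑ ω, U.μ ω * ∑ i ∈ range U.top, U.xi i ω := by
    unfold Ex
    rw [sum_comm]
    exact sum_congr rfl fun ω _ => by rw [mul_sum]
  rw [h3]
  have h4 : ∑ ω, U.μ ω * ∑ i ∈ range U.top, U.xi i ω ≤
      ∑ ω, U.μ ω * (c₀ * U.top + Real.log U.B * #(U.good c₀ ω)) :=
    sum_le_sum fun ω _ => mul_le_mul_of_nonneg_left (h1 ω) (U.prob.nonneg ω)
  refine h4.trans (le_of_eq ?_)
  have h5 : ∀ ω, U.μ ω * (c₀ * U.top + Real.log U.B * #(U.good c₀ ω)) =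
      U.μ ω * (c₀ * U.top) + Real.log U.B * (U.μ ω * #(U.good c₀ ω)) := fun ω => by ring
  rw [sum_congr rfl fun ω _ => h5 ω, sum_add_distrib, ← sum_mul, U.prob.sum, one_mul,
    ← mul_sum]
  rfl

/-- the event that the line splits often in the levels `[i₀, i₀ + g)` -/
def Zw (c₀ c₁ ε₂ : ℝ) (K i₀ g : ℕ) (ω : Fin p × Fin w) : Prop :=
  ∃ G : Finset ℕ, (∀ i ∈ G, i ∈ Ico i₀ (i₀ + g) ∧ c₀ ≤ U.xi i ω) ∧ c₁ / 4 * g ≤ #G ∧
    ∃ N : Finset ℕ, N ⊆ Ico i₀ (i₀ + g) ∧ (#N : ℝ) ≤ ε₂ * g ∧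
      ∀ i ∈ Ico i₀ (i₀ + g), i ∉ N → ∃ i' ∈ G, i' ≤ i + K ∧ i ≤ i' + K

theorem Zw_of_Zev {c₀ c₁ ε₂ : ℝ} {K g s : ℕ} {ω : Fin p × Fin w}
    (h : Zev (U.good c₀) c₁ ε₂ g s K ω) : U.Zw c₀ c₁ ε₂ K (g * s) g ω := by
  classical
  obtain ⟨h1, h2⟩ := h
  refine ⟨U.good c₀ ω ∩ win g s, ?_, h1, lonely g s K (U.good c₀ ω), ?_, h2, ?_⟩
  · intro i hi
    rw [mem_inter] at hi
    refine ⟨hi.2, ?_⟩
    have := hi.1
    unfold good at this
    exact (mem_filter.1 this).2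
  · exact filter_subset _ _
  · intro i hi hn
    unfold lonely at hn
    rw [mem_filter] at hn
    push Not at hn
    obtain ⟨i', h3, h4, h5, h6⟩ := hn hi
    exact ⟨i', mem_inter.2 ⟨h3, h4⟩, h5, h6⟩

end Conf

/-- the typical window: `g` levels from `i₀`, the class of `ω₀`, labels `Λ` before and `Λ'` after -/
structure Sel (B₀ : ℕ) (c₀ c₁ θ ε₂ ε₃ b A : ℝ) (K g : ℕ) where
  p : ℕ
  w : ℕ
  U : Conf p w
  i₀ : ℕ
  Λ : Fin p × Fin w → Fin p × Fin w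
  Λ' : Fin p × Fin w → Fin p × Fin w
  ω₀ : Fin p × Fin w
  hB : U.B = B₀
  htop : i₀ + g ≤ U.top
  det : Det (fun ω => (U.C i₀ ω, U.ln ω)) Λ
  det₁ : Det Λ' Λ
  det₂ : Det (fun ω => (U.C (i₀ + g) ω, Λ ω, U.ln ω)) Λ'
  opt : Opt U.toUFlags (U.C (i₀ + g)) (beta⁻¹ + θ) (1 - beta⁻¹) Λ'
  hZ : c₁ / 4 ≤ PE (cnd U.μ (fun ω => (U.C i₀ ω, Λ ω)) (U.C i₀ ω₀, Λ ω₀))
    (U.Zw c₀ c₁ ε₂ K i₀ g)
  hH : Hc (cnd U.μ (fun ω => (U.C i₀ ω, Λ ω)) (U.C i₀ ω₀, Λ ω₀)) Λ' (U.C (i₀ + g)) ≤ ε₃ * g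
  hR : PE (cnd U.μ (fun ω => (U.C i₀ ω, Λ ω)) (U.C i₀ ω₀, Λ ω₀))
    (fun ω => ¬ Rich U (fun ω => (U.C (i₀ + g) ω, Λ' ω)) A ω) ≤ b

/-- the window exists as soon as the numbers are good -/
theorem sel_of {β' θ C : ℝ} (hrare : RareProp β' θ C) {p w : ℕ} (U : Conf p w)
    {ε εB η δ L c₀ c₁ ε₂ ε₃ b A : ℝ} {g T K : ℕ} (N : Num p w U β' θ ε εB η δ L C T)
    (hgT : g * T = U.top) (hg : 0 < g) (hT : 0 < T) (hc₁ : 0 < c₁) (hε₃ : 0 < ε₃) (hbp : 0 < b)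
    (hA : 0 < A)
    (hsum : c₁ / 2 * T ≤ ∑ s ∈ range T, PE U.μ (Zev (U.good c₀) c₁ ε₂ g s K))
    (hδ1 : δ * (1 + (2 * beta + 1) / (beta * θ * (c₁ * b / 16))) ≤ (beta - 1) * η / 8)
    (hδ2 : 2 * δ ≤ beta * θ * (c₁ * b / 16))
    (hA1 : Real.log A - 2 * Real.log (c₁ * b / 16) < (beta - 1) * η / 8 * L)
    (hA2 : 2 * Real.log A ≤ L)
    (hδ3 : δ / (beta * θ) * L ≤ c₁ / 8 * (ε₃ * g) * T) :
    Nonempty (Sel U.B c₀ c₁ θ ε₂ ε₃ b A K g) := by
  classical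
  have hgR : (0 : ℝ) < g := by exact_mod_cast hg
  have hTR : (0 : ℝ) < T := by exact_mod_cast hT
  set lv : ℕ → ℕ := fun s => min (g * s) U.top with hlv
  have hlvm : Monotone lv := by
    intro s s' h
    exact min_le_min (Nat.mul_le_mul_left _ h) le_rfl
  have hlv0 : lv 0 = 0 := by simp [hlv]
  have hlvt : ∀ s, lv s ≤ U.top := fun s => min_le_right _ _
  have hlve : ∀ s ≤ T, lv s = g * s := by
    intro s hs
    apply min_eq_left
    rw [← hgT]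
    exact Nat.mul_le_mul_left _ hs
  obtain ⟨Λ, g0, g1, g2, g3, g4⟩ := hrare U lv hlvm hlv0 hlvt
  obtain ⟨hS, hR⟩ := g4 T ε εB η δ L N
  have hbs : 0 < c₁ * b / 16 := by positivity
  have hR' := hR (c₁ * b / 16) A hbs hA hδ1 hδ2 hA1 hA2
  have hdet : ∀ s, Det (fun ω => (U.C (lv s) ω, U.ln ω)) (Λ s) := by
    intro s
    induction s with
    | zero => exact fun ω ω' _ => g0 ω ω'
    | succ s ih =>
      refine Det.trans ?_ (g2 s)
      refine (det_fst _ _).pair (Det.pair ?_ (det_snd _ _))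
      refine Det.trans ?_ ih
      exact ((det_fst _ _).trans (U.C_det (hlvm (Nat.le_succ s)))).pair (det_snd _ _)
  have key := exists_window U.prob U.mu_pos hT (fun s ω => (U.C (g * s) ω, Λ s ω))
    (fun s => Zev (U.good c₀) c₁ ε₂ g s K)
    (fun s ω => ¬ Rich U (fun ω => (U.C (g * s + g) ω, Λ (s + 1) ω)) A ω)
    (fun s => Λ (s + 1)) (fun s => U.C (g * s + g)) (c := c₁ / 4) (e := ε₃ * g) (b := b)
    (by positivity) (by positivity) hbp (by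
      have e1 : ∑ s ∈ range T, Hc U.μ (Λ (s + 1))
          (fun ω => (U.C (g * s + g) ω, (U.C (g * s) ω, Λ s ω))) =
          ∑ s ∈ range T, Hc U.μ (Λ (s + 1)) (fun ω => (U.C (lv (s + 1)) ω, Λ s ω)) := by
        refine sum_congr rfl fun s hs => ?_
        have hs' := mem_range.1 hs
        have e2 : lv (s + 1) = g * s + g := by rw [hlve (s + 1) hs', mul_add, mul_one]
        rw [e2]
        refine Hc_congr (Det.refl _) (Det.refl _) ?_ ?_
        · exact (det_fst _ _).pair ((det_snd _ _).trans (det_snd _ _))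
        · exact (det_fst _ _).pair (((det_fst _ _).trans (U.C_det (by omega))).pair
            (det_snd _ _))
      have e2 : (∑ s ∈ range T, Hc U.μ (Λ (s + 1))
          (fun ω => (U.C (g * s + g) ω, (U.C (g * s) ω, Λ s ω)))) / (ε₃ * g) ≤ c₁ / 8 * T := by
        rw [e1, div_le_iff₀ (by positivity)]
        linarith
      have e3 : (∑ s ∈ range T, PE U.μ
          (fun ω => ¬ Rich U (fun ω => (U.C (g * s + g) ω, Λ (s + 1) ω)) A ω)) / b ≤
          c₁ / 8 * T := by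
        rw [div_le_iff₀ hbp]
        have e4 : ∀ s ∈ range T, PE U.μ
            (fun ω => ¬ Rich U (fun ω => (U.C (g * s + g) ω, Λ (s + 1) ω)) A ω) ≤
            2 * (c₁ * b / 16) := by
          intro s hs
          have hs' := mem_range.1 hs
          have e5 := hR' (s + 1) hs'
          rw [hlve (s + 1) hs', mul_add, mul_one] at e5
          exact e5
        refine (sum_le_sum e4).trans (le_of_eq ?_)
        rw [sum_const, card_range, nsmul_eq_mul]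
        ring
      linarith)
  obtain ⟨s, hs, ω₀, k1, k2, k3⟩ := key
  have e0 : lv s = g * s := hlve s hs.le
  have e1 : lv (s + 1) = g * s + g := by rw [hlve (s + 1) hs, mul_add, mul_one]
  have hd := hdet s
  rw [e0] at hd
  have hd2 := g2 s
  rw [e1] at hd2
  have ho : Opt U.toUFlags (U.C (g * s + g)) (beta⁻¹ + θ) (1 - beta⁻¹) (Λ (s + 1)) := by
    rw [← e1]
    exact @g3 s
  refine ⟨⟨p, w, U, g * s, Λ s, Λ (s + 1), ω₀, rfl, ?_, hd, g1 s, hd2, ho, ?_, k2, k3⟩⟩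
  · rw [← hgT]
    have : g * (s + 1) ≤ g * T := Nat.mul_le_mul_left _ hs
    have e2 : g * (s + 1) = g * s + g := by ring
    omega
  · refine k1.trans ?_
    have hpr := U.cnd_prob (fun ω => (U.C (g * s) ω, Λ s ω)) ω₀
    have := PE_le_add hpr (Q := Zev (U.good c₀) c₁ ε₂ g s K)
      (Q₁ := U.Zw c₀ c₁ ε₂ K (g * s) g) (Q₂ := fun _ => False)
      (fun ω h => Or.inl (U.Zw_of_Zev h))
    have h0 : PE (cnd U.μ (fun ω => (U.C (g * s) ω, Λ s ω)) (U.C (g * s) ω₀, Λ s ω₀))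
        (fun _ => False) = 0 := by
      rw [PE_eq]
      simp
    linarith

/-- all numbers depending on `K` -/
theorem exists_delta {α η β θ b x ε : ℝ} (hα : 0 < α) (hη : 0 < η) (hβ : 0 < β) (hθ : 0 < θ)
    (hb : 0 < b) (hx : 0 < x) (hε : 0 < ε) : ∃ δ : ℝ, 0 < δ ∧ δ ≤ β ∧
      δ * (1 + (2 * β + 1) / (β * θ * b)) ≤ α * η / 8 ∧ 2 * δ ≤ β * θ * b ∧
      δ * x ≤ ε * β * θ := by
  have h1 : 0 < 1 + (2 * β + 1) / (β * θ * b) := by positivity
  refine ⟨min (min β (α * η / 8 / (1 + (2 * β + 1) / (β * θ * b))))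
    (min (β * θ * b / 2) (ε * β * θ / x)), ?_, ?_, ?_, ?_, ?_⟩
  · apply lt_min (lt_min hβ (by positivity)) (lt_min (by positivity) (by positivity))
  · exact (min_le_left _ _).trans (min_le_left _ _)
  · rw [← le_div_iff₀ h1]
    exact (min_le_left _ _).trans (min_le_right _ _)
  · have := (min_le_right (min β (α * η / 8 / (1 + (2 * β + 1) / (β * θ * b))))
      (min (β * θ * b / 2) (ε * β * θ / x))).trans (min_le_left _ _)
    linarith
  · rw [← le_div_iff₀ hx]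
    exact (min_le_right _ _).trans (min_le_right _ _)

theorem exists_scales (gg : ℕ → ℕ) (h1 : ∀ K, 1 ≤ gg K) : ∃ Kq : ℕ → ℕ, (∀ q, 1 ≤ Kq q) ∧
    (∀ q, gg (Kq q) ≤ Kq (q + 1)) ∧ (∀ q, Kq q ≤ Kq (q + 1)) ∧
    ∀ q q', q ≤ q' → Kq q ∣ Kq q' := by
  let Kq : ℕ → ℕ := fun q => Nat.rec 1 (fun _ K => K * gg K) q
  have h0 : ∀ q, Kq (q + 1) = Kq q * gg (Kq q) := fun q => rfl
  have h2 : ∀ q, 1 ≤ Kq q := by
    intro q
    induction q with
    | zero => exact le_rfl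
    | succ q ih =>
      rw [h0]
      exact Nat.one_le_iff_ne_zero.2 (Nat.mul_ne_zero (by omega) (by have := h1 (Kq q); omega))
  refine ⟨Kq, h2, ?_, ?_, ?_⟩
  · intro q
    rw [h0]
    exact Nat.le_mul_of_pos_left _ (h2 q)
  · intro q
    rw [h0]
    exact Nat.le_mul_of_pos_right _ (h1 _)
  · intro q q' h
    induction q', h using Nat.le_induction with
    | base => exact dvd_rfl
    | succ n _ ih => exact ih.trans ⟨_, h0 n⟩

theorem exists_min_pos (F : ℕ → ℝ) (hF : ∀ q, 0 < F q) (n : ℕ) {e : ℝ} (he : 0 < e) :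
    ∃ ε : ℝ, 0 < ε ∧ ε ≤ e ∧ ∀ q < n, ε ≤ F q := by
  induction n with
  | zero => exact ⟨e, he, le_rfl, fun q hq => absurd hq (Nat.not_lt_zero q)⟩
  | succ n ih =>
    obtain ⟨ε, h1, h2, h3⟩ := ih
    refine ⟨min ε (F n), lt_min h1 (hF n), (min_le_left _ _).trans h2, fun q hq => ?_⟩
    rcases Nat.lt_succ_iff_lt_or_eq.1 hq with h | h
    · exact (min_le_left _ _).trans (h3 q h)
    · rw [h]; exact min_le_right _ _

theorem exists_large_j (F : ℕ → ℝ) (n : ℕ) (a : ℝ) : ∃ j₀ : ℕ, ∀ j : ℕ, j₀ ≤ j →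
    a ≤ j ∧ ∀ q < n, F q ≤ j := by
  induction n with
  | zero =>
    obtain ⟨j₀, h⟩ := exists_nat_ge a
    exact ⟨j₀, fun j hj => ⟨h.trans (by exact_mod_cast hj),
      fun q hq => absurd hq (Nat.not_lt_zero q)⟩⟩
  | succ n ih =>
    obtain ⟨j₀, h1⟩ := ih
    obtain ⟨j₁, h2⟩ := exists_nat_ge (F n)
    refine ⟨max j₀ j₁, fun j hj => ?_⟩
    obtain ⟨h3, h4⟩ := h1 j ((le_max_left _ _).trans hj)
    refine ⟨h3, fun q hq => ?_⟩
    rcases Nat.lt_succ_iff_lt_or_eq.1 hq with h | h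
    · exact h4 q h
    · rw [h]
      exact h2.trans (by exact_mod_cast (le_max_right _ _).trans hj)

end Vale.Agent.P065.H859
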