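import Vale.Agent.P065.H859.EntF

/-!
# P065: the telescoping inequality (helper859)

A chain of windows `W s` and labels `Λ s`. In every step the time is refined (entropic bound) and
then the label (cost `a s + b s`, gain `b s - c s` in the logarithm of the size).
-/

set_option autoImplicit false

namespace Vale.Agent.P065.H859

open Finset Vale.Agent.P065.Ent

/-- **the telescoping inequality**, without the leaf term -/
theorem telescope {β' : ℝ} (hβ : beta < β') : ∃ C : ℝ, 0 ≤ C ∧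
    ∀ {Ω : Type*} [Fintype Ω] (S : Flags Ω) (T : ℕ) {ι ζ : Type*} (W : ℕ → Ω → ι)
      (Λ : ℕ → Ω → ζ) (J : ℕ → ι → Set ℝ), (∀ s i, (J s i).OrdConnected) →
      (∀ s i j, i ≠ j → Disjoint (J s i) (J s j)) → (∀ s ω, S.tm ω ∈ J s (W s ω)) →
      (∀ s, Det (W (s + 1)) (W s)) → (∀ s, Det (Λ (s + 1)) (Λ s)) →
      ∀ a b c : ℕ → ℝ,
      (∀ s < T, S.Ls (fun ω => (W (s + 1) ω, Λ (s + 1) ω)) ≤
        S.Ls (fun ω => (W (s + 1) ω, Λ s ω)) - b s + c s) →
      (∀ s < T, Hc S.μ (Λ (s + 1)) (fun ω => (W (s + 1) ω, Λ s ω)) ≤ a s + b s) →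
      H S.μ (fun ω => (W T ω, Λ T ω)) + β' * S.Ls (fun ω => (W T ω, Λ T ω)) +
        (β' - 1) * ∑ s ∈ range T, b s ≤
      H S.μ (fun ω => (W 0 ω, Λ 0 ω)) + β' * S.Ls (fun ω => (W 0 ω, Λ 0 ω)) +
        ∑ s ∈ range T, a s + β' * ∑ s ∈ range T, c s + C * T := by
  obtain ⟨C, hC, hE⟩ := entropic_bound hβ
  refine ⟨C, hC, ?_⟩
  intro Ω _ S T ι ζ W Λ J hJ hd htm hW hΛ a b c hb ha
  have hβ0 : 0 ≤ β' := by
    have := beta_nonneg
    linarith
  induction T with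
  | zero => simp
  | succ T ih =>
    have ih' := ih (fun s hs => hb s (by omega)) (fun s hs => ha s (by omega))
    rw [sum_range_succ, sum_range_succ, sum_range_succ]
    have hb' := hb T (by omega)
    have ha' := ha T (by omega)
    -- the time step
    have h1 := hE S (fun ω => (W T ω, Λ T ω)) (W (T + 1)) (J (T + 1)) (hJ _) (hd _) (htm _)
    have hdet1 : Det (fun ω => ((W T ω, Λ T ω), W (T + 1) ω)) (fun ω => (W (T + 1) ω, Λ T ω)) :=
      (det_snd _ _).pair ((det_fst (fun ω => (W T ω, Λ T ω)) _).trans (det_snd _ _))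
    have hdet2 : Det (fun ω => (W (T + 1) ω, Λ T ω)) (fun ω => ((W T ω, Λ T ω), W (T + 1) ω)) :=
      (((det_fst _ _).trans (hW T)).pair (det_snd _ _)).pair (det_fst _ _)
    have h2 : S.Ls (fun ω => ((W T ω, Λ T ω), W (T + 1) ω)) =
        S.Ls (fun ω => (W (T + 1) ω, Λ T ω)) := S.Ls_congr hdet1 hdet2
    rw [h2] at h1
    have h3 : Hc S.μ (W (T + 1)) (fun ω => (W T ω, Λ T ω)) =
        H S.μ (fun ω => (W (T + 1) ω, Λ T ω)) - H S.μ (fun ω => (W T ω, Λ T ω)) :=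
      Hc_eq ((det_fst _ _))
        (((det_fst (W (T + 1)) (Λ T)).trans (hW T)).pair (det_snd _ _))
        (by
          intro ω ω' h
          have h4 := Prod.mk.inj h
          have h5 := Prod.mk.inj h4.2
          exact Prod.ext h4.1 h5.2)
    have h4 : Hc S.μ (Λ (T + 1)) (fun ω => (W (T + 1) ω, Λ T ω)) =
        H S.μ (fun ω => (W (T + 1) ω, Λ (T + 1) ω)) - H S.μ (fun ω => (W (T + 1) ω, Λ T ω)) :=
      Hc_eq (det_snd _ _)
        ((det_fst _ _).pair ((det_snd _ _).trans (hΛ T)))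
        (by
          intro ω ω' h
          have h4 := Prod.mk.inj h
          have h5 := Prod.mk.inj h4.2
          exact Prod.ext h5.1 h4.1)
    rw [h3] at h1
    rw [h4] at ha'
    push_cast
    nlinarith [mul_le_mul_of_nonneg_left hb' hβ0]

/-- the leaf inequality -/
theorem leaf_ls {Ω : Type*} [Fintype Ω] (S : Flags Ω) {α ζ : Type*} (X : Ω → α) (Λ : Ω → ζ)
    {w : ℝ} (hw : 0 < w)
    (h : ∀ ω, 0 < S.μ ω → w * Pr S.μ (fun ω => (X ω, Λ ω)) (X ω, Λ ω) ≤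
      Pr S.μ X (X ω) * S.sz (fun ω => (X ω, Λ ω)) ω) :
    Real.log w - Hc S.μ Λ X ≤ S.Ls (fun ω => (X ω, Λ ω)) := by
  have hH := Hc_eq_sum S.prob Λ X
  rw [hH]
  have h1 : Real.log w = ∑ ω, S.μ ω * Real.log w := by
    rw [← sum_mul, S.prob.sum, one_mul]
  rw [h1, ← sum_sub_distrib]
  unfold Flags.Ls Ex
  refine sum_le_sum fun ω _ => ?_
  rw [← mul_sub]
  rcases (S.prob.nonneg ω).eq_or_lt with h0 | h0
  · rw [← h0, zero_mul, zero_mul]
  · apply mul_le_mul_of_nonneg_left _ h0.le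
    have p1 : 0 < Pr S.μ (fun ω => (X ω, Λ ω)) (X ω, Λ ω) := Pr_pos S.prob _ h0
    have p2 : 0 < Pr S.μ X (X ω) := Pr_pos S.prob _ h0
    have p3 : Pr S.μ (fun ω => (Λ ω, X ω)) (Λ ω, X ω) =
        Pr S.μ (fun ω => (X ω, Λ ω)) (X ω, Λ ω) := Pr_congr (det_swap _ _) (det_swap _ _) ω
    rw [p3, sub_neg_eq_add, ← Real.log_mul hw.ne' (by positivity)]
    apply Real.log_le_log (by positivity)
    rw [← mul_div_assoc, div_le_iff₀ p2]
    have := h ω h0
    linarith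

/-- uniform flags: `p` disjoint windows and `w` different points in every window -/
structure UFlags (p w : ℕ) extends Flags (Fin p × Fin w) where
  unif : ∀ ω, μ ω = 1 / ((p : ℝ) * w)
  J : Fin p → Set ℝ
  conn : ∀ a, (J a).OrdConnected
  disj : ∀ a b, a ≠ b → Disjoint (J a) (J b)
  mem : ∀ ω, tm ω ∈ J ω.1
  inj : ∀ a u v, ln (a, u) = ln (a, v) → u = v

namespace UFlags

variable {p w : ℕ} (U : UFlags p w)

include U in
theorem pos : 0 < p ∧ 0 < w := by
  by_contra h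
  have h1 : p = 0 ∨ w = 0 := by omega
  have h2 := U.prob.sum
  rcases h1 with rfl | rfl
  · simp at h2
  · simp at h2

theorem Pr_fst (a : Fin p) : Pr U.μ Prod.fst a = 1 / p := by
  classical
  obtain ⟨hp, hw⟩ := U.pos
  have hp' : (0 : ℝ) < p := by exact_mod_cast hp
  have hw' : (0 : ℝ) < w := by exact_mod_cast hw
  unfold Pr
  rw [Fintype.sum_prod_type, sum_eq_single a]
  · simp only [if_true, U.unif, sum_const, card_univ, Fintype.card_fin, nsmul_eq_mul]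
    field_simp
  · intro b _ hb
    refine sum_eq_zero fun u _ => ?_
    rw [if_neg hb]
  · intro h; exact absurd (mem_univ a) h

theorem H_fst : H U.μ Prod.fst = Real.log p := by
  obtain ⟨hp, hw⟩ := U.pos
  unfold H
  have : ∀ ω : Fin p × Fin w, U.μ ω * (-Real.log (Pr U.μ Prod.fst ω.1)) =
      U.μ ω * Real.log p := by
    intro ω
    rw [U.Pr_fst, one_div, Real.log_inv, neg_neg]
  rw [sum_congr rfl fun ω _ => this ω, ← sum_mul, U.prob.sum, one_mul]

theorem leaf_hyp {ζ : Type*} (Λ : Fin p × Fin w → ζ) (ω : Fin p × Fin w) :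
    (w : ℝ) * Pr U.μ (fun ω => (ω.1, Λ ω)) (ω.1, Λ ω) ≤
      Pr U.μ Prod.fst ω.1 * U.sz (fun ω => (ω.1, Λ ω)) ω := by
  classical
  obtain ⟨hp, hw⟩ := U.pos
  have hp' : (0 : ℝ) < p := by exact_mod_cast hp
  have hw' : (0 : ℝ) < w := by exact_mod_cast hw
  set A : Finset (Fin w) := {u | Λ (ω.1, u) = Λ ω} with hA
  have h1 : Pr U.μ (fun ω => (ω.1, Λ ω)) (ω.1, Λ ω) = #A / ((p : ℝ) * w) := by
    unfold Pr
    rw [Fintype.sum_prod_type, sum_eq_single ω.1]
    · rw [hA, card_filter]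
      push_cast
      rw [sum_div]
      refine sum_congr rfl fun u _ => ?_
      split_ifs with h1 h2 h2
      · exact U.unif _
      · exact absurd (Prod.mk.inj h1).2 h2
      · exact absurd (Prod.mk.injEq .. ▸ ⟨rfl, h2⟩) h1
      · simp
    · intro b _ hb
      refine sum_eq_zero fun u _ => ?_
      rw [if_neg]
      intro h
      exact hb (Prod.mk.inj h).1
    · intro h; exact absurd (mem_univ _) h
  have h2 : (#A : ℝ) ≤ U.sz (fun ω => (ω.1, Λ ω)) ω := by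
    have h3 := card_pts_le (U.isRealE_cls (fun ω => (ω.1, Λ ω)) (ω.1, Λ ω))
    have h4 : #A ≤ #((U.cls (fun ω => (ω.1, Λ ω)) (ω.1, Λ ω)).image Prod.snd) := by
      rw [← card_image_of_injective A (f := fun u => U.ln (ω.1, u))
        (fun u v h => U.inj _ _ _ h)]
      apply card_le_card
      intro v hv
      obtain ⟨u, hu, rfl⟩ := mem_image.1 hv
      rw [mem_image]
      refine ⟨(U.tm (ω.1, u), U.ln (ω.1, u)), ?_, rfl⟩
      rw [U.mem_cls]
      refine ⟨(ω.1, u), ?_, rfl⟩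
      have := (mem_filter.1 hu).2
      simp only [this]
    unfold Flags.sz
    exact_mod_cast h4.trans h3
  rw [h1, U.Pr_fst]
  calc (w : ℝ) * (#A / ((p : ℝ) * w)) = 1 / p * #A := by field_simp
    _ ≤ _ := mul_le_mul_of_nonneg_left h2 (by positivity)

theorem leaf {ζ : Type*} (Λ : Fin p × Fin w → ζ) :
    Real.log w - Hc U.μ Λ Prod.fst ≤ U.Ls (fun ω => (ω.1, Λ ω)) := by
  have hw' : (0 : ℝ) < w := by exact_mod_cast U.pos.2
  exact leaf_ls U.toFlags Prod.fst Λ hw' fun ω _ => U.leaf_hyp Λ ω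

end UFlags

/-- **TI**: the telescoping inequality for uniform flags -/
theorem TI {β' : ℝ} (hβ : beta < β') : ∃ C : ℝ, 0 ≤ C ∧
    ∀ {p w : ℕ} (U : UFlags p w) (T : ℕ) {ι ζ : Type*} (W : ℕ → Fin p × Fin w → ι)
      (Λ : ℕ → Fin p × Fin w → ζ) (J : ℕ → ι → Set ℝ), (∀ s i, (J s i).OrdConnected) →
      (∀ s i j, i ≠ j → Disjoint (J s i) (J s j)) → (∀ s ω, U.tm ω ∈ J s (W s ω)) →
      (∀ s, Det (W (s + 1)) (W s)) → (∀ s, Det (Λ (s + 1)) (Λ s)) →
      Det (Prod.fst : Fin p × Fin w → Fin p) (W T) →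
      ∀ a b c : ℕ → ℝ,
      (∀ s < T, U.Ls (fun ω => (W (s + 1) ω, Λ (s + 1) ω)) ≤
        U.Ls (fun ω => (W (s + 1) ω, Λ s ω)) - b s + c s) →
      (∀ s < T, Hc U.μ (Λ (s + 1)) (fun ω => (W (s + 1) ω, Λ s ω)) ≤ a s + b s) →
      Real.log p + (β' - 1) * ∑ s ∈ range T, b s ≤
      H U.μ (fun ω => (W 0 ω, Λ 0 ω)) + β' * (U.Ls (fun ω => (W 0 ω, Λ 0 ω)) - Real.log w) +
        (β' - 1) * Hc U.μ (Λ T) Prod.fst +
        ∑ s ∈ range T, a s + β' * ∑ s ∈ range T, c s + C * (T + 1) := by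
  obtain ⟨C, hC, hT⟩ := telescope hβ
  obtain ⟨C', hC', hE⟩ := entropic_bound hβ
  refine ⟨C + C', by positivity, ?_⟩
  intro p w U T ι ζ W Λ J hJ hd htm hW hΛ hX a b c hb ha
  have hβ0 : 0 ≤ β' := by
    have := beta_nonneg
    linarith
  have h1 := hT U.toFlags T W Λ J hJ hd htm hW hΛ a b c hb ha
  have h2 := hE U.toFlags (fun ω => (W T ω, Λ T ω)) (Prod.fst : Fin p × Fin w → Fin p) U.J
    U.conn U.disj U.mem
  have h3 := U.leaf (Λ T)
  have hdet1 : Det (fun ω => ((W T ω, Λ T ω), ω.1)) (fun ω : Fin p × Fin w => (ω.1, Λ T ω)) :=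
    (det_snd _ _).pair ((det_fst (fun ω => (W T ω, Λ T ω)) _).trans (det_snd _ _))
  have hdet2 : Det (fun ω : Fin p × Fin w => (ω.1, Λ T ω)) (fun ω => ((W T ω, Λ T ω), ω.1)) :=
    (((det_fst Prod.fst (Λ T)).trans hX).pair (det_snd Prod.fst (Λ T))).pair
      (det_fst Prod.fst (Λ T))
  have h4 : U.Ls (fun ω => ((W T ω, Λ T ω), ω.1)) = U.Ls (fun ω => (ω.1, Λ T ω)) :=
    U.Ls_congr hdet1 hdet2
  rw [h4] at h2
  have h5 : Hc U.μ (Prod.fst : Fin p × Fin w → Fin p) (fun ω => (W T ω, Λ T ω)) =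
      H U.μ (fun ω : Fin p × Fin w => (ω.1, Λ T ω)) - H U.μ (fun ω => (W T ω, Λ T ω)) :=
    Hc_eq (det_fst _ _) (((det_fst Prod.fst (Λ T)).trans hX).pair (det_snd Prod.fst (Λ T)))
      (by
        intro ω ω' h
        have h4 := Prod.mk.inj h
        have h5 := Prod.mk.inj h4.2
        exact Prod.ext h4.1 h5.2)
  have h6 : Hc U.μ (Λ T) (Prod.fst : Fin p × Fin w → Fin p) =
      H U.μ (fun ω : Fin p × Fin w => (ω.1, Λ T ω)) - Real.log p := by
    rw [← U.H_fst]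
    exact Hc_eq (det_snd _ _) (det_fst _ _) (det_swap _ _)
  rw [h5] at h2
  have hT0 : (0 : ℝ) ≤ T := Nat.cast_nonneg T
  nlinarith [mul_le_mul_of_nonneg_left h3 hβ0, mul_nonneg hC' hT0]

end Vale.Agent.P065.H859
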