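import Vale.Agent.P065.H859.Fam

/-!
# P065: tied far points (helper859)

Touch events become edges of the level: one adds, for every event without partner, a far point on
the line of the event and a compensating far point.
-/

set_option autoImplicit false

namespace Vale.Agent.P065.H859

open Finset Vale.Agent.P065.UB Vale.Agent.P065.UB.RankAux

/-- one tied far point: on the line through `v₀` with slope `m₀`, far to the right -/
theorem exists_tied (T : Finset Pt) (hT : Good T) (A : Finset ℝ) (m₀ : ℝ) (v₀ : Pt) (hv : v₀ ∈ T)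
    (hno : ∀ u ∈ T, u ≠ v₀ → ht m₀ u ≠ ht m₀ v₀) :
    ∃ w : Pt, w ∉ T ∧ Good (insert w T) ∧ v₀.1 < w.1 ∧ ht m₀ w = ht m₀ v₀ ∧
      (∀ m ∈ A, m < m₀ → ∀ u ∈ T, ht m u < ht m w) ∧
      (∀ m ∈ A, m₀ < m → ∀ u ∈ T, ht m w < ht m u) := by
  have hlin : ∀ c : ℝ, 0 < c → Filter.Tendsto (fun R : ℝ => R * c) Filter.atTop Filter.atTop :=
    fun c hc => Filter.tendsto_id.atTop_mul_const hc
  have e0 : ∀ᶠ R : ℝ in Filter.atTop, 0 < R := Filter.eventually_gt_atTop 0
  have e1 : ∀ᶠ R : ℝ in Filter.atTop, ∀ u ∈ T, u.1 ≠ v₀.1 + R := by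
    rw [Filter.eventually_all_finset]
    intro u _
    filter_upwards [Filter.eventually_gt_atTop (u.1 - v₀.1)] with R hR h
    linarith
  have e2 : ∀ᶠ R : ℝ in Filter.atTop, ∀ m ∈ A, ∀ u ∈ T, m < m₀ →
      ht m u < ht m v₀ + R * (m₀ - m) := by
    rw [Filter.eventually_all_finset]
    intro m _
    rw [Filter.eventually_all_finset]
    intro u _
    by_cases h : m < m₀
    · filter_upwards [(hlin (m₀ - m) (by linarith)).eventually_gt_atTop
        (ht m u - ht m v₀)] with R hR _
      linarith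
    · exact Filter.Eventually.of_forall fun R h' => absurd h' h
  have e3 : ∀ᶠ R : ℝ in Filter.atTop, ∀ m ∈ A, ∀ u ∈ T, m₀ < m →
      ht m v₀ + R * (m₀ - m) < ht m u := by
    rw [Filter.eventually_all_finset]
    intro m _
    rw [Filter.eventually_all_finset]
    intro u _
    by_cases h : m₀ < m
    · filter_upwards [(hlin (m - m₀) (by linarith)).eventually_gt_atTop
        (ht m v₀ - ht m u)] with R hR _
      nlinarith
    · exact Filter.Eventually.of_forall fun R h' => absurd h' h
  have e4 : ∀ᶠ R : ℝ in Filter.atTop, ∀ a ∈ T, ∀ b ∈ T, a ≠ b → sl a b ≠ m₀ →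
      ht (sl a b) v₀ + R * (m₀ - sl a b) ≠ ht (sl a b) a := by
    rw [Filter.eventually_all_finset]
    intro a ha
    rw [Filter.eventually_all_finset]
    intro b hb
    by_cases hs : sl a b = m₀
    · exact Filter.Eventually.of_forall fun R _ h' => absurd hs h'
    rcases lt_or_gt_of_ne hs with h | h
    · filter_upwards [(hlin (m₀ - sl a b) (by linarith)).eventually_gt_atTop
        (ht (sl a b) a - ht (sl a b) v₀)] with R hR _ _ h'
      nlinarith
    · filter_upwards [(hlin (sl a b - m₀) (by linarith)).eventually_gt_atTop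
        (ht (sl a b) v₀ - ht (sl a b) a)] with R hR _ _ h'
      nlinarith
  obtain ⟨R, h0, h1, h2, h3, h4⟩ := (e0.and (e1.and (e2.and (e3.and e4)))).exists
  have hw : ∀ m, ht m (v₀.1 + R, v₀.2 + m₀ * R) = ht m v₀ + R * (m₀ - m) := by
    intro m; unfold ht; ring
  refine ⟨(v₀.1 + R, v₀.2 + m₀ * R), ?_, ?_, ?_, ?_, ?_, ?_⟩
  · intro h
    exact h1 _ h rfl
  · refine good_of_insert hT (fun h => h1 _ h rfl) h1 ?_
    intro a ha b hb hab
    rw [hw]
    by_cases hs : sl a b = m₀
    · rw [hs]
      intro h'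
      have hax : a.1 ≠ b.1 := fun h'' => hab (hT.xinj a ha b hb h'')
      have hab' : ht m₀ a = ht m₀ b := (ht_sl_eq hax).2 hs.symm
      have ha0 : ht m₀ a = ht m₀ v₀ := by
        rw [← h']; ring
      by_cases hav : a = v₀
      · have hbv : b ≠ v₀ := by rintro rfl; exact hab hav
        exact hno b hb hbv (hab'.symm.trans ha0)
      · exact hno a ha hav ha0
    · exact h4 a ha b hb hab hs
  · show v₀.1 < v₀.1 + R
    linarith
  · rw [hw]; ring
  · intro m hmA hlt u hu
    rw [hw]
    exact h2 m hmA u hu hlt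
  · intro m hmA hlt u hu
    rw [hw]
    exact h3 m hmA u hu hlt

/-- a time after `m₀` and before all the later times of `A`, not a slope -/
theorem exists_after (T : Finset Pt) (A : Finset ℝ) (m₀ : ℝ) :
    ∃ m₁, m₀ < m₁ ∧ (∀ m ∈ A, m₀ < m → m₁ < m) ∧ ∀ a ∈ T, ∀ b ∈ T, a ≠ b → sl a b ≠ m₁ := by
  classical
  obtain ⟨y, hy, hyA⟩ : ∃ y, m₀ < y ∧ ∀ m ∈ A, m₀ < m → y ≤ m := by
    by_cases h : (A.filter fun m => m₀ < m).Nonempty
    · refine ⟨(A.filter fun m => m₀ < m).min' h, ?_, ?_⟩
      · exact (mem_filter.1 ((A.filter fun m => m₀ < m).min'_mem h)).2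
      · intro m hm hlt
        exact min'_le _ _ (mem_filter.2 ⟨hm, hlt⟩)
    · refine ⟨m₀ + 1, by linarith, ?_⟩
      intro m hm hlt
      exact absurd ⟨m, mem_filter.2 ⟨hm, hlt⟩⟩ h
  obtain ⟨m₁, h1, h2, h3⟩ := exists_gen T hy
  exact ⟨m₁, h1, fun m hm hlt => h2.trans_le (hyA m hm hlt), h3⟩

/-- **tie lemma**: for the times `B ⊆ A` and points `v m ∈ Q` without a partner at the time `m`,
two far points per time of `B` give partners and do not change the level of the events. -/
theorem exists_tie (Q : Finset Pt) (hQ : Good Q) (A B : Finset ℝ) (hBA : B ⊆ A) (v : ℝ → Pt)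
    (hv : ∀ m ∈ B, v m ∈ Q) (hno : ∀ m ∈ B, ∀ u ∈ Q, u ≠ v m → ht m u ≠ ht m (v m)) :
    ∃ W : Finset Pt, Disjoint Q W ∧ Good (Q ∪ W) ∧ #W ≤ 2 * #B ∧
      (∀ m ∈ A, ∀ u ∈ Q, (m ∈ B → ht m u = ht m (v m)) →
        #{w ∈ W | ht m w < ht m u} = #B) ∧
      (∀ m ∈ B, ∃ w ∈ W, ht m w = ht m (v m) ∧ (v m).1 < w.1) ∧
      (∀ m ∈ A, m ∉ B → ∀ w ∈ W, ∀ u ∈ Q, ht m w ≠ ht m u) := by
  classical
  have main : ∀ B' : Finset ℝ, B' ⊆ B → ∃ W : Finset Pt, Disjoint Q W ∧ Good (Q ∪ W) ∧
      #W ≤ 2 * #B' ∧
      (∀ m ∈ A, ∀ u ∈ Q, (m ∈ B' → ht m u = ht m (v m)) →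
        #{w ∈ W | ht m w < ht m u} = #B') ∧
      (∀ m ∈ B', ∃ w ∈ W, ht m w = ht m (v m) ∧ (v m).1 < w.1) ∧
      (∀ m ∈ A, m ∉ B' → ∀ w ∈ W, ∀ u ∈ Q, ht m w ≠ ht m u) := by
    intro B'
    induction B' using Finset.induction_on with
    | empty =>
      intro _
      exact ⟨∅, disjoint_empty_right _, by simpa using hQ, by simp, by simp, by simp, by simp⟩
    | insert m₀ B' hm₀ ih =>
      intro hsub
      obtain ⟨W, h1, h2, h3, h4, h5, h6⟩ := ih ((subset_insert _ _).trans hsub)
      have hm₀B : m₀ ∈ B := hsub (mem_insert_self _ _)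
      have hm₀A : m₀ ∈ A := hBA hm₀B
      have hv₀ := hv m₀ hm₀B
      obtain ⟨w, w1, w2, w3, w4, w5, w6⟩ := exists_tied (Q ∪ W) h2 A m₀ (v m₀)
        (mem_union_left _ hv₀) (by
          intro u hu hne
          rcases mem_union.1 hu with hu | hu
          · exact hno m₀ hm₀B u hu hne
          · exact h6 m₀ hm₀A hm₀ u hu (v m₀) hv₀)
      obtain ⟨m₁, g1, g2, g3⟩ := exists_after (insert w (Q ∪ W)) A m₀
      obtain ⟨w', y1, y2, y3, y4⟩ := exists_far_up (insert w (Q ∪ W)) w2 A m₁ g3
      have hwW : w ∉ W := fun h => w1 (mem_union_right _ h)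
      have hwQ : w ∉ Q := fun h => w1 (mem_union_left _ h)
      have hw'W : w' ∉ insert w W := fun h => y1 (by
        rcases mem_insert.1 h with rfl | h
        · exact mem_insert_self _ _
        · exact mem_insert_of_mem (mem_union_right _ h))
      have hw'Q : w' ∉ Q := fun h => y1 (mem_insert_of_mem (mem_union_left _ h))
      refine ⟨insert w' (insert w W), ?_, ?_, ?_, ?_, ?_, ?_⟩
      · rw [disjoint_insert_right, disjoint_insert_right]
        exact ⟨hw'Q, hwQ, h1⟩
      · rw [union_insert, union_insert]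
        exact y2
      · rw [card_insert_of_notMem hw'W, card_insert_of_notMem hwW,
          card_insert_of_notMem hm₀]
        omega
      · intro m hm u hu hmu
        have huI : u ∈ insert w (Q ∪ W) := mem_insert_of_mem (mem_union_left _ hu)
        have hold : #{x ∈ W | ht m x < ht m u} = #B' :=
          h4 m hm u hu fun h => hmu (mem_insert_of_mem h)
        rw [card_insert_of_notMem hm₀, filter_insert, filter_insert]
        rcases lt_trichotomy m m₀ with hlt | heq | hlt
        · have a1 : ¬ ht m w < ht m u := not_lt.2 (w5 m hm hlt u (mem_union_left _ hu)).le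
          have a2 : ht m w' < ht m u := y3 m hm (hlt.trans g1) u huI
          rw [if_neg a1, if_pos a2, card_insert_of_notMem, hold]
          intro h
          exact hw'W (mem_insert_of_mem (mem_filter.1 h).1)
        · subst heq
          have a1 : ¬ ht m w < ht m u := by
            rw [w4, hmu (mem_insert_self _ _)]
            exact lt_irrefl _
          have a2 : ht m w' < ht m u := y3 m hm g1 u huI
          rw [if_neg a1, if_pos a2, card_insert_of_notMem, hold]
          intro h
          exact hw'W (mem_insert_of_mem (mem_filter.1 h).1)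
        · have a1 : ht m w < ht m u := w6 m hm hlt u (mem_union_left _ hu)
          have a2 : ¬ ht m w' < ht m u := not_lt.2 (y4 m hm (g2 m hm hlt) u huI).le
          rw [if_pos a1, if_neg a2, card_insert_of_notMem, hold]
          intro h
          exact hwW (mem_filter.1 h).1
      · intro m hm
        rcases mem_insert.1 hm with rfl | hm
        · exact ⟨w, mem_insert_of_mem (mem_insert_self _ _), w4, w3⟩
        · obtain ⟨x, hx, hx'⟩ := h5 m hm
          exact ⟨x, mem_insert_of_mem (mem_insert_of_mem hx), hx'⟩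
      · intro m hm hmB x hx u hu
        have hne : m ≠ m₀ := fun h => hmB (h ▸ mem_insert_self _ _)
        have huI : u ∈ insert w (Q ∪ W) := mem_insert_of_mem (mem_union_left _ hu)
        rcases mem_insert.1 hx with rfl | hx
        · rcases lt_or_ge m₀ m with h | h
          · exact (y4 m hm (g2 m hm h) u huI).ne'
          · exact (y3 m hm (h.trans_lt g1) u huI).ne
        · rcases mem_insert.1 hx with rfl | hx
          · rcases lt_or_gt_of_ne hne with h | h
            · exact (w5 m hm h u (mem_union_left _ hu)).ne'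
            · exact (w6 m hm h u (mem_union_left _ hu)).ne
          · exact h6 m hm (fun h => hmB (mem_insert_of_mem h)) x hx u hu
  exact main B (Subset.refl _)

end Vale.Agent.P065.H859
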