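import Vale.Agent.P065.H859.Cut
import Vale.Agent.P065.H859.TI

/-!
# P065: extremal configurations with nested pieces (helper859)
-/

set_option autoImplicit false

namespace Vale.Agent.P065.H859

open Finset Vale.Agent.P065.UB Vale.Agent.P065.UB.RankAux Vale.Agent.P065.Ent

/-- extremal configurations with large windows -/
theorem exists_large (hb : 0 < beta) {ε : ℝ} (hε : 0 < ε) (hεb : ε < beta) :
    ∃ j₀ : ℕ, ∀ j, j₀ ≤ j → ∃ w : ℕ, 2 ^ j ≤ w ∧
      (2 : ℝ) ^ ((beta - ε) * j) ≤ F (2 ^ j * w) w := by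
  obtain ⟨C, hC, hF⟩ := exists_Fs_le (ε := ε / 2) (by linarith)
  -- `96 C ≤ 2 ^ (ε j / 2)` for `j ≥ j₀`
  obtain ⟨j₀, hj₀⟩ : ∃ j₀ : ℕ, ∀ j, j₀ ≤ j → 36 * C ≤ 2 ^ (ε / 2 * j) := by
    have h1 : Filter.Tendsto (fun j : ℕ => ((2 : ℝ) ^ (ε / 2)) ^ j) Filter.atTop Filter.atTop :=
      tendsto_pow_atTop_atTop_of_one_lt (Real.one_lt_rpow (by norm_num) (by linarith))
    obtain ⟨j₀, h2⟩ := Filter.eventually_atTop.1 (h1.eventually_ge_atTop (36 * C))
    refine ⟨j₀, fun j hj => ?_⟩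
    have := h2 j hj
    rwa [← Real.rpow_natCast, ← Real.rpow_mul (by norm_num)] at this
  refine ⟨max j₀ 1, fun j hj => ?_⟩
  have hj1 : 1 ≤ j := (le_max_right _ _).trans hj
  have hj0 : j₀ ≤ j := (le_max_left _ _).trans hj
  obtain ⟨N, w₀, hw₀, hN, hFs⟩ := Fs_mem (2 ^ j * 2 ^ j)
  refine ⟨2 ^ j * w₀, Nat.le_mul_of_pos_right _ hw₀, ?_⟩
  have h2j : 2 ≤ 2 ^ j := by
    calc 2 = 2 ^ 1 := (pow_one 2).symm
      _ ≤ 2 ^ j := Nat.pow_le_pow_right (by norm_num) hj1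
  have hW : 2 ≤ 2 ^ j * w₀ := h2j.trans (Nat.le_mul_of_pos_right _ hw₀)
  have h1 : F N w₀ ≤ F (2 ^ j * 2 ^ j * w₀) w₀ := F_mono hN hw₀ le_rfl
  have h2 := F_le_mul (N := 2 ^ j * 2 ^ j * w₀) (w := w₀) (W := 2 ^ j * w₀) hw₀ hW
  have h3 : F (2 ^ j * 2 ^ j * w₀) (2 ^ j * w₀ + 1) ≤ F (2 ^ j * (2 ^ j * w₀)) (2 ^ j * w₀) :=
    F_mono (by rw [mul_assoc]) (by omega) (Nat.le_succ _)
  have h4 : F (2 ^ j * w₀) w₀ ≤ Fs (2 ^ j) := F_le_Fs hw₀ le_rfl
  have h5 := rpow_beta_le (2 * j)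
  have h6 : 2 ^ (2 * j) = 2 ^ j * 2 ^ j := by rw [two_mul, pow_add]
  rw [h6, hFs] at h5
  set f : ℕ := F (2 ^ j * (2 ^ j * w₀)) (2 ^ j * w₀) with hf
  have h7 : (F N w₀ : ℝ) ≤ (2 * f + 1) * (Fs (2 ^ j) + 1) := by
    have h8 : F N w₀ ≤ (2 * f + 1) * (Fs (2 ^ j) + 1) :=
      (h1.trans h2).trans (Nat.mul_le_mul (by omega) (by omega))
    exact_mod_cast h8
  have h9 := hF j
  have hpow : (1 : ℝ) ≤ 2 ^ ((beta + ε / 2) * j) :=
    Real.one_le_rpow (by norm_num) (by positivity)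
  have h10 : (Fs (2 ^ j) : ℝ) + 1 ≤ 2 * C * 2 ^ ((beta + ε / 2) * j) := by nlinarith
  have hf0 : (0 : ℝ) ≤ f := Nat.cast_nonneg f
  have h11 : (2 : ℝ) ^ (beta * (2 * j : ℕ)) ≤ 6 * ((2 * f + 1) * (2 * C * 2 ^ ((beta + ε / 2) * j))) := by
    refine h5.trans (mul_le_mul_of_nonneg_left (h7.trans ?_) (by norm_num))
    exact mul_le_mul_of_nonneg_left h10 (by positivity)
  have h12 : (2 : ℝ) ^ (beta * (2 * j : ℕ)) =
      2 ^ ((beta - ε) * j) * 2 ^ (ε / 2 * j) * 2 ^ ((beta + ε / 2) * j) := by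
    rw [← Real.rpow_add (by norm_num), ← Real.rpow_add (by norm_num)]
    congr 1
    push_cast
    ring
  rw [h12] at h11
  have hX : (0 : ℝ) < 2 ^ ((beta + ε / 2) * j) := by positivity
  have h13 : (2 : ℝ) ^ ((beta - ε) * j) * 2 ^ (ε / 2 * j) ≤ 12 * C * (2 * f + 1) := by
    have : (2 : ℝ) ^ ((beta - ε) * j) * 2 ^ (ε / 2 * j) * 2 ^ ((beta + ε / 2) * j) ≤
        12 * C * (2 * f + 1) * 2 ^ ((beta + ε / 2) * j) := by
      refine h11.trans (le_of_eq ?_)
      ring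
    exact le_of_mul_le_mul_right this hX
  have h14 := hj₀ j hj0
  have hY : (1 : ℝ) ≤ 2 ^ ((beta - ε) * j) :=
    Real.one_le_rpow (by norm_num) (mul_nonneg (by linarith) (Nat.cast_nonneg _))
  have h15 : 36 * C * 2 ^ ((beta - ε) * j) ≤ 12 * C * (2 * f + 1) := by
    calc 36 * C * 2 ^ ((beta - ε) * j) ≤ 2 ^ (ε / 2 * j) * 2 ^ ((beta - ε) * j) :=
          mul_le_mul_of_nonneg_right h14 (by positivity)
      _ = 2 ^ ((beta - ε) * j) * 2 ^ (ε / 2 * j) := mul_comm _ _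
      _ ≤ _ := h13
  have h16 : 3 * (2 : ℝ) ^ ((beta - ε) * j) ≤ 2 * f + 1 := by
    have h17 : (0 : ℝ) < 12 * C := by linarith
    have : 12 * C * (3 * (2 : ℝ) ^ ((beta - ε) * j)) ≤ 12 * C * (2 * f + 1) := by
      refine le_trans (le_of_eq ?_) h15
      ring
    exact le_of_mul_le_mul_left this h17
  linarith

/-- one cutting step for all pieces at once -/
theorem cut_step {P : Finset Pt} (hP : Good P) {k N W B m : ℕ} (hW : 2 ≤ W) (hN : N ≤ 2 ^ m * W)
    (hB : 2 * Fs (2 ^ m) + 1 ≤ B) {c : ℝ → ℕ} (hc : Monotone c)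
    (hcN : ∀ n, #(Tch P k P (c ⁻¹' {n})) ≤ N) :
    ∃ c' : ℝ → ℕ, Monotone c' ∧ (∀ x, c x = c' x / B) ∧ ∀ n, #(Tch P k P (c' ⁻¹' {n})) ≤ W := by
  classical
  have hconn : ∀ n, (c ⁻¹' {n}).OrdConnected := fun n =>
    Set.ordConnected_singleton.preimage_mono hc
  have h1 : ∀ n, ∃ d : ℝ → ℕ, Monotone d ∧ (∀ x, d x < B) ∧
      ∀ r, #(Tch P k P (c ⁻¹' {n} ∩ d ⁻¹' {r})) ≤ W := by
    intro n
    obtain ⟨q, d, I, d1, d2, d3, d4, d5⟩ := exists_cut hP (k := k) hW _ (c ⁻¹' {n}) (hconn n) le_rfl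
    refine ⟨d, d1, fun x => ?_, d3⟩
    have h2 : #(range q) ≤ F N (W + 1) :=
      card_le_F_window hP (by omega) (hconn n) d4 (fun i hi => d5 i (mem_range.1 hi)) (hcN n)
    rw [card_range] at h2
    have h3 : F N (W + 1) ≤ Fs (2 ^ m) :=
      (F_mono le_rfl (by omega) (Nat.le_succ W)).trans (F_le_Fs (by omega) hN)
    have := d2 x
    omega
  choose d d1 d2 d3 using h1
  have hB0 : 0 < B := by omega
  refine ⟨fun x => c x * B + d (c x) x, ?_, ?_, ?_⟩
  · intro x y hxy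
    show c x * B + d (c x) x ≤ c y * B + d (c y) y
    rcases (hc hxy).eq_or_lt with h | h
    · rw [h]
      exact Nat.add_le_add_left (d1 _ hxy) _
    · have h2 := d2 (c x) x
      have h3 : (c x + 1) * B ≤ c y * B := Nat.mul_le_mul_right _ h
      have h4 : (c x + 1) * B = c x * B + B := by ring
      omega
  · intro x
    show c x = (c x * B + d (c x) x) / B
    rw [mul_comm, Nat.mul_add_div hB0, Nat.div_eq_of_lt (d2 _ _), add_zero]
  · intro n
    refine le_trans (card_le_card (Tch_mono ?_)) (d3 (n / B) (n % B))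
    intro x hx
    have hx' : c x * B + d (c x) x = n := hx
    have h2 : n / B = c x := by
      rw [← hx', mul_comm, Nat.mul_add_div hB0, Nat.div_eq_of_lt (d2 _ _), add_zero]
    have h3 : n % B = d (c x) x := by
      rw [← hx', mul_comm, Nat.mul_add_mod, Nat.mod_eq_of_lt (d2 _ _)]
    refine ⟨?_, ?_⟩
    · exact h2.symm
    · show d (n / B) x = n % B
      rw [h2, h3]

/-- nested pieces -/
theorem exists_pieces {P : Finset Pt} (hP : Good P) {k j w m B : ℕ} (hw : 2 ≤ w)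
    (hPj : #P ≤ 2 ^ j * w) (hB : 2 * Fs (2 ^ m) + 1 ≤ B) :
    ∃ c : ℕ → ℝ → ℕ, (∀ i, Monotone (c i)) ∧ (∀ x, c 0 x = 0) ∧
      (∀ i x, c i x = c (i + 1) x / B) ∧
      ∀ i n, #(Tch P k P (c i ⁻¹' {n})) ≤ 2 ^ (j - m * i) * w := by
  classical
  let Q : ℕ → (ℝ → ℕ) → Prop := fun i c => Monotone c ∧
    ∀ n, #(Tch P k P (c ⁻¹' {n})) ≤ 2 ^ (j - m * i) * w
  have h0 : Q 0 (fun _ => 0) := by
    refine ⟨monotone_const, fun n => ?_⟩
    rw [mul_zero, Nat.sub_zero]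
    exact (card_le_card (Tch_subset _ _ _ _)).trans hPj
  have hs : ∀ i (c : ℝ → ℕ), Q i c → ∃ c', Q (i + 1) c' ∧ ∀ x, c x = c' x / B := by
    intro i c hc
    have hpow : 0 < 2 ^ (j - m * (i + 1)) := by positivity
    obtain ⟨c', h1, h2, h3⟩ := cut_step hP (k := k) (N := 2 ^ (j - m * i) * w)
      (W := 2 ^ (j - m * (i + 1)) * w) (m := m) (hw.trans (Nat.le_mul_of_pos_left _ hpow))
      (by
        rw [← mul_assoc, ← pow_add]
        apply Nat.mul_le_mul_right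
        apply Nat.pow_le_pow_right (by norm_num)
        rw [mul_add, mul_one]
        omega) hB hc.1 hc.2
    exact ⟨c', ⟨h1, h3⟩, h2⟩
  choose! nx h1 h2 using hs
  let f : ℕ → ℝ → ℕ := fun i => Nat.rec (fun _ => 0) (fun i c => nx i c) i
  have hf : ∀ i, Q i (f i) := by
    intro i
    induction i with
    | zero => exact h0
    | succ i ih => exact h1 i _ ih
  exact ⟨f, fun i => (hf i).1, fun x => rfl, fun i x => h2 i _ (hf i) x, fun i => (hf i).2⟩

theorem pieces_lt {c : ℕ → ℝ → ℕ} {B : ℕ} (h0 : ∀ x, c 0 x = 0)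
    (hs : ∀ i x, c i x = c (i + 1) x / B) (hB : 0 < B) (i : ℕ) (x : ℝ) : c i x < B ^ i := by
  induction i with
  | zero => rw [h0]; simp
  | succ i ih =>
    rw [hs i x, Nat.div_lt_iff_lt_mul hB] at ih
    rwa [pow_succ]

/-- a finer piece determines the coarser ones -/
theorem pieces_det {c : ℕ → ℝ → ℕ} {B : ℕ} (hs : ∀ i x, c i x = c (i + 1) x / B) {i i' : ℕ}
    (h : i ≤ i') {x y : ℝ} (hxy : c i' x = c i' y) : c i x = c i y := by
  induction i', h using Nat.le_induction with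
  | base => exact hxy
  | succ n _ ih => exact ih (by rw [hs n x, hs n y, hxy])

/-- the number of windows cut by the pieces -/
theorem card_cut_le {ι : Type*} {A : Finset ι} {I : ι → Set ℝ}
    (hd : ∀ a ∈ A, ∀ b ∈ A, a ≠ b → Disjoint (I a) (I b)) (hI : ∀ a ∈ A, (I a).OrdConnected)
    {c : ℝ → ℕ} (hc : Monotone c) {M : ℕ} (hM : ∀ x, c x < M)
    (hcut : ∀ a ∈ A, ∃ x ∈ I a, ∃ y ∈ I a, c x ≠ c y) : #A ≤ M := by
  classical
  have h1 : ∀ a ∈ A, ∃ x ∈ I a, ∃ y ∈ I a, x < y ∧ c x < c y := by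
    intro a ha
    obtain ⟨x, hx, y, hy, hne⟩ := hcut a ha
    rcases lt_trichotomy x y with h | h | h
    · exact ⟨x, hx, y, hy, h, lt_of_le_of_ne (hc h.le) hne⟩
    · exact absurd (by rw [h]) hne
    · exact ⟨y, hy, x, hx, h, lt_of_le_of_ne (hc h.le) (Ne.symm hne)⟩
  choose! x hx y hy hxy hlt using h1
  have key : ∀ a ∈ A, ∀ b ∈ A, a ≠ b → x a ≤ x b → c (x a) < c (x b) := by
    intro a ha b hb hab hle
    have h2 : y a < x b := by
      by_contra hcon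
      push Not at hcon
      have h3 : x b ∈ I a := (hI a ha).out (hx a ha) (hy a ha) ⟨hle, hcon⟩
      exact Set.disjoint_left.1 (hd a ha b hb hab) h3 (hx b hb)
    exact (hlt a ha).trans_le (hc h2.le)
  have hinj : Set.InjOn (fun a => c (x a)) (A : Set ι) := by
    intro a ha b hb hab
    by_contra hne
    rcases le_total (x a) (x b) with h | h
    · exact absurd hab (key a ha b hb hne h).ne
    · exact absurd hab.symm (key b hb a ha (Ne.symm hne) h).ne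
  calc #A = #(A.image fun a => c (x a)) := (card_image_of_injOn hinj).symm
    _ ≤ #(range M) := card_le_card fun n hn => by
        obtain ⟨a, -, rfl⟩ := mem_image.1 hn
        exact mem_range.2 (hM _)
    _ = M := card_range M

/-- an extremal configuration: uniform flags and nested pieces of time -/
structure Conf (p w : ℕ) extends UFlags p w where
  B : ℕ
  c : ℕ → ℝ → ℕ
  top : ℕ
  mono : ∀ i, Monotone (c i)
  zero : ∀ x, c 0 x = 0
  succ : ∀ i x, c i x = c (i + 1) x / B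
  B_pos : 0 < B
  const : ∀ i ≤ top, ∀ ω ω' : Fin p × Fin w, ω.1 = ω'.1 → c i (tm ω) = c i (tm ω')
  lines : Finset Pt
  mem_lines : ∀ ω, ln ω ∈ lines

/-- the piece of level `i` of a flag -/
def Conf.C {p w : ℕ} (U : Conf p w) (i : ℕ) (ω : Fin p × Fin w) : ℕ := U.c i (U.tm ω)

/-- extremal configurations: `B`, `m` depend only on `εB`, `η` -/
theorem exists_conf (hb : 0 < beta) {εB η : ℝ} (hεB : 0 < εB) (hη : 0 < η) (hη1 : η < 1)
    (hεBη : 4 * εB ≤ η * beta) : ∃ m₀ : ℕ, ∀ m, m₀ ≤ m →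
      ((2 * Fs (2 ^ m) + 1 : ℕ) : ℝ) ≤ 2 ^ ((beta + εB) * m) ∧
      ∀ ε : ℝ, 0 < ε → 4 * ε ≤ η * beta → ∃ j₀ : ℕ, ∀ j, j₀ ≤ j → ∀ top : ℕ,
      (m * top : ℝ) ≤ (1 - η) * j → ∃ (p w : ℕ) (U : Conf p w), U.top = top ∧ 2 ^ j ≤ w ∧
        U.B = 2 * Fs (2 ^ m) + 1 ∧ #U.lines ≤ 2 ^ j * w ∧
        (2 : ℝ) ^ ((beta - ε) * j) ≤ p ∧
        ∀ i, U.Ls (U.C i) ≤ Real.log ((2 : ℝ) ^ (j - m * i) * w) := by
  classical
  obtain ⟨C, hC, hF⟩ := exists_Fs_le (ε := εB / 2) (by linarith)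
  obtain ⟨m₀, hm₀⟩ : ∃ m₀ : ℕ, ∀ m, m₀ ≤ m → 3 * C ≤ 2 ^ (εB / 2 * m) := by
    have h1 : Filter.Tendsto (fun j : ℕ => ((2 : ℝ) ^ (εB / 2)) ^ j) Filter.atTop Filter.atTop :=
      tendsto_pow_atTop_atTop_of_one_lt (Real.one_lt_rpow (by norm_num) (by linarith))
    obtain ⟨j₀, h2⟩ := Filter.eventually_atTop.1 (h1.eventually_ge_atTop (3 * C))
    refine ⟨j₀, fun j hj => ?_⟩
    have := h2 j hj
    rwa [← Real.rpow_natCast, ← Real.rpow_mul (by norm_num)] at this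
  refine ⟨m₀, fun m hm => ?_⟩
  set B := 2 * Fs (2 ^ m) + 1 with hB
  have hB0 : 0 < B := by omega
  have hBle : (B : ℝ) ≤ 2 ^ ((beta + εB) * m) := by
    have h1 := hF m
    have h2 := hm₀ m hm
    have hpow : (1 : ℝ) ≤ 2 ^ ((beta + εB / 2) * m) :=
      Real.one_le_rpow (by norm_num) (by positivity)
    have h3 : (2 : ℝ) ^ ((beta + εB) * m) = 2 ^ (εB / 2 * m) * 2 ^ ((beta + εB / 2) * m) := by
      rw [← Real.rpow_add (by norm_num)]
      congr 1
      ring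
    rw [hB, h3]
    push_cast
    nlinarith
  refine ⟨hBle, ?_⟩
  intro ε hε hεη
  have hεb : ε < beta := by nlinarith
  obtain ⟨j₁, hj₁⟩ := exists_large hb (ε := ε / 2) (by linarith) (by linarith)
  obtain ⟨j₂, hj₂⟩ := exists_nat_ge (2 / ε)
  obtain ⟨j₃, hj₃⟩ := exists_nat_ge (4 / (η * beta))
  refine ⟨max (max j₁ j₂) (max j₃ 1), fun j hj top htop => ?_⟩
  have hjj₁ : j₁ ≤ j := le_trans (le_trans (le_max_left _ _) (le_max_left _ _)) hj
  have hjj₂ : j₂ ≤ j := le_trans (le_trans (le_max_right _ _) (le_max_left _ _)) hj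
  have hjj₃ : j₃ ≤ j := le_trans (le_trans (le_max_left _ _) (le_max_right _ _)) hj
  have hj1 : 1 ≤ j := le_trans (le_trans (le_max_right _ _) (le_max_right _ _)) hj
  obtain ⟨w, hwj, hp0⟩ := hj₁ j hjj₁
  have hw2 : 2 ≤ w := by
    calc 2 = 2 ^ 1 := (pow_one 2).symm
      _ ≤ 2 ^ j := Nat.pow_le_pow_right (by norm_num) hj1
      _ ≤ w := hwj
  obtain ⟨P, k, I, hP, hPN, hfam⟩ := F_mem (N := 2 ^ j * w) (w := w) (by omega)
  set p₀ := F (2 ^ j * w) w with hp₀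
  obtain ⟨c, c1, c2, c3, c4⟩ := exists_pieces hP (k := k) hw2 hPN (le_refl B)
  -- the windows which are not cut
  set A : Finset ℕ := {a ∈ range p₀ | ∀ x ∈ I a, ∀ y ∈ I a, c top x = c top y} with hA
  have hAsub : A ⊆ range p₀ := filter_subset _ _
  have hcutcard : #{a ∈ range p₀ | ¬ ∀ x ∈ I a, ∀ y ∈ I a, c top x = c top y} ≤ B ^ top := by
    apply card_cut_le (I := I) _ _ (c1 top) (pieces_lt c2 c3 hB0 top)
    · intro a ha
      have := (mem_filter.1 ha).2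
      push Not at this
      exact this
    · intro a ha b hb hab
      exact hfam.disj a (mem_filter.1 ha).1 b (mem_filter.1 hb).1 hab
    · intro a ha
      exact hfam.conn a (mem_filter.1 ha).1
  have hcard : p₀ ≤ #A + B ^ top := by
    have h1 := card_filter_add_card_filter_not (s := range p₀)
      (fun a => ∀ x ∈ I a, ∀ y ∈ I a, c top x = c top y)
    rw [card_range] at h1
    have h2 : #A = #{a ∈ range p₀ | ∀ x ∈ I a, ∀ y ∈ I a, c top x = c top y} := rfl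
    omega
  have hBtop : ((B : ℝ)) ^ top * 2 ≤ 2 ^ ((beta - ε / 2) * j) := by
    have h1 : ((B : ℝ)) ^ top ≤ (2 ^ ((beta + εB) * m)) ^ top :=
      pow_le_pow_left₀ (Nat.cast_nonneg _) hBle _
    have h2 : ((2 : ℝ) ^ ((beta + εB) * m)) ^ top * 2 = 2 ^ ((beta + εB) * (m * top) + 1) := by
      rw [← Real.rpow_natCast, ← Real.rpow_mul (by norm_num), Real.rpow_add (by norm_num),
        Real.rpow_one]
      ring_nf
    calc ((B : ℝ)) ^ top * 2 ≤ (2 ^ ((beta + εB) * m)) ^ top * 2 := by linarith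
      _ = 2 ^ ((beta + εB) * (m * top) + 1) := h2
      _ ≤ 2 ^ ((beta - ε / 2) * j) := by
        apply Real.rpow_le_rpow_of_exponent_le (by norm_num)
        have h3 : (beta + εB) * (m * top) ≤ (beta + εB) * ((1 - η) * j) :=
          mul_le_mul_of_nonneg_left htop (by positivity)
        have hbη : 0 < η * beta := by positivity
        have h4 : 4 / (η * beta) ≤ (j : ℝ) := hj₃.trans (by exact_mod_cast hjj₃)
        rw [div_le_iff₀ hbη] at h4
        have hj0 : (0 : ℝ) ≤ j := Nat.cast_nonneg j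
        nlinarith [mul_nonneg hε.le hj0, mul_nonneg (mul_nonneg hη.le hεB.le) hj0,
          mul_le_mul_of_nonneg_right hεη hj0, mul_le_mul_of_nonneg_right hεBη hj0]
  have hpA : (2 : ℝ) ^ ((beta - ε) * j) ≤ #A := by
    have h1 : (p₀ : ℝ) ≤ #A + (B : ℝ) ^ top := by exact_mod_cast hcard
    have h2 : (2 : ℝ) ^ ((beta - ε) * j) * 2 ≤ 2 ^ ((beta - ε / 2) * j) := by
      have h3 : (2 : ℝ) ^ ((beta - ε) * j) * 2 = 2 ^ ((beta - ε) * j + 1) := by
        rw [Real.rpow_add (by norm_num), Real.rpow_one]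
      rw [h3]
      apply Real.rpow_le_rpow_of_exponent_le (by norm_num)
      have h4 : 2 / ε ≤ (j : ℝ) := hj₂.trans (by exact_mod_cast hjj₂)
      rw [div_le_iff₀ hε] at h4
      nlinarith
    linarith
  have hApos : 0 < #A := by
    have : (0 : ℝ) < #A := lt_of_lt_of_le (by positivity) hpA
    exact_mod_cast this
  -- the flags
  let eA := A.equivFin
  have hmemA : ∀ a : Fin #A, ((eA.symm a : A) : ℕ) ∈ A := fun a => (eA.symm a).2
  let win : Fin #A → Set ℝ := fun a => I (eA.symm a : A)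
  have hT : ∀ a : Fin #A, ∃ f : Fin w → Pt, Function.Injective f ∧
      ∀ u, f u ∈ Tch P k P (win a) := by
    intro a
    have h1 := hfam.card _ (hAsub (hmemA a))
    obtain ⟨T, hT, hTc⟩ := exists_subset_card_eq h1
    let e := (T.equivFinOfCardEq hTc).symm
    exact ⟨fun u => (e u : Pt), fun u v h => e.injective (Subtype.ext h),
      fun u => hT (e u).2⟩
  choose f hf1 hf2 using hT
  have hE : ∀ a : Fin #A, ∀ u : Fin w, ∃ t ∈ win a, EvE P k t (f a u) := by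
    intro a u
    obtain ⟨e, h1, h2, h3⟩ := mem_Tch_self.1 (hf2 a u)
    exact ⟨_, h2, e, h1, rfl, h3⟩
  choose t ht1 ht2 using hE
  have hp' : (0 : ℝ) < #A := by exact_mod_cast hApos
  have hw' : (0 : ℝ) < w := by
    have : 0 < w := by omega
    exact_mod_cast this
  have hμ0 : (0 : ℝ) ≤ 1 / ((#A : ℝ) * w) := (div_pos one_pos (mul_pos hp' hw')).le
  have hμ1 : ∑ _ω : Fin #A × Fin w, 1 / ((#A : ℝ) * w) = 1 := by
    rw [sum_const, card_univ, Fintype.card_prod, Fintype.card_fin, Fintype.card_fin,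
      nsmul_eq_mul, Nat.cast_mul, mul_one_div_cancel (mul_pos hp' hw').ne']
  let U : Conf #A w :=
    { μ := fun _ => 1 / ((#A : ℝ) * w)
      prob := ⟨fun _ => hμ0, hμ1⟩
      tm := fun ω => t ω.1 ω.2
      ln := fun ω => f ω.1 ω.2
      real := ⟨P, k, hP, fun ω => ht2 ω.1 ω.2⟩
      unif := fun _ => rfl
      J := win
      conn := fun a => hfam.conn _ (hAsub (hmemA a))
      disj := fun a b hab => hfam.disj _ (hAsub (hmemA a)) _ (hAsub (hmemA b)) (by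
        intro h
        exact hab (eA.symm.injective (Subtype.ext h)))
      mem := fun ω => ht1 ω.1 ω.2
      inj := fun a u v h => hf1 a h
      B := B
      c := c
      top := top
      mono := c1
      zero := c2
      succ := c3
      B_pos := hB0
      const := fun i hi ω ω' h => by
        refine pieces_det c3 hi ?_
        have h1 := (mem_filter.1 (hmemA ω.1)).2
        exact h1 _ (ht1 ω.1 ω.2) _ (by rw [h]; exact ht1 ω'.1 ω'.2)
      lines := P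
      mem_lines := fun ω => (ht2 ω.1 ω.2).mem }
  refine ⟨#A, w, U, rfl, hwj, rfl, hPN, hpA, ?_⟩
  intro i
  have hsz : ∀ ω, Real.log (U.sz (U.C i) ω) ≤ Real.log ((2 : ℝ) ^ (j - m * i) * w) := by
    intro ω
    apply Real.log_le_log (U.sz_pos _ _)
    have hE : RealE (U.cls (fun _ => ()) ()) P k := by
      refine ⟨hP, ?_⟩
      intro e he
      obtain ⟨ω', -, rfl⟩ := U.mem_cls.1 he
      exact ht2 ω'.1 ω'.2
    have hconn : (c i ⁻¹' {U.C i ω}).OrdConnected :=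
      Set.ordConnected_singleton.preimage_mono (c1 i)
    have h1 := ne_evIn_le hE hconn
    have h2 : U.cls (U.C i) (U.C i ω) ⊆ evIn (U.cls (fun _ => ()) ()) (c i ⁻¹' {U.C i ω}) := by
      intro e he
      obtain ⟨ω', e1, e2⟩ := U.mem_cls.1 he
      rw [mem_evIn]
      refine ⟨U.mem_cls.2 ⟨ω', rfl, e2⟩, ?_⟩
      rw [← e2]
      exact e1
    have h3 : ne (U.cls (U.C i) (U.C i ω)) ≤ 2 ^ (j - m * i) * w :=
      ((ne_mono h2 ⟨P, k, hE.mono (evIn_subset _ _)⟩).trans h1).trans (c4 i (U.C i ω))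
    unfold Flags.sz
    exact_mod_cast h3
  unfold Flags.Ls Ex
  calc ∑ ω, U.μ ω * Real.log (U.sz (U.C i) ω)
      ≤ ∑ ω, U.μ ω * Real.log ((2 : ℝ) ^ (j - m * i) * w) :=
        sum_le_sum fun ω _ => mul_le_mul_of_nonneg_left (hsz ω) (U.prob.nonneg ω)
    _ = Real.log ((2 : ℝ) ^ (j - m * i) * w) := by rw [← sum_mul, U.prob.sum, one_mul]

end Vale.Agent.P065.H859
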